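import Crest.Agent.R72.Mat

/-!
Convexity of `f32`.  PLAN: `a = √X`, `b = √Y`, `E = a - b` (symmetric), `X - Y = a E + E b`.
* `breg_eq`: both sides are `tr a³ - 3/2 tr (a² b) + 1/2 tr b³` (expand, `Matrix.trace_mul_comm`/`trace_mul_cycle`).
* `breg_dual`: `tr (Tᵀ a E)² ≤ α u` and `tr (Tᵀ E b)² = tr (Eᵀ b Tᵀ)² ≤ v β` by `trace_cs`
  (`α = tr Tᵀ a T`, `β = tr T b Tᵀ`, `u = tr E a E`, `v = tr E b E`), and `(x + y)² ≤ (α + 2β)(u + v/2)` when `x² ≤ α u`, `y² ≤ β v`.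
* `f32_jensen`: `breg X W + breg Y W = f X + f Y - 2 f W` for `W = (X+Y)/2`.
* `f32_gap`: `W` is PSD (half the sum); `breg_dual` for `X = W ± Δ`, `Y = W`; `√(W ± Δ) ≤ √2 √W` (`msqrt_mono`, `msqrt_smul`: `2W - (W ± Δ)` PSD); add the two bounds.
* `f32_mixed`: `P = (P0+P1)/2`, `Q` likewise, `N = P + Q`, `δP = (P1-P0)/2`, `δQ = (Q1-Q0)/2`, `Z = δP - δQ`, `S = δP + δQ`.
  LHS `= [f(N+Z) + f(N-Z) - 2 f N] - [f(N+S) + f(N-S) - 2 f N] ≤ breg (N+Z) N + breg (N-Z) N` (`f32_jensen`).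
  For each sign, `a = √(N ± Z)`, `b = √N`, `E = a - b`: `breg ≤ d := tr EaE + tr EbE = ± tr (E Z)`;
  `f32_gap` with `T = E`, `W = P`, `Δ = δP` and `√P ≤ b` give `tr (E δP)² ≤ 4 d J_P`, same for `Q`;
  so `d ≤ 2 √d (√J_P + √J_Q)`, `d ≤ 8 (J_P + J_Q)`.
-/

set_option autoImplicit false
set_option linter.unusedSectionVars false

namespace Crest.Agent.R72

open Matrix Finset MeasureTheory
open scoped ENNReal

variable {n : Type*} [Fintype n] [DecidableEq n]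

theorem breg_eq {X Y : Matrix n n ℝ} (hX : X.PosSemidef) (hY : Y.PosSemidef) :
    breg X Y = ((msqrt X - msqrt Y) * msqrt X * (msqrt X - msqrt Y)).trace +
      1 / 2 * ((msqrt X - msqrt Y) * msqrt Y * (msqrt X - msqrt Y)).trace := by
  have hx := msqrt_mul_self hX
  have hy := msqrt_mul_self hY
  unfold breg f32
  generalize msqrt X = a at *
  generalize msqrt Y = b at *
  subst hx hy
  have e1 : (a * (a * b)).trace = (b * (a * a)).trace := by
    rw [← Matrix.mul_assoc, Matrix.trace_mul_comm]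
  have e2 : (a * (b * a)).trace = (b * (a * a)).trace := by
    rw [Matrix.trace_mul_comm, Matrix.mul_assoc]
  have e3 : (a * (b * b)).trace = (b * (a * b)).trace := by
    rw [← Matrix.mul_assoc, Matrix.trace_mul_comm]
  have e4 : (b * (b * a)).trace = (b * (a * b)).trace := by
    rw [← e3, ← Matrix.mul_assoc, Matrix.trace_mul_comm]
  simp only [Matrix.mul_sub, Matrix.sub_mul, Matrix.trace_sub, Matrix.mul_assoc, e1, e2, e3, e4]
  ring

theorem bg_trace_conj_nonneg {m : Type*} [Fintype m] {a : Matrix n n ℝ} (ha : a.PosSemidef)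
    (T : Matrix n m ℝ) : 0 ≤ (Tᵀ * a * T).trace := by
  have h := trace_conj_mono (a := 0) (b := a) (by simpa using ha) T
  simpa using h

theorem bg_msqrt_sub_transpose (X Y : Matrix n n ℝ) :
    (msqrt X - msqrt Y)ᵀ = msqrt X - msqrt Y := by
  rw [Matrix.transpose_sub, msqrt_transpose, msqrt_transpose]

theorem breg_nonneg {X Y : Matrix n n ℝ} (hX : X.PosSemidef) (hY : Y.PosSemidef) :
    0 ≤ breg X Y := by
  rw [breg_eq hX hY]
  have h1 := bg_trace_conj_nonneg (msqrt_psd X) (msqrt X - msqrt Y)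
  have h2 := bg_trace_conj_nonneg (msqrt_psd Y) (msqrt X - msqrt Y)
  rw [bg_msqrt_sub_transpose] at h1 h2
  linarith

theorem bg_sq_add_le_aux {x y α β u v : ℝ} (hα : 0 ≤ α) (hβ : 0 ≤ β) (hu : 0 ≤ u) (hv : 0 ≤ v)
    (hx : x ^ 2 ≤ α * u) (hy : y ^ 2 ≤ v * β) :
    (x + y) ^ 2 ≤ (α + 2 * β) * (u + 1 / 2 * v) := by
  have h1 : (2 * x * y) ^ 2 ≤ (α * (1 / 2 * v) + 2 * β * u) ^ 2 := by
    have h2 : x ^ 2 * y ^ 2 ≤ (α * u) * (v * β) :=
      mul_le_mul hx hy (sq_nonneg _) (mul_nonneg hα hu)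
    nlinarith [sq_nonneg (α * (1 / 2 * v) - 2 * β * u)]
  have h3 : 2 * x * y ≤ α * (1 / 2 * v) + 2 * β * u :=
    (abs_le_of_sq_le_sq' h1 (by positivity)).2
  nlinarith

theorem bg_sub_eq_sqrt {X Y : Matrix n n ℝ} (hX : X.PosSemidef) (hY : Y.PosSemidef) :
    X - Y = msqrt X * (msqrt X - msqrt Y) + (msqrt X - msqrt Y) * msqrt Y := by
  rw [Matrix.mul_sub, Matrix.sub_mul, msqrt_mul_self hX, msqrt_mul_self hY]
  abel

/-- dual lower bound for the Bregman divergence -/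
theorem breg_dual {X Y : Matrix n n ℝ} (hX : X.PosSemidef) (hY : Y.PosSemidef)
    (T : Matrix n n ℝ) :
    (Tᵀ * (X - Y)).trace ^ 2 ≤
      ((Tᵀ * msqrt X * T).trace + 2 * (T * msqrt Y * Tᵀ).trace) * breg X Y := by
  rw [breg_eq hX hY, bg_sub_eq_sqrt hX hY]
  have hE := bg_msqrt_sub_transpose X Y
  have ha := msqrt_psd X
  have hb := msqrt_psd Y
  generalize msqrt X - msqrt Y = E at *
  generalize msqrt X = a at *
  generalize msqrt Y = b at *
  have h1 := trace_cs ha T E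
  have h2 := trace_cs hb E Tᵀ
  have hα := bg_trace_conj_nonneg ha T
  have hβ := bg_trace_conj_nonneg hb Tᵀ
  have hu := bg_trace_conj_nonneg ha E
  have hv := bg_trace_conj_nonneg hb E
  rw [hE] at h1 h2 hu hv
  rw [Matrix.transpose_transpose] at h2 hβ
  have e : (Tᵀ * (a * E + E * b)).trace = (Tᵀ * a * E).trace + (E * b * Tᵀ).trace := by
    rw [Matrix.mul_add, Matrix.trace_add, Matrix.mul_assoc, Matrix.trace_mul_comm Tᵀ (E * b)]
  rw [e]
  exact bg_sq_add_le_aux hα hβ hu hv h1 h2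

theorem bg_breg_add {W Δ : Matrix n n ℝ} :
    breg (W + Δ) W + breg (W - Δ) W = f32 (W + Δ) + f32 (W - Δ) - 2 * f32 W := by
  unfold breg
  have e1 : W + Δ - W = Δ := by abel
  have e2 : W - Δ - W = -Δ := by abel
  rw [e1, e2, Matrix.mul_neg, Matrix.trace_neg]
  ring

theorem bg_psd_mid {W Δ : Matrix n n ℝ} (hp : (W + Δ).PosSemidef) (hm : (W - Δ).PosSemidef) :
    W.PosSemidef := by
  have h := (hp.add hm).smul (a := (1 / 2 : ℝ)) (by norm_num)
  have e : (1 / 2 : ℝ) • (W + Δ + (W - Δ)) = W := by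
    ext i j
    simp only [Matrix.smul_apply, Matrix.add_apply, Matrix.sub_apply, smul_eq_mul]
    ring
  rwa [e] at h

theorem bg_f32_mid {W Δ : Matrix n n ℝ} (hp : (W + Δ).PosSemidef) (hm : (W - Δ).PosSemidef) :
    0 ≤ (f32 (W + Δ) + f32 (W - Δ)) / 2 - f32 W := by
  have hW := bg_psd_mid hp hm
  have h1 := breg_nonneg hp hW
  have h2 := breg_nonneg hm hW
  have h3 := bg_breg_add (W := W) (Δ := Δ)
  linarith

theorem bg_mid_add (X Y : Matrix n n ℝ) :
    (1 / 2 : ℝ) • (X + Y) + (1 / 2 : ℝ) • (Y - X) = Y := by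
  ext i j
  simp only [Matrix.smul_apply, Matrix.add_apply, Matrix.sub_apply, smul_eq_mul]
  ring

theorem bg_mid_sub (X Y : Matrix n n ℝ) :
    (1 / 2 : ℝ) • (X + Y) - (1 / 2 : ℝ) • (Y - X) = X := by
  ext i j
  simp only [Matrix.smul_apply, Matrix.add_apply, Matrix.sub_apply, smul_eq_mul]
  ring

/-- midpoint convexity -/
theorem f32_jensen {X Y : Matrix n n ℝ} (hX : X.PosSemidef) (hY : Y.PosSemidef) :
    f32 ((1 / 2 : ℝ) • (X + Y)) ≤ (f32 X + f32 Y) / 2 := by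
  have h := bg_f32_mid (W := (1 / 2 : ℝ) • (X + Y)) (Δ := (1 / 2 : ℝ) • (Y - X))
    (by rw [bg_mid_add]; exact hY) (by rw [bg_mid_sub]; exact hX)
  rw [bg_mid_add, bg_mid_sub] at h
  linarith

theorem bg_gap_one {W Δ : Matrix n n ℝ} (hp : (W + Δ).PosSemidef) (hm : (W - Δ).PosSemidef)
    (T : Matrix n n ℝ) :
    (Tᵀ * Δ).trace ^ 2 ≤ 2 * ((Tᵀ * msqrt W * T).trace + (T * msqrt W * Tᵀ).trace) *
      breg (W + Δ) W := by
  have hW := bg_psd_mid hp hm
  have h1 := breg_dual hp hW T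
  have e1 : W + Δ - W = Δ := by abel
  rw [e1] at h1
  have h2 : (msqrt ((4 : ℝ) • W) - msqrt (W + Δ)).PosSemidef := by
    apply msqrt_mono hp
    have e : (4 : ℝ) • W - (W + Δ) = (W - Δ) + (2 : ℝ) • W := by
      ext i j
      simp only [Matrix.smul_apply, Matrix.add_apply, Matrix.sub_apply, smul_eq_mul]
      ring
    rw [e]
    exact hm.add (hW.smul (by norm_num))
  have h3 := trace_conj_mono h2 T
  have hs : Real.sqrt 4 = 2 := by
    rw [show (4 : ℝ) = 2 ^ 2 by norm_num, Real.sqrt_sq (by norm_num)]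
  rw [msqrt_smul hW (by norm_num), hs, Matrix.mul_smul, Matrix.smul_mul, Matrix.trace_smul,
    smul_eq_mul] at h3
  have h4 := breg_nonneg hp hW
  refine h1.trans (mul_le_mul_of_nonneg_right ?_ h4)
  linarith

/-- quantitative midpoint convexity -/
theorem f32_gap {W Δ : Matrix n n ℝ} (hp : (W + Δ).PosSemidef) (hm : (W - Δ).PosSemidef)
    (T : Matrix n n ℝ) :
    (Tᵀ * Δ).trace ^ 2 ≤ 2 * ((Tᵀ * msqrt W * T).trace + (T * msqrt W * Tᵀ).trace) *
      ((f32 (W + Δ) + f32 (W - Δ)) / 2 - f32 W) := by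
  have h1 := bg_gap_one hp hm T
  have h2 := bg_gap_one (W := W) (Δ := -Δ) (by rwa [← sub_eq_add_neg]) (by rwa [sub_neg_eq_add]) T
  rw [Matrix.mul_neg, Matrix.trace_neg, neg_sq, ← sub_eq_add_neg] at h2
  have h3 := bg_breg_add (W := W) (Δ := Δ)
  have e : (f32 (W + Δ) + f32 (W - Δ)) / 2 - f32 W = (breg (W + Δ) W + breg (W - Δ) W) / 2 := by
    rw [h3]; ring
  rw [e]
  nlinarith

theorem bg_abs_le_aux {x v J : ℝ} (hv : 0 ≤ v) (hJ : 0 ≤ J) (h : x ^ 2 ≤ 4 * v * J) :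
    |x| ≤ v / 4 + 4 * J := by
  apply abs_le_of_sq_le_sq _ (by positivity)
  nlinarith [sq_nonneg (v / 4 - 4 * J)]

theorem bg_mixed_piece {N P δ E : Matrix n n ℝ} (hp : (P + δ).PosSemidef) (hm : (P - δ).PosSemidef)
    (hNP : (N - P).PosSemidef) (hE : Eᵀ = E) :
    |(E * δ).trace| ≤ (E * msqrt N * E).trace / 4 +
      4 * ((f32 (P + δ) + f32 (P - δ)) / 2 - f32 P) := by
  have hP := bg_psd_mid hp hm
  have h1 := f32_gap hp hm E
  have h2 := trace_conj_mono (msqrt_mono hP hNP) E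
  have h3 := bg_trace_conj_nonneg (msqrt_psd N) E
  have h4 := bg_f32_mid hp hm
  rw [hE] at h1 h2 h3
  apply bg_abs_le_aux h3 h4
  refine h1.trans (mul_le_mul_of_nonneg_right ?_ h4)
  linarith

theorem bg_mixed_aux {N P δP Q δQ : Matrix n n ℝ} (hN : N.PosSemidef)
    (hNZ : (N + (δP - δQ)).PosSemidef)
    (hPp : (P + δP).PosSemidef) (hPm : (P - δP).PosSemidef)
    (hQp : (Q + δQ).PosSemidef) (hQm : (Q - δQ).PosSemidef)
    (hNP : (N - P).PosSemidef) (hNQ : (N - Q).PosSemidef) :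
    breg (N + (δP - δQ)) N ≤ 4 * (((f32 (P + δP) + f32 (P - δP)) / 2 - f32 P) +
      ((f32 (Q + δQ) + f32 (Q - δQ)) / 2 - f32 Q)) := by
  rw [breg_eq hNZ hN]
  have hE := bg_msqrt_sub_transpose (N + (δP - δQ)) N
  have h0 := bg_sub_eq_sqrt hNZ hN
  have e1 : N + (δP - δQ) - N = δP - δQ := by abel
  rw [e1] at h0
  have h1 := bg_mixed_piece hPp hPm hNP hE
  have h2 := bg_mixed_piece hQp hQm hNQ hE
  generalize msqrt (N + (δP - δQ)) - msqrt N = E at *
  generalize msqrt (N + (δP - δQ)) = a at *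
  generalize msqrt N = b at *
  have h3 : (E * δP).trace - (E * δQ).trace = (E * a * E).trace + (E * b * E).trace := by
    rw [← Matrix.trace_sub, ← Matrix.mul_sub, h0, Matrix.mul_add, Matrix.trace_add,
      Matrix.mul_assoc, Matrix.trace_mul_comm E (E * b)]
  have h4 := le_abs_self (E * δP).trace
  have h5 := neg_abs_le (E * δQ).trace
  linarith

/-- mixed second differences are controlled by the Jensen gaps of the two summands -/
theorem f32_mixed {P0 P1 Q0 Q1 : Matrix n n ℝ} (hP0 : P0.PosSemidef) (hP1 : P1.PosSemidef)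
    (hQ0 : Q0.PosSemidef) (hQ1 : Q1.PosSemidef) :
    f32 (P1 + Q0) + f32 (P0 + Q1) - f32 (P0 + Q0) - f32 (P1 + Q1) ≤
      28 * (((f32 P0 + f32 P1) / 2 - f32 ((1 / 2 : ℝ) • (P0 + P1))) +
        ((f32 Q0 + f32 Q1) / 2 - f32 ((1 / 2 : ℝ) • (Q0 + Q1)))) := by
  have jP := f32_jensen hP0 hP1
  have jQ := f32_jensen hQ0 hQ1
  have aP := bg_mid_add P0 P1
  have sP := bg_mid_sub P0 P1
  have aQ := bg_mid_add Q0 Q1
  have sQ := bg_mid_sub Q0 Q1
  generalize (1 / 2 : ℝ) • (P0 + P1) = P at *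
  generalize (1 / 2 : ℝ) • (P1 - P0) = δP at *
  generalize (1 / 2 : ℝ) • (Q0 + Q1) = Q at *
  generalize (1 / 2 : ℝ) • (Q1 - Q0) = δQ at *
  subst aP sP aQ sQ
  have hP := bg_psd_mid hP1 hP0
  have hQ := bg_psd_mid hQ1 hQ0
  have hN := hP.add hQ
  have hNP : (P + Q - P).PosSemidef := by
    have e : P + Q - P = Q := by abel
    rwa [e]
  have hNQ : (P + Q - Q).PosSemidef := by
    have e : P + Q - Q = P := by abel
    rwa [e]
  have e1 : P + δP + (Q - δQ) = P + Q + (δP - δQ) := by abel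
  have e2 : P - δP + (Q + δQ) = P + Q + (δQ - δP) := by abel
  have e2' : P + Q + (δQ - δP) = P + Q - (δP - δQ) := by abel
  have e3 : P - δP + (Q - δQ) = P + Q - (δP + δQ) := by abel
  have e4 : P + δP + (Q + δQ) = P + Q + (δP + δQ) := by abel
  have h1 := bg_mixed_aux hN (e1 ▸ hP1.add hQ0) hP1 hP0 hQ1 hQ0 hNP hNQ
  have h2 := bg_mixed_aux hN (e2 ▸ hP0.add hQ1) hQ1 hQ0 hP1 hP0 hNQ hNP
  have h3 := bg_f32_mid (W := P + Q) (Δ := δP + δQ) (e4 ▸ hP1.add hQ1) (e3 ▸ hP0.add hQ0)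
  have h4 := bg_breg_add (W := P + Q) (Δ := δP - δQ)
  rw [e2'] at h2
  rw [e1, e2, e2', e3, e4]
  linarith

end Crest.Agent.R72
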