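import Crest.Agent.R72.Gap

/-!
PLAN for `potU_step` (`η = a + a`, `I(G,g;s) = planeI A B G g s`, `G' = tau a G`, `G'' = tau b G'`):
`sh (tau c w) p = (sh w (p - c) + sh w (p + c))/2`.
(i) `I(G'', tau η g; 0) + gapSum = I(G'',g;-η)/2 + I(G'',g;η)/2` (reindex `p.2`).
(ii) `I(tau c G, g; s) ≤ I(G, g; s)`: `vF_jensen_side` with the anti-correlated pairs `(p0 - c, p2 + c)`, `(p0 + c, p2 - c)`, reindex `p.1`.
(iii) `vF_mixed` with `G0 = sh G p0`, `G0' = sh G (p0 + η)`, `G2 = sh G p2`, `G2' = sh G (p2 - η)`, summed over the plane: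
`I(η) + I(-η) - 2 I(0) ≤ 28 [(I_A(G,g) - I_A(tau a G,g)) + (I_B(G,g) - I_B(tau a G,g))]`, where `I_A = planeI A 0`, `I_B = planeI 0 B`
do not depend on `s` (`vF_zero_right/left`, reindex) and `(sh G p0 + sh G (p0 + a + a))/2 = sh (tau a G) (p0 + a)`.
Finally `I_A(G'', tau η g) ≤ I_A(G'', g) ≤ I_A(G', g)` by (i) with `gapSum_nonneg` and (ii); same for `I_B`.
`potU_le`: `vF_le` and `∑_p G (x - p.1) g (y - p.2) = 1`, `∑_p g (x - p.2) G (y - (s - p.1 - p.2)) = 1`; `15 √2 ≤ 30`.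
`potU_swap`: `vF_swap` and the reindexing `p ↦ (-p.1 - p.2, p.2)`.
-/

set_option autoImplicit false

namespace Crest.Agent.R72

open Matrix Finset MeasureTheory
open scoped ENNReal

variable {Z : Type*} [AddCommGroup Z] [Fintype Z] [DecidableEq Z]

omit [Fintype Z] [DecidableEq Z] in
theorem ch_sh_nonneg {G : Z → ℝ} (hG : ∀ x, 0 ≤ G x) (p : Z) : ∀ x, 0 ≤ sh G p x :=
  fun _ => hG _

omit [Fintype Z] [DecidableEq Z] in
theorem ch_tau_nonneg {G : Z → ℝ} (hG : ∀ x, 0 ≤ G x) (c : Z) : ∀ x, 0 ≤ tau c G x :=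
  fun _ => div_nonneg (add_nonneg (hG _) (hG _)) (by norm_num)

omit [Fintype Z] [DecidableEq Z] in
theorem ch_sh_tau (c : Z) (w : Z → ℝ) (p u v : Z) (hu : u = p - c) (hv : v = p + c) :
    sh (tau c w) p = fun x => (sh w u x + sh w v x) / 2 := by
  subst hu hv
  funext x
  simp only [sh, tau]
  congr 3 <;> abel

omit [Fintype Z] [DecidableEq Z] in
theorem ch_sh_tau' (c : Z) (w : Z → ℝ) (p u v : Z) (hu : u = p + c) (hv : v = p - c) :
    sh (tau c w) p = fun x => (sh w u x + sh w v x) / 2 := by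
  rw [ch_sh_tau c w p v u hv hu]
  funext x
  rw [add_comm]

omit [DecidableEq Z] in
theorem ch_sum_sh (G : Z → ℝ) (p : Z) : ∑ x, sh G p x = ∑ x, G x :=
  Equiv.sum_comp (Equiv.subRight p) G

theorem ch_plane_shift (A B : Matrix Z Z ℝ) (G g : Z → ℝ) (s u v : Z) (f0 f1 f2 : Z × Z → Z)
    (h0 : ∀ p, f0 p = p.1 + u) (h1 : ∀ p, f1 p = p.2 + v)
    (h2 : ∀ p, f2 p = s - (p.1 + u) - (p.2 + v)) :
    ∑ p : Z × Z, vF A B (sh G (f0 p)) (sh g (f1 p)) (sh G (f2 p)) = planeI A B G g s := by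
  simp only [h0, h1, h2]
  exact Equiv.sum_comp ((Equiv.addRight u).prodCongr (Equiv.addRight v))
    (fun p : Z × Z => vF A B (sh G p.1) (sh g p.2) (sh G (s - p.1 - p.2)))

theorem planeI_nonneg (A B : Matrix Z Z ℝ) {G : Z → ℝ} (g : Z → ℝ) (hG : ∀ x, 0 ≤ G x) (s : Z) :
    0 ≤ planeI A B G g s :=
  Finset.sum_nonneg fun _ _ => vF_nonneg A B _ (ch_sh_nonneg hG _) (ch_sh_nonneg hG _)

theorem potU_nonneg (A B : Matrix Z Z ℝ) {G : Z → ℝ} (g : Z → ℝ) (hG : ∀ x, 0 ≤ G x) :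
    0 ≤ potU A B G g := by
  have h1 := planeI_nonneg A B g hG 0
  have h2 := planeI_nonneg A 0 g hG 0
  have h3 := planeI_nonneg 0 B g hG 0
  unfold potU
  linarith

theorem gapSum_nonneg (A B : Matrix Z Z ℝ) {G g : Z → ℝ} (hG : ∀ x, 0 ≤ G x)
    (hg : ∀ x, 0 ≤ g x) (η : Z) : 0 ≤ gapSum A B G g η :=
  Finset.sum_nonneg fun _ _ => vJ_nonneg A B (ch_sh_nonneg hG _) (ch_sh_nonneg hg _)
    (ch_sh_nonneg hg _) (ch_sh_nonneg hG _)

/-- the reflection of the plane exchanging the two side indices -/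
def chSwap (Z : Type*) [AddCommGroup Z] : Z × Z ≃ Z × Z where
  toFun p := (0 - p.1 - p.2, p.2)
  invFun p := (0 - p.1 - p.2, p.2)
  left_inv p := by
    ext
    · simp
    · rfl
  right_inv p := by
    ext
    · simp
    · rfl

theorem ch_planeI_swap (A B : Matrix Z Z ℝ) (G g : Z → ℝ) :
    planeI A B G g 0 = planeI Bᵀ Aᵀ G g 0 := by
  unfold planeI
  rw [← Equiv.sum_comp (chSwap Z)]
  refine Finset.sum_congr rfl fun p _ => ?_
  rw [vF_swap]
  have e : 0 - (chSwap Z p).1 - (chSwap Z p).2 = p.1 := by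
    simp [chSwap]
  rw [e]
  rfl

theorem potU_swap (A B : Matrix Z Z ℝ) (G g : Z → ℝ) : potU A B G g = potU Bᵀ Aᵀ G g := by
  unfold potU
  rw [ch_planeI_swap A B, ch_planeI_swap A 0, ch_planeI_swap 0 B, Matrix.transpose_zero]
  ring

theorem ch_step_i (A B : Matrix Z Z ℝ) (G g : Z → ℝ) (η : Z) :
    planeI A B G (tau η g) 0 + gapSum A B G g η =
      (planeI A B G g (-η) + planeI A B G g η) / 2 := by
  rw [← ch_plane_shift A B G g (-η) 0 (-η) (fun p => p.1) (fun p => p.2 - η)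
      (fun p => -p.1 - p.2) (fun p => by abel) (fun p => by abel) (fun p => by abel),
    ← ch_plane_shift A B G g η 0 η (fun p => p.1) (fun p => p.2 + η)
      (fun p => -p.1 - p.2) (fun p => by abel) (fun p => by abel) (fun p => by abel)]
  unfold planeI gapSum
  rw [← Finset.sum_add_distrib, ← Finset.sum_add_distrib, Finset.sum_div]
  refine Finset.sum_congr rfl fun p _ => ?_
  unfold vJ
  rw [ch_sh_tau η g p.2 _ _ rfl rfl, zero_sub]
  ring

theorem ch_step_ii (A B : Matrix Z Z ℝ) {G : Z → ℝ} (g : Z → ℝ) (hG : ∀ x, 0 ≤ G x) (c s : Z) :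
    planeI A B (tau c G) g s ≤ planeI A B G g s := by
  have e1 := ch_plane_shift A B G g s (-c) 0 (fun p => p.1 - c) (fun p => p.2)
    (fun p => s - p.1 - p.2 + c) (fun p => by abel) (fun p => by abel) (fun p => by abel)
  have e2 := ch_plane_shift A B G g s c 0 (fun p => p.1 + c) (fun p => p.2)
    (fun p => s - p.1 - p.2 - c) (fun p => by abel) (fun p => by abel) (fun p => by abel)
  have h : planeI A B (tau c G) g s ≤
      ∑ p : Z × Z, (vF A B (sh G (p.1 - c)) (sh g p.2) (sh G (s - p.1 - p.2 + c)) +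
        vF A B (sh G (p.1 + c)) (sh g p.2) (sh G (s - p.1 - p.2 - c))) / 2 := by
    unfold planeI
    refine Finset.sum_le_sum fun p _ => ?_
    rw [ch_sh_tau c G p.1 _ _ rfl rfl, ch_sh_tau' c G (s - p.1 - p.2) _ _ rfl rfl]
    exact vF_jensen_side A B _ (ch_sh_nonneg hG _) (ch_sh_nonneg hG _) (ch_sh_nonneg hG _)
      (ch_sh_nonneg hG _)
  rw [← Finset.sum_div, Finset.sum_add_distrib, e1, e2] at h
  linarith

theorem ch_left_indep (A : Matrix Z Z ℝ) (G g : Z → ℝ) (s : Z) :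
    planeI A 0 G g s = planeI A 0 G g 0 :=
  Finset.sum_congr rfl fun _ _ => vF_zero_right _ _ _ _ _

theorem ch_right_indep (B : Matrix Z Z ℝ) (G g : Z → ℝ) (s : Z) :
    planeI 0 B G g s = planeI 0 B G g 0 := by
  rw [← ch_plane_shift 0 B G g 0 (-s) 0 (fun p => p.1 - s) (fun p => p.2)
    (fun p => s - p.1 - p.2) (fun p => by abel) (fun p => by abel) (fun p => by abel)]
  exact Finset.sum_congr rfl fun _ _ => vF_zero_left _ _ _ _ _

theorem ch_step_iii (A B : Matrix Z Z ℝ) {G : Z → ℝ} (g : Z → ℝ) (hG : ∀ x, 0 ≤ G x) (a : Z) :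
    planeI A B G g (a + a) + planeI A B G g (-(a + a)) - 2 * planeI A B G g 0 ≤
      28 * ((planeI A 0 G g 0 - planeI A 0 (tau a G) g 0) +
        (planeI 0 B G g 0 - planeI 0 B (tau a G) g 0)) := by
  have key : ∀ p : Z × Z,
      vF A B (sh G (p.1 + (a + a))) (sh g p.2) (sh G (0 - p.1 - p.2)) +
        vF A B (sh G p.1) (sh g p.2) (sh G (0 - p.1 - p.2 - (a + a))) -
        vF A B (sh G p.1) (sh g p.2) (sh G (0 - p.1 - p.2)) -
        vF A B (sh G (p.1 + (a + a))) (sh g p.2) (sh G (0 - p.1 - p.2 - (a + a))) ≤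
      28 * (((vF A 0 (sh G p.1) (sh g p.2) (sh G (0 - p.1 - p.2)) +
          vF A 0 (sh G (p.1 + (a + a))) (sh g p.2) (sh G (0 - p.1 - p.2))) / 2 -
          vF A 0 (sh (tau a G) (p.1 + a)) (sh g p.2) (sh (tau a G) (0 - p.1 - p.2 - a))) +
        ((vF 0 B (sh G p.1) (sh g p.2) (sh G (0 - p.1 - p.2)) +
          vF 0 B (sh G p.1) (sh g p.2) (sh G (0 - p.1 - p.2 - (a + a)))) / 2 -
          vF 0 B (sh (tau a G) (p.1 + a)) (sh g p.2) (sh (tau a G) (0 - p.1 - p.2 - a)))) := by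
    intro p
    have h := vF_mixed A B (sh g p.2) (ch_sh_nonneg hG p.1) (ch_sh_nonneg hG (p.1 + (a + a)))
      (ch_sh_nonneg hG (0 - p.1 - p.2)) (ch_sh_nonneg hG (0 - p.1 - p.2 - (a + a)))
    rw [← ch_sh_tau a G (p.1 + a) p.1 (p.1 + (a + a)) (by abel) (by abel),
      ← ch_sh_tau' a G (0 - p.1 - p.2 - a) (0 - p.1 - p.2) (0 - p.1 - p.2 - (a + a))
        (by abel) (by abel),
      vF_zero_right A (sh (tau a G) (p.1 + a)) (sh g p.2) (sh G (0 - p.1 - p.2))
        (sh (tau a G) (0 - p.1 - p.2 - a)),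
      vF_zero_left B (sh G p.1) (sh (tau a G) (p.1 + a)) (sh g p.2)
        (sh (tau a G) (0 - p.1 - p.2 - a))] at h
    exact h
  have hs := Finset.sum_le_sum fun p (_ : p ∈ (Finset.univ : Finset (Z × Z))) => key p
  simp only [Finset.sum_sub_distrib, Finset.sum_add_distrib, ← Finset.mul_sum,
    ← Finset.sum_div] at hs
  have f1 : ∀ A B : Matrix Z Z ℝ, ∑ p : Z × Z, vF A B (sh G (p.1 + (a + a))) (sh g p.2)
      (sh G (0 - p.1 - p.2)) = planeI A B G g (a + a) := fun A B =>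
    ch_plane_shift A B G g (a + a) (a + a) 0 _ _ _ (fun p => by abel) (fun p => by abel)
      (fun p => by abel)
  have f2 : ∀ A B : Matrix Z Z ℝ, ∑ p : Z × Z, vF A B (sh G p.1) (sh g p.2)
      (sh G (0 - p.1 - p.2 - (a + a))) = planeI A B G g (-(a + a)) := fun A B =>
    ch_plane_shift A B G g (-(a + a)) 0 0 _ _ _ (fun p => by abel) (fun p => by abel)
      (fun p => by abel)
  have f3 : ∀ A B : Matrix Z Z ℝ, ∑ p : Z × Z, vF A B (sh G p.1) (sh g p.2)
      (sh G (0 - p.1 - p.2)) = planeI A B G g 0 := fun A B => rfl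
  have f4 : ∀ A B : Matrix Z Z ℝ, ∑ p : Z × Z, vF A B (sh G (p.1 + (a + a))) (sh g p.2)
      (sh G (0 - p.1 - p.2 - (a + a))) = planeI A B G g 0 := fun A B =>
    ch_plane_shift A B G g 0 (a + a) 0 _ _ _ (fun p => by abel) (fun p => by abel)
      (fun p => by abel)
  have f5 : ∀ A B : Matrix Z Z ℝ, ∑ p : Z × Z, vF A B (sh (tau a G) (p.1 + a)) (sh g p.2)
      (sh (tau a G) (0 - p.1 - p.2 - a)) = planeI A B (tau a G) g 0 := fun A B =>
    ch_plane_shift A B (tau a G) g 0 a 0 _ _ _ (fun p => by abel) (fun p => by abel)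
      (fun p => by abel)
  rw [f1, f2, f3, f4, f1, f3, f5, f2, f3, f5, ch_left_indep A G g (a + a),
    ch_right_indep B G g (-(a + a))] at hs
  linarith

/-- one step of the chain -/
theorem potU_step (A B : Matrix Z Z ℝ) {G g : Z → ℝ} (hG : ∀ x, 0 ≤ G x) (hg : ∀ x, 0 ≤ g x)
    (a b : Z) :
    potU A B (tau b (tau a G)) (tau (a + a) g) + gapSum A B (tau b (tau a G)) g (a + a) ≤
      potU A B G g := by
  have hG1 := ch_tau_nonneg hG a
  have hG2 := ch_tau_nonneg hG1 b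
  have i1 := ch_step_i A B (tau b (tau a G)) g (a + a)
  have i2 := ch_step_i A 0 (tau b (tau a G)) g (a + a)
  have i3 := ch_step_i 0 B (tau b (tau a G)) g (a + a)
  rw [ch_left_indep A _ g (a + a), ch_left_indep A _ g (-(a + a))] at i2
  rw [ch_right_indep B _ g (a + a), ch_right_indep B _ g (-(a + a))] at i3
  have g2 := gapSum_nonneg A 0 hG2 hg (a + a)
  have g3 := gapSum_nonneg 0 B hG2 hg (a + a)
  have j1 := (ch_step_ii A B g hG1 b (a + a)).trans (ch_step_ii A B g hG a (a + a))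
  have j2 := (ch_step_ii A B g hG1 b (-(a + a))).trans (ch_step_ii A B g hG a (-(a + a)))
  have j3 := ch_step_ii A 0 g hG1 b 0
  have j4 := ch_step_ii 0 B g hG1 b 0
  have k := ch_step_iii A B g hG a
  unfold potU
  linarith

theorem ch_planeI_le (A B : Matrix Z Z ℝ) {G g : Z → ℝ} (hG : ∀ x, 0 ≤ G x) (hg : ∀ x, 0 ≤ g x)
    (sG : ∑ x, G x = 1) (sg : ∑ x, g x = 1) :
    planeI A B G g 0 ≤ Real.sqrt 2 * (cube A + cube B) := by
  have h : planeI A B G g 0 ≤ ∑ p : Z × Z, Real.sqrt 2 *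
      (∑ x, ∑ y, sh G p.1 x * sh g p.2 y * |A x y| ^ 3 +
        ∑ x, ∑ y, sh g p.2 x * sh G (0 - p.1 - p.2) y * |B x y| ^ 3) := by
    unfold planeI
    refine Finset.sum_le_sum fun p _ => ?_
    exact vF_le A B (ch_sh_nonneg hG _) (ch_sh_nonneg hg _) (ch_sh_nonneg hG _)
      (by rw [ch_sum_sh, sG]) (by rw [ch_sum_sh, sg]) (by rw [ch_sum_sh, sG])
  have sG' : ∀ x : Z, ∑ p, G (x - p) = 1 := fun x => by
    rw [← sG]; exact Equiv.sum_comp (Equiv.subLeft x) G
  have sg' : ∀ x : Z, ∑ p, g (x - p) = 1 := fun x => by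
    rw [← sg]; exact Equiv.sum_comp (Equiv.subLeft x) g
  have e1 : ∀ x y : Z, ∑ p : Z × Z, sh G p.1 x * sh g p.2 y = 1 := by
    intro x y
    rw [Fintype.sum_prod_type]
    simp only [sh, ← Finset.mul_sum, sg', mul_one, sG']
  have e2 : ∀ x y : Z, ∑ p : Z × Z, sh g p.2 x * sh G (0 - p.1 - p.2) y = 1 := by
    intro x y
    rw [Fintype.sum_prod_type_right]
    have : ∀ q : Z, ∑ p : Z, G (y - (0 - p - q)) = 1 := fun q => by
      rw [← sG, ← Equiv.sum_comp (Equiv.addLeft (y + q)) G]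
      refine Finset.sum_congr rfl fun p _ => ?_
      congr 1
      simp only [Equiv.coe_addLeft]
      abel
    simp only [sh, ← Finset.mul_sum, this, mul_one, sg']
  have c1 : ∑ p : Z × Z, ∑ x, ∑ y, sh G p.1 x * sh g p.2 y * |A x y| ^ 3 = cube A := by
    rw [Finset.sum_comm]
    refine Finset.sum_congr rfl fun x _ => ?_
    rw [Finset.sum_comm]
    refine Finset.sum_congr rfl fun y _ => ?_
    rw [← Finset.sum_mul, e1, one_mul]
  have c2 : ∑ p : Z × Z, ∑ x, ∑ y, sh g p.2 x * sh G (0 - p.1 - p.2) y * |B x y| ^ 3 =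
      cube B := by
    rw [Finset.sum_comm]
    refine Finset.sum_congr rfl fun x _ => ?_
    rw [Finset.sum_comm]
    refine Finset.sum_congr rfl fun y _ => ?_
    rw [← Finset.sum_mul, e2, one_mul]
  rw [← Finset.mul_sum, Finset.sum_add_distrib, c1, c2] at h
  exact h

theorem potU_le (A B : Matrix Z Z ℝ) {G g : Z → ℝ} (hG : ∀ x, 0 ≤ G x) (hg : ∀ x, 0 ≤ g x)
    (sG : ∑ x, G x = 1) (sg : ∑ x, g x = 1) : potU A B G g ≤ 30 * (cube A + cube B) := by
  have h1 := ch_planeI_le A B hG hg sG sg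
  have h2 := ch_planeI_le A 0 hG hg sG sg
  have h3 := ch_planeI_le 0 B hG hg sG sg
  have c0 : cube (0 : Matrix Z Z ℝ) = 0 := by simp [cube]
  have cn : ∀ A : Matrix Z Z ℝ, 0 ≤ cube A := fun A =>
    Finset.sum_nonneg fun _ _ => Finset.sum_nonneg fun _ _ => by positivity
  have hs : Real.sqrt 2 ≤ 2 := by
    rw [Real.sqrt_le_left (by norm_num)]; norm_num
  rw [c0] at h2 h3
  have h4 := mul_le_mul_of_nonneg_right hs (add_nonneg (cn A) (cn B))
  unfold potU
  nlinarith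

end Crest.Agent.R72
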