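import Crest.Agent.R72.Defs

/-!
Splines.  PLAN.  `HasDerivAt Tc (Tq s) s` for all `s`; `Tq` is continuous.  `Tq s - Tq (-s)·(-1)^..`: `Tq s + Tq (-s) = s²/2`, `Tc s - Tc (-s) = s³/6`,
and `D6` kills polynomials of degree `≤ 5`; this gives the parity and the support statements.
On `[0,1]`, `chi s = 3 s² - 5/3 s³`; so `chi t / t = 3 t - 5/3 t |t|` on `[-1,1]`.  For `|x|, |y| ≥ 1` of the same sign,
`chi y / y - chi x / x = (chi y - chi x)/y + chi x (1/y - 1/x)` with `chi` bounded and Lipschitz (its derivative `8 psi` is continuous with compact support);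
glue the three intervals.  Only existence of the constant is needed.
`tri_B3`: for any `T`, `haar j (fun t => T (s - t) - T (s - t - 1)) τ` telescopes to
`(T (s - τ + 2^j) - 2 T (s - τ) + T (s - τ - 2^j)) / 2^(j+1)`; `B3` is the third backward difference of `Tq`; apply three times (`haar` is linear) and use
`Tq (2^j u) = 4^j Tq u`.
-/

set_option autoImplicit false

namespace Crest.Agent.R72

open Matrix Finset MeasureTheory
open scoped ENNReal

theorem Tq_of_nonneg {s : ℝ} (h : 0 ≤ s) : Tq s = s ^ 2 / 2 := by rw [Tq, max_eq_left h]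

theorem Tq_of_nonpos {s : ℝ} (h : s ≤ 0) : Tq s = 0 := by simp [Tq, max_eq_right h]

theorem Tc_of_nonneg {s : ℝ} (h : 0 ≤ s) : Tc s = s ^ 3 / 6 := by rw [Tc, max_eq_left h]

theorem Tc_of_nonpos {s : ℝ} (h : s ≤ 0) : Tc s = 0 := by simp [Tc, max_eq_right h]

theorem Tc_neg (s : ℝ) : Tc (-s) = Tc s - s ^ 3 / 6 := by
  rcases le_total 0 s with h | h
  · rw [Tc_of_nonneg h, Tc_of_nonpos (by linarith), sub_self]
  · rw [Tc_of_nonpos h, Tc_of_nonneg (by linarith)]
    ring

theorem hasDerivAt_Tc (s : ℝ) : HasDerivAt Tc (Tq s) s := by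
  have h := ((hasDerivAt_pow 3 s).add (hasDerivAt_abs_rpow s (p := 3) (by norm_num))).div_const 12
  refine (h.congr_of_eventuallyEq (Filter.Eventually.of_forall fun t => ?_)).congr_deriv ?_
  · dsimp only
    rw [Pi.add_apply, show (3 : ℝ) = (3 : ℕ) by norm_num, Real.rpow_natCast]
    rcases le_total 0 t with h | h
    · rw [Tc_of_nonneg h, abs_of_nonneg h]
      ring
    · rw [Tc_of_nonpos h, abs_of_nonpos h]
      ring
  · rw [show (3 : ℝ) - 2 = 1 by norm_num, Real.rpow_one]
    rcases le_total 0 s with h | h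
    · rw [Tq_of_nonneg h, abs_of_nonneg h]
      norm_num
      ring
    · rw [Tq_of_nonpos h, abs_of_nonpos h]
      norm_num
      ring

theorem continuous_Tq : Continuous Tq := by
  unfold Tq
  fun_prop

theorem hasDerivAt_chi (s : ℝ) : HasDerivAt chi (8 * psi s) s := by
  have a := fun c : ℝ => (hasDerivAt_Tc (s + c)).comp_add_const s c
  have b := fun c : ℝ => (hasDerivAt_Tc (s - c)).comp_sub_const s c
  exact ((((((((a 3).sub ((a 2).const_mul 6)).add ((a 1).const_mul 15)).sub
    ((hasDerivAt_Tc s).const_mul 20)).add ((b 1).const_mul 15)).sub ((b 2).const_mul 6)).add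
    (b 3)).div_const 8).const_mul 8 |>.const_add 1

theorem continuous_psi : Continuous psi := by
  have := continuous_Tq
  unfold psi D6
  fun_prop

theorem continuous_chi : Continuous chi := by
  exact continuous_iff_continuousAt.2 fun s => (hasDerivAt_chi s).continuousAt

theorem continuous_B3 : Continuous B3 := by
  have := continuous_Tq
  unfold B3
  fun_prop

theorem psi_eq_zero {s : ℝ} (h : 3 ≤ |s|) : psi s = 0 := by
  unfold psi D6
  rcases le_abs.1 h with h | h
  · rw [Tq_of_nonneg (s := s + 3) (by linarith), Tq_of_nonneg (s := s + 2) (by linarith),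
      Tq_of_nonneg (s := s + 1) (by linarith), Tq_of_nonneg (s := s) (by linarith),
      Tq_of_nonneg (s := s - 1) (by linarith), Tq_of_nonneg (s := s - 2) (by linarith),
      Tq_of_nonneg (s := s - 3) (by linarith)]
    ring
  · rw [Tq_of_nonpos (s := s + 3) (by linarith), Tq_of_nonpos (s := s + 2) (by linarith),
      Tq_of_nonpos (s := s + 1) (by linarith), Tq_of_nonpos (s := s) (by linarith),
      Tq_of_nonpos (s := s - 1) (by linarith), Tq_of_nonpos (s := s - 2) (by linarith),
      Tq_of_nonpos (s := s - 3) (by linarith)]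
    ring

theorem chi_eq_one {s : ℝ} (h : 3 ≤ |s|) : chi s = 1 := by
  unfold chi D6
  rcases le_abs.1 h with h | h
  · rw [Tc_of_nonneg (s := s + 3) (by linarith), Tc_of_nonneg (s := s + 2) (by linarith),
      Tc_of_nonneg (s := s + 1) (by linarith), Tc_of_nonneg (s := s) (by linarith),
      Tc_of_nonneg (s := s - 1) (by linarith), Tc_of_nonneg (s := s - 2) (by linarith),
      Tc_of_nonneg (s := s - 3) (by linarith)]
    ring
  · rw [Tc_of_nonpos (s := s + 3) (by linarith), Tc_of_nonpos (s := s + 2) (by linarith),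
      Tc_of_nonpos (s := s + 1) (by linarith), Tc_of_nonpos (s := s) (by linarith),
      Tc_of_nonpos (s := s - 1) (by linarith), Tc_of_nonpos (s := s - 2) (by linarith),
      Tc_of_nonpos (s := s - 3) (by linarith)]
    ring

theorem chi_neg (s : ℝ) : chi (-s) = chi s := by
  unfold chi D6
  rw [show -s + 3 = -(s - 3) by ring, show -s + 2 = -(s - 2) by ring, show -s + 1 = -(s - 1) by ring,
    show -s - 1 = -(s + 1) by ring, show -s - 2 = -(s + 2) by ring, show -s - 3 = -(s + 3) by ring]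
  simp only [Tc_neg]
  ring

theorem chi_of_small {s : ℝ} (h : |s| ≤ 1) : chi s = 3 * s ^ 2 - 5 / 3 * (s ^ 2 * |s|) := by
  wlog h0 : 0 ≤ s generalizing s
  · rw [← chi_neg, this (by rwa [abs_neg]) (by linarith), abs_neg, neg_sq]
  rw [abs_of_nonneg h0] at h ⊢
  unfold chi D6
  rw [Tc_of_nonneg (s := s + 3) (by linarith), Tc_of_nonneg (s := s + 2) (by linarith),
    Tc_of_nonneg (s := s + 1) (by linarith), Tc_of_nonneg h0,
    Tc_of_nonpos (s := s - 1) (by linarith), Tc_of_nonpos (s := s - 2) (by linarith),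
    Tc_of_nonpos (s := s - 3) (by linarith)]
  ring

theorem chi_zero : chi 0 = 0 := by
  rw [chi_of_small (by simp)]
  ring

theorem chi_lip : ∃ L : ℝ, 0 ≤ L ∧ ∀ x y, |chi y - chi x| ≤ L * |y - x| := by
  obtain ⟨L, hL⟩ := isCompact_Icc.exists_bound_of_continuousOn
    (continuous_psi.continuousOn (s := Set.Icc (-3) 3))
  have h0 : 0 ≤ L := (norm_nonneg _).trans (hL 0 (by norm_num))
  refine ⟨8 * L, by positivity, fun x y => ?_⟩
  refine convex_univ.norm_image_sub_le_of_norm_hasDerivWithin_le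
    (fun s _ => (hasDerivAt_chi s).hasDerivWithinAt) (fun s _ => ?_) trivial trivial
  rw [norm_mul, Real.norm_ofNat]
  refine mul_le_mul_of_nonneg_left ?_ (by norm_num)
  rcases le_total 3 |s| with h | h
  · rw [psi_eq_zero h, norm_zero]
    exact h0
  · exact hL s (abs_le.1 h)

theorem om_bound : ∃ c : ℝ, 1 ≤ c ∧ (∀ t, |chi t / t| ≤ c) ∧
    ∀ x y, |chi y / y - chi x / x| ≤ c * |y - x| := by
  obtain ⟨L, h0, hL⟩ := chi_lip
  have h1 : ∀ t, |chi t / t| ≤ L := fun t => by
    rcases eq_or_ne t 0 with rfl | ht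
    · simpa using h0
    · rw [abs_div, div_le_iff₀ (abs_pos.2 ht)]
      simpa [chi_zero] using hL 0 t
  have h2 : ∀ x y, 1 ≤ |y| → |chi y / y - chi x / x| ≤ 2 * L * |y - x| := fun x y hy => by
    have hy0 : y ≠ 0 := abs_pos.1 (by linarith)
    have e : chi y / y - chi x / x = ((chi y - chi x) - chi x / x * (y - x)) / y := by
      rcases eq_or_ne x 0 with rfl | hx
      · simp [chi_zero]
      · field_simp
        ring
    rw [e, abs_div]
    refine (div_le_self (abs_nonneg _) hy).trans ((abs_sub _ _).trans ?_)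
    rw [abs_mul]
    linarith [hL x y, mul_le_mul_of_nonneg_right (h1 x) (abs_nonneg (y - x))]
  have h3 : ∀ t, |t| ≤ 1 → chi t / t = 3 * t - 5 / 3 * (t * |t|) := fun t ht => by
    rcases eq_or_ne t 0 with rfl | h
    · simp
    · rw [chi_of_small ht]
      field_simp
  refine ⟨2 * L + 7, by linarith, fun t => (h1 t).trans (by linarith), fun x y => ?_⟩
  have hd := abs_nonneg (y - x)
  have hLd := mul_nonneg h0 hd
  rcases le_total 1 |y| with hy | hy
  · linarith [h2 x y hy]
  rcases le_total 1 |x| with hx | hx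
  · have := h2 y x hx
    rw [abs_sub_comm, abs_sub_comm x] at this
    linarith
  have e : chi y / y - chi x / x = 3 * (y - x) - 5 / 3 * ((y - x) * |y| + x * (|y| - |x|)) := by
    rw [h3 x hx, h3 y hy]
    ring
  have a1 : |(y - x) * (|y|)| ≤ |y - x| := by
    rw [abs_mul, abs_abs]
    exact mul_le_of_le_one_right hd hy
  have a2 : |x * (|y| - |x|)| ≤ |y - x| := by
    rw [abs_mul]
    exact (mul_le_of_le_one_left (abs_nonneg _) hx).trans (abs_abs_sub_abs_le _ _)
  rw [e, abs_le]
  constructor <;> linarith [abs_le.1 a1, abs_le.1 a2, le_abs_self (y - x), neg_abs_le (y - x)]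

theorem B3_abs_le (s : ℝ) : |B3 s| ≤ 1 := by
  unfold B3
  rw [abs_le]
  rcases le_total s 0 with h0 | h0
  · rw [Tq_of_nonpos h0, Tq_of_nonpos (s := s - 1) (by linarith),
      Tq_of_nonpos (s := s - 2) (by linarith), Tq_of_nonpos (s := s - 3) (by linarith)]
    norm_num
  rw [Tq_of_nonneg h0]
  rcases le_total s 1 with h1 | h1
  · rw [Tq_of_nonpos (s := s - 1) (by linarith),
      Tq_of_nonpos (s := s - 2) (by linarith), Tq_of_nonpos (s := s - 3) (by linarith)]
    constructor <;> nlinarith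
  rw [Tq_of_nonneg (s := s - 1) (by linarith)]
  rcases le_total s 2 with h2 | h2
  · rw [Tq_of_nonpos (s := s - 2) (by linarith), Tq_of_nonpos (s := s - 3) (by linarith)]
    constructor <;> nlinarith [sq_nonneg (s - 3 / 2)]
  rw [Tq_of_nonneg (s := s - 2) (by linarith)]
  rcases le_total s 3 with h3 | h3
  · rw [Tq_of_nonpos (s := s - 3) (by linarith)]
    constructor <;> nlinarith [sq_nonneg (s - 3)]
  · rw [Tq_of_nonneg (s := s - 3) (by linarith)]
    constructor <;> nlinarith

theorem B3_eq_zero {s : ℝ} (h : s ≤ 0 ∨ 3 ≤ s) : B3 s = 0 := by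
  unfold B3
  rcases h with h | h
  · rw [Tq_of_nonpos h, Tq_of_nonpos (s := s - 1) (by linarith),
      Tq_of_nonpos (s := s - 2) (by linarith), Tq_of_nonpos (s := s - 3) (by linarith)]
    ring
  · rw [Tq_of_nonneg (s := s) (by linarith), Tq_of_nonneg (s := s - 1) (by linarith),
      Tq_of_nonneg (s := s - 2) (by linarith), Tq_of_nonneg (s := s - 3) (by linarith)]
    ring

theorem spl_tele (F : ℤ → ℝ) {a b : ℤ} (h : a ≤ b) :
    ∑ t ∈ Finset.Ico a b, (F t - F (t + 1)) = F a - F b := by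
  induction b, h using Int.leInduction with
  | base => simp
  | succ b hb ih =>
    rw [← Finset.insert_Ico_right_eq_Ico_add_one hb, Finset.sum_insert (by simp), ih]
    ring

/-- backward difference -/
def bdf (T : ℝ → ℝ) (u : ℝ) : ℝ := T u - T (u - 1)

/-- normalised second central difference -/
noncomputable def cdf (h : ℝ) (T : ℝ → ℝ) (u : ℝ) : ℝ := (T (u + h) - 2 * T u + T (u - h)) / (2 * h)

theorem cdf_bdf (h : ℝ) (T : ℝ → ℝ) : cdf h (bdf T) = bdf (cdf h T) := by
  funext u
  simp only [cdf, bdf, add_sub_right_comm, sub_right_comm u h]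
  ring

theorem haar_bdf (j : ℕ) (T : ℝ → ℝ) (s : ℝ) :
    haar j (fun t : ℤ => bdf T (s - t)) = fun τ : ℤ => cdf (2 ^ j) T (s - τ) := by
  funext τ
  have h0 : (0 : ℤ) ≤ 2 ^ j := by positivity
  have e : ∀ t : ℤ, bdf T (s - ((τ + t : ℤ) : ℝ)) = T (s - τ - t) - T (s - τ - ((t + 1 : ℤ) : ℝ)) :=
    fun t => by
      simp only [bdf, Int.cast_add, Int.cast_one, sub_sub, add_assoc]
  have e1 := spl_tele (fun t => T (s - τ - t)) (show -(2 : ℤ) ^ j ≤ 0 by linarith)
  have e2 := spl_tele (fun t => T (s - τ - t)) h0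
  rw [haar, ← Finset.Ico_union_Ico_eq_Ico (show -(2 : ℤ) ^ j ≤ 0 by linarith) h0,
    Finset.sum_union (Finset.Ico_disjoint_Ico_consecutive _ _ _),
    Finset.sum_congr rfl fun t ht => by rw [dsgn, if_pos (Finset.mem_Ico.1 ht).2, e],
    Finset.sum_congr (s₁ := Finset.Ico 0 _) rfl fun t ht => by
      rw [dsgn, if_neg (not_lt.2 (Finset.mem_Ico.1 ht).1), e],
    ← Finset.mul_sum, ← Finset.mul_sum, e1, e2, cdf]
  push_cast
  rw [sub_neg_eq_add, sub_zero]
  field_simp
  ring

theorem Tq_div {h : ℝ} (hh : 0 < h) (s c : ℝ) : Tq (s / h + c) = Tq (s + c * h) / h ^ 2 := by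
  rw [Tq, Tq, show s / h + c = (s + c * h) / h by field_simp, ← zero_div h,
    max_div_div_right hh.le, zero_div]
  ring

theorem tri_B3 (j : ℕ) (s : ℝ) : tri j (fun t : ℤ => B3 (s - t)) = psi (s / 2 ^ j) / 2 ^ j := by
  have e : B3 = bdf (bdf (bdf Tq)) := by
    funext u
    simp only [B3, bdf, sub_sub]
    norm_num
    ring
  have hh : (0 : ℝ) < 2 ^ j := by positivity
  rw [tri, e, haar_bdf, cdf_bdf, haar_bdf, cdf_bdf, cdf_bdf, haar_bdf, psi, D6]
  generalize (2 : ℝ) ^ j = h at hh
  have h0 := Tq_div hh s 0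
  rw [add_zero] at h0
  simp only [sub_eq_add_neg (s / h), Tq_div hh, h0, cdf, Int.cast_zero, sub_zero]
  field_simp
  ring_nf

end Crest.Agent.R72
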