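import Crest.Agent.R72.Defs2
import Crest.Agent.R72.Spline

/-!
The three kinds of rough kernels.  PLAN.  `chi (t / 2^a) / t = (chi u / u) / 2^a` with `u = t / 2^a` (`om_bound`).
On an interval `[x, y]` that avoids `±ρ` the indicators of `ρ < |t|`, `ρ ≤ |t|` are constant, and where they are `1` the points `x, y` have the same
sign and modulus `> 2^(a-1)`, so `|1/y - 1/x| ≤ 4 (y - x) / 4^a`.  For `|t| ≥ 3 * 2^a` the kernels vanish (`chi_eq_one`).
In `rkr_short` at most one indicator is `1` at a given point (disjointness), and it is the same one at `x` and `y`.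
-/

set_option autoImplicit false

namespace Crest.Agent.R72

open Matrix Finset MeasureTheory
open scoped ENNReal

theorem pk_avoid {ρ x y : ℝ} (hρ : 0 < ρ) (h1 : ρ ∉ Set.Icc x y) (h2 : -ρ ∉ Set.Icc x y)
    (hxy : x ≤ y) : (ρ < |x| ∧ ρ < |y| ∧ (0 < x ∨ y < 0)) ∨ (|x| < ρ ∧ |y| < ρ) := by
  simp only [Set.mem_Icc, not_and_or, not_le] at h1 h2
  rcases h1 with h1 | h1
  · exact Or.inl ⟨lt_abs.2 (Or.inl h1), lt_abs.2 (Or.inl (by linarith)), Or.inl (by linarith)⟩
  · rcases h2 with h2 | h2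
    · exact Or.inr ⟨abs_lt.2 ⟨h2, by linarith⟩, abs_lt.2 ⟨by linarith, h1⟩⟩
    · exact Or.inl ⟨lt_abs.2 (Or.inr (by linarith)), lt_abs.2 (Or.inr (by linarith)),
        Or.inr (by linarith)⟩

theorem pk_bd {w t b : ℝ} (hb : 0 < b) (h1 : |w| ≤ 1) (h2 : w ≠ 0 → b < |t|) :
    |w / t| ≤ 1 / b := by
  by_cases hw : w = 0
  · simp [hw, hb.le]
  · rw [abs_div]
    exact div_le_div₀ zero_le_one h1 hb (h2 hw).le

theorem pk_lip {w x y b : ℝ} (hb : 0 < b) (h1 : |w| ≤ 1) (hxy : x ≤ y)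
    (h2 : w ≠ 0 → b < |x| ∧ b < |y|) : |w / y - w / x| ≤ 1 / b ^ 2 * (y - x) := by
  by_cases hw : w = 0
  · simp only [hw, zero_div, sub_zero, abs_zero]
    have := sub_nonneg.2 hxy
    positivity
  · obtain ⟨hx, hy⟩ := h2 hw
    have x0 : x ≠ 0 := abs_pos.1 (hb.trans hx)
    have y0 : y ≠ 0 := abs_pos.1 (hb.trans hy)
    have e : w / y - w / x = -(w * (y - x) / (x * y)) := by field_simp; ring
    rw [e, abs_neg, abs_div, abs_mul, abs_mul, abs_of_nonneg (sub_nonneg.2 hxy), one_div,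
      inv_mul_eq_div]
    refine div_le_div₀ (sub_nonneg.2 hxy) (mul_le_of_le_one_left (sub_nonneg.2 hxy) h1)
      (by positivity) ?_
    rw [sq]
    exact mul_le_mul hx.le hy.le hb.le (abs_nonneg _)

theorem pk_pow1 (a : ℤ) : 1 / (2 : ℝ) ^ (a - 1) = 2 / (2 : ℝ) ^ a := by
  rw [zpow_sub_one₀ (by norm_num)]
  field_simp

theorem pk_pow4 (a : ℤ) : (4 : ℝ) ^ a = (2 : ℝ) ^ a * (2 : ℝ) ^ a := by
  rw [← mul_zpow]; norm_num

theorem pk_pow2 (a : ℤ) : 1 / ((2 : ℝ) ^ (a - 1)) ^ 2 = 4 / (4 : ℝ) ^ a := by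
  rw [zpow_sub_one₀ (by norm_num), pk_pow4]
  field_simp
  norm_num

theorem rkr_end_aux {c : ℝ} (hc : 1 ≤ c) (hc1 : ∀ t, |chi t / t| ≤ c)
    (hc2 : ∀ x y, |chi y / y - chi x / x| ≤ c * |y - x|) (a : ℤ) {ρ e : ℝ}
    (h1 : (2 : ℝ) ^ (a - 1) < ρ) (h2 : ρ ≤ (2 : ℝ) ^ a) (he : |e| ≤ 1) (w : ℝ → ℝ)
    (hm : Measurable w) (hw0 : ∀ t, |t| < ρ → w t = 0) (hw1 : ∀ t, ρ < |t| → w t = 1)
    (hw2 : ∀ t, |w t| ≤ 1) (hw3 : ∀ t, w (-t) = w t) :
    RKR (c + 4) a (fun t => e * ((w t - chi (t / (2 : ℝ) ^ a)) / t)) {ρ, -ρ} := by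
  have hp : (0 : ℝ) < 2 ^ a := by positivity
  have hb : (0 : ℝ) < 2 ^ (a - 1) := by positivity
  have hsup : ∀ t, w t ≠ 0 → (2 : ℝ) ^ (a - 1) < |t| := fun t ht =>
    h1.trans_le (le_of_not_gt fun h => ht (hw0 t h))
  have e1 : ∀ t, (w t - chi (t / 2 ^ a)) / t =
      w t / t - (chi (t / 2 ^ a) / (t / 2 ^ a)) / 2 ^ a := by
    intro t
    by_cases ht : t = 0
    · simp [ht]
    · field_simp
  refine ⟨?_, fun t => ?_, fun t ht => ?_, fun t => ?_, fun x y hxy hJ => ?_⟩
  · exact measurable_const.mul ((hm.sub (continuous_chi.measurable.comp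
      (measurable_id.div_const _))).div measurable_id)
  · simp only [hw3, neg_div, chi_neg, div_neg, mul_neg]
  · by_contra hlt
    push Not at hlt
    apply ht
    have : chi (t / 2 ^ a) = 1 := chi_eq_one (by
      rw [abs_div, abs_of_pos hp, le_div_iff₀ hp]; exact hlt)
    simp only [this, hw1 t (by linarith), sub_self, zero_div, mul_zero]
  · rw [abs_mul, e1]
    refine (mul_le_of_le_one_left (abs_nonneg _) he).trans ((abs_sub _ _).trans ?_)
    have b1 := pk_bd hb (hw2 t) (hsup t)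
    rw [pk_pow1] at b1
    have b2 : |chi (t / 2 ^ a) / (t / 2 ^ a) / 2 ^ a| ≤ c / 2 ^ a := by
      rw [abs_div _ (2 ^ a), abs_of_pos hp]
      exact div_le_div_of_nonneg_right (hc1 _) hp.le
    have b3 : (c + 4) / 2 ^ a = c / 2 ^ a + 2 / 2 ^ a + 2 / 2 ^ a := by ring
    have b4 : (0 : ℝ) ≤ 2 / 2 ^ a := by positivity
    linarith
  · rw [← mul_sub, abs_mul, e1, e1]
    refine (mul_le_of_le_one_left (abs_nonneg _) he).trans ?_
    have hxy' : w y = w x := by
      rcases pk_avoid (hb.trans h1) (hJ ρ (by simp)) (hJ (-ρ) (by simp)) hxy with h | h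
      · rw [hw1 x h.1, hw1 y h.2.1]
      · rw [hw0 x h.1, hw0 y h.2]
    have b1 := pk_lip hb (hw2 x) hxy fun h => ⟨hsup x h, hsup y (hxy' ▸ h)⟩
    rw [pk_pow2] at b1
    have b2 : |chi (y / 2 ^ a) / (y / 2 ^ a) / 2 ^ a - chi (x / 2 ^ a) / (x / 2 ^ a) / 2 ^ a| ≤
        c / 4 ^ a * (y - x) := by
      rw [← sub_div, abs_div _ (2 ^ a), abs_of_pos hp]
      refine (div_le_div_of_nonneg_right (hc2 _ _) hp.le).trans (le_of_eq ?_)
      rw [← sub_div, abs_div, abs_of_pos hp, abs_of_nonneg (sub_nonneg.2 hxy), pk_pow4]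
      field_simp
    have b3 : (c + 4) / 4 ^ a * (y - x) = c / 4 ^ a * (y - x) + 4 / 4 ^ a * (y - x) := by ring
    rw [hxy', sub_sub_sub_comm]
    refine (abs_sub _ _).trans ?_
    linarith

theorem rkr_end : ∃ c : ℝ, 4 ≤ c ∧ ∀ (a : ℤ) (ρ e : ℝ), (2 : ℝ) ^ (a - 1) < ρ → ρ ≤ (2 : ℝ) ^ a →
    |e| ≤ 1 →
    RKR c a (fun t => e * (((if ρ < |t| then 1 else 0) - chi (t / (2 : ℝ) ^ a)) / t)) {ρ, -ρ} ∧
    RKR c a (fun t => e * (((if ρ ≤ |t| then 1 else 0) - chi (t / (2 : ℝ) ^ a)) / t)) {ρ, -ρ} := by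
  obtain ⟨c, hc, hc1, hc2⟩ := om_bound
  refine ⟨c + 4, by linarith, fun a ρ e h1 h2 he => ⟨?_, ?_⟩⟩
  · refine rkr_end_aux hc hc1 hc2 a h1 h2 he (fun t => if ρ < |t| then 1 else 0) ?_
      (fun t ht => if_neg (by linarith)) (fun t ht => if_pos ht)
      (fun t => by split_ifs <;> simp) (fun t => by simp only [abs_neg])
    exact Measurable.ite (measurableSet_lt measurable_const continuous_abs.measurable)
      measurable_const measurable_const
  · refine rkr_end_aux hc hc1 hc2 a h1 h2 he (fun t => if ρ ≤ |t| then 1 else 0) ?_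
      (fun t ht => if_neg (by linarith)) (fun t ht => if_pos ht.le)
      (fun t => by split_ifs <;> simp) (fun t => by simp only [abs_neg])
    exact Measurable.ite (measurableSet_le measurable_const continuous_abs.measurable)
      measurable_const measurable_const

theorem rkr_short {ι : Type} (s : Finset ι) (ε R e : ι → ℝ) (a : ℤ) {c : ℝ} (hc : 4 ≤ c)
    (h : ∀ j ∈ s, (2 : ℝ) ^ (a - 1) < ε j ∧ ε j < R j ∧ R j ≤ (2 : ℝ) ^ a) (he : ∀ j ∈ s, |e j| ≤ 1)
    (hd : ∀ i ∈ s, ∀ j ∈ s, i ≠ j → R i ≤ ε j ∨ R j ≤ ε i) :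
    ∃ J : Finset ℝ, J.card ≤ 4 * s.card ∧
      RKR c a (fun t => ∑ j ∈ s, e j * ((if ε j < |t| ∧ |t| < R j then 1 else 0) / t)) J := by
  classical
  have hp : (0 : ℝ) < 2 ^ a := by positivity
  have hb : (0 : ℝ) < 2 ^ (a - 1) := by positivity
  let w : ℝ → ℝ := fun t => ∑ j ∈ s, e j * (if ε j < |t| ∧ |t| < R j then 1 else 0)
  have hκ : (fun t => ∑ j ∈ s, e j * ((if ε j < |t| ∧ |t| < R j then 1 else 0) / t)) =
      fun t => w t / t := by
    funext t
    simp only [w, Finset.sum_div, mul_div_assoc]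
  have hex : ∀ t, w t ≠ 0 → ∃ j ∈ s, ε j < |t| ∧ |t| < R j := by
    intro t ht
    obtain ⟨j, hj, h0⟩ := Finset.exists_ne_zero_of_sum_ne_zero ht
    refine ⟨j, hj, ?_⟩
    by_contra hn
    simp [hn] at h0
  have hw1 : ∀ t, |w t| ≤ 1 := by
    intro t
    by_cases ht : w t = 0
    · simp [ht]
    obtain ⟨j, hj, hj1, hj2⟩ := hex t ht
    have : w t = e j := by
      simp only [w]
      rw [Finset.sum_eq_single j, if_pos ⟨hj1, hj2⟩, mul_one]
      · intro i hi hij
        rw [if_neg, mul_zero]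
        rintro ⟨a1, a2⟩
        rcases hd i hi j hj hij with h' | h' <;> linarith
      · exact fun hn => absurd hj hn
    rw [this]
    exact he j hj
  have hsup : ∀ t, w t ≠ 0 → (2 : ℝ) ^ (a - 1) < |t| := fun t ht => by
    obtain ⟨j, hj, hj1, -⟩ := hex t ht
    exact (h j hj).1.trans hj1
  refine ⟨(s.image ε ∪ s.image fun j => -ε j) ∪ (s.image R ∪ s.image fun j => -R j), ?_, ?_⟩
  · have c1 := Finset.card_union_le (s.image ε ∪ s.image fun j => -ε j)
      (s.image R ∪ s.image fun j => -R j)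
    have c2 := Finset.card_union_le (s.image ε) (s.image fun j => -ε j)
    have c3 := Finset.card_union_le (s.image R) (s.image fun j => -R j)
    have c4 := Finset.card_image_le (s := s) (f := ε)
    have c5 := Finset.card_image_le (s := s) (f := fun j => -ε j)
    have c6 := Finset.card_image_le (s := s) (f := R)
    have c7 := Finset.card_image_le (s := s) (f := fun j => -R j)
    omega
  rw [hκ]
  refine ⟨?_, fun t => ?_, fun t ht => ?_, fun t => ?_, fun x y hxy hJ => ?_⟩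
  · refine Measurable.div (Finset.measurable_sum _ fun j _ => measurable_const.mul ?_) measurable_id
    exact Measurable.ite ((measurableSet_lt measurable_const continuous_abs.measurable).inter
      (measurableSet_lt continuous_abs.measurable measurable_const)) measurable_const
      measurable_const
  · simp only [w, abs_neg, div_neg]
  · obtain ⟨j, hj, -, hj2⟩ := hex t fun h0 => ht (by simp [h0])
    linarith [(h j hj).2.2]
  · have b1 := pk_bd hb (hw1 t) (hsup t)
    rw [pk_pow1] at b1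
    exact b1.trans (div_le_div_of_nonneg_right (by linarith) hp.le)
  · have hxy' : w y = w x := by
      refine Finset.sum_congr rfl fun j hj => ?_
      obtain ⟨j1, j2, j3⟩ := h j hj
      have a1 := pk_avoid (hb.trans j1) (hJ (ε j) (by
        simp only [Finset.mem_union, Finset.mem_image]; exact Or.inl (Or.inl ⟨j, hj, rfl⟩)))
        (hJ (-ε j) (by
        simp only [Finset.mem_union, Finset.mem_image]; exact Or.inl (Or.inr ⟨j, hj, rfl⟩))) hxy
      have a2 := pk_avoid ((hb.trans j1).trans j2) (hJ (R j) (by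
        simp only [Finset.mem_union, Finset.mem_image]; exact Or.inr (Or.inl ⟨j, hj, rfl⟩)))
        (hJ (-R j) (by
        simp only [Finset.mem_union, Finset.mem_image]; exact Or.inr (Or.inr ⟨j, hj, rfl⟩))) hxy
      congr 1
      refine if_congr ?_ rfl rfl
      rcases a1 with a1 | a1 <;> rcases a2 with a2 | a2
      · exact ⟨fun h => absurd h.2 (by linarith [a2.2.1]), fun h => absurd h.2 (by linarith [a2.1])⟩
      · exact ⟨fun _ => ⟨a1.1, a2.1⟩, fun _ => ⟨a1.2.1, a2.2⟩⟩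
      · exact ⟨fun h => absurd h.1 (by linarith [a1.2]), fun h => absurd h.1 (by linarith [a1.1])⟩
      · exact ⟨fun h => absurd h.1 (by linarith [a1.2]), fun h => absurd h.1 (by linarith [a1.1])⟩
    have b1 := pk_lip hb (hw1 x) hxy fun h => ⟨hsup x h, hsup y (hxy' ▸ h)⟩
    rw [pk_pow2] at b1
    rw [hxy']
    refine b1.trans (mul_le_mul_of_nonneg_right ?_ (sub_nonneg.2 hxy))
    exact div_le_div_of_nonneg_right hc (by positivity)

end Crest.Agent.R72
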