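import Crest.Agent.R72.Rough

/-!
The rough part at a point.  PLAN.  For large `K` put `δ = 1/2^(K+2)`, `k i = (a i + K + 2).toNat` (`0 ≤ a i + K + 2 ≤ 2K`), `L = 2K`.
* `RKR.sample`: the midpoint samples `n ↦ δ κ (δ (n + 1/2))` form an `RK c k` kernel (`sum0` by the involution `n ↦ -1 - n`), with jump set
  `{n | ∃ w ∈ J, δ (n + 1/2) ≤ w ≤ δ (n + 3/2)}`, e.g. `J.biUnion (fun w => {⌊w/δ - 1/2⌋, ⌊w/δ - 1/2⌋ - 1})`.
* `int_smooth`: `∫ ϑ in [0,1], ∑_t smooth κ̃ t * φ (δ (t + ϑ)) = ∫ s, smooth κ̃ ⌊s/δ⌋ / δ * φ s`.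
* `smooth_tendsto`: `smooth κ̃ ⌊s/δ⌋ / δ = ∑_d (4 - |d|)/16 κ (δ (⌊s/δ⌋ + d + 1/2)) → κ s` for `s ∉ J`; dominated by `c / 2^a` on a fixed bounded interval; DCT.
* `rough_disc` for each `ϑ` (with `2 ν`), integrate over `ϑ ∈ [0,1]`; the error is
  `C c (∑ 2^(a i + K + 2 - 2K)) ∫_ϑ unif (2K+3) |samp| 0` and `∫_ϑ unif (2K+3) |samp φ δ ϑ| 0 = (∫_{[-r,r]} |φ|) / (2 r) ≤ M/2` for `r = 2^(K+1)`; it tends to `0`.
  So `ofReal |x_K| ≤ b_K + ofReal e_K`, `x_K → x`, `e_K → 0`, whence `ofReal |x| ≤ liminf b_K`.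
-/

set_option autoImplicit false

namespace Crest.Agent.R72

open Matrix Finset MeasureTheory
open scoped ENNReal

theorem pr_pow {a : ℤ} {m k : ℕ} (hk : (k : ℤ) = a + m) (b : ℝ) (hb : 0 < b) :
    b ^ a = b ^ k * (1 / b ^ m) := by
  have h1 : a = (k : ℤ) - m := by omega
  rw [h1, zpow_sub₀ hb.ne', zpow_natCast, zpow_natCast]
  field_simp

theorem RKR.sample {c : ℝ} {a : ℤ} {κ : ℝ → ℝ} {J : Finset ℝ} (h : RKR c a κ J) (m k : ℕ)
    (hk : (k : ℤ) = a + m) :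
    ∃ J' : Finset ℤ, J'.card ≤ 2 * J.card ∧
      RK c k (fun n : ℤ => 1 / 2 ^ m * κ (1 / 2 ^ m * ((n : ℝ) + 1 / 2))) J' := by
  classical
  set δ : ℝ := 1 / 2 ^ m with hδ
  have hδ0 : 0 < δ := by positivity
  have h2 : (2 : ℝ) ^ a = 2 ^ k * δ := pr_pow hk 2 (by norm_num)
  have h4 : (4 : ℝ) ^ a = 4 ^ k * δ ^ 2 := by
    rw [pr_pow hk 4 (by norm_num), hδ, _root_.one_div_pow, ← pow_mul, mul_comm m 2, pow_mul]
    norm_num
  refine ⟨J.biUnion (fun w => {⌊w / δ - 1 / 2⌋, ⌊w / δ - 1 / 2⌋ - 1}), ?_, ?_, ?_, ?_, ?_⟩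
  · refine (Finset.card_biUnion_le).trans ?_
    calc ∑ w ∈ J, ({⌊w / δ - 1 / 2⌋, ⌊w / δ - 1 / 2⌋ - 1} : Finset ℤ).card ≤ ∑ w ∈ J, 2 :=
          Finset.sum_le_sum fun w _ => Finset.card_le_two
      _ = 2 * J.card := by simp [mul_comm]
  · intro t ht
    have h1 : κ (δ * ((t : ℝ) + 1 / 2)) ≠ 0 := fun h0 => ht (by simp only [h0, mul_zero])
    have h3 := h.supp _ h1
    rw [h2, abs_mul, abs_of_pos hδ0] at h3
    have h5 : |(t : ℝ) + 1 / 2| < 3 * 2 ^ k := by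
      have : δ * |(t : ℝ) + 1 / 2| < δ * (3 * 2 ^ k) := by linarith
      exact lt_of_mul_lt_mul_left this hδ0.le
    rw [abs_lt] at h5
    constructor
    · have : ((-3 * 2 ^ k - 1 : ℤ) : ℝ) < t := by push_cast; linarith
      have := Int.cast_lt.mp this
      omega
    · have : (t : ℝ) < ((3 * 2 ^ k : ℤ) : ℝ) := by push_cast; linarith
      exact Int.cast_lt.mp this
  · refine Finset.sum_involution (fun n _ => -1 - n) ?_ ?_ ?_ ?_
    · intro n _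
      have : δ * (((-1 - n : ℤ) : ℝ) + 1 / 2) = -(δ * ((n : ℝ) + 1 / 2)) := by push_cast; ring
      simp only [this, h.odd]
      ring
    · intro n _ _
      omega
    · intro n hn
      simp only [Finset.mem_Ico] at hn ⊢
      omega
    · intro n _
      ring
  · intro t
    rw [abs_mul, abs_of_pos hδ0]
    calc δ * |κ (δ * ((t : ℝ) + 1 / 2))| ≤ δ * (c / 2 ^ a) := by gcongr; exact h.bd _
      _ = c / 2 ^ k := by rw [h2]; field_simp
  · intro t ht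
    have h1 := h.lip (δ * ((t : ℝ) + 1 / 2)) (δ * (((t + 1 : ℤ) : ℝ) + 1 / 2))
      (by push_cast; nlinarith) (by
        intro w hw hmem
        apply ht
        simp only [Finset.mem_biUnion, Finset.mem_insert, Finset.mem_singleton]
        refine ⟨w, hw, ?_⟩
        obtain ⟨h5, h6⟩ := hmem
        have h7 : (t : ℝ) ≤ w / δ - 1 / 2 := by
          rw [le_sub_iff_add_le, le_div_iff₀ hδ0]; linarith
        have h8 : w / δ - 1 / 2 < ((t + 2 : ℤ) : ℝ) := by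
          rw [sub_lt_iff_lt_add, div_lt_iff₀ hδ0]; push_cast at h6 ⊢; nlinarith
        have h9 := Int.le_floor.mpr h7
        have h10 := Int.floor_lt.mpr h8
        omega)
    rw [← mul_sub, abs_mul, abs_of_pos hδ0]
    calc δ * |κ (δ * (((t + 1 : ℤ) : ℝ) + 1 / 2)) - κ (δ * ((t : ℝ) + 1 / 2))|
        ≤ δ * (c / 4 ^ a * (δ * (((t + 1 : ℤ) : ℝ) + 1 / 2) - δ * ((t : ℝ) + 1 / 2))) := by gcongr
      _ = c / 4 ^ k := by rw [h4]; push_cast; field_simp; ring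

theorem pr_cell_int {φ : ℝ → ℝ} (hφ : ∀ r : ℝ, IntegrableOn φ (Set.Icc (-r) r)) (u v : ℝ) :
    IntegrableOn φ (Set.Icc u v) := by
  refine (hφ (max |u| |v|)).mono_set (Set.Icc_subset_Icc ?_ ?_)
  · have := neg_abs_le u
    have := le_max_left |u| |v|
    linarith
  · exact (le_abs_self v).trans (le_max_right _ _)

theorem pr_shift_int {φ : ℝ → ℝ} (hφ : ∀ r : ℝ, IntegrableOn φ (Set.Icc (-r) r)) {δ : ℝ}
    (hδ : 0 < δ) (t : ℝ) : IntegrableOn (fun ϑ => φ (δ * (t + ϑ))) (Set.Icc (0 : ℝ) 1) := by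
  have h1 : IntervalIntegrable φ volume (δ * t) (δ * t + δ) :=
    (intervalIntegrable_iff_integrableOn_Icc_of_le (by linarith)).mpr (pr_cell_int hφ _ _)
  have h2 := (h1.comp_add_left (δ * t)).comp_mul_left (c := δ)
  have h3 : (δ * t - δ * t) / δ = 0 := by simp
  have h4 : (δ * t + δ - δ * t) / δ = 1 := by field_simp; ring
  rw [h3, h4] at h2
  have h5 := (intervalIntegrable_iff_integrableOn_Icc_of_le (zero_le_one)).mp h2
  simpa only [mul_add] using h5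

theorem pr_shift_eq (φ : ℝ → ℝ) {δ : ℝ} (hδ : 0 < δ) (t : ℝ) :
    ∫ ϑ in Set.Icc (0 : ℝ) 1, φ (δ * (t + ϑ)) =
      1 / δ * ∫ s in Set.Ico (δ * t) (δ * (t + 1)), φ s := by
  have h1 := intervalIntegral.integral_comp_mul_add (a := 0) (b := 1) φ hδ.ne' (δ * t)
  rw [intervalIntegral.integral_of_le zero_le_one, intervalIntegral.integral_of_le (by linarith)]
    at h1
  rw [integral_Icc_eq_integral_Ioc, integral_Ico_eq_integral_Ioo, ← integral_Ioc_eq_integral_Ioo]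
  have h2 : (fun ϑ => φ (δ * (t + ϑ))) = fun x => φ (δ * x + δ * t) := by
    funext x; congr 1; ring
  rw [h2, h1, smul_eq_mul, one_div]
  have e1 : δ * 0 + δ * t = δ * t := by ring
  have e2 : δ * 1 + δ * t = δ * (t + 1) := by ring
  rw [e1, e2]

/-- the lattice formula -/
theorem pr_lattice {φ : ℝ → ℝ} (hφ : ∀ r : ℝ, IntegrableOn φ (Set.Icc (-r) r)) {δ : ℝ}
    (hδ : 0 < δ) (w : ℤ → ℝ) (W : Finset ℤ) (hW : ∀ t, w t ≠ 0 → t ∈ W) :
    ∫ ϑ in Set.Icc (0 : ℝ) 1, ∑ t ∈ W, w t * φ (δ * ((t : ℝ) + ϑ)) =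
      ∫ s, w ⌊s / δ⌋ / δ * φ s := by
  classical
  rw [integral_finsetSum (f := fun (t : ℤ) ϑ => w t * φ (δ * ((t : ℝ) + ϑ))) _
    fun t _ => (pr_shift_int hφ hδ t).const_mul _]
  have h1 : (fun s => w ⌊s / δ⌋ / δ * φ s) = fun s => ∑ t ∈ W,
      (Set.Ico (δ * t) (δ * ((t : ℝ) + 1))).indicator (fun s => w t / δ * φ s) s := by
    funext s
    have h2 : ∀ t : ℤ, s ∈ Set.Ico (δ * t) (δ * ((t : ℝ) + 1)) ↔ ⌊s / δ⌋ = t := by
      intro t
      rw [Int.floor_eq_iff, le_div_iff₀ hδ, div_lt_iff₀ hδ, Set.mem_Ico, mul_comm δ, mul_comm δ]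
    simp only [Set.indicator_apply, h2]
    rw [Finset.sum_ite_eq]
    split_ifs with h3
    · rfl
    · have : w ⌊s / δ⌋ = 0 := by by_contra h4; exact h3 (hW _ h4)
      simp [this]
  rw [h1, integral_finsetSum]
  · refine Finset.sum_congr rfl fun t _ => ?_
    rw [integral_indicator measurableSet_Ico, integral_const_mul, integral_const_mul,
      pr_shift_eq φ hδ]
    ring
  · intro t _
    rw [integrable_indicator_iff measurableSet_Ico]
    exact ((pr_cell_int hφ _ _).mono_set Set.Ico_subset_Icc_self).const_mul _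

theorem pr_near (δ : ℝ) (hδ : 0 < δ) (d s : ℝ) : |δ * ((⌊s / δ⌋ : ℝ) + d) - s| ≤ δ * (|d| + 1) := by
  have h1 := Int.floor_le (s / δ)
  have h2 := Int.lt_floor_add_one (s / δ)
  have h3 : δ * ((⌊s / δ⌋ : ℝ) + d) - s = δ * ((⌊s / δ⌋ : ℝ) - s / δ + d) := by field_simp; ring
  rw [h3, abs_mul, abs_of_pos hδ]
  gcongr
  have h4 := le_abs_self d
  have h5 := neg_abs_le d
  rw [abs_le]
  constructor <;> linarith

theorem RKR.continuousAt {c : ℝ} {a : ℤ} {κ : ℝ → ℝ} {J : Finset ℝ} (h : RKR c a κ J) {s : ℝ}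
    (hs : s ∉ J) : ContinuousAt κ s := by
  have hcl : IsClosed (J : Set ℝ) := J.finite_toSet.isClosed
  obtain ⟨η, hη, hb⟩ := Metric.isOpen_iff.mp hcl.isOpen_compl s hs
  have key : ∀ y ∈ Metric.ball s η, |κ y - κ s| ≤ c / (4 : ℝ) ^ a * |y - s| := by
    intro y hy
    have hy' : |y - s| < η := by simpa [Real.dist_eq] using hy
    rw [abs_lt] at hy'
    rcases le_total s y with h1 | h1
    · rw [abs_of_nonneg (sub_nonneg.mpr h1)]
      refine h.lip s y h1 fun w hw hm => hb (a := w) ?_ hw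
      rw [Metric.mem_ball, Real.dist_eq, abs_lt]
      constructor <;> linarith [hm.1, hm.2]
    · rw [abs_sub_comm, abs_of_nonpos (sub_nonpos.mpr h1), neg_sub]
      refine h.lip y s h1 fun w hw hm => hb (a := w) ?_ hw
      rw [Metric.mem_ball, Real.dist_eq, abs_lt]
      constructor <;> linarith [hm.1, hm.2]
  rw [ContinuousAt, tendsto_iff_norm_sub_tendsto_zero]
  have h0 : Filter.Tendsto (fun y => c / (4 : ℝ) ^ a * |y - s|) (nhds s) (nhds 0) := by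
    have : Continuous fun y : ℝ => c / (4 : ℝ) ^ a * |y - s| := by fun_prop
    simpa using this.tendsto s
  refine squeeze_zero' (Filter.Eventually.of_forall fun _ => norm_nonneg _) ?_ h0
  filter_upwards [Metric.ball_mem_nhds s hη] with y hy using key y hy

theorem pr_delta_tendsto : Filter.Tendsto (fun K : ℕ => (1 : ℝ) / 2 ^ (K + 2)) Filter.atTop (nhds 0) := by
  have h := (tendsto_pow_atTop_nhds_zero_of_lt_one (r := (1 / 2 : ℝ)) (by norm_num)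
    (by norm_num)).comp (Filter.tendsto_add_atTop_nat 2)
  refine h.congr fun K => ?_
  simp [Function.comp]

theorem pr_bound {c : ℝ} {a : ℤ} {κ : ℝ → ℝ} {J : Finset ℝ} (h : RKR c a κ J) (φ : ℝ → ℝ)
    {δ : ℝ} (hδ : 0 < δ) (hδ1 : δ ≤ 1) (d s : ℝ) :
    ‖κ (δ * ((⌊s / δ⌋ : ℝ) + d)) * φ s‖ ≤
      (Set.Icc (-(3 * (2 : ℝ) ^ a + |d| + 1)) (3 * (2 : ℝ) ^ a + |d| + 1)).indicator
        (fun s => c / (2 : ℝ) ^ a * |φ s|) s := by
  have hc : 0 ≤ c / (2 : ℝ) ^ a := (abs_nonneg _).trans (h.bd 0)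
  by_cases h0 : κ (δ * ((⌊s / δ⌋ : ℝ) + d)) = 0
  · rw [h0, zero_mul, norm_zero]
    exact Set.indicator_nonneg (fun _ _ => by positivity) _
  · have h1 := h.supp _ h0
    have h2 := pr_near δ hδ d s
    have h3 : δ * (|d| + 1) ≤ |d| + 1 := by
      have := abs_nonneg d
      nlinarith
    rw [abs_lt] at h1
    rw [abs_le] at h2
    rw [Set.indicator_of_mem (by constructor <;> linarith [h1.1, h1.2, h2.1, h2.2]),
      Real.norm_eq_abs, abs_mul]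
    gcongr
    exact h.bd _

theorem pr_meas {κ φ : ℝ → ℝ} (hκ : Measurable κ) (hφ : Measurable φ) (δ d : ℝ) :
    Measurable fun s => κ (δ * ((⌊s / δ⌋ : ℝ) + d)) * φ s := by
  refine (hκ.comp ?_).mul hφ
  have h1 : Measurable fun s : ℝ => (⌊s / δ⌋ : ℝ) :=
    (measurable_from_top (f := fun n : ℤ => (n : ℝ))).comp
      (Int.measurable_floor.comp (measurable_id.div_const δ))
  exact (h1.add_const d).const_mul δ

theorem pr_bound_int {φ : ℝ → ℝ} (hφ : Tame φ) (r b : ℝ) :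
    Integrable ((Set.Icc (-r) r).indicator (fun s => b * |φ s|)) := by
  rw [integrable_indicator_iff measurableSet_Icc]
  exact (hφ.2.1 r).abs.const_mul _

theorem pr_int {c : ℝ} {a : ℤ} {κ : ℝ → ℝ} {J : Finset ℝ} (h : RKR c a κ J) {φ : ℝ → ℝ}
    (hφ : Tame φ) {δ : ℝ} (hδ : 0 < δ) (hδ1 : δ ≤ 1) (d : ℝ) :
    Integrable fun s => κ (δ * ((⌊s / δ⌋ : ℝ) + d)) * φ s :=
  (pr_bound_int hφ _ _).mono' (pr_meas h.meas hφ.1 δ d).aestronglyMeasurable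
    (Filter.Eventually.of_forall (pr_bound h φ hδ hδ1 d))

theorem pr_delta_le (K : ℕ) : (1 : ℝ) / 2 ^ (K + 2) ≤ 1 := by
  rw [div_le_one (by positivity)]
  exact one_le_pow₀ (by norm_num)

theorem pr_tendsto {c : ℝ} {a : ℤ} {κ : ℝ → ℝ} {J : Finset ℝ} (h : RKR c a κ J) {φ : ℝ → ℝ}
    (hφ : Tame φ) (d : ℝ) :
    Filter.Tendsto (fun K : ℕ => ∫ s, κ (1 / 2 ^ (K + 2) * ((⌊s / (1 / 2 ^ (K + 2))⌋ : ℝ) + d)) * φ s)
      Filter.atTop (nhds (∫ s, κ s * φ s)) := by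
  refine tendsto_integral_of_dominated_convergence _
    (fun K => (pr_meas h.meas hφ.1 _ d).aestronglyMeasurable) (pr_bound_int hφ _ _)
    (fun K => Filter.Eventually.of_forall
      (pr_bound h φ (by positivity) (pr_delta_le K) d)) ?_
  have hJ : ∀ᵐ s : ℝ, s ∉ (J : Set ℝ) := by
    have := J.finite_toSet.measure_zero (volume : Measure ℝ)
    exact measure_eq_zero_iff_ae_notMem.mp this
  filter_upwards [hJ] with s hs
  refine Filter.Tendsto.mul_const _ ((h.continuousAt hs).tendsto.comp ?_)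
  rw [tendsto_iff_norm_sub_tendsto_zero]
  have h0 := pr_delta_tendsto.mul_const (|d| + 1)
  rw [zero_mul] at h0
  exact squeeze_zero (fun _ => norm_nonneg _) (fun K => pr_near _ (by positivity) d s) h0

/-- the smoothed and sampled pairing -/
noncomputable def prX (κ φ : ℝ → ℝ) (δ : ℝ) : ℝ :=
  ∑ d ∈ Finset.Icc (-3 : ℤ) 3, (4 - |(d : ℝ)|) / 16 *
    ∫ s, κ (δ * ((⌊s / δ⌋ : ℝ) + ((d : ℝ) + 1 / 2))) * φ s

theorem prX_tendsto {c : ℝ} {a : ℤ} {κ : ℝ → ℝ} {J : Finset ℝ} (h : RKR c a κ J) {φ : ℝ → ℝ}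
    (hφ : Tame φ) :
    Filter.Tendsto (fun K : ℕ => prX κ φ (1 / 2 ^ (K + 2))) Filter.atTop (nhds (∫ s, κ s * φ s)) := by
  have h1 := tendsto_finsetSum (Finset.Icc (-3 : ℤ) 3) fun d _ =>
    (pr_tendsto h hφ ((d : ℝ) + 1 / 2)).const_mul ((4 - |(d : ℝ)|) / 16)
  have h2 : ∑ d ∈ Finset.Icc (-3 : ℤ) 3, (4 - |(d : ℝ)|) / 16 * ∫ s, κ s * φ s = ∫ s, κ s * φ s := by
    rw [← Finset.sum_mul]
    have : ∑ d ∈ Finset.Icc (-3 : ℤ) 3, (4 - |(d : ℝ)|) / 16 = 1 := by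
      have : Finset.Icc (-3 : ℤ) 3 = {-3, -2, -1, 0, 1, 2, 3} := by decide
      rw [this]
      simp [abs_of_nonneg]
      norm_num
    rw [this, one_mul]
  rw [h2] at h1
  exact h1

theorem pr_smooth_supp {c : ℝ} {k : ℕ} {κ : ℤ → ℝ} {J : Finset ℤ} (h : RK c k κ J) {t : ℤ}
    (ht : smooth κ t ≠ 0) : |t| ≤ 3 * 2 ^ k + 3 := by
  obtain ⟨d, hd, h0⟩ := Finset.exists_ne_zero_of_sum_ne_zero ht
  have h1 := h.supp _ (right_ne_zero_of_mul h0)
  rw [Finset.mem_Icc] at hd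
  rw [abs_le]
  constructor <;> omega

theorem int_smooth {c : ℝ} {a : ℤ} {κ : ℝ → ℝ} {J : Finset ℝ} (h : RKR c a κ J) {φ : ℝ → ℝ}
    (hφ : Tame φ) {δ : ℝ} (hδ : 0 < δ) (hδ1 : δ ≤ 1) (W : Finset ℤ)
    (hW : ∀ t, smooth (fun n : ℤ => δ * κ (δ * ((n : ℝ) + 1 / 2))) t ≠ 0 → t ∈ W) :
    ∫ ϑ in Set.Icc (0 : ℝ) 1, ∑ t ∈ W,
      smooth (fun n : ℤ => δ * κ (δ * ((n : ℝ) + 1 / 2))) t * samp φ δ ϑ t = prX κ φ δ := by
  unfold samp
  rw [pr_lattice hφ.2.1 hδ _ W hW, prX]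
  simp only [← integral_const_mul]
  rw [← integral_finsetSum _ fun d _ => (pr_int h hφ hδ hδ1 _).const_mul _]
  congr 1
  funext s
  unfold smooth
  rw [Finset.sum_div, Finset.sum_mul]
  refine Finset.sum_congr rfl fun d _ => ?_
  push_cast
  rw [add_assoc]
  field_simp

theorem pr_err_int {φ : ℝ → ℝ} (hφ : Tame φ) {δ : ℝ} (hδ : 0 < δ) (j : ℕ) :
    IntegrableOn (fun ϑ => unif j (fun t => |samp φ δ ϑ t|) 0) (Set.Icc (0 : ℝ) 1) := by
  unfold unif samp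
  exact integrable_finsetSum _ fun t _ => (pr_shift_int hφ.2.1 hδ _).abs.const_mul _

theorem pr_err {φ : ℝ → ℝ} (hφ : Tame φ) {δ : ℝ} (hδ : 0 < δ) (j : ℕ) {M : ℝ}
    (hM : ∫ t in Set.Icc (-(δ * 2 ^ j)) (δ * 2 ^ j), |φ t| ≤ M * (δ * 2 ^ j)) :
    ∫ ϑ in Set.Icc (0 : ℝ) 1, unif j (fun t => |samp φ δ ϑ t|) 0 ≤ M / 2 := by
  classical
  have h1 := pr_lattice (φ := fun s => |φ s|) (fun r => (hφ.2.1 r).abs) hδ
    (fun t => if t ∈ Finset.Ico (-(2 : ℤ) ^ j) (2 ^ j) then 1 / 2 ^ (j + 1) else 0)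
    (Finset.Ico (-(2 : ℤ) ^ j) (2 ^ j)) (fun t ht => by by_contra h; exact ht (if_neg h))
  have h2 : ∀ ϑ : ℝ, unif j (fun t => |samp φ δ ϑ t|) 0 = ∑ t ∈ Finset.Ico (-(2 : ℤ) ^ j) (2 ^ j),
      (if t ∈ Finset.Ico (-(2 : ℤ) ^ j) (2 ^ j) then 1 / 2 ^ (j + 1) else 0) *
        |φ (δ * ((t : ℝ) + ϑ))| := by
    intro ϑ
    unfold unif samp
    refine Finset.sum_congr rfl fun t ht => ?_
    rw [if_pos ht, zero_add]
  simp only [h2]
  rw [h1]
  calc _ ≤ ∫ s, (Set.Icc (-(δ * 2 ^ j)) (δ * 2 ^ j)).indicator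
        (fun s => 1 / 2 ^ (j + 1) / δ * |φ s|) s := by
        refine integral_mono_of_nonneg (Filter.Eventually.of_forall fun s => ?_)
          (pr_bound_int hφ _ _) (Filter.Eventually.of_forall fun s => ?_)
        · dsimp only
          split_ifs <;> positivity
        · dsimp only
          split_ifs with h3
          · rw [Finset.mem_Ico, Int.le_floor, Int.floor_lt, le_div_iff₀ hδ, div_lt_iff₀ hδ] at h3
            push_cast at h3
            rw [Set.indicator_of_mem (by constructor <;> linarith [h3.1, h3.2])]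
          · rw [zero_div, zero_mul]
            exact Set.indicator_nonneg (fun _ _ => by positivity) _
    _ = 1 / 2 ^ (j + 1) / δ * ∫ t in Set.Icc (-(δ * 2 ^ j)) (δ * 2 ^ j), |φ t| := by
        rw [integral_indicator measurableSet_Icc, integral_const_mul]
    _ ≤ 1 / 2 ^ (j + 1) / δ * (M * (δ * 2 ^ j)) := by gcongr
    _ = M / 2 := by field_simp; ring

theorem pr_liminf {x e : ℕ → ℝ} {b : ℕ → ℝ≥0∞} {x0 : ℝ}
    (hx : Filter.Tendsto x Filter.atTop (nhds x0)) (he : Filter.Tendsto e Filter.atTop (nhds 0))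
    (he0 : ∀ K, 0 ≤ e K)
    (h : ∀ᶠ K in Filter.atTop, ENNReal.ofReal |x K| ≤ b K + ENNReal.ofReal (e K)) :
    ENNReal.ofReal |x0| ≤ Filter.liminf b Filter.atTop := by
  have h1 : Filter.Tendsto (fun K => ENNReal.ofReal (|x K| - e K)) Filter.atTop
      (nhds (ENNReal.ofReal |x0|)) := by
    have := ENNReal.tendsto_ofReal (hx.abs.sub he)
    rwa [sub_zero] at this
  rw [← h1.liminf_eq]
  refine Filter.liminf_le_liminf ?_
  filter_upwards [h] with K hK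
  rw [ENNReal.ofReal_sub _ (he0 K)]
  exact tsub_le_iff_right.mpr hK

theorem pr_step {C : ℝ} (hC0 : 0 ≤ C)
    (hC : ∀ {ι : Type} (s : Finset ι) (k : ι → ℕ) (κ : ι → ℤ → ℝ)
    (J : ι → Finset ℤ) (L : ℕ) (c ν : ℝ) (φ : ℤ → ℝ) (W : Finset ℤ), 2 ≤ L → 0 ≤ c →
    Set.InjOn k s → (∀ i ∈ s, k i ≤ L) → (∀ i ∈ s, RK c (k i) (κ i) (J i)) →
    (∑ i ∈ s, (((J i).card : ℝ) + 1) ≤ ν) →
    (∀ i ∈ s, ∀ t : ℤ, |t| ≤ 3 * 2 ^ k i + 3 → t ∈ W) →
    |∑ i ∈ s, ∑ t ∈ W, smooth (κ i) t * φ t| ≤ C * c * Real.sqrt ν * sqT L φ +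
      C * c * (∑ i ∈ s, (2 : ℝ) ^ k i / 2 ^ L) * unif (L + 3) (fun t => |φ t|) 0)
    {ι : Type} (s : Finset ι) (a : ι → ℤ) (κ : ι → ℝ → ℝ)
    (J : ι → Finset ℝ) (c ν : ℝ) (φ : ℝ → ℝ) (hφ : Tame φ) (hc : 0 ≤ c) (ha : Set.InjOn a s)
    (hκ : ∀ i ∈ s, RKR c (a i) (κ i) (J i)) (hν : ∑ i ∈ s, (((J i).card : ℝ) + 1) ≤ ν)
    {M : ℝ} (hM : ∀ r : ℝ, 1 ≤ r → ∫ t in Set.Icc (-r) r, |φ t| ≤ M * r)
    (K : ℕ) (hK : 1 ≤ K) (hK1 : ∀ i ∈ s, 0 ≤ a i + K + 2 ∧ a i + 2 ≤ K) :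
    ENNReal.ofReal |∑ i ∈ s, prX (κ i) φ (1 / 2 ^ (K + 2))| ≤
      ENNReal.ofReal (C * Real.sqrt 2 * c * Real.sqrt ν) * roughW K φ +
        ENNReal.ofReal (C * c * (∑ i ∈ s, (2 : ℝ) ^ a i) * 16 * (M / 2) * (1 / 2 ^ (K + 2))) := by
  classical
  set δ : ℝ := 1 / 2 ^ (K + 2) with hδ
  have hδ0 : 0 < δ := by positivity
  have hδ1 : δ ≤ 1 := pr_delta_le K
  set k : ι → ℕ := fun i => (a i + K + 2).toNat with hk
  have hk1 : ∀ i ∈ s, (k i : ℤ) = a i + ((K + 2 : ℕ) : ℤ) := by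
    intro i hi
    have := hK1 i hi
    simp only [hk]
    push_cast
    omega
  have hk2 : ∀ i ∈ s, k i ≤ 2 * K := by
    intro i hi
    have := hK1 i hi
    have := hk1 i hi
    omega
  have hJ : ∀ i, ∃ J' : Finset ℤ, i ∈ s → J'.card ≤ 2 * (J i).card ∧
      RK c (k i) (fun n : ℤ => δ * κ i (δ * ((n : ℝ) + 1 / 2))) J' := by
    intro i
    by_cases hi : i ∈ s
    · obtain ⟨J', h1⟩ := (hκ i hi).sample (K + 2) (k i) (hk1 i hi)
      exact ⟨J', fun _ => h1⟩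
    · exact ⟨∅, fun h => absurd h hi⟩
  choose J' hJ' using hJ
  set W : Finset ℤ := Finset.Icc (-(3 * 2 ^ (2 * K) + 3)) (3 * 2 ^ (2 * K) + 3) with hW
  have hW1 : ∀ i ∈ s, ∀ t : ℤ, |t| ≤ 3 * 2 ^ k i + 3 → t ∈ W := by
    intro i hi t ht
    have : (2 : ℤ) ^ k i ≤ 2 ^ (2 * K) := pow_le_pow_right₀ (by norm_num) (hk2 i hi)
    rw [abs_le] at ht
    rw [hW, Finset.mem_Icc]
    constructor <;> omega
  have hinj : Set.InjOn k s := by
    intro i hi j hj hij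
    apply ha hi hj
    have h1 := hk1 i hi
    have h2 := hk1 j hj
    omega
  have hν' : ∑ i ∈ s, (((J' i).card : ℝ) + 1) ≤ 2 * ν := by
    refine le_trans ?_ (mul_le_mul_of_nonneg_left hν (by norm_num))
    rw [Finset.mul_sum]
    refine Finset.sum_le_sum fun i hi => ?_
    have : ((J' i).card : ℝ) ≤ 2 * (J i).card := by exact_mod_cast (hJ' i hi).1
    linarith
  set E : ℝ := C * c * (∑ i ∈ s, (2 : ℝ) ^ k i / 2 ^ (2 * K)) with hE
  have hE0 : 0 ≤ E := by positivity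
  have hpt : ∀ ϑ : ℝ, |∑ i ∈ s, ∑ t ∈ W,
      smooth (fun n : ℤ => δ * κ i (δ * ((n : ℝ) + 1 / 2))) t * samp φ δ ϑ t| ≤
      C * Real.sqrt 2 * c * Real.sqrt ν * sqT (2 * K) (samp φ δ ϑ) +
        E * unif (2 * K + 3) (fun t => |samp φ δ ϑ t|) 0 := by
    intro ϑ
    have := hC s k (fun i (n : ℤ) => δ * κ i (δ * ((n : ℝ) + 1 / 2))) J' (2 * K) c (2 * ν)
      (samp φ δ ϑ) W (by omega) hc hinj hk2 (fun i hi => (hJ' i hi).2) hν' hW1
    rw [Real.sqrt_mul (by norm_num : (0 : ℝ) ≤ 2)] at this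
    refine this.trans (le_of_eq ?_)
    ring
  have hsum : ∑ i ∈ s, prX (κ i) φ δ = ∫ ϑ in Set.Icc (0 : ℝ) 1, ∑ i ∈ s, ∑ t ∈ W,
      smooth (fun n : ℤ => δ * κ i (δ * ((n : ℝ) + 1 / 2))) t * samp φ δ ϑ t := by
    rw [integral_finsetSum]
    · refine Finset.sum_congr rfl fun i hi => ?_
      exact (int_smooth (hκ i hi) hφ hδ0 hδ1 W
        fun t ht => hW1 i hi t (pr_smooth_supp (hJ' i hi).2 ht)).symm
    · intro i _
      exact integrable_finsetSum _ fun t _ => (pr_shift_int hφ.2.1 hδ0 _).const_mul _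
  have hr : δ * 2 ^ (2 * K + 3) = 2 ^ (K + 1) := by
    rw [hδ]; field_simp; ring
  have herr : ∫ ϑ in Set.Icc (0 : ℝ) 1, unif (2 * K + 3) (fun t => |samp φ δ ϑ t|) 0 ≤ M / 2 :=
    pr_err hφ hδ0 _ (hM _ (by rw [hr]; exact one_le_pow₀ (by norm_num)))
  have hEeq : E = C * c * (∑ i ∈ s, (2 : ℝ) ^ a i) * 16 * δ := by
    rw [hE, mul_assoc (C * c), mul_assoc (C * c), Finset.sum_mul, Finset.sum_mul]
    congr 1
    refine Finset.sum_congr rfl fun i hi => ?_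
    rw [pr_pow (hk1 i hi) 2 (by norm_num), hδ]
    field_simp
    ring
  have hu0 : ∀ ϑ : ℝ, 0 ≤ unif (2 * K + 3) (fun t => |samp φ δ ϑ t|) 0 := fun ϑ =>
    Finset.sum_nonneg fun _ _ => by positivity
  have hint := (pr_err_int hφ hδ0 (2 * K + 3)).const_mul E
  have hA : 0 ≤ C * Real.sqrt 2 * c * Real.sqrt ν := by positivity
  rw [hsum, ← Real.norm_eq_abs, ofReal_norm]
  refine (enorm_integral_le_lintegral_enorm _).trans ?_
  calc _ ≤ ∫⁻ ϑ in Set.Icc (0 : ℝ) 1, (ENNReal.ofReal (C * Real.sqrt 2 * c * Real.sqrt ν) *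
        ENNReal.ofReal (sqT (2 * K) (samp φ δ ϑ)) +
        ENNReal.ofReal (E * unif (2 * K + 3) (fun t => |samp φ δ ϑ t|) 0)) := by
        refine lintegral_mono fun ϑ => ?_
        rw [← ofReal_norm, Real.norm_eq_abs, ← ENNReal.ofReal_mul hA]
        exact (ENNReal.ofReal_le_ofReal (hpt ϑ)).trans ENNReal.ofReal_add_le
    _ = ENNReal.ofReal (C * Real.sqrt 2 * c * Real.sqrt ν) * roughW K φ +
        ENNReal.ofReal (∫ ϑ in Set.Icc (0 : ℝ) 1,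
          E * unif (2 * K + 3) (fun t => |samp φ δ ϑ t|) 0) := by
        rw [lintegral_add_right' _ hint.aemeasurable.ennreal_ofReal,
          lintegral_const_mul' _ _ ENNReal.ofReal_ne_top,
          ofReal_integral_eq_lintegral_ofReal hint
            (Filter.Eventually.of_forall fun ϑ => mul_nonneg hE0 (hu0 ϑ))]
        rfl
    _ ≤ _ := by
        gcongr
        rw [integral_const_mul]
        calc _ ≤ E * (M / 2) := by gcongr
          _ = _ := by rw [hEeq]; ring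

theorem point_rough : ∃ C : ℝ, 0 ≤ C ∧ ∀ {ι : Type} (s : Finset ι) (a : ι → ℤ) (κ : ι → ℝ → ℝ)
    (J : ι → Finset ℝ) (c ν : ℝ) (φ : ℝ → ℝ), Tame φ → 0 ≤ c → Set.InjOn a s →
    (∀ i ∈ s, RKR c (a i) (κ i) (J i)) → (∑ i ∈ s, (((J i).card : ℝ) + 1) ≤ ν) →
    ENNReal.ofReal |∑ i ∈ s, ∫ t, κ i t * φ t| ≤
      Filter.liminf (fun K : ℕ => ENNReal.ofReal (C * c * Real.sqrt ν) * roughW K φ)
        Filter.atTop := by
  obtain ⟨C, hC0, hC⟩ := rough_disc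
  refine ⟨C * Real.sqrt 2, by positivity, ?_⟩
  intro ι s a κ J c ν φ hφ hc ha hκ hν
  obtain ⟨M, hM⟩ := hφ.2.2
  have hM0 : 0 ≤ M := by
    have h1 := hM 1 le_rfl
    have h2 : 0 ≤ ∫ t in Set.Icc (-(1 : ℝ)) 1, |φ t| := integral_nonneg fun _ => abs_nonneg _
    linarith
  refine pr_liminf (x := fun K => ∑ i ∈ s, prX (κ i) φ (1 / 2 ^ (K + 2)))
    (e := fun K => C * c * (∑ i ∈ s, (2 : ℝ) ^ a i) * 16 * (M / 2) * (1 / 2 ^ (K + 2)))
    (tendsto_finsetSum _ fun i hi => prX_tendsto (hκ i hi) hφ) ?_ (fun K => by positivity) ?_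
  · simpa only [mul_zero] using pr_delta_tendsto.const_mul
      (C * c * (∑ i ∈ s, (2 : ℝ) ^ a i) * 16 * (M / 2))
  · have h1 : ∀ᶠ K : ℕ in Filter.atTop, ∀ i ∈ s, 0 ≤ a i + K + 2 ∧ a i + 2 ≤ K := by
      rw [Filter.eventually_all_finset]
      intro i _
      filter_upwards [Filter.eventually_ge_atTop ((a i).natAbs + 2)] with K hK
      omega
    filter_upwards [h1, Filter.eventually_ge_atTop 1] with K hK1 hK
    exact pr_step hC0 hC s a κ J c ν φ hφ hc ha hκ hν hM K hK hK1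

end Crest.Agent.R72
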