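import Crest.Agent.R72.PointLong
import Crest.Agent.R72.PointRough
import Crest.Agent.R72.PointK

/-!
The pointwise bound.  PLAN.  Choose signs `e j = ±1` with `|I j| = e j * I j`; `a j = Int.clog 2 (ε j)`, `b j = Int.clog 2 (R j)`
(`2^(a-1) < ε ≤ 2^a`), `a j ≤ b j`, and `R i ≤ ε j → b i ≤ a j`.  Write `I j = ∫ t, (1_{ε<|t|<R} / t) * φ t`.
* short annuli (`a j = b j`): group by the value of `a` (`Finset.sum_fiberwise_of_maps_to` over the image), `rkr_short`, `point_rough` with `ν = 5 n`.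
* long annuli (`a j < b j`): `1_{ε<|t|<R}/t = (1_{ε<|t|} - chi(t/2^a))/t - (1_{R≤|t|} - chi(t/2^b))/t + ∑_{a ≤ l < b} (chi(t/2^l) - chi(t/2^(l+1)))/t`.
  `a` and `b` are injective on the long annuli; `rkr_end` and `point_rough` with `ν = 5 n` twice.  The intervals `[a j, b j)` are pairwise disjoint, so for
  `K > max |a j|, |b j|` the pattern `σ l = ∑_j e j 1[a j ≤ l - K < b j]` has values in `{0, ±1}` and variation `≤ 2 n` (`exists_pattern`); `point_long`.
* all kernels are bounded, measurable, of bounded support, so the integrals split (`Tame` gives integrability on `[-r, r]`).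
* `x ≤ u_K` eventually and `y ≤ 3 liminf v_K` give `x + y ≤ liminf (u_K + 3 v_K)` (`ENNReal.le_liminf_add`-type lemma, `Filter.le_liminf_of_le`,
  `ENNReal.liminf_const_mul`-type lemma).  `C0 = max 8 (3 C c √5)`.
-/

set_option autoImplicit false

namespace Crest.Agent.R72

open Matrix Finset MeasureTheory
open scoped ENNReal

theorem exists_pattern {ι : Type} (s : Finset ι) (a b : ι → ℕ) (e : ι → ℝ) (L : ℕ)
    (he : ∀ j ∈ s, e j = 1 ∨ e j = -1) (hb : ∀ j ∈ s, b j ≤ L)
    (hd : ∀ i ∈ s, ∀ j ∈ s, i ≠ j → b i ≤ a j ∨ b j ≤ a i) :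
    ∃ σ : Fin L → SignType, tv L (ext σ) ≤ 2 * s.card ∧
      ∀ l, ext σ l = ∑ j ∈ s, if a j ≤ l ∧ l < b j then e j else 0 := by
  let f : ℕ → ℝ := fun l => ∑ j ∈ s, if a j ≤ l ∧ l < b j then e j else 0
  have hf : ∀ l, ext (fun l : Fin L => SignType.sign (f l)) l = f l := fun l => by
    by_cases h : ∃ j ∈ s, a j ≤ l ∧ l < b j
    · obtain ⟨j, hj, h⟩ := h
      have h1 : f l = e j := (Finset.sum_eq_single_of_mem j hj fun i hi hne =>
        if_neg (by have := hd i hi j hj hne; omega)).trans (if_pos h)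
      rw [ext, dif_pos (h.2.trans_le (hb j hj)), h1]
      rcases he j hj with h | h <;> simp [h]
    · have h1 : f l = 0 := Finset.sum_eq_zero fun j hj => if_neg fun h' => h ⟨j, hj, h'⟩
      simp [ext, h1]
  refine ⟨_, ?_, hf⟩
  simp only [tv, hf, f, ← Finset.sum_sub_distrib]
  refine (Finset.sum_le_sum fun l _ => Finset.abs_sum_le_sum_abs _ _).trans ?_
  rw [Finset.sum_comm, mul_comm, ← nsmul_eq_mul]
  refine Finset.sum_le_card_nsmul _ _ _ fun j hj => ?_
  have h1 : |e j| = 1 := by rcases he j hj with h | h <;> simp [h]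
  calc _ ≤ ∑ l ∈ Finset.range L, ((if a j - 1 = l then 1 else 0) + if b j - 1 = l then (1 : ℝ) else 0) := by
        refine Finset.sum_le_sum fun l _ => ?_
        split_ifs <;> first | omega | simp [h1]
    _ ≤ 2 := by
        rw [Finset.sum_add_distrib, Finset.sum_ite_eq, Finset.sum_ite_eq]
        split_ifs <;> norm_num

theorem Tame.integrable_mul {φ κ : ℝ → ℝ} (hφ : Tame φ) (hm : Measurable κ) {B r : ℝ}
    (hB : ∀ t, |κ t| ≤ B) (hs : ∀ t, κ t ≠ 0 → |t| ≤ r) : Integrable fun t => κ t * φ t :=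
  (integrableOn_iff_integrable_of_support_subset (s := Set.Icc (-r) r) fun t ht =>
    abs_le.1 (hs t (left_ne_zero_of_mul ht))).1
    ((hφ.2.1 r).bdd_mul hm.aestronglyMeasurable (.of_forall hB))

theorem RKR.integrable_mul {c : ℝ} {a : ℤ} {φ κ : ℝ → ℝ} {J : Finset ℝ} (h : RKR c a κ J)
    (hφ : Tame φ) : Integrable fun t => κ t * φ t :=
  hφ.integrable_mul h.meas h.bd fun t ht => (h.supp t ht).le

theorem Tame.integrable_chi {φ : ℝ → ℝ} (hφ : Tame φ) (p q : ℤ) :
    Integrable fun t => (chi (t / 2 ^ p) - chi (t / 2 ^ q)) / t * φ t := by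
  obtain ⟨c, -, hc, -⟩ := om_bound
  have h1 : ∀ (x t : ℝ), 0 < x → |chi (t / x) / t| ≤ c / x := fun x t hx => by
    have : chi (t / x) / t = chi (t / x) / (t / x) / x := by
      rw [div_div, div_mul_cancel₀ _ hx.ne']
    rw [this, abs_div, abs_of_pos hx]
    exact div_le_div_of_nonneg_right (hc _) hx.le
  have h2 : ∀ (x t : ℝ), 0 < x → 3 * x ≤ |t| → chi (t / x) = 1 := fun x t hx h =>
    chi_eq_one (by rwa [abs_div, abs_of_pos hx, le_div_iff₀ hx])
  have hp : (0 : ℝ) < 2 ^ p := by positivity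
  have hq : (0 : ℝ) < 2 ^ q := by positivity
  have := continuous_chi.measurable
  refine hφ.integrable_mul (B := c / 2 ^ p + c / 2 ^ q) (r := 3 * 2 ^ p + 3 * 2 ^ q) (by fun_prop)
    (fun t => ?_) fun t ht => le_of_not_gt fun h => ht ?_
  · rw [sub_div]
    exact (abs_sub _ _).trans (add_le_add (h1 _ t hp) (h1 _ t hq))
  · rw [h2 _ t hp (by linarith), h2 _ t hq (by linarith), sub_self, zero_div]

theorem point_bound : ∃ C0 : ℝ, 0 ≤ C0 ∧ ∀ (n : ℕ), 1 ≤ n → ∀ (φ : ℝ → ℝ), Tame φ →
    ∀ (m : ℕ), m ≤ n → ∀ (ε R : Fin m → ℝ), (∀ j, 0 < ε j ∧ ε j < R j) →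
    (∀ i j, i ≠ j → R i ≤ ε j ∨ R j ≤ ε i) →
    ENNReal.ofReal (∑ j, |∫ t in {t : ℝ | ε j < |t| ∧ |t| < R j}, φ t / t|) ≤ totW C0 n φ := by
  classical
  obtain ⟨C, hC, hrough⟩ := point_rough
  obtain ⟨c, hc, hend⟩ := rkr_end
  refine ⟨max 8 (3 * (C * c * √5)), le_max_of_le_left (by norm_num), fun n hn φ hφ m hm ε R hε hd => ?_⟩
  let κ : Fin m → ℝ → ℝ := fun j t => (if ε j < |t| ∧ |t| < R j then 1 else 0) / t
  have hκ : ∀ j, ∫ t in {t : ℝ | ε j < |t| ∧ |t| < R j}, φ t / t = ∫ t, κ j t * φ t := fun j => by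
    rw [← integral_indicator (by measurability)]
    refine integral_congr_ae (.of_forall fun t => ?_)
    by_cases h : ε j < |t| ∧ |t| < R j <;> simp [κ, Set.indicator, h, div_eq_inv_mul]
  have hκi : ∀ j, Integrable fun t => κ j t * φ t := fun j => by
    refine hφ.integrable_mul (B := 1 / ε j) (r := R j)
      ((Measurable.ite (by measurability) measurable_const measurable_const).div measurable_id)
      (fun t => ?_) fun t ht => le_of_not_gt fun h => ht (by simp [κ, h.not_gt])
    have := (hε j).1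
    simp only [κ]
    split_ifs with h
    · rw [abs_div, abs_one]; exact one_div_le_one_div_of_le this h.1.le
    · simpa using this.le
  obtain ⟨e, he, he'⟩ : ∃ e : Fin m → ℝ, (∀ j, e j = 1 ∨ e j = -1) ∧
      ∀ j, |∫ t, κ j t * φ t| = e j * ∫ t, κ j t * φ t :=
    ⟨fun j => if 0 ≤ ∫ t, κ j t * φ t then 1 else -1, fun j => by dsimp only; split_ifs <;> simp, fun j => by
      dsimp only
      split_ifs with h
      exacts [by rw [abs_of_nonneg h, one_mul], by rw [abs_of_neg (not_le.1 h), neg_one_mul]]⟩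
  have he1 : ∀ j, |e j| ≤ 1 := fun j => by rcases he j with h | h <;> simp [h]
  have hcl : ∀ x : ℝ, 0 < x → (2 : ℝ) ^ (Int.clog 2 x - 1) < x ∧ x ≤ 2 ^ Int.clog 2 x := fun x hx =>
    ⟨by exact_mod_cast Int.zpow_pred_clog_lt_self one_lt_two hx,
      by exact_mod_cast Int.self_le_zpow_clog one_lt_two x⟩
  let a : Fin m → ℤ := fun j => Int.clog 2 (ε j)
  let b : Fin m → ℤ := fun j => Int.clog 2 (R j)
  have hR : ∀ j, 0 < R j := fun j => (hε j).1.trans (hε j).2
  have hab : ∀ j, a j ≤ b j := fun j => Int.clog_mono_right (hε j).1 (hε j).2.le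
  have hba : ∀ i j, i ≠ j → b i ≤ a j ∨ b j ≤ a i := fun i j h =>
    (hd i j h).imp (Int.clog_mono_right (hR i)) (Int.clog_mono_right (hR j))
  let S := Finset.univ.filter fun j => a j = b j
  let L := Finset.univ.filter fun j => ¬ a j = b j
  have hL : ∀ j ∈ L, a j < b j := fun j hj => (hab j).lt_of_ne (Finset.mem_filter.1 hj).2
  have hcard : ∀ T : Finset (Fin m), (T.card : ℝ) ≤ n := fun T => by
    exact_mod_cast (T.card_le_univ.trans_eq (Fintype.card_fin m)).trans hm
  have hc0 : 0 ≤ c := by linarith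
  choose J hJ hJ' using fun v => rkr_short (S.filter fun j => a j = v) ε R e v hc
    (fun j hj => by
      obtain ⟨h1, rfl⟩ := Finset.mem_filter.1 hj
      exact ⟨(hcl _ (hε j).1).1, (hε j).2, (Finset.mem_filter.1 h1).2 ▸ (hcl _ (hR j)).2⟩)
    (fun j _ => he1 j) fun i _ j _ => hd i j
  have r1 := hrough (S.image a) id _ J c (5 * n) φ hφ hc0 (Set.injOn_id _) (fun v _ => hJ' v) (by
    have h1 : ∑ v ∈ S.image a, (J v).card ≤ 4 * S.card := by
      rw [Finset.card_eq_sum_card_image a S, Finset.mul_sum]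
      exact Finset.sum_le_sum fun v _ => hJ v
    have h2 : (∑ v ∈ S.image a, ((J v).card : ℝ)) ≤ 4 * S.card := by exact_mod_cast h1
    rw [Finset.sum_add_distrib, Finset.sum_const, nsmul_eq_mul, mul_one]
    have h3 : ((S.image a).card : ℝ) ≤ S.card := Nat.cast_le.2 Finset.card_image_le
    linarith [hcard S])
  have hν : ∀ ρ : Fin m → ℝ, ∑ j ∈ L, ((({ρ j, -ρ j} : Finset ℝ).card : ℝ) + 1) ≤ 5 * n := fun ρ => by
    refine (Finset.sum_le_card_nsmul _ _ 3 fun j _ => ?_).trans ?_
    · have : (({ρ j, -ρ j} : Finset ℝ).card : ℝ) ≤ 2 := by exact_mod_cast Finset.card_le_two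
      linarith
    · rw [nsmul_eq_mul]; linarith [hcard L, Nat.cast_nonneg (α := ℝ) n]
  have k2 := fun j => (hend (a j) (ε j) (e j) (hcl _ (hε j).1).1 (hcl _ (hε j).1).2 (he1 j)).1
  have k3 := fun j => (hend (b j) (R j) (e j) (hcl _ (hR j)).1 (hcl _ (hR j)).2 (he1 j)).2
  have r2 := hrough L a _ _ c (5 * n) φ hφ hc0 (fun i hi j hj h => by_contra fun hne => by
    have := hba i j hne; have := hL i hi; have := hL j hj; omega) (fun j _ => k2 j) (hν ε)
  have r3 := hrough L b _ _ c (5 * n) φ hφ hc0 (fun i hi j hj h => by_contra fun hne => by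
    have := hba i j hne; have := hL i hi; have := hL j hj; omega) (fun j _ => k3 j) (hν R)
  let w : ℤ → ℝ := fun p => ∫ t, (chi (t / 2 ^ p) - chi (t / 2 ^ (0 : ℤ))) / t * φ t
  have hw : ∀ p q : ℤ, ∫ t, (chi (t / 2 ^ p) - chi (t / 2 ^ q)) / t * φ t = w p - w q := fun p q => by
    rw [← integral_sub (hφ.integrable_chi p 0) (hφ.integrable_chi q 0)]
    congr 1
    ext t
    ring
  have r4 : ∀ᶠ K : ℕ in Filter.atTop,
      ENNReal.ofReal |∑ j ∈ L, e j * (w (a j) - w (b j))| ≤ 8 * longW (2 * n) K φ := by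
    obtain ⟨B, hB⟩ := (Finset.univ.image fun j => (a j).natAbs + (b j).natAbs).exists_le
    filter_upwards [Filter.eventually_ge_atTop B] with K hK
    have hB' := fun j => hB _ (Finset.mem_image_of_mem _ (Finset.mem_univ j))
    obtain ⟨σ, h1, h2⟩ := exists_pattern L (fun j => (a j + K).toNat) (fun j => (b j + K).toNat) e
      (2 * K) (fun j _ => he j) (fun j _ => by have := hB' j; omega)
      fun i _ j _ h => by have := hba i j h; omega
    refine le_of_eq_of_le ?_ (point_long hφ (2 * n) K σ (h1.trans (by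
      push_cast; linarith [hcard L])))
    simp only [hw, h2, Finset.sum_mul, ite_mul, zero_mul]
    rw [Finset.sum_comm]
    congr 2
    refine Finset.sum_congr rfl fun j _ => ?_
    have := hB' j
    have h3 : (Finset.range (2 * K)).filter (fun l => (a j + K).toNat ≤ l ∧ l < (b j + K).toNat) =
        Finset.Ico (a j + K).toNat (b j + K).toNat := by
      ext l; simp only [Finset.mem_filter, Finset.mem_range, Finset.mem_Ico]; omega
    have h4 := Finset.sum_Ico_sub (fun l : ℕ => -w (l - K))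
      (show (a j + K).toNat ≤ (b j + K).toNat by have := hab j; omega)
    rw [← Finset.sum_filter, h3, ← Finset.mul_sum]
    congr 1
    rw [show ((a j + K).toNat : ℤ) - K = a j by omega, show ((b j + K).toNat : ℤ) - K = b j by omega,
      neg_sub_neg] at h4
    rw [← h4]
    refine Finset.sum_congr rfl fun l _ => ?_
    push_cast
    rw [neg_sub_neg, add_sub_right_comm]
  have e1 : ∑ j ∈ S, e j * ∫ t, κ j t * φ t = ∑ v ∈ S.image a,
      ∫ t, (∑ j ∈ S with a j = v, e j * ((if ε j < |t| ∧ |t| < R j then 1 else 0) / t)) * φ t := by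
    rw [← Finset.sum_fiberwise_of_maps_to fun j hj => Finset.mem_image_of_mem a hj]
    refine Finset.sum_congr rfl fun v _ => ?_
    simp only [Finset.sum_mul, mul_assoc]
    rw [integral_finsetSum _ fun j _ => (hκi j).const_mul _]
    simp only [integral_const_mul, κ]
  have e2 : ∀ j, e j * ∫ t, κ j t * φ t =
      (∫ t, e j * (((if ε j < |t| then 1 else 0) - chi (t / 2 ^ a j)) / t) * φ t) -
        (∫ t, e j * (((if R j ≤ |t| then 1 else 0) - chi (t / 2 ^ b j)) / t) * φ t) +
          e j * (w (a j) - w (b j)) := fun j => by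
    rw [← hw, ← integral_const_mul, ← integral_const_mul,
      ← integral_sub ((k2 j).integrable_mul hφ) ((k3 j).integrable_mul hφ),
      ← integral_add (by exact ((k2 j).integrable_mul hφ).sub ((k3 j).integrable_mul hφ))
        ((hφ.integrable_chi _ _).const_mul _)]
    congr 1
    ext t
    have := (hε j).2
    simp only [κ]
    rcases lt_or_ge (ε j) |t| with h1 | h1 <;> rcases lt_or_ge |t| (R j) with h2 | h2
    · rw [if_pos ⟨h1, h2⟩, if_pos h1, if_neg h2.not_ge]; ring
    · rw [if_neg fun h => h2.not_gt h.2, if_pos h1, if_pos h2]; ring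
    · rw [if_neg fun h => h1.not_gt h.1, if_neg h1.not_gt, if_neg h2.not_ge]; ring
    · linarith
  simp only [hκ, he']
  rw [← Finset.sum_filter_add_sum_filter_not _ fun j => a j = b j, e1,
    Finset.sum_congr rfl fun j _ => e2 j, Finset.sum_add_distrib, Finset.sum_sub_distrib]
  have hf : Monotone fun x : ℝ≥0∞ =>
      ENNReal.ofReal |∑ j ∈ L, e j * (w (a j) - w (b j))| + 3 * x := fun x y h => by
    dsimp only; gcongr
  have key := hf.map_liminf_of_continuousAt (F := Filter.atTop)
    (fun K : ℕ => ENNReal.ofReal (C * c * √(5 * n)) * roughW K φ)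
    (continuous_const.add (ENNReal.continuous_const_mul (by simp))).continuousAt
  refine le_trans ?_ (key.le.trans (Filter.liminf_le_liminf (r4.mono fun K hK => ?_)))
  · have : ∀ x y z u : ℝ, ENNReal.ofReal (x + (y - z + u)) ≤
        .ofReal |u| + (.ofReal |x| + .ofReal |y| + .ofReal |z|) := fun x y z u => by
      rw [← ENNReal.ofReal_add (abs_nonneg _) (abs_nonneg _),
        ← ENNReal.ofReal_add (by positivity) (abs_nonneg _),
        ← ENNReal.ofReal_add (abs_nonneg _) (by positivity)]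
      exact ENNReal.ofReal_le_ofReal (by
        linarith [le_abs_self x, le_abs_self y, neg_abs_le z, le_abs_self u])
    refine (this _ _ _ _).trans (add_le_add_right ((add_le_add_three r1 r2 r3).trans_eq ?_) _)
    ring
  · refine add_le_add (hK.trans (mul_le_mul_left ?_ _)) ?_
    · exact le_of_eq_of_le (by simp) (ENNReal.ofReal_le_ofReal (le_max_left _ _))
    · rw [← mul_assoc, ← ENNReal.ofReal_ofNat 3, ← ENNReal.ofReal_mul (by norm_num)]
      refine mul_le_mul_left (ENNReal.ofReal_le_ofReal ?_) _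
      rw [Real.sqrt_mul (by norm_num), ← mul_assoc (C * c), ← mul_assoc]
      exact mul_le_mul_of_nonneg_right (le_max_right _ _) (Real.sqrt_nonneg _)

end Crest.Agent.R72
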