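import Crest.Agent.R72.CoreR
import Crest.Agent.R72.Point
import Crest.Prelude.Def_TriangularHilbert

/-!
The complex statement with a measurable majorant.  PLAN.
* `ae_tame`: for a.e. `y`, `x ↦ |F (x,y)|³` is integrable, for a.e. `x`, `y ↦ |G (x,y)|³` is integrable (`Integrable.prod_left_ae`, `prod_right_ae`, `Measure.volume_eq_prod`);
  pull back by `Measure.quasiMeasurePreserving_snd/fst`; `|a b| ≤ (|a|³ + |b|³ + 1)/3` and translation invariance.
* `count_majorant`: measurable representatives `F', G'` (`AEStronglyMeasurable.mk`); for a.e. `z` the integrands agree for a.e. `t`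
  (`Measure.ae_ae_of_ae_prod`, swap, translation invariance), so `annularTriangularHT F G ε R z = annularTriangularHT F' G' ε R z` for all `ε, R`.
  `F' G' = (F1 G1 - F2 G2) + i (F1 G2 + F2 G1)` for the real and imaginary parts; where the four real lines are `Tame` each piece is integrable on the annulus
  (`|φ t / t| ≤ |φ t| / ε`), so `‖B‖ ≤ ∑` of four real integrals; `point_bound`; `W = ∑` of four `totW`;
  `(∫⁻ W^(3/2))^(2/3) ≤ ∑ (∫⁻ totW^(3/2))^(2/3)` (`ENNReal.lintegral_Lp_add_le`), `totW_bound`, and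
  `(∫⁻ ofReal |Re F'|³)^(1/3) ≤ eLpNorm F 3`.
-/

set_option autoImplicit false

namespace Crest.Agent.R72

open Matrix Finset MeasureTheory
open scoped ENNReal

theorem mul_le_cubes {x y : ℝ} (hx : 0 ≤ x) (hy : 0 ≤ y) : x * y ≤ x ^ 3 + y ^ 3 + 1 := by
  have key : ∀ u : ℝ, 0 ≤ u → u * u ≤ u ^ 3 + 1 := by
    intro u hu
    rcases le_total u 1 with h | h
    · nlinarith [pow_nonneg hu 3]
    · nlinarith [mul_nonneg hu hu]
  rcases le_total x y with h | h
  · nlinarith [key y hy, pow_nonneg hx 3, mul_le_mul_of_nonneg_right h hy]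
  · nlinarith [key x hx, pow_nonneg hy 3, mul_le_mul_of_nonneg_left h hx]

theorem tame_of_cubes {f g : ℝ → ℝ} (hf : Measurable f) (hg : Measurable g)
    (iF : Integrable (fun t => |f t| ^ 3)) (iG : Integrable (fun t => |g t| ^ 3)) :
    Tame (fun t => f t * g t) := by
  have hb : ∀ t, |f t * g t| ≤ |f t| ^ 3 + |g t| ^ 3 + 1 := fun t => by
    rw [abs_mul]; exact mul_le_cubes (abs_nonneg _) (abs_nonneg _)
  have hI : ∀ r : ℝ, IntegrableOn (fun t => |f t| ^ 3 + |g t| ^ 3 + 1) (Set.Icc (-r) r) := fun r =>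
    (iF.add iG).integrableOn.add (integrableOn_const (by simp))
  have h1 : ∀ r : ℝ, IntegrableOn (fun t => f t * g t) (Set.Icc (-r) r) := fun r =>
    Integrable.mono' (hI r) (hf.mul hg).aestronglyMeasurable (Filter.Eventually.of_forall hb)
  refine ⟨hf.mul hg, h1, (∫ t, |f t| ^ 3) + (∫ t, |g t| ^ 3) + 2, fun r hr => ?_⟩
  have a0 : 0 ≤ ∫ t, |f t| ^ 3 := integral_nonneg fun t => by positivity
  have b0 : 0 ≤ ∫ t, |g t| ^ 3 := integral_nonneg fun t => by positivity
  have e1 : ∫ t in Set.Icc (-r) r, |f t| ^ 3 ≤ ∫ t, |f t| ^ 3 :=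
    setIntegral_le_integral iF (Filter.Eventually.of_forall fun t => by positivity)
  have e2 : ∫ t in Set.Icc (-r) r, |g t| ^ 3 ≤ ∫ t, |g t| ^ 3 :=
    setIntegral_le_integral iG (Filter.Eventually.of_forall fun t => by positivity)
  have e3 : ∫ _t in Set.Icc (-r) r, (1 : ℝ) = 2 * r := by
    rw [setIntegral_const, Real.volume_real_Icc_of_le (by linarith), smul_eq_mul]; ring
  calc ∫ t in Set.Icc (-r) r, |f t * g t|
      ≤ ∫ t in Set.Icc (-r) r, (|f t| ^ 3 + |g t| ^ 3 + 1) := integral_mono (h1 r).abs (hI r) hb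
    _ = (∫ t in Set.Icc (-r) r, |f t| ^ 3) + (∫ t in Set.Icc (-r) r, |g t| ^ 3) + 2 * r := by
      have hs : IntegrableOn (fun t => |f t| ^ 3 + |g t| ^ 3) (Set.Icc (-r) r) :=
        (iF.add iG).integrableOn
      rw [integral_add hs (integrableOn_const (by simp)),
        integral_add iF.integrableOn iG.integrableOn, e3]
    _ ≤ _ := by nlinarith

theorem ae_tame {F G : ℝ × ℝ → ℝ} (hF : Measurable F) (hG : Measurable G)
    (iF : Integrable (fun z => |F z| ^ 3)) (iG : Integrable (fun z => |G z| ^ 3)) :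
    ∀ᵐ z, Tame (lineR F G z) := by
  rw [Measure.volume_eq_prod] at iF iG ⊢
  filter_upwards [Measure.quasiMeasurePreserving_snd.ae iF.prod_left_ae,
    Measure.quasiMeasurePreserving_fst.ae iG.prod_right_ae] with z h1 h2
  exact tame_of_cubes (f := fun t => F (z.1 + t, z.2)) (g := fun t => G (z.1, z.2 + t))
    (by fun_prop) (by fun_prop) (h1.comp_add_left z.1) (h2.comp_add_left z.2)

theorem Tame.intOn_annulus {φ : ℝ → ℝ} (hφ : Tame φ) {ε : ℝ} (hε : 0 < ε) (R : ℝ) :
    IntegrableOn (fun t => φ t / t) {t : ℝ | ε < |t| ∧ |t| < R} := by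
  have hS : MeasurableSet {t : ℝ | ε < |t| ∧ |t| < R} :=
    (measurableSet_lt measurable_const measurable_abs).inter
      (measurableSet_lt measurable_abs measurable_const)
  have h1 : IntegrableOn φ {t : ℝ | ε < |t| ∧ |t| < R} :=
    (hφ.2.1 R).mono_set fun t ht => abs_le.1 ht.2.le
  have h2 := Integrable.bdd_mul (f := fun t : ℝ => t⁻¹) (c := ε⁻¹) h1
    measurable_inv.aestronglyMeasurable (by
      filter_upwards [ae_restrict_mem hS] with t ht
      rw [Real.norm_eq_abs, abs_inv]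
      exact inv_anti₀ hε ht.1.le)
  refine h2.congr (Filter.Eventually.of_forall fun t => ?_)
  simp only [div_eq_inv_mul]

theorem ht_congr {F F' G G' : ℝ × ℝ → ℂ} (hF : F =ᵐ[volume] F') (hG : G =ᵐ[volume] G') :
    ∀ᵐ z, ∀ ε R : ℝ, Crest.AnalysisR.annularTriangularHT F G ε R z =
      Crest.AnalysisR.annularTriangularHT F' G' ε R z := by
  rw [Measure.volume_eq_prod] at hF hG ⊢
  have h1 : ∀ᵐ y : ℝ, ∀ᵐ x : ℝ, F (x, y) = F' (x, y) :=
    Measure.ae_ae_of_ae_prod (p := fun p : ℝ × ℝ => F p.swap = F' p.swap)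
      ((Measure.measurePreserving_swap (μ := (volume : Measure ℝ))
        (ν := (volume : Measure ℝ))).quasiMeasurePreserving.ae hF)
  have h2 : ∀ᵐ x : ℝ, ∀ᵐ y : ℝ, G (x, y) = G' (x, y) := Measure.ae_ae_of_ae_prod hG
  filter_upwards [Measure.quasiMeasurePreserving_snd.ae h1,
    Measure.quasiMeasurePreserving_fst.ae h2] with z a1 a2 ε R
  refine integral_congr_ae (ae_restrict_of_ae ?_)
  filter_upwards [(measurePreserving_add_left volume z.1).quasiMeasurePreserving.ae a1,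
    (measurePreserving_add_left volume z.2).quasiMeasurePreserving.ae a2] with t b1 b2
  rw [b1, b2]

theorem ht_norm_le (F G : ℝ × ℝ → ℂ) (z : ℝ × ℝ) {ε : ℝ} (hε : 0 < ε) (R : ℝ)
    (h11 : Tame (lineR (fun w => (F w).re) (fun w => (G w).re) z))
    (h22 : Tame (lineR (fun w => (F w).im) (fun w => (G w).im) z))
    (h12 : Tame (lineR (fun w => (F w).re) (fun w => (G w).im) z))
    (h21 : Tame (lineR (fun w => (F w).im) (fun w => (G w).re) z)) :
    ‖Crest.AnalysisR.annularTriangularHT F G ε R z‖ ≤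
      |∫ t in {t : ℝ | ε < |t| ∧ |t| < R}, lineR (fun w => (F w).re) (fun w => (G w).re) z t / t| +
      |∫ t in {t : ℝ | ε < |t| ∧ |t| < R}, lineR (fun w => (F w).im) (fun w => (G w).im) z t / t| +
      |∫ t in {t : ℝ | ε < |t| ∧ |t| < R}, lineR (fun w => (F w).re) (fun w => (G w).im) z t / t| +
      |∫ t in {t : ℝ | ε < |t| ∧ |t| < R}, lineR (fun w => (F w).im) (fun w => (G w).re) z t / t| := by
  set φ11 := lineR (fun w => (F w).re) (fun w => (G w).re) z with e11
  set φ22 := lineR (fun w => (F w).im) (fun w => (G w).im) z with e22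
  set φ12 := lineR (fun w => (F w).re) (fun w => (G w).im) z with e12
  set φ21 := lineR (fun w => (F w).im) (fun w => (G w).re) z with e21
  have i11 := h11.intOn_annulus hε R
  have i22 := h22.intOn_annulus hε R
  have i12 := h12.intOn_annulus hε R
  have i21 := h21.intOn_annulus hε R
  have hp : ∀ t : ℝ, F (z.1 + t, z.2) * G (z.1, z.2 + t) / (t : ℂ) =
      ((φ11 t / t - φ22 t / t : ℝ) : ℂ) + ((φ12 t / t + φ21 t / t : ℝ) : ℂ) * Complex.I := by
    intro t
    have : F (z.1 + t, z.2) * G (z.1, z.2 + t) =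
        ((φ11 t - φ22 t : ℝ) : ℂ) + ((φ12 t + φ21 t : ℝ) : ℂ) * Complex.I := by
      apply Complex.ext <;> simp [e11, e22, e12, e21, lineR]
    rw [this]
    push_cast
    ring
  unfold Crest.AnalysisR.annularTriangularHT
  simp only [hp]
  rw [integral_add (i11.sub i22).ofReal ((i12.add i21).ofReal.mul_const _), integral_mul_const,
    integral_complex_ofReal, integral_complex_ofReal, integral_sub i11 i22, integral_add i12 i21]
  refine (norm_add_le _ _).trans ?_
  rw [norm_mul, Complex.norm_I, mul_one, Complex.norm_real, Complex.norm_real, Real.norm_eq_abs,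
    Real.norm_eq_abs]
  have a1 := abs_sub (∫ t in {t : ℝ | ε < |t| ∧ |t| < R}, φ11 t / t)
    (∫ t in {t : ℝ | ε < |t| ∧ |t| < R}, φ22 t / t)
  have a2 := abs_add_le (∫ t in {t : ℝ | ε < |t| ∧ |t| < R}, φ12 t / t)
    (∫ t in {t : ℝ | ε < |t| ∧ |t| < R}, φ21 t / t)
  linarith

theorem cube_le_eLpNorm {F : ℝ × ℝ → ℂ} {f : ℝ × ℝ → ℝ} (h : ∀ z, |f z| ≤ ‖F z‖) :
    (∫⁻ z, ENNReal.ofReal (|f z| ^ 3)) ^ (1 / 3 : ℝ) ≤ eLpNorm F 3 volume := by
  rw [eLpNorm_eq_lintegral_rpow_enorm_toReal (by norm_num) (by norm_num)]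
  have : (3 : ℝ≥0∞).toReal = 3 := by norm_num
  rw [this]
  refine ENNReal.rpow_le_rpow (lintegral_mono fun z => ?_) (by norm_num)
  rw [← ofReal_norm, ENNReal.ofReal_rpow_of_nonneg (norm_nonneg _) (by norm_num)]
  refine ENNReal.ofReal_le_ofReal ?_
  rw [show (3 : ℝ) = ((3 : ℕ) : ℝ) by norm_num, Real.rpow_natCast]
  exact pow_le_pow_left₀ (abs_nonneg _) (h z) 3

theorem int_cube {F : ℝ × ℝ → ℂ} (hF : MemLp F 3 volume) {f : ℝ × ℝ → ℝ} (hf : Measurable f)
    (h : ∀ z, |f z| ≤ ‖F z‖) : Integrable (fun z => |f z| ^ 3) := by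
  have h1 : Integrable (fun z => ‖F z‖ ^ 3) :=
    MemLp.integrable_norm_pow (p := 3) (by simpa using hF) (by norm_num)
  refine h1.mono' (by fun_prop) (Filter.Eventually.of_forall fun z => ?_)
  rw [Real.norm_eq_abs, abs_of_nonneg (by positivity)]
  exact pow_le_pow_left₀ (abs_nonneg _) (h z) 3

theorem count_majorant : ∃ C : ℝ, 0 ≤ C ∧ ∀ n : ℕ, 1 ≤ n → ∀ F G : ℝ × ℝ → ℂ,
    MemLp F 3 volume → MemLp G 3 volume → ∃ W : ℝ × ℝ → ℝ≥0∞, Measurable W ∧
      (∀ᵐ z, Crest.AnalysisR.annulusCount n F G z ≤ W z) ∧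
      (∫⁻ z, W z ^ (3 / 2 : ℝ)) ^ (2 / 3 : ℝ) ≤
        ENNReal.ofReal (C * Real.sqrt n) * eLpNorm F 3 volume * eLpNorm G 3 volume := by
  obtain ⟨C0, hC0, hP⟩ := point_bound
  obtain ⟨C, hC, hT⟩ := totW_bound C0 hC0
  refine ⟨4 * C, by positivity, fun n hn F G hF hG => ?_⟩
  set F' := hF.1.mk F with hF'
  set G' := hG.1.mk G with hG'
  have eF : F =ᵐ[volume] F' := hF.1.ae_eq_mk
  have eG : G =ᵐ[volume] G' := hG.1.ae_eq_mk
  have mF : Measurable F' := hF.1.stronglyMeasurable_mk.measurable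
  have mG : Measurable G' := hG.1.stronglyMeasurable_mk.measurable
  have lF : MemLp F' 3 volume := hF.ae_eq eF
  have lG : MemLp G' 3 volume := hG.ae_eq eG
  rw [eLpNorm_congr_ae eF, eLpNorm_congr_ae eG]
  have mF1 : Measurable fun w => (F' w).re := Complex.measurable_re.comp mF
  have mF2 : Measurable fun w => (F' w).im := Complex.measurable_im.comp mF
  have mG1 : Measurable fun w => (G' w).re := Complex.measurable_re.comp mG
  have mG2 : Measurable fun w => (G' w).im := Complex.measurable_im.comp mG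
  have bF1 : ∀ w, |(F' w).re| ≤ ‖F' w‖ := fun w => Complex.abs_re_le_norm _
  have bF2 : ∀ w, |(F' w).im| ≤ ‖F' w‖ := fun w => Complex.abs_im_le_norm _
  have bG1 : ∀ w, |(G' w).re| ≤ ‖G' w‖ := fun w => Complex.abs_re_le_norm _
  have bG2 : ∀ w, |(G' w).im| ≤ ‖G' w‖ := fun w => Complex.abs_im_le_norm _
  have one : ∀ {f g : ℝ × ℝ → ℝ}, Measurable f → Measurable g → (∀ w, |f w| ≤ ‖F' w‖) →
      (∀ w, |g w| ≤ ‖G' w‖) →
      (∫⁻ z, totW C0 n (lineR f g z) ^ (3 / 2 : ℝ)) ^ (1 / (3 / 2) : ℝ) ≤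
        ENNReal.ofReal (C * Real.sqrt n) * eLpNorm F' 3 volume * eLpNorm G' 3 volume := by
    intro f g hf hg bf bg
    refine (ENNReal.rpow_le_rpow (hT n hn f g hf hg) (by norm_num)).trans ?_
    rw [ENNReal.mul_rpow_of_nonneg _ _ (by norm_num), ENNReal.mul_rpow_of_nonneg _ _ (by norm_num),
      ← ENNReal.rpow_mul, ← ENNReal.rpow_mul, ← ENNReal.rpow_mul]
    have e1 : (3 / 2 : ℝ) * (1 / (3 / 2)) = 1 := by norm_num
    have e2 : (1 / 2 : ℝ) * (1 / (3 / 2)) = 1 / 3 := by norm_num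
    rw [e1, e2, ENNReal.rpow_one]
    exact mul_le_mul' (mul_le_mul' le_rfl (cube_le_eLpNorm bf)) (cube_le_eLpNorm bg)
  set W11 := fun z => totW C0 n (lineR (fun w => (F' w).re) (fun w => (G' w).re) z) with e11
  set W22 := fun z => totW C0 n (lineR (fun w => (F' w).im) (fun w => (G' w).im) z) with e22
  set W12 := fun z => totW C0 n (lineR (fun w => (F' w).re) (fun w => (G' w).im) z) with e12
  set W21 := fun z => totW C0 n (lineR (fun w => (F' w).im) (fun w => (G' w).re) z) with e21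
  have m11 : Measurable W11 := measurable_totW mF1 mG1 C0 n
  have m22 : Measurable W22 := measurable_totW mF2 mG2 C0 n
  have m12 : Measurable W12 := measurable_totW mF1 mG2 C0 n
  have m21 : Measurable W21 := measurable_totW mF2 mG1 C0 n
  refine ⟨W11 + W22 + W12 + W21, ((m11.add m22).add m12).add m21, ?_, ?_⟩
  · filter_upwards [ht_congr eF eG,
      ae_tame mF1 mG1 (int_cube lF mF1 bF1) (int_cube lG mG1 bG1),
      ae_tame mF2 mG2 (int_cube lF mF2 bF2) (int_cube lG mG2 bG2),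
      ae_tame mF1 mG2 (int_cube lF mF1 bF1) (int_cube lG mG2 bG2),
      ae_tame mF2 mG1 (int_cube lF mF2 bF2) (int_cube lG mG1 bG1)] with z hz t11 t22 t12 t21
    unfold Crest.AnalysisR.annulusCount
    refine iSup_le fun m => iSup_le fun hm => iSup_le fun ε => iSup_le fun R =>
      iSup_le fun h1 => iSup_le fun h2 => ?_
    have h1' : ∀ j, 0 < (ε j : ℝ) ∧ (ε j : ℝ) < (R j : ℝ) := fun j =>
      ⟨by exact_mod_cast (h1 j).1, by exact_mod_cast (h1 j).2⟩
    have h2' : ∀ i j, i ≠ j → (R i : ℝ) ≤ (ε j : ℝ) ∨ (R j : ℝ) ≤ (ε i : ℝ) := fun i j hij =>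
      (h2 i j hij).imp (fun h => by exact_mod_cast h) (fun h => by exact_mod_cast h)
    have p11 := hP n hn _ t11 m hm (fun j => (ε j : ℝ)) (fun j => (R j : ℝ)) h1' h2'
    have p22 := hP n hn _ t22 m hm (fun j => (ε j : ℝ)) (fun j => (R j : ℝ)) h1' h2'
    have p12 := hP n hn _ t12 m hm (fun j => (ε j : ℝ)) (fun j => (R j : ℝ)) h1' h2'
    have p21 := hP n hn _ t21 m hm (fun j => (ε j : ℝ)) (fun j => (R j : ℝ)) h1' h2'
    refine le_trans ?_ (add_le_add (add_le_add (add_le_add p11 p22) p12) p21)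
    have nn : ∀ φ : ℝ → ℝ, 0 ≤ ∑ j, |∫ t in {t : ℝ | (ε j : ℝ) < |t| ∧ |t| < (R j : ℝ)}, φ t / t| :=
      fun φ => Finset.sum_nonneg fun j _ => abs_nonneg _
    rw [← ENNReal.ofReal_add (nn _) (nn _), ← ENNReal.ofReal_add (add_nonneg (nn _) (nn _)) (nn _),
      ← ENNReal.ofReal_add (add_nonneg (add_nonneg (nn _) (nn _)) (nn _)) (nn _)]
    simp only [← ofReal_norm]
    rw [← ENNReal.ofReal_sum_of_nonneg fun j _ => norm_nonneg _]
    refine ENNReal.ofReal_le_ofReal ?_
    rw [← Finset.sum_add_distrib, ← Finset.sum_add_distrib, ← Finset.sum_add_distrib]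
    refine Finset.sum_le_sum fun j _ => ?_
    rw [hz]
    exact ht_norm_le F' G' z (h1' j).1 _ t11 t22 t12 t21
  · have e : (2 / 3 : ℝ) = 1 / (3 / 2) := by norm_num
    rw [e]
    have hp : (1 : ℝ) ≤ 3 / 2 := by norm_num
    have s1 := ENNReal.lintegral_Lp_add_le (μ := volume) ((m11.add m22).add m12).aemeasurable
      m21.aemeasurable hp
    have s2 := ENNReal.lintegral_Lp_add_le (μ := volume) (m11.add m22).aemeasurable
      m12.aemeasurable hp
    have s3 := ENNReal.lintegral_Lp_add_le (μ := volume) m11.aemeasurable m22.aemeasurable hp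
    have b := add_le_add (add_le_add (add_le_add (one mF1 mG1 bF1 bG1) (one mF2 mG2 bF2 bG2))
      (one mF1 mG2 bF1 bG2)) (one mF2 mG1 bF2 bG1)
    refine (s1.trans (add_le_add (s2.trans (add_le_add s3 le_rfl)) le_rfl)).trans (b.trans ?_)
    have e4 : ENNReal.ofReal (4 * C * Real.sqrt n) = 4 * ENNReal.ofReal (C * Real.sqrt n) := by
      rw [mul_assoc, ENNReal.ofReal_mul (by norm_num)]
      simp
    rw [e4]
    apply le_of_eq
    ring

end Crest.Agent.R72
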