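import Crest.Agent.R72.Weights

/-!
Coordinates and scaling for the cyclic bounds; elementary properties of `varM`, `sqM`, `sqT`.
With `A x0 x1 = G (-x0, x0 + x1)`, `B x1 x2 = F (x1 + x2, -x2)` and `x = (-x0, -x2)` one has
`lineC F G x t = A x0 x1 * B x1 x2` for `x1 = t - x0 - x2`.
`cycBound_of_norm`: if one of the norms vanishes that function is zero (`𝔐 0 = 0` by homogeneity with `c = 0`); otherwise divide
`F, G` by their norms and scale `H` to norm `θ`.
`varM` is a supremum over a nonempty finite type (`σ = 0` has `tv = 0`); measurability: `Measurable.iSup` of continuous functions of finitely many coordinates.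
-/

set_option autoImplicit false

namespace Crest.Agent.R72

open Matrix Finset MeasureTheory
open scoped ENNReal

/-- matrix of the second function -/
def matA {N : ℕ} (G : ZMod N × ZMod N → ℝ) : Matrix (ZMod N) (ZMod N) ℝ :=
  fun x0 x1 => G (-x0, x0 + x1)

/-- matrix of the first function -/
def matB {N : ℕ} (F : ZMod N × ZMod N → ℝ) : Matrix (ZMod N) (ZMod N) ℝ :=
  fun x1 x2 => F (x1 + x2, -x2)

/-- matrix of the dual function -/
def matC {N : ℕ} (H : ZMod N × ZMod N → ℝ) : Matrix (ZMod N) (ZMod N) ℝ :=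
  fun x2 x0 => H (-x0, -x2)

section
variable {N : ℕ} [NeZero N]

theorem n3_nonneg (F : ZMod N × ZMod N → ℝ) : 0 ≤ n3 F := by
  unfold n3; positivity

theorem n3_cube (F : ZMod N × ZMod N → ℝ) : n3 F ^ 3 = ∑ x, |F x| ^ 3 := by
  unfold n3
  rw [← Real.rpow_natCast, ← Real.rpow_mul (by positivity)]
  norm_num

theorem n3_smul (c : ℝ) (hc : 0 ≤ c) (F : ZMod N × ZMod N → ℝ) :
    n3 (fun x => c * F x) = c * n3 F := by
  have h := n3_nonneg F
  refine (pow_left_inj₀ (n3_nonneg _) (by positivity) three_ne_zero).1 ?_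
  rw [mul_pow, n3_cube, n3_cube, Finset.mul_sum]
  simp only [abs_mul, abs_of_nonneg hc, mul_pow]

theorem eq_zero_of_n3 {F : ZMod N × ZMod N → ℝ} (h : n3 F = 0) (x : ZMod N × ZMod N) :
    F x = 0 := by
  have h1 := n3_cube F
  rw [h, zero_pow three_ne_zero] at h1
  have := (Finset.sum_eq_zero_iff_of_nonneg fun y _ => by positivity).1 h1.symm x (Finset.mem_univ x)
  simpa using this

theorem cube_matA (G : ZMod N × ZMod N → ℝ) : cube (matA G) = n3 G ^ 3 := by
  rw [n3_cube, cube, ← Fintype.sum_prod_type']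
  exact Fintype.sum_equiv ⟨fun x => (-x.1, x.1 + x.2), fun y => (-y.1, y.1 + y.2),
    fun x => by simp, fun y => by simp⟩ _ _ fun x => rfl

theorem cube_matB (F : ZMod N × ZMod N → ℝ) : cube (matB F) = n3 F ^ 3 := by
  rw [n3_cube, cube, ← Fintype.sum_prod_type']
  exact Fintype.sum_equiv ⟨fun x => (x.1 + x.2, -x.2), fun y => (y.1 + y.2, -y.2),
    fun x => by simp, fun y => by simp⟩ _ _ fun x => rfl

theorem cube_matC (H : ZMod N × ZMod N → ℝ) : cube (matC H) = n3 H ^ 3 := by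
  rw [n3_cube, cube, ← Fintype.sum_prod_type']
  exact Fintype.sum_equiv ⟨fun x => (-x.2, -x.1), fun y => (-y.2, -y.1),
    fun x => by simp, fun y => by simp⟩ _ _ fun x => rfl

theorem haar_lineC (F G : ZMod N × ZMod N → ℝ) (j : ℕ) (x0 x2 : ZMod N) (τ : ℤ) :
    ∑ x1, dz N j (x1 - ((τ : ZMod N) - x0 - x2)) * (matA G x0 x1 * matB F x1 x2) =
      haar j (lineC F G (-x0, -x2)) τ := by
  rw [sum_dz]
  simp only [haar, lineC, matA, matB]
  refine Finset.sum_congr rfl fun t _ => ?_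
  rw [mul_comm (G _)]
  push_cast
  congr 4 <;> ring

theorem haar_cast (j : ℕ) (Φ : ZMod N → ℝ) :
    haar j (fun t : ℤ => Φ (t : ZMod N)) =
      fun τ : ℤ => (fun p : ZMod N => ∑ y, dz N j (y - p) * Φ y) (τ : ZMod N) := by
  funext τ
  simp only [sum_dz, haar]
  push_cast
  simp only [zero_add]

theorem triZ_eq (F G c : ZMod N × ZMod N → ℝ) (j : ℕ) :
    triZ j (matA G) (matB F) (matC c) = ∑ x, c x * tri j (lineC F G x) := by
  have key : ∀ x0 x2 : ZMod N, tri j (lineC F G (-x0, -x2)) =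
      ∑ p1, ∑ p2, ∑ x1, dz N j (x0 - p1) * dz N j (x1 - p2) * dz N j (x2 - (-p1 - p2)) *
        (matA G x0 x1 * matB F x1 x2) := by
    intro x0 x2
    obtain ⟨Φ, hΦ⟩ : ∃ Φ : ZMod N → ℝ,
        ∀ s, Φ s = matA G x0 (s - x0 - x2) * matB F (s - x0 - x2) x2 := ⟨_, fun _ => rfl⟩
    have h1 : lineC F G (-x0, -x2) = fun t : ℤ => Φ (t : ZMod N) := by
      funext t
      simp only [lineC, matA, matB, hΦ]
      rw [mul_comm (G _)]
      congr 3 <;> ring
    rw [h1, tri, haar_cast, haar_cast j fun p => ∑ y, dz N j (y - p) * Φ y,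
      haar_cast j fun q => ∑ p, dz N j (p - q) * ∑ y, dz N j (y - p) * Φ y]
    simp only [Int.cast_zero, sub_zero]
    symm
    refine Fintype.sum_equiv (Equiv.subLeft x0) _ _ fun p1 => ?_
    rw [Finset.mul_sum]
    refine Fintype.sum_equiv (Equiv.addRight (x0 + x2)) _ _ fun p2 => ?_
    rw [Finset.mul_sum, Finset.mul_sum]
    refine Fintype.sum_equiv (Equiv.addRight (x0 + x2)) _ _ fun x1 => ?_
    simp only [Equiv.subLeft_apply, Equiv.coe_addRight, hΦ]
    rw [show p2 + (x0 + x2) - (x0 - p1) = x2 - (-p1 - p2) by ring,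
      show x1 + (x0 + x2) - (p2 + (x0 + x2)) = x1 - p2 by ring,
      show x1 + (x0 + x2) - x0 - x2 = x1 by ring]
    ring
  have h2 : ∑ x, c x * tri j (lineC F G x) =
      ∑ x0, ∑ x2, c (-x0, -x2) * tri j (lineC F G (-x0, -x2)) := by
    rw [← Fintype.sum_prod_type']
    exact Fintype.sum_equiv (Equiv.neg _) _ _ fun x => by simp
  rw [h2]
  simp only [key, triZ, tform, sh, Fintype.sum_prod_type, Finset.mul_sum]
  calc _ = ∑ x0, ∑ p1, ∑ p2, ∑ x1, ∑ x2, dz N j (x0 - p1) * dz N j (x1 - p2) *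
        dz N j (x2 - (-p1 - p2)) * (matA G x0 x1 * matB F x1 x2 * matC c x2 x0) := by
        rw [Finset.sum_comm]
        conv_lhs => arg 2; intro p2; rw [Finset.sum_comm]
        rw [Finset.sum_comm]
        refine Finset.sum_congr rfl fun x0 _ => Finset.sum_comm
    _ = _ := by
        refine Finset.sum_congr rfl fun x0 _ => ?_
        symm
        rw [Finset.sum_comm]
        refine Finset.sum_congr rfl fun p1 _ => ?_
        rw [Finset.sum_comm]
        refine Finset.sum_congr rfl fun p2 _ => ?_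
        rw [Finset.sum_comm]
        refine Finset.sum_congr rfl fun x1 _ => Finset.sum_congr rfl fun x2 _ => ?_
        simp only [matC]
        ring

end

theorem cycBound_of_norm {𝔐 : (ℤ → ℝ) → ℝ}
    (hom : ∀ c : ℝ, 0 ≤ c → ∀ φ : ℤ → ℝ, 𝔐 (fun t => c * φ t) = c * 𝔐 φ) {K θ : ℝ} (hK : 0 ≤ K)
    (hθ : 0 < θ)
    (h : ∀ (N : ℕ) [NeZero N] (F G H : ZMod N × ZMod N → ℝ), (∀ x, 0 ≤ H x) → n3 F = 1 →
      n3 G = 1 → n3 H = θ → ∑ x, H x * 𝔐 (lineC F G x) ≤ K) :
    CycBound 𝔐 (K / θ) := by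
  intro N _ F G H hH
  have h0 : 𝔐 (fun _ => 0) = 0 := by simpa using hom 0 le_rfl fun _ => 0
  have hF := n3_nonneg F
  have hG := n3_nonneg G
  have hH' := n3_nonneg H
  rcases hF.eq_or_lt with hF0 | hF
  · have : ∀ x, lineC F G x = fun _ => 0 := fun x => by
      funext t; simp [lineC, eq_zero_of_n3 hF0.symm]
    simp [this, h0, ← hF0]
  rcases hG.eq_or_lt with hG0 | hG
  · have : ∀ x, lineC F G x = fun _ => 0 := fun x => by
      funext t; simp [lineC, eq_zero_of_n3 hG0.symm]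
    simp [this, h0, ← hG0]
  rcases hH'.eq_or_lt with hH0 | hH'
  · simp [eq_zero_of_n3 hH0.symm, ← hH0]
  have key := h N (fun x => (n3 F)⁻¹ * F x) (fun x => (n3 G)⁻¹ * G x) (fun x => θ / n3 H * H x)
    (fun x => mul_nonneg (by positivity) (hH x))
    (by rw [n3_smul _ (by positivity)]; field_simp)
    (by rw [n3_smul _ (by positivity)]; field_simp)
    (by rw [n3_smul _ (by positivity)]; field_simp)
  have h1 : ∀ x, 𝔐 (lineC (fun x => (n3 F)⁻¹ * F x) (fun x => (n3 G)⁻¹ * G x) x) =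
      (n3 F)⁻¹ * (n3 G)⁻¹ * 𝔐 (lineC F G x) := fun x => by
    rw [← hom _ (by positivity)]
    congr 1
    funext t
    simp only [lineC]
    ring
  simp only [h1] at key
  have h2 : ∑ x, H x * 𝔐 (lineC F G x) = n3 F * n3 G * n3 H / θ *
      ∑ x, θ / n3 H * H x * ((n3 F)⁻¹ * (n3 G)⁻¹ * 𝔐 (lineC F G x)) := by
    rw [Finset.mul_sum]
    refine Finset.sum_congr rfl fun x _ => ?_
    field_simp
  rw [h2]
  calc _ ≤ n3 F * n3 G * n3 H / θ * K := by gcongr
    _ = _ := by ring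

/-- `𝔐` depends on finitely many coordinates -/
def IsLocal (𝔐 : (ℤ → ℝ) → ℝ) : Prop :=
  ∃ R : ℕ, ∀ φ ψ : ℤ → ℝ, (∀ t : ℤ, |t| ≤ R → φ t = ψ t) → 𝔐 φ = 𝔐 ψ

instance (ν L : ℕ) : Nonempty {σ : Fin L → SignType // tv L (ext σ) ≤ ν} :=
  ⟨⟨0, by
    have : ext (0 : Fin L → SignType) = fun _ => 0 := by
      funext l; simp [ext]
    simp [tv, this]⟩⟩

theorem haar_hom (j : ℕ) (c : ℝ) (φ : ℤ → ℝ) :
    haar j (fun t => c * φ t) = fun τ => c * haar j φ τ := by
  funext τ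
  simp only [haar, Finset.mul_sum]
  exact Finset.sum_congr rfl fun t _ => by ring

theorem haar_congr {j : ℕ} {φ ψ : ℤ → ℝ} {R S : ℤ} (hS : R + 2 ^ j ≤ S)
    (h : ∀ t, |t| ≤ S → φ t = ψ t) (τ : ℤ) (hτ : |τ| ≤ R) : haar j φ τ = haar j ψ τ := by
  refine Finset.sum_congr rfl fun t ht => ?_
  rw [Finset.mem_Ico] at ht
  rw [h _ ((abs_add_le _ _).trans ((add_le_add hτ (abs_le.2 ⟨ht.1, ht.2.le⟩)).trans hS))]

theorem unif_congr {j : ℕ} {φ ψ : ℤ → ℝ} {S : ℤ} (hS : 2 ^ j ≤ S)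
    (h : ∀ t, |t| ≤ S → φ t = ψ t) : unif j φ 0 = unif j ψ 0 := by
  refine Finset.sum_congr rfl fun t ht => ?_
  rw [Finset.mem_Ico] at ht
  rw [zero_add, h _ ((abs_le.2 ⟨ht.1, ht.2.le⟩).trans hS)]

theorem measurable_haar {α : Type*} [MeasurableSpace α] {f : α → ℤ → ℝ}
    (hf : ∀ t, Measurable fun a => f a t) (j : ℕ) (τ : ℤ) : Measurable fun a => haar j (f a) τ :=
  Finset.measurable_sum _ fun t _ => (hf _).const_mul _

theorem varM_nonneg (ν L : ℕ) (φ : ℤ → ℝ) : 0 ≤ varM ν L φ := by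
  exact Real.iSup_nonneg fun _ => abs_nonneg _

theorem le_varM {ν L : ℕ} (φ : ℤ → ℝ) (σ : Fin L → SignType) (h : tv L (ext σ) ≤ ν) :
    |∑ l ∈ Finset.range L, ext σ l * tri (l + 2) φ| ≤ varM ν L φ := by
  exact le_ciSup (f := fun σ : {σ : Fin L → SignType // tv L (ext σ) ≤ ν} =>
    |∑ l ∈ Finset.range L, ext σ.1 l * tri (l + 2) φ|) (Finite.bddAbove_range _) ⟨σ, h⟩

theorem varM_attained (ν L : ℕ) (φ : ℤ → ℝ) : ∃ σ : Fin L → SignType, tv L (ext σ) ≤ ν ∧
    varM ν L φ = |∑ l ∈ Finset.range L, ext σ l * tri (l + 2) φ| := by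
  obtain ⟨σ, hσ⟩ := exists_eq_ciSup_of_finite
    (f := fun σ : {σ : Fin L → SignType // tv L (ext σ) ≤ ν} =>
      |∑ l ∈ Finset.range L, ext σ.1 l * tri (l + 2) φ|)
  exact ⟨σ.1, σ.2, hσ.symm⟩

theorem varM_hom (ν L : ℕ) (c : ℝ) (hc : 0 ≤ c) (φ : ℤ → ℝ) :
    varM ν L (fun t => c * φ t) = c * varM ν L φ := by
  unfold varM
  rw [Real.mul_iSup_of_nonneg hc]
  refine iSup_congr fun σ => ?_
  rw [← abs_of_nonneg hc, ← abs_mul, abs_of_nonneg hc, Finset.mul_sum]
  simp only [tri, haar_hom]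
  congr 1
  exact Finset.sum_congr rfl fun l _ => by ring

theorem varM_local (ν L : ℕ) : IsLocal (varM ν L) := by
  refine ⟨3 * 2 ^ (L + 2), fun φ ψ h => ?_⟩
  unfold varM
  refine iSup_congr fun σ => ?_
  congr 1
  refine Finset.sum_congr rfl fun l hl => ?_
  have hl' : (2 : ℤ) ^ (l + 2) ≤ 2 ^ (L + 2) :=
    pow_le_pow_right₀ one_le_two (by have := Finset.mem_range.1 hl; omega)
  congr 1
  push_cast at h
  exact haar_congr (R := 0) (S := 2 ^ (L + 2)) (by linarith)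
    (haar_congr (S := 2 * 2 ^ (L + 2)) (by linarith) (haar_congr (by linarith) h)) 0 (by simp)

theorem varM_measurable (ν L : ℕ) : Measurable (varM ν L) := by
  refine Measurable.iSup fun σ => ?_
  refine (Finset.measurable_sum _ fun l _ => Measurable.const_mul ?_ _).abs
  exact measurable_haar (measurable_haar (measurable_haar (fun t => measurable_pi_apply t) _) _) _ _

theorem sqM_nonneg (M L : ℕ) (φ : ℤ → ℝ) : 0 ≤ sqM M L φ := by
  exact Real.sqrt_nonneg _

theorem sqM_hom (M L : ℕ) (c : ℝ) (hc : 0 ≤ c) (φ : ℤ → ℝ) :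
    sqM M L (fun t => c * φ t) = c * sqM M L φ := by
  unfold sqM
  rw [← Real.sqrt_sq hc, ← Real.sqrt_mul (sq_nonneg c), Real.sqrt_sq hc, Finset.mul_sum]
  congr 1
  refine Finset.sum_congr rfl fun l _ => ?_
  simp only [haar_hom, unif, Finset.mul_sum]
  exact Finset.sum_congr rfl fun t _ => by ring

theorem sqT_nonneg (L : ℕ) (φ : ℤ → ℝ) : 0 ≤ sqT L φ := by
  exact Finset.sum_nonneg fun M _ => mul_nonneg (by positivity) (sqM_nonneg _ _ _)

theorem sqT_local (L : ℕ) : IsLocal (sqT L) := by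
  refine ⟨2 * 2 ^ (2 * L + 2), fun φ ψ h => ?_⟩
  refine Finset.sum_congr rfl fun M hM => ?_
  congr 1
  unfold sqM
  congr 1
  refine Finset.sum_congr rfl fun l hl => ?_
  have hl1 := Finset.mem_range.1 hl
  have hM1 := Finset.mem_range.1 hM
  have h1 : (2 : ℤ) ^ (l + 2) ≤ 2 ^ (2 * L + 2) := pow_le_pow_right₀ one_le_two (by omega)
  have h2 : (2 : ℤ) ^ (l + M + 1) ≤ 2 ^ (2 * L + 2) := pow_le_pow_right₀ one_le_two (by omega)
  push_cast at h
  exact unif_congr h2 fun τ hτ => by rw [haar_congr (by linarith) h τ hτ]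

theorem sqT_measurable (L : ℕ) : Measurable (sqT L) := by
  refine Finset.measurable_sum _ fun M _ => Measurable.const_mul (Measurable.sqrt ?_) _
  refine Finset.measurable_sum _ fun l _ => Finset.measurable_sum _ fun t _ => ?_
  exact ((measurable_haar (fun t => measurable_pi_apply t) _ _).pow_const 2).const_mul _

end Crest.Agent.R72
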