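import Crest.Agent.R72.SqZ1
import Crest.Agent.R72.Scale

/-!
PLAN. `sqM_cyc`: `cycBound_of_norm` with `θ = 2^(-M/4)`.  With `h l τ x2 x0 = ∑ x1, dz (l+2) (x1 - (τ - x0 - x2)) * (matA G x0 x1 * matB F x1 x2)`
(`τ : ZMod N`), `haar_lineC` and `sum_uz` (at `p = 0`) give `sqM M L (lineC F G (-x0,-x2))² = ∑_l ∑_τ uz (l+M+1) τ * h²`.
Take `c l τ x2 x0 = H (-x0,-x2) * h l τ x2 x0 / sqM ..` in `sqZ1`; the bound is `K (2 + 2^(M/2) * 2 * θ²) = 4 K`.
`sqT_cyc`: sum over `M`, `∑ 2^(-M/2) 2^(M/4) ≤ ∑ 2^(-M/4) ≤ 1/(1 - 2^(-1/4))`.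
-/

set_option autoImplicit false

namespace Crest.Agent.R72

open Matrix Finset MeasureTheory
open scoped ENNReal

theorem sqM_cyc : ∃ C : ℝ, 0 ≤ C ∧ ∀ M L : ℕ, CycBound (sqM M L) (C * (2 : ℝ) ^ ((M : ℝ) / 4)) := by
  obtain ⟨K, hK, h⟩ := sqZ1
  refine ⟨4 * K, by positivity, fun M L => ?_⟩
  rw [← div_inv_eq_mul]
  refine cycBound_of_norm (sqM_hom M L) (by positivity) (by positivity) fun N _ F G H hH hF hG hθ => ?_
  obtain ⟨g, hg⟩ : ∃ g : ℕ → ZMod N → ZMod N → ZMod N → ℝ, ∀ l τ x2 x0, g l τ x2 x0 =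
      ∑ x1, dz N (l + 2) (x1 - (τ - x0 - x2)) * (matA G x0 x1 * matB F x1 x2) :=
    ⟨_, fun _ _ _ _ => rfl⟩
  have key : ∀ x0 x2, ∑ l ∈ Finset.range L, ∑ τ, uz N (l + M + 1) τ * g l τ x2 x0 ^ 2 =
      sqM M L (lineC F G (-x0, -x2)) ^ 2 := by
    intro x0 x2
    have e : ∀ l, ∑ τ, uz N (l + M + 1) τ * g l τ x2 x0 ^ 2 =
        unif (l + M + 1) (fun τ => haar (l + 2) (lineC F G (-x0, -x2)) τ ^ 2) 0 := fun l => by
      have := sum_uz (l + M + 1) (fun τ => g l τ x2 x0 ^ 2) 0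
      simp only [sub_zero, zero_add, hg, haar_lineC] at this
      simpa only [hg] using this
    rw [sqM, Real.sq_sqrt]
    · exact sum_congr rfl fun l _ => e l
    · refine sum_nonneg fun l _ => ?_
      rw [← e]
      exact sum_nonneg fun τ _ => mul_nonneg (uz_nonneg _ _) (sq_nonneg _)
  have h1 := h N M L (matA G) (matB F) (matC H)
    (fun l τ x2 x0 => H (-x0, -x2) / sqM M L (lineC F G (-x0, -x2)) * g l τ x2 x0) fun x2 x0 => by
      have e : ∑ l ∈ Finset.range L, ∑ τ, uz N (l + M + 1) τ *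
          (H (-x0, -x2) / sqM M L (lineC F G (-x0, -x2)) * g l τ x2 x0) ^ 2 =
          (H (-x0, -x2) / sqM M L (lineC F G (-x0, -x2)) * sqM M L (lineC F G (-x0, -x2))) ^ 2 := by
        rw [mul_pow, ← key, mul_sum]
        refine sum_congr rfl fun l _ => ?_
        rw [mul_sum]
        exact sum_congr rfl fun τ _ => by ring
      refine e.le.trans ?_
      by_cases h0 : sqM M L (lineC F G (-x0, -x2)) = 0
      · rw [h0, mul_zero, zero_pow two_ne_zero]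
        exact sq_nonneg _
      · rw [div_mul_cancel₀ _ h0]
        exact le_rfl
  have e : ∑ x, H x * sqM M L (lineC F G x) = ∑ l ∈ Finset.range L, ∑ x0, ∑ x2, ∑ τ,
      uz N (l + M + 1) τ * (H (-x0, -x2) / sqM M L (lineC F G (-x0, -x2)) * g l τ x2 x0) *
        ∑ x1, dz N (l + 2) (x1 - (τ - x0 - x2)) * (matA G x0 x1 * matB F x1 x2) := by
    rw [← Equiv.sum_comp (Equiv.neg (ZMod N × ZMod N)), Fintype.sum_prod_type, sum_comm (s := range L)]
    refine sum_congr rfl fun x0 _ => ?_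
    rw [sum_comm (s := range L)]
    refine sum_congr rfl fun x2 _ => ?_
    have e1 : H (-x0, -x2) * sqM M L (lineC F G (-x0, -x2)) =
        H (-x0, -x2) / sqM M L (lineC F G (-x0, -x2)) * sqM M L (lineC F G (-x0, -x2)) ^ 2 := by
      by_cases h0 : sqM M L (lineC F G (-x0, -x2)) = 0
      · simp [h0]
      · field_simp
    refine e1.trans ?_
    rw [← key, mul_sum]
    refine sum_congr rfl fun l _ => ?_
    rw [mul_sum]
    refine sum_congr rfl fun τ _ => ?_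
    rw [← hg]
    ring
  rw [e]
  refine h1.trans (le_of_eq ?_)
  have hθ0 : 0 ≤ ((2 : ℝ) ^ ((M : ℝ) / 4))⁻¹ := by positivity
  have e2 : ((((2 : ℝ) ^ ((M : ℝ) / 4))⁻¹) ^ 3) ^ (2 / 3 : ℝ) = ((2 : ℝ) ^ ((M : ℝ) / 2))⁻¹ := by
    rw [← Real.rpow_natCast, ← Real.rpow_mul hθ0, Real.inv_rpow (by positivity),
      ← Real.rpow_mul (by norm_num)]
    congr 2
    push_cast
    ring
  rw [cube_matA, cube_matB, cube_matC, hF, hG, hθ, e2, one_pow, Real.one_rpow]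
  have : (0 : ℝ) < (2 : ℝ) ^ ((M : ℝ) / 2) := by positivity
  field_simp
  ring

theorem sqT_cyc : ∃ C : ℝ, 0 ≤ C ∧ ∀ L : ℕ, CycBound (sqT L) C := by
  obtain ⟨C, hC, h⟩ := sqM_cyc
  have hq0 : (0 : ℝ) ≤ 2 ^ (-(1 / 4) : ℝ) := by positivity
  have hq1 : (2 : ℝ) ^ (-(1 / 4) : ℝ) < 1 :=
    Real.rpow_lt_one_of_one_lt_of_neg (by norm_num) (by norm_num)
  refine ⟨C * (1 - 2 ^ (-(1 / 4) : ℝ))⁻¹, mul_nonneg hC (inv_nonneg.2 (by linarith)),
    fun L N _ F G H hH => ?_⟩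
  have hn : 0 ≤ C * (n3 F * n3 G * n3 H) :=
    mul_nonneg hC (mul_nonneg (mul_nonneg (n3_nonneg _) (n3_nonneg _)) (n3_nonneg _))
  have h1 : ∑ x, H x * sqT L (lineC F G x) ≤
      ∑ M ∈ Finset.range (L + 2), C * (n3 F * n3 G * n3 H) * ((2 : ℝ) ^ (-(1 / 4) : ℝ)) ^ M := by
    simp only [sqT, mul_sum]
    rw [sum_comm]
    refine sum_le_sum fun M _ => ?_
    have h2 := mul_le_mul_of_nonneg_left (h M L N F G H hH)
      (show (0 : ℝ) ≤ 2 ^ (-(M : ℝ) / 2) by positivity)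
    rw [mul_sum] at h2
    refine le_trans (le_of_eq (sum_congr rfl fun x _ => by ring)) (h2.trans (le_of_eq ?_))
    have e : ((2 : ℝ) ^ (-(1 / 4) : ℝ)) ^ M = 2 ^ (-(M : ℝ) / 2) * 2 ^ ((M : ℝ) / 4) := by
      rw [← Real.rpow_natCast, ← Real.rpow_mul (by norm_num), ← Real.rpow_add (by norm_num)]
      congr 1
      ring
    rw [e]
    ring
  rw [← mul_sum] at h1
  have h3 := sum_le_hasSum (Finset.range (L + 2)) (fun M _ => pow_nonneg hq0 M)
    (hasSum_geometric_of_lt_one hq0 hq1)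
  refine (h1.trans (mul_le_mul_of_nonneg_left h3 hn)).trans (le_of_eq ?_)
  ring

end Crest.Agent.R72
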