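import Crest.Agent.R72.Scale

/-!
From cyclic groups to `ℤ²`.  PLAN. `ENNReal.tsum_eq_iSup_sum`: fix a finite `s ⊆ [-P, P]²`.  Take `N = 2 (P + R) + 1`,
`F̃ x = F (x.1.valMinAbs, x.2.valMinAbs)`, same for `G`; `valMinAbs ((a : ℤ) : ZMod N) = a` for `|a| ≤ P + R`
(`ZMod.valMinAbs_spec`/`ZMod.valMinAbs_intCast..`), so `𝔐 (lineC F̃ G̃ x̃) = 𝔐 (lineZ F G x)` for `x ∈ s`.
`H̃ x̃ = √(𝔐 (lineC F̃ G̃ x̃))` if `valMinAbs x̃ ∈ s`, else `0`.  With `S = ∑_{x ∈ s} 𝔐^{3/2}`: `S ≤ K a b S^{1/3}`, so `S ≤ (K a b)^{3/2}`;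
`a³ = ∑ |F̃|³ ≤ ∑' |F|³` as `valMinAbs` is injective.
-/

set_option autoImplicit false

namespace Crest.Agent.R72

open Matrix Finset MeasureTheory
open scoped ENNReal

theorem toInt_real {S c : ℝ} (hS : 0 ≤ S) (hc : 0 ≤ c) (h : S ≤ c * S ^ (1 / 3 : ℝ)) :
    S ≤ c ^ (3 / 2 : ℝ) := by
  rcases hS.eq_or_lt with h0 | h0
  · rw [← h0]; positivity
  have h1 : S ^ (2 / 3 : ℝ) * S ^ (1 / 3 : ℝ) = S := by
    rw [← Real.rpow_add h0]; norm_num
  have h2 : S ^ (2 / 3 : ℝ) ≤ c := by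
    have hp : 0 < S ^ (1 / 3 : ℝ) := Real.rpow_pos_of_pos h0 _
    exact le_of_mul_le_mul_right (h1.le.trans h) hp
  calc S = (S ^ (2 / 3 : ℝ)) ^ (3 / 2 : ℝ) := by
        rw [← Real.rpow_mul hS]; norm_num
    _ ≤ c ^ (3 / 2 : ℝ) := Real.rpow_le_rpow (by positivity) h2 (by norm_num)

theorem toInt_val {N Q : ℕ} [NeZero N] (hN : N = 2 * Q + 1) {a : ℤ} (ha : |a| ≤ Q) :
    ((a : ZMod N)).valMinAbs = a := by
  rw [ZMod.valMinAbs_spec]
  refine ⟨rfl, ?_⟩
  have := abs_le.mp ha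
  constructor
  · rw [hN]; push_cast; omega
  · rw [hN]; push_cast; omega

theorem toInt_n3 {N : ℕ} [NeZero N] (F : ℤ × ℤ → ℝ) :
    ENNReal.ofReal (n3 (fun y : ZMod N × ZMod N => F (y.1.valMinAbs, y.2.valMinAbs))) ^
        (3 / 2 : ℝ) ≤ (∑' x, ENNReal.ofReal (|F x| ^ 3)) ^ (1 / 2 : ℝ) := by
  have hnn : 0 ≤ ∑ y : ZMod N × ZMod N, |F (y.1.valMinAbs, y.2.valMinAbs)| ^ 3 :=
    Finset.sum_nonneg fun y _ => by positivity
  unfold n3
  rw [← ENNReal.ofReal_rpow_of_nonneg hnn (by norm_num), ← ENNReal.rpow_mul,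
    show (1 / 3 : ℝ) * (3 / 2) = 1 / 2 by norm_num]
  refine ENNReal.rpow_le_rpow ?_ (by norm_num)
  rw [ENNReal.ofReal_sum_of_nonneg (fun y _ => by positivity)]
  have hinj : Function.Injective
      (fun y : ZMod N × ZMod N => ((y.1.valMinAbs, y.2.valMinAbs) : ℤ × ℤ)) := by
    intro y z hyz
    simp only [Prod.mk.injEq, ZMod.valMinAbs_inj] at hyz
    exact Prod.ext hyz.1 hyz.2
  have := ENNReal.tsum_comp_le_tsum_of_injective hinj (fun x => ENNReal.ofReal (|F x| ^ 3))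
  rwa [tsum_fintype] at this

theorem intBound_of_cyc {𝔐 : (ℤ → ℝ) → ℝ} (h0 : ∀ φ, 0 ≤ 𝔐 φ) (hloc : IsLocal 𝔐) {K : ℝ}
    (hK : 0 ≤ K) (h : CycBound 𝔐 K) : IntBound 𝔐 K := by
  classical
  obtain ⟨R, hR⟩ := hloc
  intro F G
  rw [ENNReal.tsum_eq_iSup_sum]
  refine iSup_le fun s => ?_
  obtain ⟨P, hP⟩ : ∃ P : ℕ, ∀ x ∈ s, |x.1| ≤ P ∧ |x.2| ≤ P := by
    refine ⟨s.sup (fun x => x.1.natAbs + x.2.natAbs), fun x hx => ?_⟩
    have := Finset.le_sup (f := fun x : ℤ × ℤ => x.1.natAbs + x.2.natAbs) hx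
    rw [← Int.natCast_natAbs, ← Int.natCast_natAbs]
    constructor <;> omega
  obtain ⟨N, hN⟩ : ∃ N : ℕ, N = 2 * (P + R) + 1 := ⟨_, rfl⟩
  have : NeZero N := ⟨by omega⟩
  let π : ZMod N × ZMod N → ℤ × ℤ := fun y => (y.1.valMinAbs, y.2.valMinAbs)
  let F' : ZMod N × ZMod N → ℝ := fun y => F (π y)
  let G' : ZMod N × ZMod N → ℝ := fun y => G (π y)
  let m : ℤ × ℤ → ℝ := fun x => 𝔐 (lineZ F G x)
  have hm0 : ∀ x, 0 ≤ m x := fun x => h0 _
  have hline : ∀ y, π y ∈ s → 𝔐 (lineC F' G' y) = m (π y) := by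
    intro y hy
    refine hR _ _ fun t ht => ?_
    obtain ⟨h1, h2⟩ := hP _ hy
    have e1 : (y.1 + (t : ZMod N)).valMinAbs = y.1.valMinAbs + t := by
      have : y.1 + (t : ZMod N) = ((y.1.valMinAbs + t : ℤ) : ZMod N) := by
        push_cast; rfl
      rw [this]
      refine toInt_val hN ((abs_add_le _ _).trans ?_)
      push_cast
      exact add_le_add h1 ht
    have e2 : (y.2 + (t : ZMod N)).valMinAbs = y.2.valMinAbs + t := by
      have : y.2 + (t : ZMod N) = ((y.2.valMinAbs + t : ℤ) : ZMod N) := by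
        push_cast; rfl
      rw [this]
      refine toInt_val hN ((abs_add_le _ _).trans ?_)
      push_cast
      exact add_le_add h2 ht
    simp only [lineC, lineZ, F', G', π, e1, e2]
  let H : ZMod N × ZMod N → ℝ := fun y => if π y ∈ s then m (π y) ^ (1 / 2 : ℝ) else 0
  have hH0 : ∀ y, 0 ≤ H y := by
    intro y
    simp only [H]
    split_ifs
    · exact Real.rpow_nonneg (hm0 _) _
    · exact le_rfl
  set S : ℝ := ∑ x ∈ s, m x ^ (3 / 2 : ℝ) with hS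
  have hS0 : 0 ≤ S := Finset.sum_nonneg fun x _ => Real.rpow_nonneg (hm0 _) _
  have hsum : ∑ y : ZMod N × ZMod N, (if π y ∈ s then m (π y) ^ (3 / 2 : ℝ) else 0) = S := by
    rw [← Finset.sum_filter]
    refine Finset.sum_bij' (fun y _ => π y) (fun x _ => ((x.1 : ZMod N), (x.2 : ZMod N)))
      ?_ ?_ ?_ ?_ ?_
    · intro y hy; exact (Finset.mem_filter.mp hy).2
    · intro x hx
      obtain ⟨h1, h2⟩ := hP _ hx
      have a1 := toInt_val (a := x.1) hN (h1.trans (by push_cast; omega))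
      have a2 := toInt_val (a := x.2) hN (h2.trans (by push_cast; omega))
      simp only [Finset.mem_filter, Finset.mem_univ, true_and, π, a1, a2]
      exact hx
    · intro y _
      simp [π]
    · intro x hx
      obtain ⟨h1, h2⟩ := hP _ hx
      have a1 := toInt_val (a := x.1) hN (h1.trans (by push_cast; omega))
      have a2 := toInt_val (a := x.2) hN (h2.trans (by push_cast; omega))
      simp only [π, a1, a2]
    · intro y _; rfl
  have e1 : ∑ y, H y * 𝔐 (lineC F' G' y) = S := by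
    rw [← hsum]
    refine Finset.sum_congr rfl fun y _ => ?_
    simp only [H]
    split_ifs with hy
    · rw [hline y hy, show (3 / 2 : ℝ) = 1 / 2 + 1 by norm_num,
        Real.rpow_add_one' (hm0 _) (by norm_num)]
    · simp
  have e2 : n3 H = S ^ (1 / 3 : ℝ) := by
    unfold n3
    rw [← hsum]
    congr 1
    refine Finset.sum_congr rfl fun y _ => ?_
    rw [abs_of_nonneg (hH0 y)]
    simp only [H]
    split_ifs with hy
    · rw [← Real.rpow_natCast, ← Real.rpow_mul (hm0 _)]; norm_num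
    · simp
  have hn3 : ∀ E : ZMod N × ZMod N → ℝ, 0 ≤ n3 E := fun E =>
    Real.rpow_nonneg (Finset.sum_nonneg fun y _ => by positivity) _
  have key := h N F' G' H hH0
  rw [e1, e2] at key
  have hfin := toInt_real hS0 (mul_nonneg (mul_nonneg hK (hn3 F')) (hn3 G')) key
  calc ∑ x ∈ s, ENNReal.ofReal (𝔐 (lineZ F G x)) ^ (3 / 2 : ℝ) = ENNReal.ofReal S := by
        rw [hS, ENNReal.ofReal_sum_of_nonneg (fun x _ => Real.rpow_nonneg (hm0 _) _)]
        refine Finset.sum_congr rfl fun x _ => ?_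
        rw [ENNReal.ofReal_rpow_of_nonneg (hm0 x) (by norm_num)]
    _ ≤ ENNReal.ofReal ((K * n3 F' * n3 G') ^ (3 / 2 : ℝ)) := ENNReal.ofReal_le_ofReal hfin
    _ = ENNReal.ofReal K ^ (3 / 2 : ℝ) * ENNReal.ofReal (n3 F') ^ (3 / 2 : ℝ) *
          ENNReal.ofReal (n3 G') ^ (3 / 2 : ℝ) := by
        rw [← ENNReal.ofReal_rpow_of_nonneg (mul_nonneg (mul_nonneg hK (hn3 F')) (hn3 G'))
          (by norm_num), ENNReal.ofReal_mul (mul_nonneg hK (hn3 F')), ENNReal.ofReal_mul hK,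
          ENNReal.mul_rpow_of_nonneg _ _ (by norm_num),
          ENNReal.mul_rpow_of_nonneg _ _ (by norm_num)]
    _ ≤ _ := by
        gcongr
        · exact toInt_n3 F
        · exact toInt_n3 G

end Crest.Agent.R72
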