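import Crest.Agent.R72.Defs

/-!
From `ℤ²` to `ℝ²`.  PLAN. `lintegral_lattice`: `ℝ² = ⊔ (δ x + [0,δ)²)` (e.g. `isAddFundamentalDomain_Ioc`/`lintegral_iUnion` in dimension one, twice, with Tonelli;
or `lintegral_iUnion` over `ℤ × ℤ` and translation invariance).  For `z = θ + δ x`,
`samp (lineR F G z) δ ϑ = lineZ F_θ G_θ x` with `F_θ x = F (θ.1 + δ ϑ + δ x.1, θ.2 + δ x.2)`, `G_θ x = G (θ.1 + δ x.1, θ.2 + δ ϑ + δ x.2)`.
Use `IntBound` for each `θ`, Cauchy–Schwarz in `θ` (`ENNReal.lintegral_mul_norm_pow_le` with `1/2, 1/2`), `lintegral_lattice` backwards and translation invariance.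
-/

set_option autoImplicit false

namespace Crest.Agent.R72

open Matrix Finset MeasureTheory
open scoped ENNReal

theorem tr_mem_iff {δ : ℝ} (hδ : 0 < δ) (a : ℝ) (k : ℤ) :
    a - δ * k ∈ Set.Ico (0 : ℝ) δ ↔ k = ⌊a / δ⌋ := by
  rw [eq_comm, Int.floor_eq_iff, le_div_iff₀ hδ, div_lt_iff₀ hδ, Set.mem_Ico]
  constructor
  · rintro ⟨h1, h2⟩
    constructor <;> nlinarith
  · rintro ⟨h1, h2⟩
    constructor <;> nlinarith

theorem lintegral_lattice {δ : ℝ} (hδ : 0 < δ) {f : ℝ × ℝ → ℝ≥0∞} (hf : Measurable f) :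
    ∫⁻ z, f z = ∫⁻ θ in Set.Ico (0 : ℝ) δ ×ˢ Set.Ico (0 : ℝ) δ,
      ∑' x : ℤ × ℤ, f (θ.1 + δ * x.1, θ.2 + δ * x.2) := by
  set S : Set (ℝ × ℝ) := Set.Ico (0 : ℝ) δ ×ˢ Set.Ico (0 : ℝ) δ with hS
  have hSm : MeasurableSet S := measurableSet_Ico.prod measurableSet_Ico
  let c : ℤ × ℤ → ℝ × ℝ := fun x => (δ * x.1, δ * x.2)
  let T : ℤ × ℤ → Set (ℝ × ℝ) := fun x => (fun z => z - c x) ⁻¹' S
  have hTm : ∀ x, MeasurableSet (T x) := fun x => (measurable_id.sub_const (c x)) hSm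
  have hfm : ∀ x : ℤ × ℤ, Measurable fun θ : ℝ × ℝ => f (θ.1 + δ * x.1, θ.2 + δ * x.2) :=
    fun x => hf.comp ((measurable_fst.add_const _).prodMk (measurable_snd.add_const _))
  rw [lintegral_tsum fun x => (hfm x).aemeasurable]
  have e : ∀ x : ℤ × ℤ, ∫⁻ θ in S, f (θ.1 + δ * x.1, θ.2 + δ * x.2) =
      ∫⁻ z, (T x).indicator f z := by
    intro x
    rw [← lintegral_indicator hSm, ← lintegral_add_right_eq_self ((T x).indicator f) (c x)]
    refine lintegral_congr fun θ => ?_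
    by_cases hθ : θ ∈ S
    · have : θ + c x ∈ T x := by
        show θ + c x - c x ∈ S
        rwa [add_sub_cancel_right]
      rw [Set.indicator_of_mem hθ, Set.indicator_of_mem this]
      rfl
    · have : θ + c x ∉ T x := by
        show ¬ (θ + c x - c x ∈ S)
        rwa [add_sub_cancel_right]
      rw [Set.indicator_of_notMem hθ, Set.indicator_of_notMem this]
  simp only [e]
  rw [← lintegral_tsum fun x => (hf.indicator (hTm x)).aemeasurable]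
  refine lintegral_congr fun z => ?_
  have hmem : ∀ x : ℤ × ℤ, z ∈ T x ↔ x = (⌊z.1 / δ⌋, ⌊z.2 / δ⌋) := by
    intro x
    show (z.1 - δ * x.1 ∈ Set.Ico (0 : ℝ) δ ∧ z.2 - δ * x.2 ∈ Set.Ico (0 : ℝ) δ) ↔ _
    rw [tr_mem_iff hδ, tr_mem_iff hδ, Prod.ext_iff]
  rw [tsum_eq_single (⌊z.1 / δ⌋, ⌊z.2 / δ⌋)]
  · rw [Set.indicator_of_mem ((hmem _).2 rfl)]
  · intro x hx
    rw [Set.indicator_of_notMem (fun h => hx ((hmem x).1 h))]

theorem measurable_samp {F G : ℝ × ℝ → ℝ} (hF : Measurable F) (hG : Measurable G) :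
    Measurable (fun q : (ℝ × ℝ) × ℝ × ℝ => samp (lineR F G q.1) q.2.1 q.2.2) := by
  refine measurable_pi_lambda _ fun t => ?_
  simp only [samp, lineR]
  refine (hF.comp ?_).mul (hG.comp ?_) <;> fun_prop

theorem tr_cube_meas {F : ℝ × ℝ → ℝ} (hF : Measurable F) :
    Measurable fun z => ENNReal.ofReal (|F z| ^ 3) := by
  fun_prop

theorem transfer {𝔐 : (ℤ → ℝ) → ℝ} (hm : Measurable 𝔐) {K : ℝ} (h : IntBound 𝔐 K)
    {F G : ℝ × ℝ → ℝ} (hF : Measurable F) (hG : Measurable G) {δ : ℝ} (hδ : 0 < δ) (ϑ : ℝ) :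
    ∫⁻ z, ENNReal.ofReal (𝔐 (samp (lineR F G z) δ ϑ)) ^ (3 / 2 : ℝ) ≤
      ENNReal.ofReal K ^ (3 / 2 : ℝ) * (∫⁻ z, ENNReal.ofReal (|F z| ^ 3)) ^ (1 / 2 : ℝ) *
        (∫⁻ z, ENNReal.ofReal (|G z| ^ 3)) ^ (1 / 2 : ℝ) := by
  have hs : Measurable fun z : ℝ × ℝ => samp (lineR F G z) δ ϑ :=
    (measurable_samp hF hG).comp (measurable_id.prodMk (measurable_const (a := (δ, ϑ))))
  have hL : Measurable fun z : ℝ × ℝ =>
      ENNReal.ofReal (𝔐 (samp (lineR F G z) δ ϑ)) ^ (3 / 2 : ℝ) :=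
    (hm.comp hs).ennreal_ofReal.pow_const _
  let f : ℝ × ℝ → ℝ≥0∞ := fun z => ENNReal.ofReal (|F (z + (δ * ϑ, 0))| ^ 3)
  let g : ℝ × ℝ → ℝ≥0∞ := fun z => ENNReal.ofReal (|G (z + (0, δ * ϑ))| ^ 3)
  have hf : Measurable f := (tr_cube_meas hF).comp (measurable_id.add_const _)
  have hg : Measurable g := (tr_cube_meas hG).comp (measurable_id.add_const _)
  have ef : ∫⁻ z, ENNReal.ofReal (|F z| ^ 3) = ∫⁻ z, f z :=
    (lintegral_add_right_eq_self (fun z => ENNReal.ofReal (|F z| ^ 3)) _).symm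
  have eg : ∫⁻ z, ENNReal.ofReal (|G z| ^ 3) = ∫⁻ z, g z :=
    (lintegral_add_right_eq_self (fun z => ENNReal.ofReal (|G z| ^ 3)) _).symm
  have hm2 : ∀ {f : ℝ × ℝ → ℝ≥0∞}, Measurable f →
      Measurable fun θ : ℝ × ℝ => ∑' x : ℤ × ℤ, f (θ.1 + δ * x.1, θ.2 + δ * x.2) :=
    fun hf => Measurable.tsum fun x =>
      hf.comp ((measurable_fst.add_const _).prodMk (measurable_snd.add_const _))
  rw [ef, eg, lintegral_lattice hδ hL, lintegral_lattice hδ hf, lintegral_lattice hδ hg, mul_assoc]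
  refine le_trans ?_ (mul_le_mul_right (ENNReal.lintegral_mul_norm_pow_le (hm2 hf).aemeasurable
    (hm2 hg).aemeasurable (p := 1 / 2) (q := 1 / 2) (by norm_num) (by norm_num) (by norm_num)) _)
  rw [← lintegral_const_mul _ (((hm2 hf).pow_const _).fun_mul ((hm2 hg).pow_const _))]
  refine lintegral_mono fun θ => ?_
  have key := h (fun x => F ((θ.1 + δ * x.1, θ.2 + δ * x.2) + (δ * ϑ, 0)))
    (fun x => G ((θ.1 + δ * x.1, θ.2 + δ * x.2) + (0, δ * ϑ)))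
  rw [mul_assoc] at key
  refine le_trans (le_of_eq ?_) key
  refine tsum_congr fun x => ?_
  congr 3
  funext t
  simp only [samp, lineR, lineZ, Prod.mk_add_mk, add_zero]
  push_cast
  congr 3 <;> ring

end Crest.Agent.R72
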