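import Crest.Agent.R72.MainZ2
import Crest.Agent.R72.SqZ2
import Crest.Agent.R72.ToInt
import Crest.Agent.R72.Transfer

/-!
Norm of the majorant.  PLAN.  Measurability: `measurable_samp`, `varM_measurable`, `sqT_measurable`, `Measurable.lintegral_prod_right'`, `Measurable.liminf`.
`IntBound` for `varM (2n) (2K)` and `sqT (2K)` from `varM_cyc`, `sqT_cyc`, `intBound_of_cyc`.
Hölder on a finite measure: `(∫⁻ f)^(3/2) ≤ μ(univ)^(1/2) ∫⁻ f^(3/2)` (`ENNReal.lintegral_mul_le_Lp_mul_Lq` with `3/2, 3`), used for `ϑ` and `lam`;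
Tonelli (`lintegral_lintegral_swap`), `transfer` for each `(lam, ϑ)`.
`(liminf u)^(3/2) = liminf u^(3/2)` (`Monotone.map_liminf_of_continuousAt` or `OrderIso.liminf_apply` with `ENNReal.orderIsoRpow`), Fatou `lintegral_liminf_le`,
`(x + y)^(3/2) ≤ 2^(1/2) (x^(3/2) + y^(3/2))` (`ENNReal.add_rpow_le_two_rpow_mul_rpow_add_rpow`-type lemma).
-/

set_option autoImplicit false

namespace Crest.Agent.R72

open Matrix Finset MeasureTheory
open scoped ENNReal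

theorem cr_holder {Y : Type*} [MeasurableSpace Y] (μ : Measure Y) {f : Y → ℝ≥0∞}
    (hf : Measurable f) :
    (∫⁻ y, f y ∂μ) ^ (3 / 2 : ℝ) ≤ μ Set.univ ^ (1 / 2 : ℝ) * ∫⁻ y, f y ^ (3 / 2 : ℝ) ∂μ := by
  have h := ENNReal.lintegral_mul_norm_pow_le (μ := μ) (f := fun y => f y ^ (3 / 2 : ℝ))
    (g := fun _ => 1) (hf.pow_const _).aemeasurable aemeasurable_const (p := 2 / 3) (q := 1 / 3)
    (by norm_num) (by norm_num) (by norm_num)
  simp only [ENNReal.one_rpow, mul_one, ← ENNReal.rpow_mul, lintegral_const, one_mul] at h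
  norm_num at h
  refine (ENNReal.rpow_le_rpow h (by norm_num : (0 : ℝ) ≤ 3 / 2)).trans (le_of_eq ?_)
  rw [ENNReal.mul_rpow_of_nonneg _ _ (by norm_num), ← ENNReal.rpow_mul, ← ENNReal.rpow_mul, mul_comm]
  norm_num

theorem cr_avg {Y : Type*} [MeasurableSpace Y] (μ : Measure Y) [IsFiniteMeasure μ]
    {f : (ℝ × ℝ) × Y → ℝ≥0∞} (hf : Measurable f) {B : ℝ≥0∞}
    (h : ∀ᵐ y ∂μ, ∫⁻ z, f (z, y) ^ (3 / 2 : ℝ) ≤ B) :
    ∫⁻ z, (∫⁻ y, f (z, y) ∂μ) ^ (3 / 2 : ℝ) ≤ μ Set.univ ^ (3 / 2 : ℝ) * B := by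
  have hne : μ Set.univ ^ (1 / 2 : ℝ) ≠ ⊤ :=
    ENNReal.rpow_ne_top_of_nonneg (by norm_num) (measure_ne_top _ _)
  calc _ ≤ ∫⁻ z : ℝ × ℝ, μ Set.univ ^ (1 / 2 : ℝ) * ∫⁻ y, f (z, y) ^ (3 / 2 : ℝ) ∂μ :=
        lintegral_mono fun z => cr_holder μ (hf.comp measurable_prodMk_left)
    _ = μ Set.univ ^ (1 / 2 : ℝ) * ∫⁻ y, (∫⁻ z : ℝ × ℝ, f (z, y) ^ (3 / 2 : ℝ)) ∂μ := by
        rw [lintegral_const_mul' _ _ hne,
          lintegral_lintegral_swap (f := fun z y => f (z, y) ^ (3 / 2 : ℝ))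
            (hf.pow_const _).aemeasurable]
    _ ≤ μ Set.univ ^ (1 / 2 : ℝ) * ∫⁻ _, B ∂μ := by
        gcongr 1
        exact lintegral_mono_ae h
    _ = μ Set.univ ^ (3 / 2 : ℝ) * B := by
        rw [lintegral_const, mul_comm B, ← mul_assoc]
        congr 1
        have : (3 / 2 : ℝ) = 1 / 2 + 1 := by norm_num
        rw [this, ENNReal.rpow_add_of_nonneg _ _ (by norm_num) (by norm_num), ENNReal.rpow_one]

theorem cr_meas_long {F G : ℝ × ℝ → ℝ} (hF : Measurable F) (hG : Measurable G) (ν K : ℕ) :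
    Measurable (fun q : ((ℝ × ℝ) × ℝ) × ℝ =>
      ENNReal.ofReal (varM ν (2 * K) (samp (lineR F G q.1.1) (q.1.2 / 2 ^ (K + 2)) q.2))) := by
  have h1 : Measurable fun q : ((ℝ × ℝ) × ℝ) × ℝ => (q.1.1, q.1.2 / 2 ^ (K + 2), q.2) := by
    fun_prop
  exact ((varM_measurable ν (2 * K)).comp ((measurable_samp hF hG).comp h1)).ennreal_ofReal

theorem cr_meas_rough {F G : ℝ × ℝ → ℝ} (hF : Measurable F) (hG : Measurable G) (K : ℕ) :
    Measurable (fun q : (ℝ × ℝ) × ℝ =>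
      ENNReal.ofReal (sqT (2 * K) (samp (lineR F G q.1) (1 / 2 ^ (K + 2)) q.2))) := by
  have h1 : Measurable fun q : (ℝ × ℝ) × ℝ => (q.1, (1 : ℝ) / 2 ^ (K + 2), q.2) := by
    fun_prop
  exact ((sqT_measurable (2 * K)).comp ((measurable_samp hF hG).comp h1)).ennreal_ofReal

theorem measurable_longW {F G : ℝ × ℝ → ℝ} (hF : Measurable F) (hG : Measurable G) (ν K : ℕ) :
    Measurable (fun z => longW ν K (lineR F G z)) :=
  (cr_meas_long hF hG ν K).lintegral_prod_right'.lintegral_prod_right'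

theorem measurable_roughW {F G : ℝ × ℝ → ℝ} (hF : Measurable F) (hG : Measurable G) (K : ℕ) :
    Measurable (fun z => roughW K (lineR F G z)) :=
  (cr_meas_rough hF hG K).lintegral_prod_right'

theorem measurable_totW {F G : ℝ × ℝ → ℝ} (hF : Measurable F) (hG : Measurable G) (C : ℝ) (n : ℕ) :
    Measurable (fun z => totW C n (lineR F G z)) :=
  Measurable.liminf fun K => ((measurable_longW hF hG _ K).const_mul _).add
    ((measurable_roughW hF hG K).const_mul _)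

theorem longW_bound : ∃ C : ℝ, 0 ≤ C ∧ ∀ (ν K : ℕ), 1 ≤ ν → ∀ F G : ℝ × ℝ → ℝ, Measurable F →
    Measurable G → ∫⁻ z, longW ν K (lineR F G z) ^ (3 / 2 : ℝ) ≤
      ENNReal.ofReal (C * Real.sqrt ν) ^ (3 / 2 : ℝ) *
        (∫⁻ z, ENNReal.ofReal (|F z| ^ 3)) ^ (1 / 2 : ℝ) *
          (∫⁻ z, ENNReal.ofReal (|G z| ^ 3)) ^ (1 / 2 : ℝ) := by
  obtain ⟨C, hC, h⟩ := varM_cyc
  refine ⟨3 * C, by positivity, fun ν K hν F G hF hG => ?_⟩
  have hI : IntBound (varM ν (2 * K)) (C * Real.sqrt ν) :=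
    intBound_of_cyc (varM_nonneg _ _) (varM_local _ _) (by positivity) (h ν _ hν)
  set B : ℝ≥0∞ := ENNReal.ofReal (C * Real.sqrt ν) ^ (3 / 2 : ℝ) *
        (∫⁻ z, ENNReal.ofReal (|F z| ^ 3)) ^ (1 / 2 : ℝ) *
          (∫⁻ z, ENNReal.ofReal (|G z| ^ 3)) ^ (1 / 2 : ℝ) with hB
  have hm := cr_meas_long hF hG ν K
  have h0 : ∀ᵐ lam ∂(volume.restrict (Set.Icc (1 : ℝ) 2)), ∫⁻ z : ℝ × ℝ,
      (∫⁻ ϑ in Set.Icc (0 : ℝ) 3, ENNReal.ofReal
        (varM ν (2 * K) (samp (lineR F G z) (lam / 2 ^ (K + 2)) ϑ))) ^ (3 / 2 : ℝ) ≤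
      (volume.restrict (Set.Icc (0 : ℝ) 3)) Set.univ ^ (3 / 2 : ℝ) * B := by
    filter_upwards [ae_restrict_mem measurableSet_Icc] with lam hlam
    have h2 : Measurable fun q : (ℝ × ℝ) × ℝ => ((q.1, lam), q.2) := by fun_prop
    refine cr_avg (volume.restrict (Set.Icc (0 : ℝ) 3))
      (f := fun q => ENNReal.ofReal
        (varM ν (2 * K) (samp (lineR F G q.1) (lam / 2 ^ (K + 2)) q.2))) (hm.comp h2 :)
      (Filter.Eventually.of_forall fun ϑ => ?_)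
    have : 0 < lam := by linarith [hlam.1]
    exact transfer (varM_measurable _ _) hI hF hG (by positivity) ϑ
  have h1 := cr_avg (volume.restrict (Set.Icc (1 : ℝ) 2))
    (f := fun q => ∫⁻ ϑ in Set.Icc (0 : ℝ) 3, ENNReal.ofReal
        (varM ν (2 * K) (samp (lineR F G q.1) (q.2 / 2 ^ (K + 2)) ϑ)))
    (hm.lintegral_prod_right' (ν := volume.restrict (Set.Icc (0 : ℝ) 3))) h0
  refine h1.trans (le_of_eq ?_)
  rw [Measure.restrict_apply_univ, Measure.restrict_apply_univ, Real.volume_Icc, Real.volume_Icc,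
    hB, mul_assoc 3, ENNReal.ofReal_mul (by norm_num : (0 : ℝ) ≤ 3),
    ENNReal.mul_rpow_of_nonneg _ _ (by norm_num)]
  norm_num
  ring

theorem roughW_bound : ∃ C : ℝ, 0 ≤ C ∧ ∀ (K : ℕ) (F G : ℝ × ℝ → ℝ), Measurable F →
    Measurable G → ∫⁻ z, roughW K (lineR F G z) ^ (3 / 2 : ℝ) ≤
      ENNReal.ofReal C ^ (3 / 2 : ℝ) * (∫⁻ z, ENNReal.ofReal (|F z| ^ 3)) ^ (1 / 2 : ℝ) *
        (∫⁻ z, ENNReal.ofReal (|G z| ^ 3)) ^ (1 / 2 : ℝ) := by
  obtain ⟨C, hC, h⟩ := sqT_cyc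
  refine ⟨C, hC, fun K F G hF hG => ?_⟩
  have hI : IntBound (sqT (2 * K)) C := intBound_of_cyc (sqT_nonneg _) (sqT_local _) hC (h _)
  have h1 := cr_avg (volume.restrict (Set.Icc (0 : ℝ) 1)) (cr_meas_rough hF hG K)
    (Filter.Eventually.of_forall fun ϑ =>
      transfer (sqT_measurable _) hI hF hG (δ := 1 / 2 ^ (K + 2)) (by positivity) ϑ)
  refine h1.trans (le_of_eq ?_)
  rw [Measure.restrict_apply_univ, Real.volume_Icc]
  norm_num

theorem totW_bound (C0 : ℝ) (h0 : 0 ≤ C0) : ∃ C : ℝ, 0 ≤ C ∧ ∀ (n : ℕ), 1 ≤ n →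
    ∀ F G : ℝ × ℝ → ℝ, Measurable F → Measurable G →
    ∫⁻ z, totW C0 n (lineR F G z) ^ (3 / 2 : ℝ) ≤
      ENNReal.ofReal (C * Real.sqrt n) ^ (3 / 2 : ℝ) *
        (∫⁻ z, ENNReal.ofReal (|F z| ^ 3)) ^ (1 / 2 : ℝ) *
          (∫⁻ z, ENNReal.ofReal (|G z| ^ 3)) ^ (1 / 2 : ℝ) := by
  obtain ⟨C1, hC1, h1⟩ := longW_bound
  obtain ⟨C2, hC2, h2⟩ := roughW_bound
  refine ⟨2 * (C0 * (C1 * Real.sqrt 2 + C2)), by positivity, fun n hn F G hF hG => ?_⟩
  set P : ℝ≥0∞ := (∫⁻ z, ENNReal.ofReal (|F z| ^ 3)) ^ (1 / 2 : ℝ) *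
          (∫⁻ z, ENNReal.ofReal (|G z| ^ 3)) ^ (1 / 2 : ℝ) with hP
  set D : ℝ := C0 * (C1 * Real.sqrt 2 + C2) * Real.sqrt n with hD
  have hD0 : 0 ≤ D := by positivity
  set u : ℕ → ℝ × ℝ → ℝ≥0∞ := fun K z => ENNReal.ofReal C0 * longW (2 * n) K (lineR F G z) +
    ENNReal.ofReal (C0 * Real.sqrt n) * roughW K (lineR F G z) with hu
  have hum : ∀ K, Measurable (u K) := fun K => ((measurable_longW hF hG _ K).const_mul _).add
    ((measurable_roughW hF hG K).const_mul _)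
  have e1 : ∀ z, totW C0 n (lineR F G z) ^ (3 / 2 : ℝ) =
      Filter.liminf (fun K => u K z ^ (3 / 2 : ℝ)) Filter.atTop := fun z =>
    Monotone.map_liminf_of_continuousAt (F := Filter.atTop)
      (f := fun x : ℝ≥0∞ => x ^ (3 / 2 : ℝ))
      (fun _ _ h => ENNReal.rpow_le_rpow h (by norm_num)) (fun K => u K z)
      ENNReal.continuous_rpow_const.continuousAt
  have hne : ∀ x : ℝ, ENNReal.ofReal x ^ (3 / 2 : ℝ) ≠ ⊤ := fun x =>
    ENNReal.rpow_ne_top_of_nonneg (by norm_num) ENNReal.ofReal_ne_top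
  have e2 : ∀ K, ∫⁻ z, u K z ^ (3 / 2 : ℝ) ≤ ENNReal.ofReal (2 * D) ^ (3 / 2 : ℝ) * P := by
    intro K
    have a1 : ENNReal.ofReal C0 ^ (3 / 2 : ℝ) * ∫⁻ z, longW (2 * n) K (lineR F G z) ^ (3 / 2 : ℝ) ≤
        ENNReal.ofReal D ^ (3 / 2 : ℝ) * P := by
      have := h1 (2 * n) K (by omega) F G hF hG
      rw [mul_assoc, ← hP] at this
      refine (mul_le_mul_right this _).trans ?_
      rw [← mul_assoc, ← ENNReal.mul_rpow_of_nonneg _ _ (by norm_num), ← ENNReal.ofReal_mul h0]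
      gcongr
      push_cast
      rw [Real.sqrt_mul (by norm_num), hD]
      have : 0 ≤ C0 * C2 * Real.sqrt n := by positivity
      nlinarith
    have a2 : ENNReal.ofReal (C0 * Real.sqrt n) ^ (3 / 2 : ℝ) *
        ∫⁻ z, roughW K (lineR F G z) ^ (3 / 2 : ℝ) ≤ ENNReal.ofReal D ^ (3 / 2 : ℝ) * P := by
      have := h2 K F G hF hG
      rw [mul_assoc, ← hP] at this
      refine (mul_le_mul_right this _).trans ?_
      rw [← mul_assoc, ← ENNReal.mul_rpow_of_nonneg _ _ (by norm_num),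
        ← ENNReal.ofReal_mul (by positivity)]
      gcongr
      rw [hD]
      have : 0 ≤ C0 * (C1 * Real.sqrt 2) * Real.sqrt n := by positivity
      nlinarith
    calc _ ≤ ∫⁻ z, (2 : ℝ≥0∞) ^ ((3 / 2 : ℝ) - 1) *
          (ENNReal.ofReal C0 ^ (3 / 2 : ℝ) * longW (2 * n) K (lineR F G z) ^ (3 / 2 : ℝ) +
            ENNReal.ofReal (C0 * Real.sqrt n) ^ (3 / 2 : ℝ) *
              roughW K (lineR F G z) ^ (3 / 2 : ℝ)) := by
          refine lintegral_mono fun z => ?_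
          rw [← ENNReal.mul_rpow_of_nonneg _ _ (by norm_num),
            ← ENNReal.mul_rpow_of_nonneg _ _ (by norm_num)]
          exact ENNReal.rpow_add_le_mul_rpow_add_rpow _ _ (by norm_num)
      _ = (2 : ℝ≥0∞) ^ ((3 / 2 : ℝ) - 1) *
          (ENNReal.ofReal C0 ^ (3 / 2 : ℝ) * (∫⁻ z, longW (2 * n) K (lineR F G z) ^ (3 / 2 : ℝ)) +
            ENNReal.ofReal (C0 * Real.sqrt n) ^ (3 / 2 : ℝ) *
              ∫⁻ z, roughW K (lineR F G z) ^ (3 / 2 : ℝ)) := by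
          rw [lintegral_const_mul' _ _ (ENNReal.rpow_ne_top_of_nonneg (by norm_num) (by simp)),
            lintegral_add_left (((measurable_longW hF hG _ K).pow_const _).const_mul _),
            lintegral_const_mul' _ _ (hne _), lintegral_const_mul' _ _ (hne _)]
      _ ≤ (2 : ℝ≥0∞) ^ ((3 / 2 : ℝ) - 1) * (ENNReal.ofReal D ^ (3 / 2 : ℝ) * P +
          ENNReal.ofReal D ^ (3 / 2 : ℝ) * P) := by gcongr
      _ = ENNReal.ofReal (2 * D) ^ (3 / 2 : ℝ) * P := by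
          rw [ENNReal.ofReal_mul (p := 2) (by norm_num),
            ENNReal.mul_rpow_of_nonneg (ENNReal.ofReal 2) _ (by norm_num),
            ← two_mul, ← mul_assoc, ← mul_assoc]
          congr 2
          rw [ENNReal.rpow_sub _ _ (by norm_num) (by simp), ENNReal.rpow_one,
            ENNReal.div_mul_cancel (by norm_num) (by simp)]
          norm_num
  simp only [e1]
  refine (lintegral_liminf_le fun K => (hum K).pow_const _).trans ?_
  refine (Filter.liminf_le_of_frequently_le' (Filter.Frequently.of_forall e2)).trans (le_of_eq ?_)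
  rw [mul_assoc _ (_ ^ (1 / 2 : ℝ)), hD, mul_assoc 2]

end Crest.Agent.R72
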