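import Mathlib

/-!
Row 72 (triangular Hilbert transform): definitions.

Matrix part: `f32 N = tr N^{3/2}`, vertex potentials `vF`, Jensen gap `vJ`, trilinear form `tform`.
Cyclic part: weights on `ZMod N`, plane sums, potential `potU`.
Integer part: Haar functionals of sequences `ℤ → ℝ`, the majorants `varM`, `sqM`, `sqT`.
Real part: sampling, splines, the majorants `longW`, `roughW`.
-/

set_option autoImplicit false

namespace Crest.Agent.R72

open Matrix Finset MeasureTheory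
open scoped ENNReal

section Mat
variable {n : Type*} [Fintype n] [DecidableEq n]

open scoped MatrixOrder in
/-- positive semidefinite square root of a real matrix -/
noncomputable def msqrt (N : Matrix n n ℝ) : Matrix n n ℝ := CFC.sqrt N

/-- `tr N^{3/2}` -/
noncomputable def f32 (N : Matrix n n ℝ) : ℝ := (msqrt N * N).trace

/-- Bregman divergence of `f32` -/
noncomputable def breg (X Y : Matrix n n ℝ) : ℝ :=
  f32 X - f32 Y - 3 / 2 * (msqrt Y * (X - Y)).trace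

/-- diagonal matrix of square roots of weights -/
noncomputable def dsq (w : n → ℝ) : Matrix n n ℝ := Matrix.diagonal (fun x => Real.sqrt (w x))

/-- vertex matrix `√g (Aᵀ G0 A + B G2 Bᵀ) √g` -/
noncomputable def vN (A B : Matrix n n ℝ) (G0 g G2 : n → ℝ) : Matrix n n ℝ :=
  dsq g * (Aᵀ * Matrix.diagonal G0 * A + B * Matrix.diagonal G2 * Bᵀ) * dsq g

/-- vertex potential -/
noncomputable def vF (A B : Matrix n n ℝ) (G0 g G2 : n → ℝ) : ℝ := f32 (vN A B G0 g G2)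

/-- Jensen gap of the vertex potential in the middle weight -/
noncomputable def vJ (A B : Matrix n n ℝ) (G0 gp gm G2 : n → ℝ) : ℝ :=
  (vF A B G0 gp G2 + vF A B G0 gm G2) / 2 - vF A B G0 (fun x => (gp x + gm x) / 2) G2

/-- trilinear triangular form with weights -/
noncomputable def tform (d0 d1 d2 : n → ℝ) (A B C : Matrix n n ℝ) : ℝ :=
  ∑ x0, ∑ x1, ∑ x2, d0 x0 * d1 x1 * d2 x2 * (A x0 x1 * B x1 x2 * C x2 x0)

/-- sum of cubes of absolute values of the entries -/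
noncomputable def cube (A : Matrix n n ℝ) : ℝ := ∑ x, ∑ y, |A x y| ^ 3

end Mat

section Group
variable {Z : Type*} [AddCommGroup Z] [Fintype Z] [DecidableEq Z]

/-- translate of a weight -/
def sh (w : Z → ℝ) (p : Z) : Z → ℝ := fun x => w (x - p)

/-- symmetric two-point average of a weight -/
noncomputable def tau (c : Z) (w : Z → ℝ) : Z → ℝ := fun x => (w (x + c) + w (x - c)) / 2

/-- convolution of weights -/
noncomputable def conv (w v : Z → ℝ) : Z → ℝ := fun x => ∑ y, w y * v (x - y)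

/-- vertex potential summed over the plane `p0 + p1 + p2 = s` -/
noncomputable def planeI (A B : Matrix Z Z ℝ) (G g : Z → ℝ) (s : Z) : ℝ :=
  ∑ p : Z × Z, vF A B (sh G p.1) (sh g p.2) (sh G (s - p.1 - p.2))

/-- corrected potential (vertex potential plus the two edge potentials) -/
noncomputable def potU (A B : Matrix Z Z ℝ) (G g : Z → ℝ) : ℝ :=
  planeI A B G g 0 + 14 * planeI A 0 G g 0 + 14 * planeI 0 B G g 0

/-- Jensen gaps summed over the plane `p0 + p1 + p2 = 0` -/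
noncomputable def gapSum (A B : Matrix Z Z ℝ) (G g : Z → ℝ) (η : Z) : ℝ :=
  ∑ p : Z × Z, vJ A B (sh G p.1) (sh g (p.2 - η)) (sh g (p.2 + η)) (sh G (-p.1 - p.2))

end Group

section Int

/-- L¹-normalised Haar function of half-width `2^j` (meaningful on `Ico (-2^j) (2^j)`) -/
noncomputable def dsgn (j : ℕ) (t : ℤ) : ℝ := if t < 0 then 1 / 2 ^ (j + 1) else -(1 / 2 ^ (j + 1))

/-- average of `φ` over the window `τ + Ico (-2^j) (2^j)` -/
noncomputable def unif (j : ℕ) (φ : ℤ → ℝ) (τ : ℤ) : ℝ :=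
  ∑ t ∈ Finset.Ico (-(2 : ℤ) ^ j) (2 ^ j), 1 / 2 ^ (j + 1) * φ (τ + t)

/-- Haar coefficient of `φ` on the window `τ + Ico (-2^j) (2^j)` -/
noncomputable def haar (j : ℕ) (φ : ℤ → ℝ) (τ : ℤ) : ℝ :=
  ∑ t ∈ Finset.Ico (-(2 : ℤ) ^ j) (2 ^ j), dsgn j t * φ (τ + t)

/-- triple Haar functional -/
noncomputable def tri (j : ℕ) (φ : ℤ → ℝ) : ℝ := haar j (haar j (haar j φ)) 0

/-- extension by zero of a finite sign pattern -/
noncomputable def ext {L : ℕ} (σ : Fin L → SignType) (l : ℕ) : ℝ :=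
  if h : l < L then ((σ ⟨l, h⟩ : SignType) : ℝ) else 0

/-- total variation of a pattern on `0..L` -/
noncomputable def tv (L : ℕ) (σ : ℕ → ℝ) : ℝ := ∑ l ∈ Finset.range L, |σ (l + 1) - σ l|

/-- largest signed sum of triple Haar functionals over sign patterns of variation at most `ν` -/
noncomputable def varM (ν L : ℕ) (φ : ℤ → ℝ) : ℝ :=
  ⨆ σ : {σ : Fin L → SignType // tv L (ext σ) ≤ ν},
    |∑ l ∈ Finset.range L, ext σ.1 l * tri (l + 2) φ|

/-- shifted square function -/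
noncomputable def sqM (M L : ℕ) (φ : ℤ → ℝ) : ℝ :=
  Real.sqrt (∑ l ∈ Finset.range L, unif (l + M + 1) (fun τ => haar (l + 2) φ τ ^ 2) 0)

/-- weighted sum of the shifted square functions -/
noncomputable def sqT (L : ℕ) (φ : ℤ → ℝ) : ℝ :=
  ∑ M ∈ Finset.range (L + 2), (2 : ℝ) ^ (-(M : ℝ) / 2) * sqM M L φ

/-- the tent smoothing `u₁ * u₁` of a kernel -/
noncomputable def smooth (κ : ℤ → ℝ) (t : ℤ) : ℝ :=
  ∑ s ∈ Finset.Icc (-3 : ℤ) 3, (4 - |(s : ℝ)|) / 16 * κ (t + s)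

/-- the product sequence along the anti-diagonal through `x` -/
def lineZ (F G : ℤ × ℤ → ℝ) (x : ℤ × ℤ) : ℤ → ℝ := fun t => F (x.1 + t, x.2) * G (x.1, x.2 + t)

end Int

section Cyc
variable {N : ℕ} [NeZero N]

/-- push-forward to `ZMod N` of the uniform weight on `Ico (-2^j) (2^j)` -/
noncomputable def uz (N : ℕ) (j : ℕ) : ZMod N → ℝ := fun x =>
  ∑ t ∈ Finset.Ico (-(2 : ℤ) ^ j) (2 ^ j), if x = (t : ZMod N) then 1 / 2 ^ (j + 1) else 0

/-- push-forward to `ZMod N` of the Haar function of half-width `2^j` -/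
noncomputable def dz (N : ℕ) (j : ℕ) : ZMod N → ℝ := fun x =>
  ∑ t ∈ Finset.Ico (-(2 : ℤ) ^ j) (2 ^ j), if x = (t : ZMod N) then dsgn j t else 0

/-- the side weights at level `l` with width parameter `M` -/
noncomputable def GG (N : ℕ) [NeZero N] (M l : ℕ) : ZMod N → ℝ := conv (uz N l) (uz N (l + M + 2))

/-- dyadic centred maximal function on `ZMod N` -/
noncomputable def maxZ (φ : ZMod N → ℝ) (x : ZMod N) : ℝ := ⨆ j : ℕ, ∑ y, uz N j (y - x) * φ y

/-- trilinear Haar form summed over the plane -/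
noncomputable def triZ (j : ℕ) (A B C : Matrix (ZMod N) (ZMod N) ℝ) : ℝ :=
  ∑ p : ZMod N × ZMod N,
    tform (sh (dz N j) p.1) (sh (dz N j) p.2) (sh (dz N j) (-p.1 - p.2)) A B C

/-- the product sequence along the anti-diagonal through `x`, cyclic version -/
def lineC (F G : ZMod N × ZMod N → ℝ) (x : ZMod N × ZMod N) : ℤ → ℝ :=
  fun t => F (x.1 + (t : ZMod N), x.2) * G (x.1, x.2 + (t : ZMod N))

/-- ℓ³ norm on `ZMod N × ZMod N` -/
noncomputable def n3 (F : ZMod N × ZMod N → ℝ) : ℝ := (∑ x, |F x| ^ 3) ^ (1 / 3 : ℝ)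

end Cyc

/-- `𝔐` obeys the dual trilinear bound with constant `K` on every cyclic group -/
def CycBound (𝔐 : (ℤ → ℝ) → ℝ) (K : ℝ) : Prop :=
  ∀ (N : ℕ) [NeZero N] (F G H : ZMod N × ZMod N → ℝ), (∀ x, 0 ≤ H x) →
    ∑ x, H x * 𝔐 (lineC F G x) ≤ K * n3 F * n3 G * n3 H

/-- `𝔐` obeys the `ℓ³ × ℓ³ → ℓ^{3/2}` bound with constant `K` on `ℤ²` -/
def IntBound (𝔐 : (ℤ → ℝ) → ℝ) (K : ℝ) : Prop :=
  ∀ F G : ℤ × ℤ → ℝ,
    ∑' x, ENNReal.ofReal (𝔐 (lineZ F G x)) ^ (3 / 2 : ℝ) ≤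
      ENNReal.ofReal K ^ (3 / 2 : ℝ) * (∑' x, ENNReal.ofReal (|F x| ^ 3)) ^ (1 / 2 : ℝ) *
        (∑' x, ENNReal.ofReal (|G x| ^ 3)) ^ (1 / 2 : ℝ)

section Real

/-- samples of `φ` on the lattice `δ (ℤ + ϑ)` -/
def samp (φ : ℝ → ℝ) (δ ϑ : ℝ) : ℤ → ℝ := fun t => φ (δ * ((t : ℝ) + ϑ))

/-- the product function along the anti-diagonal through `z` -/
def lineR (F G : ℝ × ℝ → ℝ) (z : ℝ × ℝ) : ℝ → ℝ := fun t => F (z.1 + t, z.2) * G (z.1, z.2 + t)

/-- majorant of the long part -/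
noncomputable def longW (ν K : ℕ) (φ : ℝ → ℝ) : ℝ≥0∞ :=
  ∫⁻ lam in Set.Icc (1 : ℝ) 2, ∫⁻ ϑ in Set.Icc (0 : ℝ) 3,
    ENNReal.ofReal (varM ν (2 * K) (samp φ (lam / 2 ^ (K + 2)) ϑ))

/-- majorant of the rough part -/
noncomputable def roughW (K : ℕ) (φ : ℝ → ℝ) : ℝ≥0∞ :=
  ∫⁻ ϑ in Set.Icc (0 : ℝ) 1, ENNReal.ofReal (sqT (2 * K) (samp φ (1 / 2 ^ (K + 2)) ϑ))

/-- total majorant -/
noncomputable def totW (C : ℝ) (n : ℕ) (φ : ℝ → ℝ) : ℝ≥0∞ :=
  Filter.liminf (fun K : ℕ => ENNReal.ofReal C * longW (2 * n) K φ +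
    ENNReal.ofReal (C * Real.sqrt n) * roughW K φ) Filter.atTop

/-- locally integrable with at most linear growth of the mass -/
def Tame (φ : ℝ → ℝ) : Prop :=
  Measurable φ ∧ (∀ r : ℝ, IntegrableOn φ (Set.Icc (-r) r)) ∧
    ∃ M : ℝ, ∀ r : ℝ, 1 ≤ r → ∫ t in Set.Icc (-r) r, |φ t| ≤ M * r

/-- truncated square -/
noncomputable def Tq (s : ℝ) : ℝ := (max s 0) ^ 2 / 2

/-- truncated cube -/
noncomputable def Tc (s : ℝ) : ℝ := (max s 0) ^ 3 / 6

/-- sixth central difference divided by eight -/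
noncomputable def D6 (T : ℝ → ℝ) (s : ℝ) : ℝ :=
  (T (s + 3) - 6 * T (s + 2) + 15 * T (s + 1) - 20 * T s + 15 * T (s - 1) - 6 * T (s - 2) +
    T (s - 3)) / 8

/-- triple convolution of the Haar function of half-width one -/
noncomputable def psi (s : ℝ) : ℝ := D6 Tq s

/-- smooth cut-off: `0` at `0`, `1` for `|s| ≥ 3`, derivative `8 psi` -/
noncomputable def chi (s : ℝ) : ℝ := 1 + 8 * D6 Tc s

/-- quadratic cardinal B-spline on `[0, 3]` -/
noncomputable def B3 (s : ℝ) : ℝ := Tq s - 3 * Tq (s - 1) + 3 * Tq (s - 2) - Tq (s - 3)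

end Real

section Dyadic

/-- normalised indicator of the dyadic block `x / 2^k = m` -/
noncomputable def dy (M k m : ℕ) : Fin (2 ^ M) → ℝ := fun x =>
  if (x : ℕ) / 2 ^ k = m then 1 / 2 ^ k else 0

/-- normalised Haar function of the dyadic block `x / 2^(k+1) = m` -/
noncomputable def dyd (M k m : ℕ) : Fin (2 ^ M) → ℝ := fun x =>
  (dy M k (2 * m) x - dy M k (2 * m + 1) x) / 2

end Dyadic

end Crest.Agent.R72
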