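import Crest.Agent.R72.Defs

/-!
Row 72: rough kernels (discrete and continuous).
-/

set_option autoImplicit false

namespace Crest.Agent.R72

open Matrix Finset MeasureTheory
open scoped ENNReal

/-- discrete rough kernel at scale `2^k` with jump set `J` -/
structure RK (c : ℝ) (k : ℕ) (κ : ℤ → ℝ) (J : Finset ℤ) : Prop where
  supp : ∀ t, κ t ≠ 0 → -3 * 2 ^ k ≤ t ∧ t < 3 * 2 ^ k
  sum0 : ∑ t ∈ Finset.Ico (-3 * 2 ^ k : ℤ) (3 * 2 ^ k), κ t = 0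
  bd : ∀ t, |κ t| ≤ c / 2 ^ k
  lip : ∀ t, t ∉ J → |κ (t + 1) - κ t| ≤ c / 4 ^ k

/-- continuous rough kernel at scale `2^a` with jump set `J` -/
structure RKR (c : ℝ) (a : ℤ) (κ : ℝ → ℝ) (J : Finset ℝ) : Prop where
  meas : Measurable κ
  odd : ∀ t, κ (-t) = -κ t
  supp : ∀ t, κ t ≠ 0 → |t| < 3 * (2 : ℝ) ^ a
  bd : ∀ t, |κ t| ≤ c / (2 : ℝ) ^ a
  lip : ∀ x y, x ≤ y → (∀ w ∈ J, w ∉ Set.Icc x y) → |κ y - κ x| ≤ c / (4 : ℝ) ^ a * (y - x)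

end Crest.Agent.R72
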