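import Crest.Agent.R72.Gap

/-!
The finite dyadic model.  PLAN.  `dy M (k+1) n = (dy M k (2n) + dy M k (2n+1))/2`.
`tform_le` with `κ = 1`, `p_i = dy k (2 n_i)`, `m_i = dy k (2 n_i + 1)`, `G_i = dy (k+1) n_i`, `n2 = n0 ^^^ n1`.
`dU k X Y = 4^k ∑_{n0,n1 < 2^(M-k)} vF X Y (dy k n0) (dy k n1) (dy k (n0 ^^^ n1))`.
`dU_step`: `vF(G0, ḡ1, G2) + vJ = ½ ∑_{e1} vF (G0, dy k (2 n1 + e1), G2)` and `vF_jensen_side` with the pairs
`(2 n0, 2 n2 + e1)`, `(2 n0 + 1, 2 n2 + (1 - e1))`; `(2 n0 + e0) ^^^ (2 n1 + e1) = 2 (n0 ^^^ n1) + (e0 ^^^ e1)`; the children of all pairs are all pairs one level down.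
`dU 0 X Y ≤ √2 (cube X + cube Y)` by `vF_le` (point masses; `n0 ↦ n0 ^^^ n1` is a bijection of `range (2^M)`, `Nat.xor_lt_two_pow`).
The gaps for `(B, C)` and `(C, A)` are reindexed by `(n0, n1) ↦ (n1, n0 ^^^ n1)`.  Total `2 * √2 * 2 ≤ 6`.
-/

set_option autoImplicit false

namespace Crest.Agent.R72

open Matrix Finset MeasureTheory
open scoped ENNReal

/-- dyadic potential -/
noncomputable def dU (M k : ℕ) (X Y : Matrix (Fin (2 ^ M)) (Fin (2 ^ M)) ℝ) : ℝ :=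
  4 ^ k * ∑ n0 ∈ Finset.range (2 ^ (M - k)), ∑ n1 ∈ Finset.range (2 ^ (M - k)),
    vF X Y (dy M k n0) (dy M k n1) (dy M k (n0 ^^^ n1))

theorem dd_dy_nonneg (M k m : ℕ) (x : Fin (2 ^ M)) : 0 ≤ dy M k m x := by
  unfold dy; split_ifs <;> positivity

theorem dd_dy_succ (M k m : ℕ) :
    dy M (k + 1) m = fun x => (dy M k (2 * m) x + dy M k (2 * m + 1) x) / 2 := by
  funext x
  unfold dy
  have h : (x : ℕ) / 2 ^ (k + 1) = (x : ℕ) / 2 ^ k / 2 := by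
    rw [pow_succ, Nat.div_div_eq_div_mul]
  rw [h]
  generalize (x : ℕ) / 2 ^ k = y
  have h2 : (2 : ℝ) ^ k ≠ 0 := by positivity
  by_cases h0 : y = 2 * m
  · rw [if_pos (by omega), if_pos h0, if_neg (by omega)]; field_simp; ring
  · by_cases h1 : y = 2 * m + 1
    · rw [if_pos (by omega), if_neg h0, if_pos h1]; field_simp; ring
    · rw [if_neg (by omega), if_neg h0, if_neg h1]; simp

theorem dd_dy_succ' (M k m : ℕ) :
    dy M (k + 1) m = fun x => (dy M k (2 * m + 1) x + dy M k (2 * m) x) / 2 := by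
  rw [dd_dy_succ]; funext x; ring

theorem dd_sum_range_two (N : ℕ) (f : ℕ → ℝ) :
    ∑ n ∈ Finset.range (2 * N), f n = ∑ n ∈ Finset.range N, (f (2 * n) + f (2 * n + 1)) := by
  induction N with
  | zero => simp
  | succ N ih =>
    rw [show 2 * (N + 1) = 2 * N + 1 + 1 by ring, Finset.sum_range_succ, Finset.sum_range_succ, ih,
      Finset.sum_range_succ]
    ring

theorem dd_xor00 (a b : ℕ) : (2 * a) ^^^ (2 * b) = 2 * (a ^^^ b) := by
  have := Nat.xor_bit false a false b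
  simpa [Nat.bit_val] using this

theorem dd_xor01 (a b : ℕ) : (2 * a) ^^^ (2 * b + 1) = 2 * (a ^^^ b) + 1 := by
  have := Nat.xor_bit false a true b
  simpa [Nat.bit_val] using this

theorem dd_xor10 (a b : ℕ) : (2 * a + 1) ^^^ (2 * b) = 2 * (a ^^^ b) + 1 := by
  have := Nat.xor_bit true a false b
  simpa [Nat.bit_val] using this

theorem dd_xor11 (a b : ℕ) : (2 * a + 1) ^^^ (2 * b + 1) = 2 * (a ^^^ b) := by
  have := Nat.xor_bit true a true b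
  simpa [Nat.bit_val] using this

theorem dd_sum_xor (L b : ℕ) (hb : b < 2 ^ L) (f : ℕ → ℝ) :
    ∑ a ∈ Finset.range (2 ^ L), f (a ^^^ b) = ∑ a ∈ Finset.range (2 ^ L), f a := by
  refine Finset.sum_bij' (fun a _ => a ^^^ b) (fun a _ => a ^^^ b) ?_ ?_ ?_ ?_ ?_
  · intro a ha
    exact Finset.mem_range.2 (Nat.xor_lt_two_pow (Finset.mem_range.1 ha) hb)
  · intro a ha
    exact Finset.mem_range.2 (Nat.xor_lt_two_pow (Finset.mem_range.1 ha) hb)
  · intro a _; simp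
  · intro a _; simp
  · intro a _; rfl

theorem dd_reindex1 (L : ℕ) (F : ℕ → ℕ → ℝ) :
    ∑ n0 ∈ Finset.range (2 ^ L), ∑ n1 ∈ Finset.range (2 ^ L), F n1 (n0 ^^^ n1) =
      ∑ a ∈ Finset.range (2 ^ L), ∑ b ∈ Finset.range (2 ^ L), F a b := by
  rw [Finset.sum_comm]
  refine Finset.sum_congr rfl fun a ha => ?_
  exact dd_sum_xor L a (Finset.mem_range.1 ha) (F a)

theorem dd_reindex2 (L : ℕ) (F : ℕ → ℕ → ℝ) :
    ∑ n0 ∈ Finset.range (2 ^ L), ∑ n1 ∈ Finset.range (2 ^ L), F (n0 ^^^ n1) n0 =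
      ∑ a ∈ Finset.range (2 ^ L), ∑ b ∈ Finset.range (2 ^ L), F a b := by
  rw [Finset.sum_comm (s := Finset.range (2 ^ L)) (t := Finset.range (2 ^ L)) (f := F)]
  refine Finset.sum_congr rfl fun a ha => ?_
  rw [← dd_sum_xor L a (Finset.mem_range.1 ha) (fun b => F b a)]
  refine Finset.sum_congr rfl fun b _ => ?_
  rw [Nat.xor_comm]

theorem dU_step (M k : ℕ) (hk : k < M) (X Y : Matrix (Fin (2 ^ M)) (Fin (2 ^ M)) ℝ) :
    dU M (k + 1) X Y + 4 ^ (k + 1) * ∑ n0 ∈ Finset.range (2 ^ (M - k - 1)),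
      ∑ n1 ∈ Finset.range (2 ^ (M - k - 1)), vJ X Y (dy M (k + 1) n0) (dy M k (2 * n1))
        (dy M k (2 * n1 + 1)) (dy M (k + 1) (n0 ^^^ n1)) ≤ dU M k X Y := by
  have hN : 2 ^ (M - k) = 2 * 2 ^ (M - k - 1) := by
    rw [← pow_succ']; congr 1; omega
  have hM : M - (k + 1) = M - k - 1 := by omega
  unfold dU
  rw [hM, hN, dd_sum_range_two, ← mul_add, ← Finset.sum_add_distrib, pow_succ, mul_assoc]
  refine mul_le_mul_of_nonneg_left ?_ (by positivity)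
  rw [Finset.mul_sum]
  refine Finset.sum_le_sum fun n0 _ => ?_
  rw [dd_sum_range_two, dd_sum_range_two, ← Finset.sum_add_distrib, ← Finset.sum_add_distrib,
    Finset.mul_sum]
  refine Finset.sum_le_sum fun n1 _ => ?_
  rw [dd_xor00, dd_xor01, dd_xor10, dd_xor11]
  have nn := dd_dy_nonneg M k
  have h1 := vF_jensen_side X Y (dy M k (2 * n1)) (nn (2 * n0)) (nn (2 * n0 + 1))
    (nn (2 * (n0 ^^^ n1))) (nn (2 * (n0 ^^^ n1) + 1))
  have h2 := vF_jensen_side X Y (dy M k (2 * n1 + 1)) (nn (2 * n0)) (nn (2 * n0 + 1))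
    (nn (2 * (n0 ^^^ n1) + 1)) (nn (2 * (n0 ^^^ n1)))
  rw [← dd_dy_succ, ← dd_dy_succ] at h1
  rw [← dd_dy_succ, ← dd_dy_succ'] at h2
  unfold vJ
  rw [← dd_dy_succ]
  linarith

theorem dd_dy_zero_sum (M m : ℕ) (hm : m < 2 ^ M) : ∑ x, dy M 0 m x = 1 := by
  rw [Finset.sum_eq_single (⟨m, hm⟩ : Fin (2 ^ M))]
  · simp [dy]
  · intro x _ hx
    have : (x : ℕ) ≠ m := fun h => hx (Fin.ext h)
    simp [dy, this]
  · simp

theorem dd_dy_zero_sum' (M : ℕ) (x : Fin (2 ^ M)) :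
    ∑ m ∈ Finset.range (2 ^ M), dy M 0 m x = 1 := by
  rw [Finset.sum_eq_single (x : ℕ)]
  · simp [dy]
  · intro m _ hm
    simp [dy, Ne.symm hm]
  · intro h; exact absurd (Finset.mem_range.2 x.2) h

theorem dd_sum_point (M : ℕ) (X : Matrix (Fin (2 ^ M)) (Fin (2 ^ M)) ℝ) :
    ∑ a ∈ Finset.range (2 ^ M), ∑ b ∈ Finset.range (2 ^ M),
      ∑ x, ∑ y, dy M 0 a x * dy M 0 b y * |X x y| ^ 3 = cube X := by
  unfold cube
  have h : ∀ x y, |X x y| ^ 3 = ∑ a ∈ Finset.range (2 ^ M), ∑ b ∈ Finset.range (2 ^ M),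
      dy M 0 a x * dy M 0 b y * |X x y| ^ 3 := by
    intro x y
    simp_rw [← Finset.sum_mul, ← Finset.mul_sum, dd_dy_zero_sum', mul_one]
    rw [dd_dy_zero_sum', one_mul]
  symm
  calc _ = ∑ x : Fin (2 ^ M), ∑ y : Fin (2 ^ M), ∑ a ∈ Finset.range (2 ^ M),
        ∑ b ∈ Finset.range (2 ^ M), dy M 0 a x * dy M 0 b y * |X x y| ^ 3 :=
        Finset.sum_congr rfl fun x _ => Finset.sum_congr rfl fun y _ => h x y
    _ = ∑ x : Fin (2 ^ M), ∑ a ∈ Finset.range (2 ^ M), ∑ y : Fin (2 ^ M),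
        ∑ b ∈ Finset.range (2 ^ M), dy M 0 a x * dy M 0 b y * |X x y| ^ 3 :=
        Finset.sum_congr rfl fun x _ => Finset.sum_comm
    _ = ∑ a ∈ Finset.range (2 ^ M), ∑ x : Fin (2 ^ M), ∑ y : Fin (2 ^ M),
        ∑ b ∈ Finset.range (2 ^ M), dy M 0 a x * dy M 0 b y * |X x y| ^ 3 := Finset.sum_comm
    _ = ∑ a ∈ Finset.range (2 ^ M), ∑ x : Fin (2 ^ M), ∑ b ∈ Finset.range (2 ^ M),
        ∑ y : Fin (2 ^ M), dy M 0 a x * dy M 0 b y * |X x y| ^ 3 :=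
        Finset.sum_congr rfl fun a _ => Finset.sum_congr rfl fun x _ => Finset.sum_comm
    _ = _ := Finset.sum_congr rfl fun a _ => Finset.sum_comm

theorem dU_zero (M : ℕ) (X Y : Matrix (Fin (2 ^ M)) (Fin (2 ^ M)) ℝ) :
    dU M 0 X Y ≤ Real.sqrt 2 * (cube X + cube Y) := by
  unfold dU
  rw [pow_zero, one_mul, Nat.sub_zero]
  have nn := dd_dy_nonneg M 0
  calc _ ≤ ∑ n0 ∈ Finset.range (2 ^ M), ∑ n1 ∈ Finset.range (2 ^ M), Real.sqrt 2 *
        (∑ x, ∑ y, dy M 0 n0 x * dy M 0 n1 y * |X x y| ^ 3 +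
          ∑ x, ∑ y, dy M 0 n1 x * dy M 0 (n0 ^^^ n1) y * |Y x y| ^ 3) := by
        refine Finset.sum_le_sum fun n0 h0 => Finset.sum_le_sum fun n1 h1 => ?_
        have h0 := Finset.mem_range.1 h0
        have h1 := Finset.mem_range.1 h1
        exact vF_le X Y (nn _) (nn _) (nn _) (dd_dy_zero_sum M _ h0) (dd_dy_zero_sum M _ h1)
          (dd_dy_zero_sum M _ (Nat.xor_lt_two_pow h0 h1))
    _ = _ := by
        simp_rw [← Finset.mul_sum, Finset.sum_add_distrib]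
        rw [dd_sum_point, dd_reindex1 M
          (fun a b => ∑ x, ∑ y, dy M 0 a x * dy M 0 b y * |Y x y| ^ 3), dd_sum_point]

/-- the level-`k` gap -/
noncomputable def ddGap (M k : ℕ) (X Y : Matrix (Fin (2 ^ M)) (Fin (2 ^ M)) ℝ) : ℝ :=
  4 ^ (k + 1) * ∑ n0 ∈ Finset.range (2 ^ (M - k - 1)),
    ∑ n1 ∈ Finset.range (2 ^ (M - k - 1)), vJ X Y (dy M (k + 1) n0) (dy M k (2 * n1))
      (dy M k (2 * n1 + 1)) (dy M (k + 1) (n0 ^^^ n1))

theorem dd_dU_nonneg (M k : ℕ) (X Y : Matrix (Fin (2 ^ M)) (Fin (2 ^ M)) ℝ) : 0 ≤ dU M k X Y := by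
  unfold dU
  refine mul_nonneg (by positivity) (Finset.sum_nonneg fun a _ => Finset.sum_nonneg fun b _ => ?_)
  exact vF_nonneg X Y _ (dd_dy_nonneg M k _) (dd_dy_nonneg M k _)

theorem dd_tele (M : ℕ) (X Y : Matrix (Fin (2 ^ M)) (Fin (2 ^ M)) ℝ) (K : ℕ) (hK : K ≤ M) :
    dU M K X Y + ∑ k ∈ Finset.range K, ddGap M k X Y ≤ dU M 0 X Y := by
  induction K with
  | zero => simp
  | succ K ih =>
    have h1 := ih (by omega)
    have h2 := dU_step M K (by omega) X Y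
    rw [Finset.sum_range_succ]
    unfold ddGap at *
    linarith

theorem dd_gap_sum (M : ℕ) (X Y : Matrix (Fin (2 ^ M)) (Fin (2 ^ M)) ℝ) :
    ∑ k ∈ Finset.range M, ddGap M k X Y ≤ Real.sqrt 2 * (cube X + cube Y) := by
  have h1 := dd_tele M X Y M le_rfl
  have h2 := dU_zero M X Y
  have h3 := dd_dU_nonneg M M X Y
  linarith

theorem dd_level (M k : ℕ) (A B C : Matrix (Fin (2 ^ M)) (Fin (2 ^ M)) ℝ) :
    ∑ n0 ∈ Finset.range (2 ^ (M - k - 1)), ∑ n1 ∈ Finset.range (2 ^ (M - k - 1)),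
        4 ^ (k + 1) * |tform (dyd M k n0) (dyd M k n1) (dyd M k (n0 ^^^ n1)) A B C| ≤
      2 * (ddGap M k A B + ddGap M k B C + ddGap M k C A) := by
  have nn := dd_dy_nonneg M k
  have nn' := dd_dy_nonneg M (k + 1)
  have hk : ∀ m x, (dy M k (2 * m) x + dy M k (2 * m + 1) x) / 2 ≤ 1 * dy M (k + 1) m x := by
    intro m x; rw [dd_dy_succ, one_mul]
  set F : Matrix (Fin (2 ^ M)) (Fin (2 ^ M)) ℝ → Matrix (Fin (2 ^ M)) (Fin (2 ^ M)) ℝ → ℕ → ℕ → ℝ :=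
    fun X Y a b => vJ X Y (dy M (k + 1) a) (dy M k (2 * b)) (dy M k (2 * b + 1))
      (dy M (k + 1) (a ^^^ b)) with hF
  have hg : ∀ X Y, ddGap M k X Y = 4 ^ (k + 1) * ∑ a ∈ Finset.range (2 ^ (M - k - 1)),
      ∑ b ∈ Finset.range (2 ^ (M - k - 1)), F X Y a b := fun X Y => rfl
  rw [hg, hg, hg, ← dd_reindex1 _ (F B C), ← dd_reindex2 _ (F C A), ← mul_add, ← mul_add,
    ← Finset.sum_add_distrib, ← Finset.sum_add_distrib, mul_left_comm, Finset.mul_sum,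
    Finset.mul_sum]
  refine Finset.sum_le_sum fun n0 _ => ?_
  rw [← Finset.sum_add_distrib, ← Finset.sum_add_distrib, Finset.mul_sum, Finset.mul_sum]
  refine Finset.sum_le_sum fun n1 _ => ?_
  refine mul_le_mul_of_nonneg_left ?_ (by positivity)
  have h := tform_le A B C (κ := 1) zero_le_one (nn' n0) (nn' n1) (nn' (n0 ^^^ n1))
    (nn (2 * n0)) (nn (2 * n0 + 1)) (nn (2 * n1)) (nn (2 * n1 + 1)) (nn (2 * (n0 ^^^ n1)))
    (nn (2 * (n0 ^^^ n1) + 1)) (hk n0) (hk n1) (hk (n0 ^^^ n1))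
  have e1 : n1 ^^^ (n0 ^^^ n1) = n0 := by rw [Nat.xor_comm n0 n1]; simp
  have e2 : (n0 ^^^ n1) ^^^ n0 = n1 := by rw [Nat.xor_comm n0 n1]; simp
  simp only [hF, e1, e2]
  rw [Real.sqrt_one, mul_one, mul_one] at h
  exact h

theorem dyadicD (M : ℕ) (A B C : Matrix (Fin (2 ^ M)) (Fin (2 ^ M)) ℝ) :
    ∑ k ∈ Finset.range M, ∑ n0 ∈ Finset.range (2 ^ (M - k - 1)),
      ∑ n1 ∈ Finset.range (2 ^ (M - k - 1)),
        4 ^ (k + 1) * |tform (dyd M k n0) (dyd M k n1) (dyd M k (n0 ^^^ n1)) A B C| ≤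
      6 * (cube A + cube B + cube C) := by
  have hc : ∀ X : Matrix (Fin (2 ^ M)) (Fin (2 ^ M)) ℝ, 0 ≤ cube X := fun X =>
    Finset.sum_nonneg fun a _ => Finset.sum_nonneg fun b _ => by positivity
  have hs : Real.sqrt 2 ≤ 3 / 2 := by
    rw [Real.sqrt_le_left (by norm_num)]; norm_num
  calc _ ≤ ∑ k ∈ Finset.range M, 2 * (ddGap M k A B + ddGap M k B C + ddGap M k C A) :=
        Finset.sum_le_sum fun k _ => dd_level M k A B C
    _ = 2 * (∑ k ∈ Finset.range M, ddGap M k A B + ∑ k ∈ Finset.range M, ddGap M k B C +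
          ∑ k ∈ Finset.range M, ddGap M k C A) := by
        rw [← Finset.mul_sum, Finset.sum_add_distrib, Finset.sum_add_distrib]
    _ ≤ _ := by
        have h1 := dd_gap_sum M A B
        have h2 := dd_gap_sum M B C
        have h3 := dd_gap_sum M C A
        have h4 := mul_le_mul_of_nonneg_right hs (add_nonneg (add_nonneg (hc A) (hc B)) (hc C))
        nlinarith

end Crest.Agent.R72
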