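import Crest.Agent.R72.DyadicD
import Crest.Prelude.Def_DyadicTriangular

/-!
The dyadic model on the quarter plane, additive form.  PLAN.  Fix `k0 : ℤ` below all scales of `𝓘` (`k0 + 1 ≤ k`), `δ = 2^k0`, and `M` so large that every index `(k, n0, n1) ∈ 𝓘` has
`k = k0 + k' + 1` with `k' < M` and `n0, n1 < 2^(M - k' - 1)`.
* `int_interval`: for bounded measurable `f`, `∫ x in interval k n, f x * haarSign k n x = ∫ θ in Ico 0 δ, ∑ y : Fin (2^M), 2^(k'+1) * dyd M k' n y * f (δ y + θ)`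
  (cut `[0, δ 2^M)` into the cells `δ y + [0, δ)`; the Haar sign is constant on each cell).
* `localForm_eq`: three times, `localForm = δ⁻¹ ∫θ0 ∫θ1 ∫θ2 4^(k'+1) tform (dyd ..) (dyd ..) (dyd ..) A B C` with `A y0 y1 = F₀ (δ y0 + θ0, δ y1 + θ1)`,
  `B y1 y2 = F₁ (δ y1 + θ1, δ y2 + θ2)`, `C y2 y0 = F₂ (δ y2 + θ2, δ y0 + θ0)` (all integrands are bounded and measurable on finite measure spaces, so finite sums move
  through the integrals; it may be easiest to pass to one integral over the product `ℝ × ℝ × ℝ` restricted to the cube).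
* `dyadicD` under the integral; `δ⁻¹ ∫∫∫ cube A = ∫ over [0, δ 2^M)² of |F₀|³ ≤ ∫ over the quarter plane` (integrable: bounded, compact support).
-/

set_option autoImplicit false

namespace Crest.Agent.R72

open Matrix Finset MeasureTheory Crest.AnalysisR.TriangularDyadic
open scoped ENNReal

theorem restrict_cells {δ : ℝ} (hδ : 0 < δ) (P : ℕ) :
    volume.restrict (Set.Ico 0 (δ * P)) =
      Measure.sum fun y : Fin P => volume.restrict (Set.Ico (δ * y) (δ * y + δ)) := by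
  rw [← Measure.restrict_iUnion (fun a b hab => ?_) fun _ => measurableSet_Ico]
  · congr 1
    ext x
    simp only [Set.mem_Ico, Set.mem_iUnion]
    constructor
    · rintro ⟨h0, h1⟩
      have h2 : 0 ≤ x / δ := by positivity
      refine ⟨⟨⌊x / δ⌋₊, (Nat.floor_lt h2).2 (by rwa [div_lt_iff₀' hδ])⟩, ?_, ?_⟩
      · exact (le_div_iff₀' hδ).1 (Nat.floor_le h2)
      · have := (div_lt_iff₀' hδ).1 (Nat.lt_floor_add_one (x / δ))
        simpa [mul_add] using this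
    · rintro ⟨y, h0, h1⟩
      have h2 : ((y : ℕ) : ℝ) + 1 ≤ P := by exact_mod_cast y.2
      exact ⟨le_trans (by positivity) h0, by nlinarith⟩
  · have key : ∀ a b : Fin P, a < b →
        Disjoint (Set.Ico (δ * a) (δ * a + δ)) (Set.Ico (δ * b) (δ * b + δ)) := fun a b h => by
      have h2 : ((a : ℕ) : ℝ) + 1 ≤ (b : ℕ) := by exact_mod_cast h
      exact Set.disjoint_left.2 fun x h3 h4 => by nlinarith [h3.2, h4.1]
    exact hab.lt_or_gt.elim (key a b) fun h => (key b a h).symm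

theorem mp_cell (δ c : ℝ) : MeasurePreserving (fun θ => c + θ) (volume.restrict (Set.Ico 0 δ))
    (volume.restrict (Set.Ico c (c + δ))) := by
  simpa using (measurePreserving_add_left volume c).restrict_preimage
    (measurableSet_Ico (a := c) (b := c + δ))

/-- the cube `[0, δ)³` -/
noncomputable def cub (δ : ℝ) : Measure (ℝ × ℝ × ℝ) :=
  (volume.restrict (Set.Ico 0 δ)).prod
    ((volume.restrict (Set.Ico 0 δ)).prod (volume.restrict (Set.Ico 0 δ)))

instance (δ : ℝ) : IsFiniteMeasure (cub δ) := by unfold cub; infer_instance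

/-- the shift to the cell `y` -/
def cel (δ : ℝ) {P : ℕ} (y0 y1 y2 : Fin P) (θ : ℝ × ℝ × ℝ) : ℝ × ℝ × ℝ :=
  (δ * y0 + θ.1, δ * y1 + θ.2.1, δ * y2 + θ.2.2)

theorem int_cel {δ : ℝ} {P : ℕ} {Φ : ℝ × ℝ × ℝ → ℝ} (hm : Measurable Φ) {C : ℝ} (hC : ∀ z, |Φ z| ≤ C) :
    Integrable (fun θ => ∑ y0 : Fin P, ∑ y1, ∑ y2, Φ (cel δ y0 y1 y2 θ)) (cub δ) :=
  integrable_finsetSum _ fun _ _ => integrable_finsetSum _ fun _ _ => integrable_finsetSum _ fun _ _ =>
    .of_bound (hm.comp (by unfold cel; fun_prop)).aestronglyMeasurable C (.of_forall fun _ => hC _)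

theorem iter3 (L : ℝ) {Φ : ℝ × ℝ × ℝ → ℝ} (hm : Measurable Φ) {C : ℝ} (hC : ∀ z, |Φ z| ≤ C) :
    ∫ z, Φ z ∂cub L =
      ∫ x0 in Set.Ico 0 L, ∫ x1 in Set.Ico 0 L, ∫ x2 in Set.Ico 0 L, Φ (x0, x1, x2) := by
  rw [cub, integral_prod _ (.of_bound hm.aestronglyMeasurable C (.of_forall hC))]
  refine integral_congr_ae (.of_forall fun x0 => integral_prod (fun z => Φ (x0, z)) ?_)
  exact .of_bound (hm.comp measurable_prodMk_left).aestronglyMeasurable C (.of_forall fun _ => hC _)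

theorem cells3 {δ : ℝ} (hδ : 0 < δ) (P : ℕ) {Φ : ℝ × ℝ × ℝ → ℝ} (hm : Measurable Φ) {C : ℝ}
    (hC : ∀ z, |Φ z| ≤ C) :
    ∫ z, Φ z ∂cub (δ * P) = ∫ θ, ∑ y0 : Fin P, ∑ y1, ∑ y2, Φ (cel δ y0 y1 y2 θ) ∂cub δ := by
  have hi : ∀ (μ : Measure (ℝ × ℝ × ℝ)) [IsFiniteMeasure μ] (y0 y1 y2 : Fin P),
      Integrable (fun θ => Φ (cel δ y0 y1 y2 θ)) μ := fun μ _ y0 y1 y2 =>
    .of_bound (hm.comp (by unfold cel; fun_prop)).aestronglyMeasurable C (.of_forall fun _ => hC _)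
  have h1 : Integrable Φ (cub (δ * P)) := .of_bound hm.aestronglyMeasurable C (.of_forall hC)
  rw [cub, restrict_cells hδ, Measure.prod_sum, Measure.prod_sum] at h1 ⊢
  rw [integral_sum_measure h1, tsum_fintype, integral_finsetSum _ fun _ _ =>
    integrable_finsetSum _ fun _ _ => integrable_finsetSum _ fun _ _ => hi _ _ _ _]
  simp only [Fintype.sum_prod_type]
  refine Finset.sum_congr rfl fun y0 _ => ?_
  rw [integral_finsetSum _ fun _ _ => integrable_finsetSum _ fun _ _ => hi _ _ _ _]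
  refine Finset.sum_congr rfl fun y1 _ => ?_
  rw [integral_finsetSum _ fun _ _ => hi _ _ _ _]
  refine Finset.sum_congr rfl fun y2 _ => ?_
  have := (mp_cell δ (δ * y0)).prod ((mp_cell δ (δ * y1)).prod (mp_cell δ (δ * y2)))
  rw [← this.map_eq, integral_map this.measurable.aemeasurable hm.aestronglyMeasurable]
  rfl

theorem ae_cub (δ : ℝ) : ∀ᵐ θ ∂cub δ, θ ∈ Set.Ico 0 δ ×ˢ Set.Ico 0 δ ×ˢ Set.Ico 0 δ := by
  rw [cub, Measure.prod_restrict, Measure.prod_restrict]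
  exact ae_restrict_mem (measurableSet_Ico.prod (measurableSet_Ico.prod measurableSet_Ico))

theorem quarter_le (L : ℝ) {F : ℝ × ℝ → ℝ} (hF : Measurable F) {C : ℝ} (hC : ∀ z, |F z| ≤ C)
    (hc : HasCompactSupport F) :
    (∫ x in Set.Ico 0 L, ∫ y in Set.Ico 0 L, |F (x, y)| ^ 3) ≤
        ∫ z in Set.Ici 0 ×ˢ Set.Ici 0, |F z| ^ 3 ∧
      (∫ y in Set.Ico 0 L, ∫ x in Set.Ico 0 L, |F (x, y)| ^ 3) ≤
        ∫ z in Set.Ici 0 ×ˢ Set.Ici 0, |F z| ^ 3 := by
  have hi : Integrable fun z => |F z| ^ 3 := by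
    refine (integrableOn_iff_integrable_of_support_subset (s := tsupport F) fun z hz =>
      subset_tsupport _ fun h => hz (by simp [h])).1 ?_
    refine Measure.integrableOn_of_bounded (M := C ^ 3) hc.isCompact.measure_lt_top.ne
      (by fun_prop : Measurable _).aestronglyMeasurable (.of_forall fun z => ?_)
    rw [Real.norm_eq_abs, abs_pow, abs_abs]
    exact pow_le_pow_left₀ (abs_nonneg _) (hC z) 3
  have h1 : Integrable (fun z => |F z| ^ 3)
      ((volume.restrict (Set.Ico 0 L)).prod (volume.restrict (Set.Ico 0 L))) := by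
    rw [Measure.prod_restrict]; exact hi.integrableOn
  rw [← integral_prod _ h1, ← integral_prod_symm _ h1, and_self, Measure.prod_restrict]
  exact setIntegral_mono_set hi.integrableOn (.of_forall fun z => by positivity)
    (Set.prod_mono Set.Ico_subset_Ici_self Set.Ico_subset_Ici_self).eventuallyLE

theorem cell_mem {δ θ : ℝ} (hδ : 0 < δ) (hθ : θ ∈ Set.Ico 0 δ) {Q : ℕ} (hQ : 0 < Q) (y m : ℕ) :
    δ * y + θ ∈ Set.Ico (δ * Q * m) (δ * Q * (m + 1)) ↔ y / Q = m := by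
  rw [Nat.div_eq_iff hQ]
  constructor
  · rintro ⟨h1, h2⟩
    have h3 : ((m * Q : ℕ) : ℝ) < (y + 1 : ℕ) := by push_cast; nlinarith [hθ.2]
    have h4 : (y : ℝ) < (m * Q + Q : ℕ) := by push_cast; nlinarith [hθ.1]
    have h5 := Nat.cast_lt.1 h3
    have h6 := Nat.cast_lt.1 h4
    omega
  · rintro ⟨h1, h2⟩
    have h3 : ((m * Q : ℕ) : ℝ) ≤ y := Nat.cast_le.2 h1
    have h4 : ((y + 1 : ℕ) : ℝ) ≤ (m * Q + Q : ℕ) := Nat.cast_le.2 (by omega)
    push_cast at h3 h4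
    exact ⟨by nlinarith [hθ.1], by nlinarith [hθ.2]⟩

theorem haarSign_cell (k0 : ℤ) (M k n : ℕ) (y : Fin (2 ^ M)) {θ : ℝ} (hθ : θ ∈ Set.Ico 0 ((2 : ℝ) ^ k0)) :
    haarSign (k0 + k + 1) n (2 ^ k0 * y + θ) = 2 ^ (k + 1) * dyd M k n y := by
  have hδ : (0 : ℝ) < 2 ^ k0 := by positivity
  have e1 : (2 : ℝ) ^ (k0 + k + 1) = 2 ^ k0 * (2 ^ k : ℕ) * 2 := by
    rw [zpow_add_one₀ two_ne_zero, zpow_add₀ two_ne_zero]; simp
  have e2 : (2 : ℝ) ^ (k0 + k + 1 - 1) = 2 ^ k0 * (2 ^ k : ℕ) := by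
    rw [add_sub_cancel_right, zpow_add₀ two_ne_zero]; simp
  have h1 := cell_mem hδ hθ (Nat.two_pow_pos k) y (2 * n)
  have h2 := cell_mem hδ hθ (Nat.two_pow_pos k) y (2 * n + 1)
  rw [haarSign, e1, e2]
  simp only [dyd, dy]
  rw [if_congr (Iff.trans (by push_cast; ring_nf) h1) rfl
    (if_congr (Iff.trans (by push_cast; ring_nf) h2) rfl rfl)]
  split_ifs with a b
  · omega
  all_goals field_simp; ring

theorem haarSign_eq_zero {k : ℤ} {n : ℕ} {x : ℝ} (h : x ∉ interval k n) : haarSign k n x = 0 := by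
  have e : (2 : ℝ) ^ k = 2 ^ (k - 1) * 2 := by rw [← zpow_add_one₀ two_ne_zero, sub_add_cancel]
  have : (0 : ℝ) < 2 ^ (k - 1) := by positivity
  rw [haarSign, if_neg fun h' => h ⟨h'.1, by nlinarith [h'.2]⟩,
    if_neg fun h' => h ⟨by nlinarith [h'.1], h'.2⟩]

theorem abs_haarSign_le (k : ℤ) (n : ℕ) (x : ℝ) : |haarSign k n x| ≤ 1 := by
  unfold haarSign; split_ifs <;> simp

theorem measurable_haarSign (k : ℤ) (n : ℕ) : Measurable (haarSign k n) :=
  .ite measurableSet_Ico measurable_const (.ite measurableSet_Ico measurable_const measurable_const)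

theorem interval_subset (k0 : ℤ) {M k n : ℕ} (hk : k < M) (hn : n < 2 ^ (M - k - 1)) :
    interval (k0 + k + 1) n ⊆ Set.Ico 0 ((2 : ℝ) ^ k0 * (2 ^ M : ℕ)) := by
  refine Set.Ico_subset_Ico (by positivity) ?_
  have h1 : (n : ℝ) + 1 ≤ 2 ^ (M - k - 1) := by exact_mod_cast hn
  have h2 : (2 : ℝ) ^ M = 2 ^ k * 2 * 2 ^ (M - k - 1) := by
    rw [← pow_succ, ← pow_add]; congr 1; omega
  rw [zpow_add_one₀ two_ne_zero, zpow_add₀ two_ne_zero, zpow_natCast]
  push_cast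
  rw [h2, mul_assoc, mul_assoc, mul_assoc]
  gcongr

/-- the integrand of the local form -/
noncomputable def locI (k : ℤ) (n0 n1 n2 : ℕ) (F₀ F₁ F₂ : ℝ × ℝ → ℝ) (z : ℝ × ℝ × ℝ) : ℝ :=
  F₀ (z.1, z.2.1) * F₁ (z.2.1, z.2.2) * F₂ (z.2.2, z.1) *
    (haarSign k n0 z.1 * haarSign k n1 z.2.1 * haarSign k n2 z.2.2)

theorem localForm_eq {k : ℤ} {n0 n1 n2 : ℕ} (F₀ F₁ F₂ : ℝ × ℝ → ℝ) {L : ℝ}
    (h0 : interval k n0 ⊆ Set.Ico 0 L) (h1 : interval k n1 ⊆ Set.Ico 0 L)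
    (h2 : interval k n2 ⊆ Set.Ico 0 L) :
    localForm k n0 n1 n2 F₀ F₁ F₂ = 2 ^ (-k) * ∫ x0 in Set.Ico 0 L, ∫ x1 in Set.Ico 0 L,
      ∫ x2 in Set.Ico 0 L, locI k n0 n1 n2 F₀ F₁ F₂ (x0, x1, x2) := by
  rw [localForm, setIntegral_eq_of_subset_of_forall_sdiff_eq_zero measurableSet_Ico h0
    fun x hx => by simp [locI, haarSign_eq_zero hx.2]]
  congr 2
  ext x0
  rw [setIntegral_eq_of_subset_of_forall_sdiff_eq_zero measurableSet_Ico h1
    fun x hx => by simp [locI, haarSign_eq_zero hx.2]]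
  congr 1
  ext x1
  rw [setIntegral_eq_of_subset_of_forall_sdiff_eq_zero measurableSet_Ico h2
    fun x hx => by simp [locI, haarSign_eq_zero hx.2]]
  rfl

theorem dyadicR (F₀ F₁ F₂ : ℝ × ℝ → ℝ) (hF₀ : Measurable F₀) (hF₁ : Measurable F₁)
    (hF₂ : Measurable F₂) (hb : ∃ M : ℝ, ∀ z, abs (F₀ z) ≤ M ∧ abs (F₁ z) ≤ M ∧ abs (F₂ z) ≤ M)
    (hc₀ : HasCompactSupport F₀) (hc₁ : HasCompactSupport F₁) (hc₂ : HasCompactSupport F₂)
    (𝓘 : Finset (ℤ × ℕ × ℕ)) :
    ∑ i ∈ 𝓘, abs (Crest.AnalysisR.TriangularDyadic.localForm i.1 i.2.1 i.2.2 (i.2.1 ^^^ i.2.2)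
        F₀ F₁ F₂) ≤
      6 * ((∫ z in Set.Ici 0 ×ˢ Set.Ici 0, abs (F₀ z) ^ 3) +
        (∫ z in Set.Ici 0 ×ˢ Set.Ici 0, abs (F₁ z) ^ 3) +
          ∫ z in Set.Ici 0 ×ˢ Set.Ici 0, abs (F₂ z) ^ 3) := by
  obtain ⟨C, hC⟩ := hb
  have hC0 : 0 ≤ C := (abs_nonneg _).trans (hC 0).1
  obtain ⟨k0, M, hM⟩ : ∃ (k0 : ℤ) (M : ℕ), ∀ i ∈ 𝓘, ∃ k < M, i.1 = k0 + k + 1 ∧
      i.2.1 < 2 ^ (M - k - 1) ∧ i.2.2 < 2 ^ (M - k - 1) := by
    obtain ⟨B, hB⟩ := (𝓘.image fun i => i.1.natAbs + i.2.1 + i.2.2).exists_le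
    refine ⟨-B - 1, 3 * B + 1, fun i hi => ?_⟩
    have h1 := hB _ (Finset.mem_image_of_mem _ hi)
    have h2 : B < 2 ^ (3 * B + 1 - (i.1 + B).toNat - 1) :=
      Nat.lt_two_pow_self.trans_le (Nat.pow_le_pow_right two_pos (by omega))
    exact ⟨(i.1 + B).toNat, by omega, by omega, by omega, by omega⟩
  set δ : ℝ := 2 ^ k0 with hδ
  have hδ0 : 0 < δ := by positivity
  have hm : ∀ k n0 n1 n2, Measurable (locI k n0 n1 n2 F₀ F₁ F₂) := fun k n0 n1 n2 => by
    have := measurable_haarSign k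
    unfold locI
    fun_prop
  have hbd : ∀ k n0 n1 n2 z, |locI k n0 n1 n2 F₀ F₁ F₂ z| ≤ C * C * C * (1 * 1 * 1) :=
    fun k n0 n1 n2 z => by
      simp only [locI, abs_mul]
      gcongr
      exacts [(hC _).1, (hC _).2.1, (hC _).2.2, abs_haarSign_le .., abs_haarSign_le ..,
        abs_haarSign_le ..]
  let T : (Σ _ : ℕ, ℕ × ℕ) → ℝ × ℝ × ℝ → ℝ := fun t θ => 2 ^ (-(k0 + t.1 + 1)) *
    |∑ y0 : Fin (2 ^ M), ∑ y1, ∑ y2,
      locI (k0 + t.1 + 1) t.2.1 t.2.2 (t.2.1 ^^^ t.2.2) F₀ F₁ F₂ (cel δ y0 y1 y2 θ)|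
  have hT : ∀ t, Integrable (T t) (cub δ) := fun t =>
    (int_cel (hm _ _ _ _) (hbd _ _ _ _)).abs.const_mul _
  let S := (Finset.range M).sigma fun k =>
    Finset.range (2 ^ (M - k - 1)) ×ˢ Finset.range (2 ^ (M - k - 1))
  let Ψ : ℝ × ℝ × ℝ → ℝ := fun z =>
    |F₀ (z.1, z.2.1)| ^ 3 + |F₁ (z.2.1, z.2.2)| ^ 3 + |F₂ (z.2.2, z.1)| ^ 3
  have hΨ : Measurable Ψ := by fun_prop
  have hc : ∀ {x : ℝ}, |x| ≤ C → abs (|x| ^ 3) ≤ C ^ 3 := fun h => by
    rw [abs_pow, abs_abs]; exact pow_le_pow_left₀ (abs_nonneg _) h 3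
  have hΨb : ∀ z, |Ψ z| ≤ C ^ 3 + C ^ 3 + C ^ 3 := fun z =>
    (abs_add_three _ _ _).trans (add_le_add_three (hc (hC _).1) (hc (hC _).2.1) (hc (hC _).2.2))
  have hL : 0 < δ * (2 ^ M : ℕ) := by positivity
  calc _ ≤ ∑ i ∈ S.image fun t => (k0 + t.1 + 1, t.2),
        |localForm i.1 i.2.1 i.2.2 (i.2.1 ^^^ i.2.2) F₀ F₁ F₂| := by
        refine Finset.sum_le_sum_of_subset_of_nonneg (fun i hi => ?_) fun _ _ _ => abs_nonneg _
        obtain ⟨k, h1, h2, h3, h4⟩ := hM i hi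
        exact Finset.mem_image.2 ⟨⟨k, i.2⟩, by simp [S, h1, h3, h4], Prod.ext h2.symm rfl⟩
    _ ≤ ∑ t ∈ S, ∫ θ, T t θ ∂cub δ := by
        refine (Finset.sum_image_le_of_nonneg fun _ _ => abs_nonneg _).trans
          (Finset.sum_le_sum fun t ht => ?_)
        simp only [S, Finset.mem_sigma, Finset.mem_product, Finset.mem_range] at ht
        rw [localForm_eq _ _ _ (interval_subset k0 ht.1 ht.2.1) (interval_subset k0 ht.1 ht.2.2)
          (interval_subset k0 ht.1 (Nat.xor_lt_two_pow ht.2.1 ht.2.2)),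
          ← iter3 _ (hm _ _ _ _) (hbd _ _ _ _), cells3 hδ0 _ (hm _ _ _ _) (hbd _ _ _ _), abs_mul,
          abs_of_pos (by positivity), integral_const_mul]
        exact mul_le_mul_of_nonneg_left abs_integral_le_integral_abs (by positivity)
    _ ≤ ∫ θ, 6 / (δ * (2 ^ M : ℕ)) * ∑ y0 : Fin (2 ^ M), ∑ y1, ∑ y2, Ψ (cel δ y0 y1 y2 θ)
          ∂cub δ := by
        rw [← integral_finsetSum _ fun t _ => hT t]
        refine integral_mono_ae (integrable_finsetSum _ fun t _ => hT t)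
          ((int_cel hΨ hΨb).const_mul _) ((ae_cub δ).mono fun θ hθ => ?_)
        have := mul_le_mul_of_nonneg_left (dyadicD M
          (.of fun y0 y1 => F₀ (δ * y0 + θ.1, δ * y1 + θ.2.1))
          (.of fun y1 y2 => F₁ (δ * y1 + θ.2.1, δ * y2 + θ.2.2))
          (.of fun y2 y0 => F₂ (δ * y2 + θ.2.2, δ * y0 + θ.1))) (inv_pos.2 hδ0).le
        refine le_of_eq_of_le ?_ (this.trans_eq ?_)
        · simp only [S, Finset.sum_sigma, Finset.sum_product, Finset.mul_sum]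
          refine Finset.sum_congr rfl fun k _ => Finset.sum_congr rfl fun n0 _ =>
            Finset.sum_congr rfl fun n1 _ => ?_
          have e : (2 : ℝ) ^ (-(k0 + k + 1)) * 8 ^ (k + 1) = δ⁻¹ * 4 ^ (k + 1) := by
            rw [_root_.zpow_neg, add_assoc, zpow_add₀ two_ne_zero, show (8 : ℝ) = 2 * 4 by norm_num, mul_pow,
              ← hδ]
            norm_cast
            push_cast
            field_simp
          rw [← mul_assoc, ← e, mul_assoc, ← abs_of_pos (a := (8 : ℝ) ^ (k + 1)) (by positivity),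
            ← abs_mul]
          simp only [T, locI, cel, tform, Finset.mul_sum, Matrix.of_apply, hδ,
            haarSign_cell k0 M k _ _ hθ.1, haarSign_cell k0 M k _ _ hθ.2.1,
            haarSign_cell k0 M k _ _ hθ.2.2]
          congr 2
          refine Finset.sum_congr rfl fun y0 _ => Finset.sum_congr rfl fun y1 _ =>
            Finset.sum_congr rfl fun y2 _ => ?_
          rw [show (8 : ℝ) = 2 * 2 * 2 by norm_num, mul_pow, mul_pow]
          ring
        · simp only [Ψ, cel, cube, Matrix.of_apply, Finset.sum_add_distrib, Finset.sum_const,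
            Finset.card_univ, Fintype.card_fin, nsmul_eq_mul, ← Finset.mul_sum]
          rw [Finset.sum_comm (f := fun y2 y0 : Fin (2 ^ M) =>
            |F₂ (δ * y2 + θ.2.2, δ * y0 + θ.1)| ^ 3)]
          field_simp
    _ ≤ _ := by
        have hi : ∀ {f : ℝ × ℝ × ℝ → ℝ}, Measurable f → (∀ z, |f z| ≤ C) →
            Integrable (fun z => |f z| ^ 3) (cub (δ * (2 ^ M : ℕ))) := fun h h' =>
          .of_bound (by fun_prop : Measurable _).aestronglyMeasurable _ (.of_forall fun z => hc (h' z))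
        have i0 := hi (f := fun z => F₀ (z.1, z.2.1)) (by fun_prop) fun _ => (hC _).1
        have i1 := hi (f := fun z => F₁ (z.2.1, z.2.2)) (by fun_prop) fun _ => (hC _).2.1
        have i2 := hi (f := fun z => F₂ (z.2.2, z.1)) (by fun_prop) fun _ => (hC _).2.2
        rw [integral_const_mul, ← cells3 hδ0 _ hΨ hΨb]
        simp only [Ψ]
        rw [integral_add (by exact i0.add i1) i2, integral_add i0 i1,
          iter3 _ (by fun_prop) fun _ => hc (hC _).1, iter3 _ (by fun_prop) fun _ => hc (hC _).2.1,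
          iter3 _ (by fun_prop) fun _ => hc (hC _).2.2]
        simp only [integral_const, measureReal_restrict_apply_univ, Real.volume_real_Ico_of_le hL.le,
          sub_zero, smul_eq_mul, integral_const_mul]
        rw [← mul_add, ← mul_add, ← mul_assoc, div_mul_cancel₀ _ hL.ne']
        gcongr
        exacts [(quarter_le _ hF₀ (fun z => (hC z).1) hc₀).1,
          (quarter_le _ hF₁ (fun z => (hC z).2.1) hc₁).1, (quarter_le _ hF₂ (fun z => (hC z).2.2) hc₂).2]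

end Crest.Agent.R72
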