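import Crest.Agent.R72.Mat

/-!
PLAN. `exists_svd`: spectral theorem for `Aᵀ A = V diag(λ) Vᵀ`, `a = √λ`; the columns of `A V` are orthogonal with norms `a i`;
normalise the non-zero ones and complete to an orthonormal basis indexed by `n`
(`Orthonormal.exists_orthonormalBasis_extension_of_card_eq`).  (Other routes are fine; `U Uᵀ = 1` by `Matrix.mul_eq_one_comm`/`mul_eq_one_comm`.)
`trace_tri_le`: `A = U_A a V_Aᵀ` etc.  `H¹ = V_Aᵀ h1 U_B`, `H² = V_Bᵀ h2 U_C`, `H⁰ = V_Cᵀ h0 U_A` are contractions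
(`|xᵀ H y| ≤ (|x|² + |y|²)/2`), the trace is `∑ a_i b_j c_k H¹_ij H²_jk H⁰_ki`.
`√(A Aᵀ) = U_A a U_Aᵀ`, `√(Bᵀ B) = V_B b V_Bᵀ` (`msqrt_unique`).  Put `T = V_B T' U_Aᵀ`, `T'_ji = min (a_i) (b_j) * H¹_ij` in `H1`:
with `Γ1 = ∑ min² max (H¹_ij)²` it reads `Γ1² ≤ J1 * ∑ min² (a_i + b_j) H² ≤ 2 J1 Γ1`, so `Γ1 ≤ 2 J1` (prove this once as a lemma, use 3 times).
Split the triple sum into the regions `(b ≤ a ∧ c ≤ a)`, `(a < b ∧ c ≤ b)`, `(a < c ∧ b < c)` (a partition).
In the first, for fixed `i` the sum over `j, k` is `a_i xᵀ H² y` with `x_j = 1[b_j ≤ a_i] b_j H¹_ij`, `y_k = 1[c_k ≤ a_i] c_k H⁰_ki`;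
the three bounds add up to `(Γ0 + Γ1 + Γ2)/2`.
-/

set_option autoImplicit false
set_option linter.unusedSectionVars false

namespace Crest.Agent.R72

open Matrix Finset MeasureTheory
open scoped ENNReal

variable {n : Type*} [Fintype n] [DecidableEq n]

theorem tri_orth_cols (M : Matrix n n ℝ) (lam : n → ℝ) (hM : Mᵀ * M = Matrix.diagonal lam) :
    ∃ U : Matrix n n ℝ, Uᵀ * U = 1 ∧ M = U * Matrix.diagonal (fun i => Real.sqrt (lam i)) := by
  have hdot : ∀ i j, ∑ k, M k i * M k j = if i = j then lam i else 0 := by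
    intro i j
    have h := congrFun (congrFun hM i) j
    simpa [Matrix.mul_apply, Matrix.diagonal_apply] using h
  have hlam : ∀ i, 0 ≤ lam i := by
    intro i
    have h := hdot i i
    simp only [if_true] at h
    rw [← h]
    exact Finset.sum_nonneg fun k _ => mul_self_nonneg _
  let v : n → EuclideanSpace ℝ n := fun i => WithLp.toLp 2 (fun k => M k i / Real.sqrt (lam i))
  have hv : Orthonormal ℝ (({i | lam i ≠ 0} : Set n).domRestrict v) := by
    rw [orthonormal_iff_ite]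
    rintro ⟨i, hi⟩ ⟨j, hj⟩
    have hi' : 0 < lam i := lt_of_le_of_ne (hlam i) (Ne.symm hi)
    have hj' : 0 < lam j := lt_of_le_of_ne (hlam j) (Ne.symm hj)
    have e : inner ℝ (v i) (v j) =
        (∑ k, M k i * M k j) / (Real.sqrt (lam i) * Real.sqrt (lam j)) := by
      simp only [v, PiLp.inner_apply, Finset.sum_div]
      refine Finset.sum_congr rfl fun k _ => ?_
      simp only [RCLike.inner_apply, conj_trivial]
      ring
    show inner ℝ (v i) (v j) = _
    rw [e, hdot]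
    by_cases hij : i = j
    · subst hij
      simp only [if_true]
      rw [Real.mul_self_sqrt hi'.le, div_self hi]
    · have : (⟨i, hi⟩ : ({i | lam i ≠ 0} : Set n)) ≠ ⟨j, hj⟩ := fun h => hij (congrArg Subtype.val h)
      simp [hij, this]
  obtain ⟨b, hb⟩ := hv.exists_orthonormalBasis_extension_of_card_eq (by simp)
  refine ⟨Matrix.of fun k i => b i k, ?_, ?_⟩
  · ext i j
    have h := orthonormal_iff_ite.1 b.orthonormal i j
    rw [PiLp.inner_apply] at h
    simp only [RCLike.inner_apply, conj_trivial] at h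
    simp only [Matrix.mul_apply, Matrix.transpose_apply, Matrix.of_apply, Matrix.one_apply]
    rw [← h]
    exact Finset.sum_congr rfl fun k _ => mul_comm _ _
  · ext k i
    rw [Matrix.mul_diagonal, Matrix.of_apply]
    by_cases hi : lam i = 0
    · have h := hdot i i
      simp only [if_true, hi] at h
      have h2 := (Finset.sum_eq_zero_iff_of_nonneg (fun k _ => mul_self_nonneg (M k i))).1 h k
        (Finset.mem_univ _)
      rw [mul_self_eq_zero.1 h2, hi]
      simp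
    · rw [hb i hi]
      have hi' : 0 < Real.sqrt (lam i) := Real.sqrt_pos.2 (lt_of_le_of_ne (hlam i) (Ne.symm hi))
      simp only [v]
      field_simp

/-- singular value decomposition of a real square matrix -/
theorem exists_svd (A : Matrix n n ℝ) :
    ∃ (U V : Matrix n n ℝ) (a : n → ℝ), Uᵀ * U = 1 ∧ Vᵀ * V = 1 ∧ (∀ i, 0 ≤ a i) ∧
      A = U * Matrix.diagonal a * Vᵀ := by
  have hH : (Aᵀ * A).IsHermitian := by
    have h := Matrix.isHermitian_conjTranspose_mul_self A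
    rwa [Matrix.conjTranspose_eq_transpose_of_trivial] at h
  set V : Matrix n n ℝ := (hH.eigenvectorUnitary : Matrix n n ℝ) with hV
  have hV1 : Vᵀ * V = 1 := by
    have h := Unitary.coe_star_mul_self hH.eigenvectorUnitary
    rwa [star_eq_conjTranspose, Matrix.conjTranspose_eq_transpose_of_trivial] at h
  have hV2 : V * Vᵀ = 1 := mul_eq_one_comm.1 hV1
  have hD : (A * V)ᵀ * (A * V) = Matrix.diagonal hH.eigenvalues := by
    have h := hH.conjStarAlgAut_star_eigenvectorUnitary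
    rw [Unitary.conjStarAlgAut_star_apply, star_eq_conjTranspose,
      Matrix.conjTranspose_eq_transpose_of_trivial] at h
    rw [Matrix.transpose_mul, Matrix.mul_assoc, ← Matrix.mul_assoc Aᵀ, ← Matrix.mul_assoc]
    simpa using h
  obtain ⟨U, hU, hM⟩ := tri_orth_cols _ _ hD
  refine ⟨U, V, fun i => Real.sqrt (hH.eigenvalues i), hU, hV1, fun i => Real.sqrt_nonneg _, ?_⟩
  rw [← hM, Matrix.mul_assoc, hV2, Matrix.mul_one]

/-- bilinear form of a contraction -/
def TriContr (H : Matrix n n ℝ) : Prop :=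
  ∀ x y : n → ℝ, |∑ j, ∑ k, x j * H j k * y k| ≤ (∑ j, x j ^ 2 + ∑ k, y k ^ 2) / 2

theorem tri_norm {U : Matrix n n ℝ} (hU : Uᵀ * U = 1) (x : n → ℝ) :
    ∑ l, (U *ᵥ x) l ^ 2 = ∑ j, x j ^ 2 := by
  have h : (U *ᵥ x) ⬝ᵥ (U *ᵥ x) = x ⬝ᵥ x := by
    rw [Matrix.dotProduct_mulVec, Matrix.vecMul_mulVec, hU, Matrix.vecMul_one]
  simpa [dotProduct, sq] using h

theorem tri_contr {U V : Matrix n n ℝ} (hU : Uᵀ * U = 1) (hV : Vᵀ * V = 1) {h : n → ℝ}
    (hh : ∀ x, |h x| ≤ 1) : TriContr (Vᵀ * Matrix.diagonal h * U) := by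
  intro x y
  have e : ∑ j, ∑ k, x j * (Vᵀ * Matrix.diagonal h * U) j k * y k =
      ∑ l, (V *ᵥ x) l * h l * (U *ᵥ y) l := by
    have e1 : ∑ j, ∑ k, x j * (Vᵀ * Matrix.diagonal h * U) j k * y k =
        x ⬝ᵥ ((Vᵀ * Matrix.diagonal h * U) *ᵥ y) := by
      simp only [dotProduct, Matrix.mulVec, Finset.mul_sum, mul_assoc]
    rw [e1, ← Matrix.mulVec_mulVec, ← Matrix.mulVec_mulVec, Matrix.dotProduct_mulVec,
      Matrix.vecMul_transpose]
    simp only [dotProduct, Matrix.mulVec_diagonal, mul_assoc]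
  rw [e, ← tri_norm hV x, ← tri_norm hU y, ← Finset.sum_add_distrib, Finset.sum_div]
  refine (Finset.abs_sum_le_sum_abs _ _).trans (Finset.sum_le_sum fun l _ => ?_)
  rw [abs_mul, abs_mul]
  have h1 := hh l
  have h2 := abs_nonneg ((V *ᵥ x) l)
  have h3 := abs_nonneg ((U *ᵥ y) l)
  have h4 : |(V *ᵥ x) l| * |h l| * |(U *ᵥ y) l| ≤ |(V *ᵥ x) l| * 1 * |(U *ᵥ y) l| := by gcongr
  rw [← sq_abs ((V *ᵥ x) l), ← sq_abs ((U *ᵥ y) l)]
  nlinarith [sq_nonneg (|(V *ᵥ x) l| - |(U *ᵥ y) l|)]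

theorem tri_region {H : Matrix n n ℝ} (hH : TriContr H) (w : n → ℝ) (hw : ∀ i, 0 ≤ w i)
    (X Y : n → n → ℝ) :
    |∑ i, ∑ j, ∑ k, w i * (X i j * H j k * Y i k)| ≤
      (∑ i, ∑ j, w i * X i j ^ 2 + ∑ i, ∑ k, w i * Y i k ^ 2) / 2 := by
  rw [← Finset.sum_add_distrib, Finset.sum_div]
  refine (Finset.abs_sum_le_sum_abs _ _).trans (Finset.sum_le_sum fun i _ => ?_)
  simp only [← Finset.mul_sum]
  rw [abs_mul, abs_of_nonneg (hw i), ← mul_add, mul_div_assoc]
  exact mul_le_mul_of_nonneg_left (hH _ _) (hw i)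

/-- junction energy -/
noncomputable def triG (a b : n → ℝ) (H : Matrix n n ℝ) : ℝ :=
  ∑ i, ∑ j, min (a i) (b j) ^ 2 * max (a i) (b j) * H i j ^ 2

theorem tri_sum_le (a b c : n → ℝ) (ha : ∀ i, 0 ≤ a i) (hb : ∀ i, 0 ≤ b i) (hc : ∀ i, 0 ≤ c i)
    {H0 H1 H2 : Matrix n n ℝ} (h0 : TriContr H0) (h1 : TriContr H1) (h2 : TriContr H2) :
    |∑ i, ∑ j, ∑ k, a i * H1 i j * b j * H2 j k * c k * H0 k i| ≤
      (triG c a H0 + triG a b H1 + triG b c H2) / 2 := by
  have ra := tri_region h2 a ha (fun i j => if b j ≤ a i then b j * H1 i j else 0)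
    (fun i k => if c k ≤ a i then c k * H0 k i else 0)
  have rb := tri_region h0 b hb (fun j k => if c k ≤ b j then c k * H2 j k else 0)
    (fun j i => if a i < b j then a i * H1 i j else 0)
  have rc := tri_region h1 c hc (fun k i => if a i < c k then a i * H0 k i else 0)
    (fun k j => if b j < c k then b j * H2 j k else 0)
  have eb : ∀ f : n → n → n → ℝ, ∑ j, ∑ k, ∑ i, f i j k = ∑ i, ∑ j, ∑ k, f i j k := by
    intro f
    rw [Finset.sum_comm (f := fun i j => ∑ k, f i j k)]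
    exact Finset.sum_congr rfl fun j _ => Finset.sum_comm
  have ec : ∀ f : n → n → n → ℝ, ∑ k, ∑ i, ∑ j, f i j k = ∑ i, ∑ j, ∑ k, f i j k := by
    intro f
    rw [Finset.sum_comm]
    exact Finset.sum_congr rfl fun i _ => Finset.sum_comm
  rw [eb (fun i j k => b j * ((if c k ≤ b j then c k * H2 j k else 0) * H0 k i *
    (if a i < b j then a i * H1 i j else 0)))] at rb
  rw [ec (fun i j k => c k * ((if a i < c k then a i * H0 k i else 0) * H1 i j *
    (if b j < c k then b j * H2 j k else 0)))] at rc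
  have e : ∑ i, ∑ j, ∑ k, a i * H1 i j * b j * H2 j k * c k * H0 k i =
      ∑ i, ∑ j, ∑ k, a i * ((if b j ≤ a i then b j * H1 i j else 0) * H2 j k *
        (if c k ≤ a i then c k * H0 k i else 0)) +
      ∑ i, ∑ j, ∑ k, b j * ((if c k ≤ b j then c k * H2 j k else 0) * H0 k i *
        (if a i < b j then a i * H1 i j else 0)) +
      ∑ i, ∑ j, ∑ k, c k * ((if a i < c k then a i * H0 k i else 0) * H1 i j *
        (if b j < c k then b j * H2 j k else 0)) := by
    simp only [← Finset.sum_add_distrib]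
    refine Finset.sum_congr rfl fun i _ => Finset.sum_congr rfl fun j _ =>
      Finset.sum_congr rfl fun k _ => ?_
    split_ifs <;> first | ring1 | (exfalso; linarith)
  have g1 : triG a b H1 = ∑ i, ∑ j, a i * (if b j ≤ a i then b j * H1 i j else 0) ^ 2 +
      ∑ j, ∑ i, b j * (if a i < b j then a i * H1 i j else 0) ^ 2 := by
    rw [Finset.sum_comm (f := fun j i => b j * (if a i < b j then a i * H1 i j else 0) ^ 2)]
    simp only [triG, ← Finset.sum_add_distrib]
    refine Finset.sum_congr rfl fun i _ => Finset.sum_congr rfl fun j _ => ?_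
    rcases le_or_gt (b j) (a i) with h | h
    · rw [if_pos h, if_neg (not_lt.2 h), min_eq_right h, max_eq_left h]; ring
    · rw [if_neg (not_le.2 h), if_pos h, min_eq_left h.le, max_eq_right h.le]; ring
  have g2 : triG b c H2 = ∑ j, ∑ k, b j * (if c k ≤ b j then c k * H2 j k else 0) ^ 2 +
      ∑ k, ∑ j, c k * (if b j < c k then b j * H2 j k else 0) ^ 2 := by
    rw [Finset.sum_comm (f := fun k j => c k * (if b j < c k then b j * H2 j k else 0) ^ 2)]
    simp only [triG, ← Finset.sum_add_distrib]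
    refine Finset.sum_congr rfl fun j _ => Finset.sum_congr rfl fun k _ => ?_
    rcases le_or_gt (c k) (b j) with h | h
    · rw [if_pos h, if_neg (not_lt.2 h), min_eq_right h, max_eq_left h]; ring
    · rw [if_neg (not_le.2 h), if_pos h, min_eq_left h.le, max_eq_right h.le]; ring
  have g0 : triG c a H0 = ∑ i, ∑ k, a i * (if c k ≤ a i then c k * H0 k i else 0) ^ 2 +
      ∑ k, ∑ i, c k * (if a i < c k then a i * H0 k i else 0) ^ 2 := by
    rw [Finset.sum_comm (f := fun i k => a i * (if c k ≤ a i then c k * H0 k i else 0) ^ 2)]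
    simp only [triG, ← Finset.sum_add_distrib]
    refine Finset.sum_congr rfl fun k _ => Finset.sum_congr rfl fun i _ => ?_
    rcases le_or_gt (c k) (a i) with h | h
    · rw [if_pos h, if_neg (not_lt.2 h), min_eq_left h, max_eq_right h]; ring
    · rw [if_neg (not_le.2 h), if_pos h, min_eq_right h.le, max_eq_left h.le]; ring
  rw [e, g0, g1, g2]
  refine (abs_add_three _ _ _).trans ?_
  linarith

theorem tri_sqrt_left {A U V : Matrix n n ℝ} {a : n → ℝ} (hU : Uᵀ * U = 1) (hV : Vᵀ * V = 1)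
    (ha : ∀ i, 0 ≤ a i) (hA : A = U * Matrix.diagonal a * Vᵀ) :
    msqrt (A * Aᵀ) = U * Matrix.diagonal a * Uᵀ := by
  apply msqrt_unique
  · have h := (Matrix.PosSemidef.diagonal (d := a) ha).mul_mul_conjTranspose_same U
    rwa [Matrix.conjTranspose_eq_transpose_of_trivial] at h
  · rw [hA]
    simp only [Matrix.transpose_mul, Matrix.transpose_transpose, Matrix.diagonal_transpose,
      Matrix.mul_assoc]
    rw [← Matrix.mul_assoc Uᵀ U, hU, ← Matrix.mul_assoc Vᵀ V, hV]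

theorem tri_sqrt_right {A U V : Matrix n n ℝ} {a : n → ℝ} (hU : Uᵀ * U = 1) (hV : Vᵀ * V = 1)
    (ha : ∀ i, 0 ≤ a i) (hA : A = U * Matrix.diagonal a * Vᵀ) :
    msqrt (Aᵀ * A) = V * Matrix.diagonal a * Vᵀ := by
  have h := tri_sqrt_left (A := Aᵀ) hV hU ha (by
    rw [hA]
    simp only [Matrix.transpose_mul, Matrix.transpose_transpose, Matrix.diagonal_transpose,
      Matrix.mul_assoc])
  rwa [Matrix.transpose_transpose] at h

theorem tri_trace_conj {V : Matrix n n ℝ} (hV : Vᵀ * V = 1) (M : Matrix n n ℝ) :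
    (V * (M * Vᵀ)).trace = M.trace := by
  rw [Matrix.trace_mul_comm, Matrix.mul_assoc, hV, Matrix.mul_one]

theorem tri_junction {A B UA VA UB VB : Matrix n n ℝ} {a b h : n → ℝ} (hUA : UAᵀ * UA = 1)
    (hVA : VAᵀ * VA = 1) (ha : ∀ i, 0 ≤ a i) (hA : A = UA * Matrix.diagonal a * VAᵀ)
    (hUB : UBᵀ * UB = 1) (hVB : VBᵀ * VB = 1) (hb : ∀ i, 0 ≤ b i)
    (hB : B = UB * Matrix.diagonal b * VBᵀ) {J : ℝ} (hJ : 0 ≤ J)
    (H1 : ∀ T : Matrix n n ℝ, (T * (A * Matrix.diagonal h * B)).trace ^ 2 ≤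
      J * ((T * msqrt (A * Aᵀ) * Tᵀ).trace + (Tᵀ * msqrt (Bᵀ * B) * T).trace)) :
    triG a b (VAᵀ * Matrix.diagonal h * UB) ≤ 2 * J := by
  set H := VAᵀ * Matrix.diagonal h * UB with hH
  let T' : Matrix n n ℝ := Matrix.of fun j i => min (a i) (b j) * H i j
  have key := H1 (VB * T' * UAᵀ)
  rw [tri_sqrt_left hUA hVA ha hA, tri_sqrt_right hUB hVB hb hB] at key
  have cA : ∀ M : Matrix n n ℝ, UAᵀ * (UA * M) = M := fun M => by
    rw [← Matrix.mul_assoc, hUA, Matrix.one_mul]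
  have cB : ∀ M : Matrix n n ℝ, VBᵀ * (VB * M) = M := fun M => by
    rw [← Matrix.mul_assoc, hVB, Matrix.one_mul]
  have e1 : (VB * T' * UAᵀ * (A * Matrix.diagonal h * B)).trace =
      (T' * (Matrix.diagonal a * H * Matrix.diagonal b)).trace := by
    rw [← tri_trace_conj hVB (T' * (Matrix.diagonal a * H * Matrix.diagonal b)), hA, hB, hH]
    simp only [Matrix.mul_assoc, cA]
  have e2 : (VB * T' * UAᵀ * (UA * Matrix.diagonal a * UAᵀ) * (VB * T' * UAᵀ)ᵀ).trace =
      (T' * Matrix.diagonal a * T'ᵀ).trace := by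
    rw [← tri_trace_conj hVB (T' * Matrix.diagonal a * T'ᵀ)]
    simp only [Matrix.transpose_mul, Matrix.transpose_transpose, Matrix.mul_assoc, cA]
  have e3 : ((VB * T' * UAᵀ)ᵀ * (VB * Matrix.diagonal b * VBᵀ) * (VB * T' * UAᵀ)).trace =
      (T'ᵀ * Matrix.diagonal b * T').trace := by
    rw [← tri_trace_conj hUA (T'ᵀ * Matrix.diagonal b * T')]
    simp only [Matrix.transpose_mul, Matrix.transpose_transpose, Matrix.mul_assoc, cB]
  have f1 : (T' * (Matrix.diagonal a * H * Matrix.diagonal b)).trace = triG a b H := by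
    simp only [Matrix.trace, Matrix.diag_apply, triG]
    rw [Finset.sum_comm]
    refine Finset.sum_congr rfl fun j _ => ?_
    rw [Matrix.mul_apply]
    refine Finset.sum_congr rfl fun i _ => ?_
    rw [Matrix.mul_diagonal, Matrix.diagonal_mul]
    simp only [T', Matrix.of_apply]
    rcases le_total (a i) (b j) with h' | h'
    · rw [min_eq_left h', max_eq_right h']; ring
    · rw [min_eq_right h', max_eq_left h']; ring
  have f2 : (T' * Matrix.diagonal a * T'ᵀ).trace =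
      ∑ i, ∑ j, (min (a i) (b j) * H i j) ^ 2 * a i := by
    simp only [Matrix.trace, Matrix.diag_apply]
    rw [Finset.sum_comm]
    refine Finset.sum_congr rfl fun j _ => ?_
    rw [Matrix.mul_apply]
    refine Finset.sum_congr rfl fun i _ => ?_
    rw [Matrix.mul_diagonal, Matrix.transpose_apply]
    simp only [T', Matrix.of_apply]
    ring
  have f3 : (T'ᵀ * Matrix.diagonal b * T').trace =
      ∑ i, ∑ j, (min (a i) (b j) * H i j) ^ 2 * b j := by
    simp only [Matrix.trace, Matrix.diag_apply]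
    refine Finset.sum_congr rfl fun i _ => ?_
    rw [Matrix.mul_apply]
    refine Finset.sum_congr rfl fun j _ => ?_
    rw [Matrix.mul_diagonal, Matrix.transpose_apply]
    simp only [T', Matrix.of_apply]
    ring
  rw [e1, e2, e3, f1, f2, f3] at key
  have f4 : ∑ i, ∑ j, (min (a i) (b j) * H i j) ^ 2 * a i +
      ∑ i, ∑ j, (min (a i) (b j) * H i j) ^ 2 * b j ≤ 2 * triG a b H := by
    simp only [triG, ← Finset.sum_add_distrib, Finset.mul_sum]
    refine Finset.sum_le_sum fun i _ => Finset.sum_le_sum fun j _ => ?_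
    have m1 := le_max_left (a i) (b j)
    have m2 := le_max_right (a i) (b j)
    have m3 := sq_nonneg (min (a i) (b j) * H i j)
    nlinarith [mul_le_mul_of_nonneg_left m1 m3, mul_le_mul_of_nonneg_left m2 m3]
  have key2 : triG a b H ^ 2 ≤ J * (2 * triG a b H) :=
    key.trans (mul_le_mul_of_nonneg_left f4 hJ)
  by_contra hc
  push Not at hc
  nlinarith

/-- the trilinear bound from the three junction bounds -/
theorem trace_tri_le (A B C : Matrix n n ℝ) (h0 h1 h2 : n → ℝ) (hh0 : ∀ x, |h0 x| ≤ 1)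
    (hh1 : ∀ x, |h1 x| ≤ 1) (hh2 : ∀ x, |h2 x| ≤ 1) (J0 J1 J2 : ℝ) (hJ0 : 0 ≤ J0) (hJ1 : 0 ≤ J1)
    (hJ2 : 0 ≤ J2)
    (H1 : ∀ T : Matrix n n ℝ, (T * (A * Matrix.diagonal h1 * B)).trace ^ 2 ≤
      J1 * ((T * msqrt (A * Aᵀ) * Tᵀ).trace + (Tᵀ * msqrt (Bᵀ * B) * T).trace))
    (H2 : ∀ T : Matrix n n ℝ, (T * (B * Matrix.diagonal h2 * C)).trace ^ 2 ≤
      J2 * ((T * msqrt (B * Bᵀ) * Tᵀ).trace + (Tᵀ * msqrt (Cᵀ * C) * T).trace))
    (H0 : ∀ T : Matrix n n ℝ, (T * (C * Matrix.diagonal h0 * A)).trace ^ 2 ≤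
      J0 * ((T * msqrt (C * Cᵀ) * Tᵀ).trace + (Tᵀ * msqrt (Aᵀ * A) * T).trace)) :
    |(Matrix.diagonal h0 * A * Matrix.diagonal h1 * B * Matrix.diagonal h2 * C).trace| ≤
      J0 + J1 + J2 := by
  obtain ⟨UA, VA, a, hUA, hVA, ha, hA⟩ := exists_svd A
  obtain ⟨UB, VB, b, hUB, hVB, hb, hB⟩ := exists_svd B
  obtain ⟨UC, VC, c, hUC, hVC, hc, hC⟩ := exists_svd C
  have j1 := tri_junction hUA hVA ha hA hUB hVB hb hB hJ1 H1
  have j2 := tri_junction hUB hVB hb hB hUC hVC hc hC hJ2 H2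
  have j0 := tri_junction hUC hVC hc hC hUA hVA ha hA hJ0 H0
  have s := tri_sum_le a b c ha hb hc (tri_contr hUA hVC hh0) (tri_contr hUB hVA hh1)
    (tri_contr hUC hVB hh2)
  have e : (Matrix.diagonal h0 * A * Matrix.diagonal h1 * B * Matrix.diagonal h2 * C).trace =
      (Matrix.diagonal a * (VAᵀ * Matrix.diagonal h1 * UB) * Matrix.diagonal b *
        (VBᵀ * Matrix.diagonal h2 * UC) * Matrix.diagonal c *
        (VCᵀ * Matrix.diagonal h0 * UA)).trace := by
    have e1 : Matrix.diagonal h0 * A * Matrix.diagonal h1 * B * Matrix.diagonal h2 * C =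
        (Matrix.diagonal h0 * UA) * (Matrix.diagonal a * (VAᵀ * Matrix.diagonal h1 * UB) *
          Matrix.diagonal b * (VBᵀ * Matrix.diagonal h2 * UC) * Matrix.diagonal c * VCᵀ) := by
      rw [hA, hB, hC]
      simp only [Matrix.mul_assoc]
    rw [e1, Matrix.trace_mul_comm]
    simp only [Matrix.mul_assoc]
  rw [e]
  generalize VAᵀ * Matrix.diagonal h1 * UB = K1 at *
  generalize VBᵀ * Matrix.diagonal h2 * UC = K2 at *
  generalize VCᵀ * Matrix.diagonal h0 * UA = K0 at *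
  have e2 : (Matrix.diagonal a * K1 * Matrix.diagonal b * K2 * Matrix.diagonal c * K0).trace =
      ∑ i, ∑ j, ∑ k, a i * K1 i j * b j * K2 j k * c k * K0 k i := by
    simp only [Matrix.trace, Matrix.diag_apply]
    refine Finset.sum_congr rfl fun i _ => ?_
    rw [Matrix.mul_apply, Finset.sum_comm]
    refine Finset.sum_congr rfl fun k _ => ?_
    rw [Matrix.mul_diagonal, Matrix.mul_apply, Finset.sum_mul, Finset.sum_mul]
    refine Finset.sum_congr rfl fun j _ => ?_
    rw [Matrix.mul_diagonal, Matrix.diagonal_mul]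
  rw [e2]
  linarith

end Crest.Agent.R72
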