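import Crest.Agent.R72.Vertex
import Crest.Agent.R72.Tri

/-!
PLAN. `S = Matrix.fromCols (Aᵀ √G0) (B √G2) : Matrix n (n ⊕ n) ℝ`; `vN A B G0 g G2 = (√g S)(√g S)ᵀ`, so by `f32_comm`
`vF A B G0 g G2 = f32 (Sᵀ diag g S)` (for `g ≥ 0`), linear in `g` inside `f32`.  `vJ_nonneg`: `f32_jensen`.
* `vJ_gap`: `W = Sᵀ ḡ S`, `Δ = Sᵀ d S` (`ḡ = (gp+gm)/2`, `d = (gp-gm)/2`), `K_A = fromCols diag(√(a0/G0)) 0`, `K_B = fromCols 0 diag(√(a2/G2))`.
  `K_A Sᵀ = √a0 A`, `S K_Bᵀ = B √a2` (if `G0 x = 0` then `a0 x = 0`), `K Kᵀ ≤ κ`, `Kᵀ K ≤ κ` (diagonal matrices).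
  `f32_gap` with `T̃ = K_Aᵀ Tᵀ K_B`.  `tr (T̃ᵀ √W T̃) ≤ κ tr (T (K_A √W K_Aᵀ) Tᵀ)` and
  `K_A √W K_Aᵀ ≤ √κ √(K_A W K_Aᵀ)` by `psd_sub_of_sq` since `(K √W Kᵀ)² = K √W (Kᵀ K) √W Kᵀ ≤ κ K W Kᵀ`;
  `K_A W K_Aᵀ = A' A'ᵀ` for `A' = √a0 A √ḡ`.  Same for the other term with `K_B`.
* `vJ_gap_hs`: `vJ_gap` with `T x2 x0 = √(a2 x2) c x2 x0 √(a0 x0)` and `msqrt_le_trace` + `trace_conj_mono`.
* `tform_le`: `g_i = (p_i+m_i)/2`, `d_i = (p_i-m_i)/2`, `h_i = d_i / g_i` (`|h_i| ≤ 1`, `h_i g_i = d_i`),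
  `A' = √g0 A √g1`, `B' = √g1 B √g2`, `C' = √g2 C √g0`; `tform = tr (h0 A' h1 B' h2 C')`; `trace_tri_le` with the three `vJ_gap`.
-/

set_option autoImplicit false

namespace Crest.Agent.R72

open Matrix Finset MeasureTheory
open scoped ENNReal

variable {n : Type*} [Fintype n] [DecidableEq n]

set_option linter.unusedSectionVars false

theorem dsq_mul_self {w : n → ℝ} (hw : ∀ x, 0 ≤ w x) : dsq w * dsq w = Matrix.diagonal w := by
  rw [dsq, Matrix.diagonal_mul_diagonal]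
  congr 1
  ext x
  exact Real.mul_self_sqrt (hw x)

theorem gap_psd_conj {m k : Type*} [Fintype m] [Fintype k] {a : Matrix k k ℝ}
    (ha : a.PosSemidef) (T : Matrix k m ℝ) : (Tᵀ * a * T).PosSemidef := by
  have h := ha.conjTranspose_mul_mul_same T
  rwa [Matrix.conjTranspose_eq_transpose_of_trivial] at h

section abs
variable {m : Type*} [Fintype m] [DecidableEq m]

theorem conj_sqrt_le {W : Matrix m m ℝ} (hW : W.PosSemidef) {K : Matrix n m ℝ} {κ : ℝ}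
    (hκ : 0 ≤ κ) (hK : (κ • (1 : Matrix m m ℝ) - Kᵀ * K).PosSemidef) :
    (Real.sqrt κ • msqrt (K * W * Kᵀ) - K * msqrt W * Kᵀ).PosSemidef := by
  have h1 : (K * W * Kᵀ).PosSemidef := by simpa using gap_psd_conj hW Kᵀ
  have h2 : (K * msqrt W * Kᵀ).PosSemidef := by simpa using gap_psd_conj (msqrt_psd W) Kᵀ
  apply psd_sub_of_sq h2 ((msqrt_psd _).smul (Real.sqrt_nonneg κ))
  rw [smul_mul_smul_comm, Real.mul_self_sqrt hκ, msqrt_mul_self h1]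
  have h3 := gap_psd_conj hK (msqrt W * Kᵀ)
  have e : (msqrt W * Kᵀ)ᵀ * (κ • (1 : Matrix m m ℝ) - Kᵀ * K) * (msqrt W * Kᵀ) =
      κ • (K * (msqrt W * msqrt W) * Kᵀ) - K * msqrt W * Kᵀ * (K * msqrt W * Kᵀ) := by
    simp only [Matrix.transpose_mul, Matrix.transpose_transpose, msqrt_transpose, Matrix.mul_sub,
      Matrix.sub_mul, Matrix.mul_smul, Matrix.smul_mul, Matrix.mul_one, Matrix.mul_assoc]
  rwa [e, msqrt_mul_self hW] at h3

theorem conj_trace_le {W : Matrix m m ℝ} (hW : W.PosSemidef) {K L : Matrix n m ℝ} {κ : ℝ}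
    (hκ : 0 ≤ κ) (hK : (κ • (1 : Matrix m m ℝ) - Kᵀ * K).PosSemidef)
    (hL : (κ • (1 : Matrix n n ℝ) - L * Lᵀ).PosSemidef) (T : Matrix n n ℝ) :
    ((Kᵀ * T * L)ᵀ * msqrt W * (Kᵀ * T * L)).trace ≤
      κ * Real.sqrt κ * (Tᵀ * msqrt (K * W * Kᵀ) * T).trace := by
  have h2 : (K * msqrt W * Kᵀ).PosSemidef := by simpa using gap_psd_conj (msqrt_psd W) Kᵀ
  have h3 := trace_mul_nonneg (gap_psd_conj h2 T) hL
  have h4 := trace_conj_mono (conj_sqrt_le hW hκ hK) T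
  have e : ((Kᵀ * T * L)ᵀ * msqrt W * (Kᵀ * T * L)).trace =
      (Tᵀ * (K * msqrt W * Kᵀ) * T * (L * Lᵀ)).trace := by
    simp only [Matrix.transpose_mul, Matrix.transpose_transpose, Matrix.mul_assoc]
    rw [Matrix.trace_mul_comm]
    simp only [Matrix.mul_assoc]
  rw [Matrix.mul_sub, Matrix.trace_sub, Matrix.mul_smul, Matrix.mul_one, Matrix.trace_smul,
    smul_eq_mul] at h3
  rw [Matrix.mul_smul, Matrix.smul_mul, Matrix.trace_smul, smul_eq_mul] at h4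
  rw [e]
  nlinarith [mul_le_mul_of_nonneg_left h4 hκ]

theorem gap_abs {W Δ : Matrix m m ℝ} (hp : (W + Δ).PosSemidef) (hm : (W - Δ).PosSemidef)
    {K L : Matrix n m ℝ} {κ : ℝ} (hκ : 0 ≤ κ)
    (hK : (κ • (1 : Matrix m m ℝ) - Kᵀ * K).PosSemidef)
    (hK' : (κ • (1 : Matrix n n ℝ) - K * Kᵀ).PosSemidef)
    (hL : (κ • (1 : Matrix m m ℝ) - Lᵀ * L).PosSemidef)
    (hL' : (κ • (1 : Matrix n n ℝ) - L * Lᵀ).PosSemidef)
    (hJ : 0 ≤ (f32 (W + Δ) + f32 (W - Δ)) / 2 - f32 W) (T : Matrix n n ℝ) :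
    (T * (K * Δ * Lᵀ)).trace ^ 2 ≤
      2 * κ * Real.sqrt κ * ((f32 (W + Δ) + f32 (W - Δ)) / 2 - f32 W) *
        ((T * msqrt (K * W * Kᵀ) * Tᵀ).trace + (Tᵀ * msqrt (L * W * Lᵀ) * T).trace) := by
  have hW : W.PosSemidef := by
    have := (hp.add hm).smul (show (0 : ℝ) ≤ 1 / 2 by norm_num)
    have e : (1 / 2 : ℝ) • (W + Δ + (W - Δ)) = W := by module
    rwa [e] at this
  have h1 := f32_gap hp hm (Kᵀ * Tᵀ * L)
  have h2 := conj_trace_le hW hκ hK hL' Tᵀ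
  have h3 := conj_trace_le hW hκ hL hK' T
  have e1 : ((Kᵀ * Tᵀ * L)ᵀ * Δ).trace = (T * (K * Δ * Lᵀ)).trace := by
    simp only [Matrix.transpose_mul, Matrix.transpose_transpose, Matrix.mul_assoc]
    rw [Matrix.trace_mul_comm]
    simp only [Matrix.mul_assoc]
  have e2 : (Lᵀ * T * K)ᵀ = Kᵀ * Tᵀ * L := by
    simp only [Matrix.transpose_mul, Matrix.transpose_transpose, Matrix.mul_assoc]
  have e3 : (Kᵀ * Tᵀ * L)ᵀ = Lᵀ * T * K := by
    simp only [Matrix.transpose_mul, Matrix.transpose_transpose, Matrix.mul_assoc]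
  rw [e1] at h1
  rw [Matrix.transpose_transpose] at h2
  rw [e2, ← e3] at h3
  refine h1.trans ?_
  nlinarith [mul_le_mul_of_nonneg_right (add_le_add h2 h3) hJ]

end abs

/-- the side matrix -/
noncomputable def gS (A B : Matrix n n ℝ) (G0 G2 : n → ℝ) : Matrix n (n ⊕ n) ℝ :=
  Matrix.fromCols (Aᵀ * dsq G0) (B * dsq G2)

theorem vF_eq (A B : Matrix n n ℝ) {G0 g G2 : n → ℝ} (h0 : ∀ x, 0 ≤ G0 x) (hg : ∀ x, 0 ≤ g x)
    (h2 : ∀ x, 0 ≤ G2 x) :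
    vF A B G0 g G2 = f32 ((gS A B G0 G2)ᵀ * Matrix.diagonal g * gS A B G0 G2) := by
  have e1 : gS A B G0 G2 * (gS A B G0 G2)ᵀ =
      Aᵀ * Matrix.diagonal G0 * A + B * Matrix.diagonal G2 * Bᵀ := by
    rw [gS, Matrix.transpose_fromCols, Matrix.fromCols_mul_fromRows, ← dsq_mul_self h0,
      ← dsq_mul_self h2]
    simp only [Matrix.transpose_mul, Matrix.transpose_transpose, dsq_transpose, Matrix.mul_assoc]
  have e2 : vN A B G0 g G2 = (dsq g * gS A B G0 G2) * (dsq g * gS A B G0 G2)ᵀ := by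
    rw [vN, ← e1]
    simp only [Matrix.transpose_mul, dsq_transpose, Matrix.mul_assoc]
  rw [vF, e2, f32_comm, ← dsq_mul_self hg]
  simp only [Matrix.transpose_mul, dsq_transpose, Matrix.mul_assoc]

theorem vJ_eq (A B : Matrix n n ℝ) {G0 gp gm G2 : n → ℝ} (h0 : ∀ x, 0 ≤ G0 x)
    (hp : ∀ x, 0 ≤ gp x) (hm : ∀ x, 0 ≤ gm x) (h2 : ∀ x, 0 ≤ G2 x) :
    ∃ W Δ : Matrix (n ⊕ n) (n ⊕ n) ℝ,
      W = (gS A B G0 G2)ᵀ * Matrix.diagonal (fun x => (gp x + gm x) / 2) * gS A B G0 G2 ∧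
      Δ = (gS A B G0 G2)ᵀ * Matrix.diagonal (fun x => (gp x - gm x) / 2) * gS A B G0 G2 ∧
      (W + Δ).PosSemidef ∧ (W - Δ).PosSemidef ∧
      vJ A B G0 gp gm G2 = (f32 (W + Δ) + f32 (W - Δ)) / 2 - f32 W := by
  have hs : ∀ x, 0 ≤ (gp x + gm x) / 2 := fun x => by linarith [hp x, hm x]
  have e1 : (gS A B G0 G2)ᵀ * Matrix.diagonal (fun x => (gp x + gm x) / 2) * gS A B G0 G2 +
      (gS A B G0 G2)ᵀ * Matrix.diagonal (fun x => (gp x - gm x) / 2) * gS A B G0 G2 =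
      (gS A B G0 G2)ᵀ * Matrix.diagonal gp * gS A B G0 G2 := by
    rw [← Matrix.add_mul, ← Matrix.mul_add, Matrix.diagonal_add]
    congr 3
    ext x
    ring
  have e2 : (gS A B G0 G2)ᵀ * Matrix.diagonal (fun x => (gp x + gm x) / 2) * gS A B G0 G2 -
      (gS A B G0 G2)ᵀ * Matrix.diagonal (fun x => (gp x - gm x) / 2) * gS A B G0 G2 =
      (gS A B G0 G2)ᵀ * Matrix.diagonal gm * gS A B G0 G2 := by
    rw [← Matrix.sub_mul, ← Matrix.mul_sub, Matrix.diagonal_sub]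
    congr 3
    ext x
    ring
  refine ⟨_, _, rfl, rfl, ?_, ?_, ?_⟩
  · rw [e1]; exact gap_psd_conj (Matrix.PosSemidef.diagonal hp) _
  · rw [e2]; exact gap_psd_conj (Matrix.PosSemidef.diagonal hm) _
  · rw [e1, e2, vJ, vF_eq A B h0 hp h2, vF_eq A B h0 hm h2, vF_eq A B h0 hs h2]

theorem ratio_le {a G κ : ℝ} (hκ : 0 ≤ κ) (hG : 0 ≤ G) (ha : 0 ≤ a ∧ a ≤ κ * G) :
    0 ≤ a / G ∧ a / G ≤ κ ∧ Real.sqrt (a / G) * Real.sqrt G = Real.sqrt a := by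
  rcases hG.eq_or_lt with rfl | hG'
  · have : a = 0 := by linarith [ha.1, ha.2]
    simp [this, hκ]
  · refine ⟨div_nonneg ha.1 hG, (div_le_iff₀ hG').2 ha.2, ?_⟩
    rw [← Real.sqrt_mul (div_nonneg ha.1 hG), div_mul_cancel₀ _ hG'.ne']

theorem psd_smul_one_sub_diag {m : Type*} [Fintype m] [DecidableEq m] {κ : ℝ} {d : m → ℝ}
    (hd : ∀ x, d x ≤ κ) : (κ • (1 : Matrix m m ℝ) - Matrix.diagonal d).PosSemidef := by
  rw [Matrix.smul_one_eq_diagonal, Matrix.diagonal_sub]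
  exact Matrix.PosSemidef.diagonal fun x => sub_nonneg.2 (hd x)

theorem vJ_nonneg (A B : Matrix n n ℝ) {G0 gp gm G2 : n → ℝ} (h0 : ∀ x, 0 ≤ G0 x)
    (hp : ∀ x, 0 ≤ gp x) (hm : ∀ x, 0 ≤ gm x) (h2 : ∀ x, 0 ≤ G2 x) :
    0 ≤ vJ A B G0 gp gm G2 := by
  obtain ⟨W, Δ, -, -, h1, h3, h4⟩ := vJ_eq A B h0 hp hm h2
  have h5 := f32_jensen h1 h3
  have e : (1 / 2 : ℝ) • (W + Δ + (W - Δ)) = W := by module
  rw [e] at h5
  linarith

/-- the junction bound -/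
theorem vJ_gap (A B : Matrix n n ℝ) {G0 gp gm G2 a0 a2 : n → ℝ} {κ : ℝ} (hκ : 0 ≤ κ)
    (h0 : ∀ x, 0 ≤ G0 x) (hp : ∀ x, 0 ≤ gp x) (hm : ∀ x, 0 ≤ gm x) (h2 : ∀ x, 0 ≤ G2 x)
    (ha0 : ∀ x, 0 ≤ a0 x ∧ a0 x ≤ κ * G0 x) (ha2 : ∀ x, 0 ≤ a2 x ∧ a2 x ≤ κ * G2 x)
    (T : Matrix n n ℝ) :
    (T * (dsq a0 * A * Matrix.diagonal (fun x => (gp x - gm x) / 2) * B * dsq a2)).trace ^ 2 ≤
      2 * κ * Real.sqrt κ * vJ A B G0 gp gm G2 *
        ((T * msqrt ((dsq a0 * A * dsq (fun x => (gp x + gm x) / 2)) *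
            (dsq a0 * A * dsq (fun x => (gp x + gm x) / 2))ᵀ) * Tᵀ).trace +
          (Tᵀ * msqrt ((dsq (fun x => (gp x + gm x) / 2) * B * dsq a2)ᵀ *
            (dsq (fun x => (gp x + gm x) / 2) * B * dsq a2)) * T).trace) := by
  have hJ := vJ_nonneg A B h0 hp hm h2
  obtain ⟨W, Δ, hW, hΔ, h1, h3, h4⟩ := vJ_eq A B h0 hp hm h2
  have hs : ∀ x, 0 ≤ (gp x + gm x) / 2 := fun x => by linarith [hp x, hm x]
  have r0 := fun x => ratio_le hκ (h0 x) (ha0 x)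
  have r2 := fun x => ratio_le hκ (h2 x) (ha2 x)
  have d0 := dsq_mul_self (w := fun x => a0 x / G0 x) fun x => (r0 x).1
  have d2 := dsq_mul_self (w := fun x => a2 x / G2 x) fun x => (r2 x).1
  have q0 : dsq (fun x => a0 x / G0 x) * dsq G0 = dsq a0 := by
    simp only [dsq, Matrix.diagonal_mul_diagonal, (r0 _).2.2]
  have q2 : dsq (fun x => a2 x / G2 x) * dsq G2 = dsq a2 := by
    simp only [dsq, Matrix.diagonal_mul_diagonal, (r2 _).2.2]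
  set D0 := dsq (fun x => a0 x / G0 x) with hD0
  set D2 := dsq (fun x => a2 x / G2 x) with hD2
  have t0 : D0ᵀ = D0 := dsq_transpose _
  have t2 : D2ᵀ = D2 := dsq_transpose _
  let K : Matrix n (n ⊕ n) ℝ := Matrix.fromCols D0 0
  let L : Matrix n (n ⊕ n) ℝ := Matrix.fromCols 0 D2
  have k1 : Kᵀ * K = Matrix.diagonal (Sum.elim (fun x => a0 x / G0 x) fun _ => 0) := by
    simp only [K, Matrix.transpose_fromCols, Matrix.fromRows_mul_fromCols, t0, d0,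
      ← Matrix.fromBlocks_diagonal]
    simp
  have k2 : K * Kᵀ = Matrix.diagonal (fun x => a0 x / G0 x) := by
    simp [K, Matrix.transpose_fromCols, Matrix.fromCols_mul_fromRows, t0, d0]
  have l1 : Lᵀ * L = Matrix.diagonal (Sum.elim (fun _ => 0) fun x => a2 x / G2 x) := by
    simp only [L, Matrix.transpose_fromCols, Matrix.fromRows_mul_fromCols, t2, d2,
      ← Matrix.fromBlocks_diagonal]
    simp
  have l2 : L * Lᵀ = Matrix.diagonal (fun x => a2 x / G2 x) := by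
    simp [L, Matrix.transpose_fromCols, Matrix.fromCols_mul_fromRows, t2, d2]
  have ks : K * (gS A B G0 G2)ᵀ = dsq a0 * A := by
    simp [K, gS, Matrix.transpose_fromCols, Matrix.fromCols_mul_fromRows, dsq_transpose,
      ← Matrix.mul_assoc, q0]
  have ls : L * (gS A B G0 G2)ᵀ = dsq a2 * Bᵀ := by
    simp [L, gS, Matrix.transpose_fromCols, Matrix.fromCols_mul_fromRows, dsq_transpose,
      ← Matrix.mul_assoc, q2]
  have ks' : gS A B G0 G2 * Kᵀ = Aᵀ * dsq a0 := by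
    have := congrArg Matrix.transpose ks
    simpa [dsq_transpose] using this
  have ls' : gS A B G0 G2 * Lᵀ = B * dsq a2 := by
    have := congrArg Matrix.transpose ls
    simpa [dsq_transpose] using this
  have h := gap_abs h1 h3 (K := K) (L := L) hκ
    (by rw [k1]; exact psd_smul_one_sub_diag (by rintro (x | x); exacts [(r0 x).2.1, hκ]))
    (by rw [k2]; exact psd_smul_one_sub_diag fun x => (r0 x).2.1)
    (by rw [l1]; exact psd_smul_one_sub_diag (by rintro (x | x); exacts [hκ, (r2 x).2.1]))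
    (by rw [l2]; exact psd_smul_one_sub_diag fun x => (r2 x).2.1) (h4 ▸ hJ) T
  have e1 : K * Δ * Lᵀ = dsq a0 * A * Matrix.diagonal (fun x => (gp x - gm x) / 2) * B * dsq a2 := by
    rw [hΔ, ← Matrix.mul_assoc, ← Matrix.mul_assoc, ks, Matrix.mul_assoc _ (gS _ _ _ _), ls',
      ← Matrix.mul_assoc]
  have e2 : K * W * Kᵀ = (dsq a0 * A * dsq (fun x => (gp x + gm x) / 2)) *
      (dsq a0 * A * dsq (fun x => (gp x + gm x) / 2))ᵀ := by
    rw [hW, ← Matrix.mul_assoc, ← Matrix.mul_assoc, ks, Matrix.mul_assoc _ (gS _ _ _ _), ks',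
      ← dsq_mul_self hs]
    simp only [Matrix.transpose_mul, dsq_transpose, Matrix.mul_assoc]
  have e3 : L * W * Lᵀ = (dsq (fun x => (gp x + gm x) / 2) * B * dsq a2)ᵀ *
      (dsq (fun x => (gp x + gm x) / 2) * B * dsq a2) := by
    rw [hW, ← Matrix.mul_assoc, ← Matrix.mul_assoc, ls, Matrix.mul_assoc _ (gS _ _ _ _), ls',
      ← dsq_mul_self hs]
    simp only [Matrix.transpose_mul, dsq_transpose, Matrix.mul_assoc]
  rwa [e1, e2, e3, ← h4] at h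

theorem trace_hs {a b : n → ℝ} (ha : ∀ x, 0 ≤ a x) (hb : ∀ x, 0 ≤ b x) (M : Matrix n n ℝ) :
    ((dsq a * M * dsq b)ᵀ * (dsq a * M * dsq b)).trace = ∑ x, ∑ y, a x * b y * M x y ^ 2 := by
  rw [Finset.sum_comm]
  simp only [Matrix.trace, Matrix.diag]
  refine Finset.sum_congr rfl fun y _ => ?_
  rw [Matrix.mul_apply]
  refine Finset.sum_congr rfl fun x _ => ?_
  simp only [Matrix.transpose_apply, dsq, Matrix.mul_diagonal, Matrix.diagonal_mul]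
  have h1 := Real.mul_self_sqrt (ha x)
  have h2 := Real.mul_self_sqrt (hb y)
  calc _ = (√(a x) * √(a x)) * (√(b y) * √(b y)) * M x y ^ 2 := by ring
    _ = _ := by rw [h1, h2]

/-- the junction bound in Hilbert–Schmidt form (used for square functions) -/
theorem vJ_gap_hs (A B : Matrix n n ℝ) {G0 gp gm G2 a0 a2 : n → ℝ} {κ : ℝ} (hκ : 0 ≤ κ)
    (h0 : ∀ x, 0 ≤ G0 x) (hp : ∀ x, 0 ≤ gp x) (hm : ∀ x, 0 ≤ gm x) (h2 : ∀ x, 0 ≤ G2 x)
    (ha0 : ∀ x, 0 ≤ a0 x ∧ a0 x ≤ κ * G0 x) (ha2 : ∀ x, 0 ≤ a2 x ∧ a2 x ≤ κ * G2 x)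
    (c : Matrix n n ℝ) :
    (∑ x0, ∑ x2, a0 x0 * a2 x2 * c x2 x0 * ∑ x1, (gp x1 - gm x1) / 2 * (A x0 x1 * B x1 x2)) ^ 2 ≤
      2 * κ * Real.sqrt κ * vJ A B G0 gp gm G2 *
        ((Real.sqrt (∑ x, ∑ y, a0 x * ((gp y + gm y) / 2) * A x y ^ 2) +
          Real.sqrt (∑ x, ∑ y, (gp x + gm x) / 2 * a2 y * B x y ^ 2)) *
            ∑ x0, ∑ x2, a0 x0 * a2 x2 * c x2 x0 ^ 2) := by
  have hJ := vJ_nonneg A B h0 hp hm h2
  have hs : ∀ x, 0 ≤ (gp x + gm x) / 2 := fun x => by linarith [hp x, hm x]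
  have h := vJ_gap A B hκ h0 hp hm h2 ha0 ha2 (dsq a2 * c * dsq a0)
  have e1 : (dsq a2 * c * dsq a0 *
      (dsq a0 * A * Matrix.diagonal (fun x => (gp x - gm x) / 2) * B * dsq a2)).trace =
      ∑ x0, ∑ x2, a0 x0 * a2 x2 * c x2 x0 * ∑ x1, (gp x1 - gm x1) / 2 * (A x0 x1 * B x1 x2) := by
    have : dsq a2 * c * dsq a0 *
        (dsq a0 * A * Matrix.diagonal (fun x => (gp x - gm x) / 2) * B * dsq a2) =
        dsq a2 * (c * (dsq a0 * dsq a0) *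
          (A * Matrix.diagonal (fun x => (gp x - gm x) / 2) * B)) * dsq a2 := by
      simp only [Matrix.mul_assoc]
    rw [this, Matrix.trace_mul_cycle, dsq_mul_self fun x => (ha0 x).1,
      dsq_mul_self fun x => (ha2 x).1, Finset.sum_comm]
    simp only [Matrix.trace, Matrix.diag, Matrix.diagonal_mul]
    refine Finset.sum_congr rfl fun x2 _ => ?_
    rw [Matrix.mul_apply, Finset.mul_sum]
    refine Finset.sum_congr rfl fun x0 _ => ?_
    rw [Matrix.mul_diagonal, Matrix.mul_apply]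
    simp only [Matrix.mul_diagonal, Finset.mul_sum]
    refine Finset.sum_congr rfl fun x1 _ => ?_
    ring
  have e2 : ((dsq a2 * c * dsq a0)ᵀ * (dsq a2 * c * dsq a0)).trace =
      ∑ x0, ∑ x2, a0 x0 * a2 x2 * c x2 x0 ^ 2 := by
    rw [trace_hs (fun x => (ha2 x).1) (fun x => (ha0 x).1), Finset.sum_comm]
    exact Finset.sum_congr rfl fun _ _ => Finset.sum_congr rfl fun _ _ => by ring
  have e3 := trace_hs (fun x => (ha0 x).1) hs A
  have e4 := trace_hs hs (fun x => (ha2 x).1) B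
  set T := dsq a2 * c * dsq a0
  set A' := dsq a0 * A * dsq (fun x => (gp x + gm x) / 2)
  set B' := dsq (fun x => (gp x + gm x) / 2) * B * dsq a2
  have pA : (A' * A'ᵀ).PosSemidef := by
    simpa [Matrix.conjTranspose_eq_transpose_of_trivial] using posSemidef_self_mul_conjTranspose A'
  have pB : (B'ᵀ * B').PosSemidef := by
    simpa [Matrix.conjTranspose_eq_transpose_of_trivial] using posSemidef_conjTranspose_mul_self B'
  have m1 := trace_conj_mono (msqrt_le_trace pA) Tᵀ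
  have m2 := trace_conj_mono (msqrt_le_trace pB) T
  rw [Matrix.transpose_transpose, Matrix.mul_smul, Matrix.smul_mul, Matrix.mul_one,
    Matrix.trace_smul, Matrix.trace_mul_comm A', Matrix.trace_mul_comm T Tᵀ, e2, e3,
    smul_eq_mul] at m1
  rw [Matrix.mul_smul, Matrix.smul_mul, Matrix.mul_one, Matrix.trace_smul, e2, e4,
    smul_eq_mul] at m2
  rw [e1] at h
  refine h.trans (mul_le_mul_of_nonneg_left ?_ (by positivity))
  linarith

theorem tform_eq_trace (d0 d1 d2 : n → ℝ) (A B C : Matrix n n ℝ) :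
    tform d0 d1 d2 A B C =
      (Matrix.diagonal d0 * A * Matrix.diagonal d1 * B * Matrix.diagonal d2 * C).trace := by
  simp only [tform, Matrix.trace, Matrix.diag]
  refine Finset.sum_congr rfl fun x0 _ => ?_
  rw [Finset.sum_comm, Matrix.mul_apply]
  refine Finset.sum_congr rfl fun x2 _ => ?_
  rw [Matrix.mul_diagonal, Matrix.mul_apply]
  simp only [Matrix.mul_diagonal, Matrix.diagonal_mul, Finset.sum_mul]
  refine Finset.sum_congr rfl fun x1 _ => ?_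
  ring

theorem exists_ratio {p m : n → ℝ} (hp : ∀ x, 0 ≤ p x) (hm : ∀ x, 0 ≤ m x) :
    ∃ h : n → ℝ, (∀ x, |h x| ≤ 1) ∧
      dsq (fun x => (p x + m x) / 2) * Matrix.diagonal h * dsq (fun x => (p x + m x) / 2) =
        Matrix.diagonal (fun x => (p x - m x) / 2) := by
  refine ⟨fun x => (p x - m x) / (p x + m x), fun x => ?_, ?_⟩
  · have := hp x
    have := hm x
    rw [abs_div, abs_of_nonneg (a := p x + m x) (by linarith)]
    exact div_le_one_of_le₀ (abs_le.2 ⟨by linarith, by linarith⟩) (by linarith)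
  · simp only [dsq, Matrix.diagonal_mul_diagonal]
    congr 1
    ext x
    have h1 := hp x
    have h2 := hm x
    have h3 := Real.mul_self_sqrt (x := (p x + m x) / 2) (by linarith)
    rw [mul_right_comm, h3]
    rcases (add_nonneg h1 h2).eq_or_lt with h | h
    · have e1 : p x = 0 := by linarith
      have e2 : m x = 0 := by linarith
      simp [e1, e2]
    · field_simp

/-- the local trilinear form is controlled by the three gaps -/
theorem tform_le (A B C : Matrix n n ℝ) {G0 G1 G2 p0 m0 p1 m1 p2 m2 : n → ℝ} {κ : ℝ}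
    (hκ : 0 ≤ κ) (hG0 : ∀ x, 0 ≤ G0 x) (hG1 : ∀ x, 0 ≤ G1 x) (hG2 : ∀ x, 0 ≤ G2 x)
    (hp0 : ∀ x, 0 ≤ p0 x) (hm0 : ∀ x, 0 ≤ m0 x) (hp1 : ∀ x, 0 ≤ p1 x) (hm1 : ∀ x, 0 ≤ m1 x)
    (hp2 : ∀ x, 0 ≤ p2 x) (hm2 : ∀ x, 0 ≤ m2 x)
    (k0 : ∀ x, (p0 x + m0 x) / 2 ≤ κ * G0 x) (k1 : ∀ x, (p1 x + m1 x) / 2 ≤ κ * G1 x)
    (k2 : ∀ x, (p2 x + m2 x) / 2 ≤ κ * G2 x) :
    |tform (fun x => (p0 x - m0 x) / 2) (fun x => (p1 x - m1 x) / 2) (fun x => (p2 x - m2 x) / 2)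
        A B C| ≤
      2 * κ * Real.sqrt κ *
        (vJ A B G0 p1 m1 G2 + vJ B C G1 p2 m2 G0 + vJ C A G2 p0 m0 G1) := by
  have g0 : ∀ x, 0 ≤ (p0 x + m0 x) / 2 := fun x => by linarith [hp0 x, hm0 x]
  have g1 : ∀ x, 0 ≤ (p1 x + m1 x) / 2 := fun x => by linarith [hp1 x, hm1 x]
  have g2 : ∀ x, 0 ≤ (p2 x + m2 x) / 2 := fun x => by linarith [hp2 x, hm2 x]
  obtain ⟨h0, b0, s0⟩ := exists_ratio hp0 hm0
  obtain ⟨h1, b1, s1⟩ := exists_ratio hp1 hm1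
  obtain ⟨h2, b2, s2⟩ := exists_ratio hp2 hm2
  have J1 := vJ_gap A B hκ hG0 hp1 hm1 hG2 (fun x => ⟨g0 x, k0 x⟩) (fun x => ⟨g2 x, k2 x⟩)
  have J2 := vJ_gap B C hκ hG1 hp2 hm2 hG0 (fun x => ⟨g1 x, k1 x⟩) (fun x => ⟨g0 x, k0 x⟩)
  have J0 := vJ_gap C A hκ hG2 hp0 hm0 hG1 (fun x => ⟨g2 x, k2 x⟩) (fun x => ⟨g1 x, k1 x⟩)
  have n1 := vJ_nonneg A B hG0 hp1 hm1 hG2
  have n2 := vJ_nonneg B C hG1 hp2 hm2 hG0
  have n0 := vJ_nonneg C A hG2 hp0 hm0 hG1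
  rw [tform_eq_trace, ← s0, ← s1, ← s2] at *
  set r0 := dsq (fun x => (p0 x + m0 x) / 2)
  set r1 := dsq (fun x => (p1 x + m1 x) / 2)
  set r2 := dsq (fun x => (p2 x + m2 x) / 2)
  have h := trace_tri_le (r0 * A * r1) (r1 * B * r2) (r2 * C * r0) h0 h1 h2 b0 b1 b2
    (2 * κ * Real.sqrt κ * vJ C A G2 p0 m0 G1) (2 * κ * Real.sqrt κ * vJ A B G0 p1 m1 G2)
    (2 * κ * Real.sqrt κ * vJ B C G1 p2 m2 G0) (by positivity) (by positivity) (by positivity)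
    (fun T => by simpa only [Matrix.mul_assoc] using J1 T)
    (fun T => by simpa only [Matrix.mul_assoc] using J2 T)
    (fun T => by simpa only [Matrix.mul_assoc] using J0 T)
  have e : (r0 * Matrix.diagonal h0 * r0 * A * (r1 * Matrix.diagonal h1 * r1) * B *
      (r2 * Matrix.diagonal h2 * r2) * C).trace =
      (Matrix.diagonal h0 * (r0 * A * r1) * Matrix.diagonal h1 * (r1 * B * r2) *
        Matrix.diagonal h2 * (r2 * C * r0)).trace := by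
    simp only [Matrix.mul_assoc]
    rw [Matrix.trace_mul_comm]
    simp only [Matrix.mul_assoc]
  rw [e]
  linarith

end Crest.Agent.R72
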