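import Crest.Agent.R72.Weights

/-!
The maximal inequality on `ZMod N` with a constant independent of `N`.  PLAN:
* the supremum in `maxZ` is over a bounded family (each average is `≤ ∑ |φ|`, as `0 ≤ uz ≤ 1`), so `le_ciSup`/`ciSup_le` apply.
* by `sum_uz` the average over `x + Ico (-2^j) (2^j)` is the mean of a forward average `(1/m) ∑_{t<m} φ (x + t)` and a backward average
  `(1/m) ∑_{t<m} φ (x - 1 - t)`, `m = 2^j`; so `maxZ φ x ≤ (M₊ φ x + M₋ φ (x-1))/2` for the one-sided maximal functions along a step `e = ±1`.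
* Hopf/Garsia for the bijection `x ↦ x + e`: `f = φ - λ`, `S_m x = ∑_{t<m} f (x + t e)`, `T_n x = max_{0 ≤ m ≤ n} S_m x ≥ 0`;
  on `{T_n > 0}`, `f x ≥ T_n x - T_n (x + e)`; summing, `∑_{T_n > 0} f ≥ 0`.  So `λ #{M > λ} ≤ ∑_{M > λ} φ`
  (work with the truncated maximal function `max_{1 ≤ m ≤ n}`, or choose `n` large, the group is finite).
* layer cake: `M^{3/2} = (3/2) ∫_0^M λ^{1/2}`, so `∑ M^{3/2} ≤ (3/2) ∑_x φ x ∫_0^{M x} λ^{-1/2} = 3 ∑ φ M^{1/2} ≤ 3 ‖φ‖_{3/2} (∑ M^{3/2})^{1/3}`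
  (or Young: `3 φ √M ≤ M^{3/2}/2 + c φ^{3/2}`).  A dyadic version of the layer cake is fine too: any constant will do.
-/

set_option autoImplicit false

namespace Crest.Agent.R72

open Matrix Finset MeasureTheory
open scoped ENNReal

variable {N : ℕ} [NeZero N]

theorem le_maxZ (φ : ZMod N → ℝ) (x : ZMod N) (j : ℕ) :
    ∑ y, uz N j (y - x) * φ y ≤ maxZ φ x := by
  refine le_ciSup (f := fun j : ℕ => ∑ y, uz N j (y - x) * φ y) ⟨∑ y, |φ y|, ?_⟩ j
  rintro _ ⟨i, rfl⟩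
  refine sum_le_sum fun y _ => ?_
  have h1 : uz N i (y - x) ≤ 1 := by
    rw [← uz_sum (N := N) i]
    exact single_le_sum (fun z _ => uz_nonneg i z) (mem_univ _)
  exact (mul_le_mul_of_nonneg_left (le_abs_self _) (uz_nonneg i _)).trans
    (mul_le_of_le_one_left (abs_nonneg _) h1)

theorem maxZ_nonneg {φ : ZMod N → ℝ} (h : ∀ x, 0 ≤ φ x) (x : ZMod N) : 0 ≤ maxZ φ x := by
  exact le_trans (sum_nonneg fun y _ => mul_nonneg (uz_nonneg 0 _) (h y)) (le_maxZ φ x 0)

theorem maxZ_mono {φ ψ : ZMod N → ℝ} (h : ∀ x, φ x ≤ ψ x) (x : ZMod N) : maxZ φ x ≤ maxZ ψ x := by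
  exact ciSup_le fun j =>
    (sum_le_sum fun y _ => mul_le_mul_of_nonneg_left (h y) (uz_nonneg j _)).trans (le_maxZ ψ x j)

/-- the running maximum of the partial sums along the step `e` -/
noncomputable def mxU (e : ZMod N) (f : ZMod N → ℝ) : ℕ → ZMod N → ℝ
  | 0 => fun _ => 0
  | n + 1 => fun x => max 0 (f x + mxU e f n (x + e))

omit [NeZero N] in
theorem mxU_nonneg (e : ZMod N) (f : ZMod N → ℝ) (n : ℕ) (x : ZMod N) : 0 ≤ mxU e f n x := by
  cases n with
  | zero => exact le_rfl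
  | succ n => exact le_max_left _ _

omit [NeZero N] in
theorem mxU_mono (e : ZMod N) (f : ZMod N → ℝ) (n : ℕ) (x : ZMod N) :
    mxU e f n x ≤ mxU e f (n + 1) x := by
  induction n generalizing x with
  | zero => exact mxU_nonneg _ _ _ _
  | succ n ih => exact max_le_max le_rfl (add_le_add le_rfl (ih _))

omit [NeZero N] in
theorem le_mxU (e : ZMod N) (f : ZMod N → ℝ) (n : ℕ) :
    ∀ m, m ≤ n → ∀ x, ∑ t ∈ range m, f (x + t * e) ≤ mxU e f n x := by
  induction n with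
  | zero =>
    intro m hm x
    rw [Nat.le_zero.1 hm]
    exact le_rfl
  | succ n ih =>
    intro m hm x
    cases m with
    | zero => exact mxU_nonneg _ _ _ _
    | succ m =>
      refine le_trans ?_ (le_max_right _ _)
      rw [sum_range_succ', add_comm]
      refine add_le_add (by simp) (le_trans (le_of_eq ?_) (ih m (by omega) (x + e)))
      refine sum_congr rfl fun t _ => ?_
      congr 1
      push_cast
      ring

/-- Hopf's maximal inequality, weak form -/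
theorem mx_weak (e : ZMod N) {φ : ZMod N → ℝ} (hφ : ∀ x, 0 ≤ φ x) {l : ℝ} (hl : 0 ≤ l)
    (E : Finset (ZMod N)) (hE : ∀ x ∈ E, ∃ m : ℕ, l * m < ∑ t ∈ range m, φ (x + t * e)) :
    l * E.card ≤ ∑ x, φ x := by
  classical
  choose! m hm using hE
  obtain ⟨n, hn⟩ : ∃ n, ∀ x ∈ E, m x ≤ n := ⟨E.sup m, fun x hx => le_sup hx⟩
  set U := mxU e (fun x => φ x - l) with hU
  set P := univ.filter fun x => 0 < U (n + 1) x with hP
  have hEP : E ⊆ P := fun x hx => by
    refine mem_filter.2 ⟨mem_univ _, lt_of_lt_of_le ?_ (le_mxU e _ (n + 1) (m x) ((hn x hx).trans n.le_succ) x)⟩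
    rw [sum_sub_distrib, sum_const, card_range, nsmul_eq_mul, mul_comm]
    exact sub_pos.2 (hm x hx)
  have h1 : ∑ x ∈ P, (φ x - l) = ∑ x ∈ P, U (n + 1) x - ∑ x ∈ P, U n (x + e) := by
    rw [← sum_sub_distrib]
    refine sum_congr rfl fun x hx => ?_
    have h : 0 < max 0 (φ x - l + U n (x + e)) := (mem_filter.1 hx).2
    have h' : U (n + 1) x = max 0 (φ x - l + U n (x + e)) := rfl
    rw [h', max_eq_right ((lt_max_iff.1 h).resolve_left (lt_irrefl _)).le]
    ring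
  have h2 : ∑ x ∈ P, U (n + 1) x = ∑ x, U (n + 1) x := by
    refine sum_subset (subset_univ _) fun x _ hx => ?_
    exact le_antisymm (not_lt.1 fun h => hx (mem_filter.2 ⟨mem_univ _, h⟩)) (mxU_nonneg _ _ _ _)
  have h3 : ∑ x ∈ P, U n (x + e) ≤ ∑ x, U (n + 1) x := by
    refine (sum_le_sum_of_subset_of_nonneg (subset_univ _) fun x _ _ => mxU_nonneg _ _ _ _).trans ?_
    rw [show ∑ x, U n (x + e) = ∑ x, U n x from Equiv.sum_comp (Equiv.addRight e) (U n)]
    exact sum_le_sum fun x _ => mxU_mono _ _ _ _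
  have h4 : ∑ x ∈ P, φ x ≤ ∑ x, φ x :=
    sum_le_sum_of_subset_of_nonneg (subset_univ _) fun x _ _ => hφ x
  have h5 : l * E.card ≤ l * P.card :=
    mul_le_mul_of_nonneg_left (by exact_mod_cast card_le_card hEP) hl
  rw [sum_sub_distrib, sum_const, nsmul_eq_mul, h2] at h1
  linarith

theorem mx_Ico (F : ℤ → ℝ) (m : ℕ) :
    ∑ t ∈ Finset.Ico (-(m : ℤ)) m, F t = ∑ t ∈ range m, (F t + F (-1 - t)) := by
  induction m with
  | zero => simp
  | succ m ih =>
    have e : Finset.Ico (-((m + 1 : ℕ) : ℤ)) ((m + 1 : ℕ) : ℤ) =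
        insert (-1 - (m : ℤ)) (insert (m : ℤ) (Finset.Ico (-(m : ℤ)) m)) := by
      ext t
      simp only [mem_Ico, mem_insert]
      omega
    rw [e, sum_insert (by simp only [mem_Ico, mem_insert]; omega), sum_insert (by simp), ih,
      sum_range_succ]
    ring

/-- weak bound with truncation -/
theorem maxZ_weak {φ : ZMod N → ℝ} (hφ : ∀ x, 0 ≤ φ x) {l : ℝ} (hl : 0 ≤ l) (E : Finset (ZMod N))
    (hE : ∀ x ∈ E, l < maxZ φ x) : l * E.card ≤ 4 * ∑ x, if l / 2 < φ x then φ x else 0 := by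
  classical
  obtain ⟨ψ, hψ⟩ : ∃ ψ : ZMod N → ℝ, ∀ x, ψ x = if l / 2 < φ x then φ x else 0 := ⟨_, fun _ => rfl⟩
  simp only [← hψ]
  have hψ0 : ∀ x, 0 ≤ ψ x := fun x => by
    rw [hψ]
    split_ifs
    exacts [hφ x, le_rfl]
  have hφψ : ∀ x, φ x ≤ ψ x + l / 2 := fun x => by
    rw [hψ]
    split_ifs with h
    · linarith
    · linarith [not_lt.1 h]
  have key : ∀ x ∈ E, (∃ m : ℕ, l / 2 * m < ∑ t ∈ range m, ψ (x + t * 1)) ∨
      ∃ m : ℕ, l / 2 * m < ∑ t ∈ range m, ψ (x + t * (-1) - 1) := by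
    intro x hx
    obtain ⟨j, hj⟩ := exists_lt_of_lt_ciSup (hE x hx)
    rw [sum_uz, unif, ← mul_sum, show (2 : ℤ) ^ j = ((2 ^ j : ℕ) : ℤ) by push_cast; rfl, mx_Ico,
      one_div, ← div_eq_inv_mul, lt_div_iff₀ (by positivity)] at hj
    by_contra h
    rw [not_or, not_exists, not_exists] at h
    have h1 := not_lt.1 (h.1 (2 ^ j))
    have h2 := not_lt.1 (h.2 (2 ^ j))
    have h3 : ∑ t ∈ range (2 ^ j), (φ (x + ((0 + (t : ℤ) : ℤ) : ZMod N)) +
        φ (x + ((0 + (-1 - (t : ℤ)) : ℤ) : ZMod N))) ≤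
        ∑ t ∈ range (2 ^ j), (ψ (x + t * 1) + ψ (x + t * (-1) - 1) + l) := by
      refine sum_le_sum fun t _ => ?_
      have e1 : x + ((0 + (t : ℤ) : ℤ) : ZMod N) = x + t * 1 := by
        push_cast
        ring
      have e2 : x + ((0 + (-1 - (t : ℤ)) : ℤ) : ZMod N) = x + t * (-1) - 1 := by
        push_cast
        ring
      rw [e1, e2]
      linarith [hφψ (x + t * 1), hφψ (x + t * (-1) - 1)]
    have h4 := hj.trans_le h3
    rw [sum_add_distrib, sum_add_distrib, sum_const, card_range, nsmul_eq_mul, pow_succ] at h4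
    push_cast at h1 h2 h4
    linarith
  have h1 := mx_weak 1 hψ0 (div_nonneg hl zero_le_two)
    (E.filter fun x => ∃ m : ℕ, l / 2 * m < ∑ t ∈ range m, ψ (x + (t : ZMod N) * 1))
    fun x hx => (mem_filter.1 hx).2
  have h2 := mx_weak (-1) (φ := fun x => ψ (x - 1)) (fun x => hψ0 _) (div_nonneg hl zero_le_two)
    (E.filter fun x => ¬ ∃ m : ℕ, l / 2 * m < ∑ t ∈ range m, ψ (x + (t : ZMod N) * 1))
    fun x hx => (key x (mem_filter.1 hx).1).resolve_left (mem_filter.1 hx).2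
  rw [show ∑ x, ψ (x - 1) = ∑ x, ψ x from Equiv.sum_comp (Equiv.subRight 1) ψ] at h2
  have h3 := card_filter_add_card_filter_not (s := E)
    fun x => ∃ m : ℕ, l / 2 * m < ∑ t ∈ range m, ψ (x + (t : ZMod N) * 1)
  rw [← h3]
  push_cast
  linarith

/-- layer cake on a finite set -/
theorem mx_layer {X : Type*} [Fintype X] (a b φ : X → ℝ) (ha : ∀ x, 0 ≤ a x) (hb : ∀ x, 0 ≤ b x)
    (h : ∀ s, 0 ≤ s → ∑ x, (if s ≤ a x then s ^ 2 else 0) ≤ ∑ x, if s ≤ b x then φ x else 0) :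
    ∑ x, a x ^ 3 / 3 ≤ ∑ x, φ x * b x := by
  obtain ⟨A, hA0, hA⟩ : ∃ A : ℝ, 0 ≤ A ∧ ∀ x, a x ≤ A ∧ b x ≤ A := by
    refine ⟨∑ x, (a x + b x), sum_nonneg fun x _ => add_nonneg (ha x) (hb x), fun x => ?_⟩
    have := single_le_sum (f := fun x => a x + b x) (fun x _ => add_nonneg (ha x) (hb x)) (mem_univ x)
    constructor <;> linarith [ha x, hb x]
  have hi : ∀ (c : ℝ) (f : ℝ → ℝ), Continuous f →
      IntervalIntegrable (Set.indicator {s | s ≤ c} f) volume 0 A := fun c f hf =>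
    ⟨(hf.intervalIntegrable 0 A).1.indicator measurableSet_Iic,
      (hf.intervalIntegrable 0 A).2.indicator measurableSet_Iic⟩
  have e1 : ∑ x, a x ^ 3 / 3 = ∫ s in (0 : ℝ)..A, ∑ x, Set.indicator {s | s ≤ a x} (fun s => s ^ 2) s := by
    rw [intervalIntegral.integral_finsetSum fun x _ => hi _ _ (by fun_prop)]
    refine sum_congr rfl fun x _ => ?_
    rw [intervalIntegral.integral_indicator ⟨ha x, (hA x).1⟩, integral_pow]
    norm_num
  have e2 : ∑ x, φ x * b x = ∫ s in (0 : ℝ)..A, ∑ x, Set.indicator {s | s ≤ b x} (fun _ => φ x) s := by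
    rw [intervalIntegral.integral_finsetSum fun x _ => hi _ _ continuous_const]
    refine sum_congr rfl fun x _ => ?_
    rw [intervalIntegral.integral_indicator ⟨hb x, (hA x).2⟩]
    simp [mul_comm]
  rw [e1, e2]
  refine intervalIntegral.integral_mono_on hA0 ?_ ?_ fun s hs => ?_
  · have := IntervalIntegrable.sum (μ := volume) (a := 0) (b := A) univ
      (f := fun x => Set.indicator {s | s ≤ a x} fun s : ℝ => s ^ 2) fun x _ => hi _ _ (by fun_prop)
    simpa only [Finset.sum_fn] using this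
  · have := IntervalIntegrable.sum (μ := volume) (a := 0) (b := A) univ
      (f := fun x => Set.indicator {s | s ≤ b x} fun _ : ℝ => φ x) fun x _ => hi _ _ continuous_const
    simpa only [Finset.sum_fn] using this
  · simpa only [Set.indicator_apply, Set.mem_ofPred_eq] using h s hs.1

theorem mx_rpow {u : ℝ} (hu : 0 ≤ u) : u ^ (3 / 2 : ℝ) = Real.sqrt u ^ 3 := by
  rw [Real.sqrt_eq_rpow, ← Real.rpow_natCast, ← Real.rpow_mul hu]
  norm_num

omit [NeZero N] in
theorem maxZ_bound : ∃ C : ℝ, 0 ≤ C ∧ ∀ (N : ℕ) [NeZero N] (φ : ZMod N → ℝ), (∀ x, 0 ≤ φ x) →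
    ∑ x, maxZ φ x ^ (3 / 2 : ℝ) ≤ C * ∑ x, φ x ^ (3 / 2 : ℝ) := by
  refine ⟨48, by norm_num, fun N _ φ hφ => ?_⟩
  have h := mx_layer (fun x => Real.sqrt (maxZ φ x)) (fun x => 2 * Real.sqrt (φ x)) (fun x => 8 * φ x)
    (fun _ => Real.sqrt_nonneg _) (fun _ => by positivity) fun s hs => by
      rcases hs.eq_or_lt with rfl | hs0
      · simp only [ne_eq, OfNat.ofNat_ne_zero, not_false_eq_true, zero_pow, ite_self, sum_const_zero]
        refine sum_nonneg fun x _ => ?_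
        split_ifs
        exacts [mul_nonneg (by norm_num) (hφ x), le_rfl]
      have h1 := maxZ_weak hφ (l := s ^ 2 / 2) (by positivity)
        (univ.filter fun x => s ≤ Real.sqrt (maxZ φ x)) fun x hx => by
          have h2 := (Real.le_sqrt' hs0).1 (mem_filter.1 hx).2
          have h3 : 0 < s ^ 2 := by positivity
          linarith
      rw [← sum_filter, sum_const, nsmul_eq_mul]
      have h4 : 8 * ∑ x, (if s ^ 2 / 2 / 2 < φ x then φ x else 0) ≤
          ∑ x, if s ≤ 2 * Real.sqrt (φ x) then 8 * φ x else 0 := by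
        rw [mul_sum]
        refine sum_le_sum fun x _ => ?_
        split_ifs with h5 h6 h6
        · exact le_rfl
        · refine absurd ?_ h6
          have : s / 2 ≤ Real.sqrt (φ x) := Real.le_sqrt_of_sq_le (by linarith [div_pow s 2 2])
          linarith
        · linarith [hφ x]
        · simp
      linarith
  have e1 : ∑ x, maxZ φ x ^ (3 / 2 : ℝ) = 3 * ∑ x, Real.sqrt (maxZ φ x) ^ 3 / 3 := by
    rw [mul_sum]
    refine sum_congr rfl fun x _ => ?_
    rw [mx_rpow (maxZ_nonneg hφ x)]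
    ring
  have e2 : 48 * ∑ x, φ x ^ (3 / 2 : ℝ) = 3 * ∑ x, 8 * φ x * (2 * Real.sqrt (φ x)) := by
    rw [mul_sum, mul_sum]
    refine sum_congr rfl fun x _ => ?_
    rw [mx_rpow (hφ x), pow_succ, Real.sq_sqrt (hφ x)]
    ring
  rw [e1, e2]
  linarith

end Crest.Agent.R72
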