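import Crest.Agent.R72.Chain
import Crest.Agent.R72.Maximal

/-!
Change of one matrix in the potential.  PLAN for `potU_jump_right` (`G = GG N 0 l`, `g = uz N (l+1)`, `p2 = -p0 - p1`):
sum `vF_jump` over the plane.  For fixed `x, y` the weights `g (x - p1) * G (y - p2)` sum to one over `(p0, p1)`.  Where they do not vanish,
`x - p1 = s1`, `y - p2 = s2` with `|s1| ≤ 2^(l+1)`, `|s2| ≤ 2^l + 2^(l+2)` (`uz_supp`, `GG_supp`), and by `conv_le`, `uz_shift`:
`G (z - p0) ≤ 2 uz (l+3) (z - p0) ≤ 4 uz (l+4) (z + x + y)` (as `z + x + y = z - p0 + (s1 + s2)`, `|s1 + s2| ≤ 2^(l+3)`),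
`G (z - p2) ≤ 4 uz (l+4) (z - y)`, `g (z - p1) ≤ 2 uz (l+2) (z - x)`; then `le_maxZ` and `B² ≤ H²`.
The term `planeI A 0` does not change; `planeI 0 B` is the case `A = 0` (`maxZ 0 ≤ maxZ (A²)` or nonnegativity).  `K = 3 * 15 * 3` is enough.
`potU_jump_left`: `potU_swap` and the right version for the transposes.
-/

set_option autoImplicit false

namespace Crest.Agent.R72

open Matrix Finset MeasureTheory
open scoped ENNReal

section aux
variable {N : ℕ} [NeZero N]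

theorem jump_G_le (l : ℕ) {s : ℤ} (hs : |s| ≤ 2 ^ (l + 3)) (x : ZMod N) :
    GG N 0 l x ≤ 4 * uz N (l + 4) (x + (s : ZMod N)) := by
  have h1 : GG N 0 l x ≤ 2 * uz N (l + 3) x := conv_le (i := l) (j := l + 0 + 2) (by omega) x
  have h2 : uz N (l + 3) x ≤ 2 * uz N (l + 4) (x + (s : ZMod N)) := uz_shift (l + 3) hs x
  linarith

theorem jump_sum_le {w φ ψ : ZMod N → ℝ} {c : ℝ} (hc : 0 ≤ c) {j : ℕ} {x : ZMod N}
    (hw0 : ∀ z, 0 ≤ w z) (hw : ∀ z, w z ≤ c * uz N j (z - x)) (hφ : ∀ z, φ z ≤ ψ z)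
    (hψ : ∀ z, 0 ≤ ψ z) : ∑ z, w z * φ z ≤ c * maxZ ψ x := by
  refine le_trans ?_ (mul_le_mul_of_nonneg_left (le_maxZ ψ x j) hc)
  rw [Finset.mul_sum]
  refine Finset.sum_le_sum fun z _ => ?_
  rw [← mul_assoc]
  exact (mul_le_mul_of_nonneg_left (hφ z) (hw0 z)).trans (mul_le_mul_of_nonneg_right (hw z) (hψ z))

theorem jump_weights (l : ℕ) (x y : ZMod N) :
    ∑ p : ZMod N × ZMod N, uz N (l + 1) (x - p.2) * GG N 0 l (y - (0 - p.1 - p.2)) = 1 := by
  rw [Fintype.sum_prod_type_right]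
  have h1 : ∀ b : ZMod N, ∑ a : ZMod N, GG N 0 l (y - (0 - a - b)) = 1 := by
    intro b
    rw [← GG_sum (N := N) 0 l]
    exact Fintype.sum_equiv (Equiv.addRight (y + b)) _ _ fun a => by
      congr 1; simp only [Equiv.coe_addRight]; ring
  simp only [← Finset.mul_sum, h1, mul_one]
  rw [← uz_sum (N := N) (l + 1)]
  exact Fintype.sum_equiv (Equiv.subLeft x) _ _ fun a => by simp

theorem planeI_jump (l : ℕ) (A A₀ B B' H : Matrix (ZMod N) (ZMod N) ℝ)
    (hA : ∀ x y, A₀ x y ^ 2 ≤ A x y ^ 2) (hH : ∀ x y, |B x y| ≤ H x y) :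
    planeI A₀ B (GG N 0 l) (uz N (l + 1)) 0 ≤ planeI A₀ B' (GG N 0 l) (uz N (l + 1)) 0 +
      9 * ∑ x, ∑ y, |B' x y - B x y| *
        Real.sqrt (maxZ (fun z => A z x ^ 2) (-x - y) + maxZ (fun z => H x z ^ 2) y) *
          Real.sqrt (maxZ (fun z => H z y ^ 2) x) := by
  have hB : ∀ x y, B x y ^ 2 ≤ H x y ^ 2 := fun x y => by
    rw [← sq_abs]; exact pow_le_pow_left₀ (abs_nonneg _) (hH x y) 2
  set Φ : ZMod N → ZMod N → ℝ := fun x y => |B' x y - B x y| *
        Real.sqrt (maxZ (fun z => A z x ^ 2) (-x - y) + maxZ (fun z => H x z ^ 2) y) *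
          Real.sqrt (maxZ (fun z => H z y ^ 2) x) with hΦ
  have key : ∀ p : ZMod N × ZMod N,
      vF A₀ B (sh (GG N 0 l) p.1) (sh (uz N (l + 1)) p.2) (sh (GG N 0 l) (0 - p.1 - p.2)) ≤
      vF A₀ B' (sh (GG N 0 l) p.1) (sh (uz N (l + 1)) p.2) (sh (GG N 0 l) (0 - p.1 - p.2)) +
        9 * ∑ x, ∑ y, uz N (l + 1) (x - p.2) * GG N 0 l (y - (0 - p.1 - p.2)) * Φ x y := by
    intro p
    refine (vF_jump A₀ B B' (G0 := sh (GG N 0 l) p.1) (g := sh (uz N (l + 1)) p.2)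
      (G2 := sh (GG N 0 l) (0 - p.1 - p.2)) (fun x => GG_nonneg 0 l _) (fun x => uz_nonneg _ _)
      (fun x => GG_nonneg 0 l _)).trans (add_le_add le_rfl ?_)
    simp only [Finset.mul_sum]
    refine Finset.sum_le_sum fun x _ => Finset.sum_le_sum fun y _ => ?_
    simp only [sh]
    by_cases h1 : uz N (l + 1) (x - p.2) = 0
    · simp [h1]
    by_cases h2 : GG N 0 l (y - (0 - p.1 - p.2)) = 0
    · simp only [h2, mul_zero, zero_mul, le_refl]
    obtain ⟨s1, hs1, e1⟩ := uz_supp h1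
    obtain ⟨s2, hs2, e2⟩ := GG_supp h2
    have hpow : (0 : ℤ) < 2 ^ l := by positivity
    have p1 : (2 : ℤ) ^ (l + 1) = 2 * 2 ^ l := by ring
    have p2 : (2 : ℤ) ^ (l + 0 + 2) = 4 * 2 ^ l := by ring
    have p3 : (2 : ℤ) ^ (l + 3) = 8 * 2 ^ l := by ring
    have a1 : ∑ z, GG N 0 l (z - p.1) * A₀ z x ^ 2 ≤ 4 * maxZ (fun z => A z x ^ 2) (-x - y) := by
      refine jump_sum_le (j := l + 4) (by norm_num) (fun z => GG_nonneg 0 l _) (fun z => ?_)
        (fun z => hA z x) (fun z => sq_nonneg _)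
      have := jump_G_le (N := N) l (s := s1 + s2)
        ((abs_add_le _ _).trans (by rw [p3]; rw [p1] at hs1; rw [p2] at hs2; linarith)) (z - p.1)
      convert this using 3
      push_cast
      rw [← e1, ← e2]
      ring
    have a2 : ∑ z, GG N 0 l (z - (0 - p.1 - p.2)) * B x z ^ 2 ≤
        4 * maxZ (fun z => H x z ^ 2) y := by
      refine jump_sum_le (j := l + 4) (by norm_num) (fun z => GG_nonneg 0 l _) (fun z => ?_)
        (fun z => hB x z) (fun z => sq_nonneg _)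
      have := jump_G_le (N := N) l (s := -s2)
        (by rw [abs_neg, p3]; rw [p2] at hs2; linarith) (z - (0 - p.1 - p.2))
      convert this using 3
      push_cast
      rw [← e2]
      ring
    have a3 : ∑ z, uz N (l + 1) (z - p.2) * B z y ^ 2 ≤ 2 * maxZ (fun z => H z y ^ 2) x := by
      refine jump_sum_le (j := l + 2) (by norm_num) (fun z => uz_nonneg _ _) (fun z => ?_)
        (fun z => hB z y) (fun z => sq_nonneg _)
      have := uz_shift (N := N) (l + 1) (s := -s1) (by rwa [abs_neg]) (z - p.2)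
      convert this using 3
      push_cast
      rw [← e1]
      ring
    have b1 : Real.sqrt (∑ z, GG N 0 l (z - p.1) * A₀ z x ^ 2 +
        ∑ z, GG N 0 l (z - (0 - p.1 - p.2)) * B x z ^ 2) ≤
        2 * Real.sqrt (maxZ (fun z => A z x ^ 2) (-x - y) + maxZ (fun z => H x z ^ 2) y) := by
      rw [show (2 : ℝ) = Real.sqrt 4 by rw [show (4 : ℝ) = 2 ^ 2 by norm_num]; simp,
        ← Real.sqrt_mul (by norm_num)]
      exact Real.sqrt_le_sqrt (by linarith)
    have b2 : Real.sqrt (∑ z, uz N (l + 1) (z - p.2) * B z y ^ 2) ≤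
        3 / 2 * Real.sqrt (maxZ (fun z => H z y ^ 2) x) := by
      have hm := maxZ_nonneg (φ := fun z => H z y ^ 2) (fun z => sq_nonneg _) x
      rw [show (3 / 2 : ℝ) = Real.sqrt (9 / 4) by
        rw [show (9 / 4 : ℝ) = (3 / 2) ^ 2 by norm_num, Real.sqrt_sq (by norm_num)],
        ← Real.sqrt_mul (by norm_num)]
      exact Real.sqrt_le_sqrt (by linarith)
    have w1 := uz_nonneg (N := N) (l + 1) (x - p.2)
    have w2 := GG_nonneg (N := N) 0 l (y - (0 - p.1 - p.2))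
    have b3 := mul_le_mul b1 b2 (Real.sqrt_nonneg _) (by positivity)
    have b4 := mul_le_mul_of_nonneg_left b3
      (mul_nonneg (mul_nonneg w1 w2) (abs_nonneg (B' x y - B x y)))
    simp only [hΦ]
    linarith
  have h := Finset.sum_le_sum fun p (_ : p ∈ Finset.univ) => key p
  rw [Finset.sum_add_distrib, ← Finset.mul_sum] at h
  refine h.trans (le_of_eq ?_)
  congr 2
  rw [Finset.sum_comm]
  refine Finset.sum_congr rfl fun x _ => ?_
  rw [Finset.sum_comm]
  refine Finset.sum_congr rfl fun y _ => ?_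
  rw [← Finset.sum_mul, jump_weights, one_mul]

end aux

theorem potU_jump_right : ∃ K : ℝ, 0 ≤ K ∧ ∀ (N : ℕ) [NeZero N] (l : ℕ)
    (A B B' H : Matrix (ZMod N) (ZMod N) ℝ), (∀ x y, |B x y| ≤ H x y) →
    potU A B (GG N 0 l) (uz N (l + 1)) ≤ potU A B' (GG N 0 l) (uz N (l + 1)) +
      K * ∑ x, ∑ y, |B' x y - B x y| *
        Real.sqrt (maxZ (fun z => A z x ^ 2) (-x - y) + maxZ (fun z => H x z ^ 2) y) *
          Real.sqrt (maxZ (fun z => H z y ^ 2) x) := by
  refine ⟨135, by norm_num, fun N _ l A B B' H hH => ?_⟩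
  have h1 := planeI_jump l A A B B' H (fun _ _ => le_rfl) hH
  have h2 := planeI_jump l A 0 B B' H (fun _ _ => by simpa using sq_nonneg _) hH
  unfold potU
  linarith

theorem potU_jump_left : ∃ K : ℝ, 0 ≤ K ∧ ∀ (N : ℕ) [NeZero N] (l : ℕ)
    (A A' B H : Matrix (ZMod N) (ZMod N) ℝ), (∀ x y, |A x y| ≤ H x y) →
    potU A B (GG N 0 l) (uz N (l + 1)) ≤ potU A' B (GG N 0 l) (uz N (l + 1)) +
      K * ∑ x, ∑ y, |A' x y - A x y| *
        Real.sqrt (maxZ (fun z => B y z ^ 2) (-x - y) + maxZ (fun z => H z y ^ 2) x) *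
          Real.sqrt (maxZ (fun z => H x z ^ 2) y) := by
  obtain ⟨K, hK, h⟩ := potU_jump_right
  refine ⟨K, hK, fun N _ l A A' B H hH => ?_⟩
  have h1 := h N l Bᵀ Aᵀ A'ᵀ Hᵀ (fun x y => hH y x)
  rw [potU_swap A B, potU_swap A' B]
  refine h1.trans (le_of_eq ?_)
  congr 2
  rw [Finset.sum_comm]
  refine Finset.sum_congr rfl fun x _ => Finset.sum_congr rfl fun y _ => ?_
  simp only [Matrix.transpose_apply]
  rw [show -y - x = -x - y by ring]

end Crest.Agent.R72
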