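import Crest.Agent.R72.Jump

/-!
The main cyclic estimate in matrix form.  PLAN.  Put `G l = GG N 0 l`, `g l = uz N (l+1)`, `U l X Y = potU X Y (G l) (g l)`,
`gap l X Y = gapSum X Y (G (l+1)) (g l) (2^l + 2^l)`.
* `potU_succ`: `potU_step` with `a = 2^l`, `b = 2^(l+M+2)`, `GG_succ`, `uz_succ`.
* `triZ_le_gap`: `tform_le` with `κ = 2`, `G_i = sh (G (l+1)) p_i`, `p_i, m_i = sh (g l) (p_i ∓ 2^(l+1))`
  (`dz_succ`, `uz_succ`, `uz_le_conv (l+1 ≤ l+2)`), then reindex the plane cyclically (`p ↦ (p.2, -p.1 - p.2)`).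
* `mainZ1`: telescope.  `∑ gap l A B ≤ U 0 A B`; `gap l B (C l) ≤ U l B (C l) - U (l+1) B (C l)` and
  `U (l+1) B (C (l+1)) ≤ U (l+1) B (C l) + jump` (`potU_jump_right` at level `l+1`), likewise for `(C l, A)` with `potU_jump_left`;
  `potU_le`, `cube (C 0) ≤ cube H`; the jumps add up to at most `K ν ∑ H x y √(M₁ + M₂) √M₃`;
  `holder_jump` (Hölder with exponents 3,3,3 or Young; `maxZ_bound`, and the bijections `(x, y) ↦ (x, -x-y)`).
-/

set_option autoImplicit false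

namespace Crest.Agent.R72

open Matrix Finset MeasureTheory
open scoped ENNReal

theorem potU_succ {N : ℕ} [NeZero N] (A B : Matrix (ZMod N) (ZMod N) ℝ) (M l : ℕ) :
    potU A B (GG N M (l + 1)) (uz N (l + 2)) +
        gapSum A B (GG N M (l + 1)) (uz N (l + 1)) ((2 : ZMod N) ^ (l + 1)) ≤
      potU A B (GG N M l) (uz N (l + 1)) := by
  have h := potU_step A B (GG_nonneg (N := N) M l) (uz_nonneg (l + 1)) ((2 : ZMod N) ^ l)
    ((2 : ZMod N) ^ (l + M + 2))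
  have e : (2 : ZMod N) ^ l + 2 ^ l = 2 ^ (l + 1) := by ring
  rw [e, ← GG_succ, ← uz_succ] at h
  exact h

/-- cyclic rotation of the plane `p0 + p1 + p2 = 0` -/
def rotP (Z : Type*) [AddCommGroup Z] : Z × Z ≃ Z × Z where
  toFun p := (p.2, -p.1 - p.2)
  invFun q := (-q.1 - q.2, q.1)
  left_inv p := Prod.ext (by simp only; abel) rfl
  right_inv q := Prod.ext rfl (by simp only; abel)

theorem uz_avg {N : ℕ} [NeZero N] (j : ℕ) (p x : ZMod N) :
    (sh (uz N j) (p - 2 ^ j) x + sh (uz N j) (p + 2 ^ j) x) / 2 = uz N (j + 1) (x - p) := by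
  rw [uz_succ]
  simp only [sh, tau]
  congr 3 <;> ring

theorem dz_diff {N : ℕ} [NeZero N] (j : ℕ) (p x : ZMod N) :
    (sh (uz N j) (p - 2 ^ j) x - sh (uz N j) (p + 2 ^ j) x) / 2 = dz N (j + 1) (x - p) := by
  rw [dz_succ]
  simp only [sh]
  congr 3 <;> ring

theorem tform_sum_le {Z : Type*} [AddCommGroup Z] [Fintype Z] [DecidableEq Z]
    (A B C : Matrix Z Z ℝ) {G g d : Z → ℝ} (η : Z) (hG : ∀ x, 0 ≤ G x) (hg : ∀ x, 0 ≤ g x)
    (hk : ∀ p x, (sh g (p - η) x + sh g (p + η) x) / 2 ≤ 2 * sh G p x)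
    (hd : ∀ p, sh d p = fun x => (sh g (p - η) x - sh g (p + η) x) / 2) :
    |∑ p : Z × Z, tform (sh d p.1) (sh d p.2) (sh d (-p.1 - p.2)) A B C| ≤
      6 * (gapSum A B G g η + gapSum B C G g η + gapSum C A G g η) := by
  have G0 : ∀ p x, 0 ≤ sh G p x := fun p x => hG _
  have g0 : ∀ p x, 0 ≤ sh g p x := fun p x => hg _
  obtain ⟨J, hJ⟩ : ∃ J : Matrix Z Z ℝ → Matrix Z Z ℝ → Z × Z → ℝ, ∀ X Y p, J X Y p =
      vJ X Y (sh G p.1) (sh g (p.2 - η)) (sh g (p.2 + η)) (sh G (-p.1 - p.2)) :=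
    ⟨_, fun _ _ _ => rfl⟩
  have J0 : ∀ X Y p, 0 ≤ J X Y p := fun X Y p => by
    rw [hJ]
    exact vJ_nonneg X Y (G0 _) (g0 _) (g0 _) (G0 _)
  have h2 : 2 * 2 * Real.sqrt 2 ≤ 6 := by
    have : Real.sqrt 2 ≤ 3 / 2 := Real.sqrt_le_iff.2 ⟨by norm_num, by norm_num⟩
    linarith
  have key : ∀ p : Z × Z, |tform (sh d p.1) (sh d p.2) (sh d (-p.1 - p.2)) A B C| ≤
      6 * (J A B p + J B C (rotP Z p) + J C A ((rotP Z).symm p)) := by
    intro p
    rw [hd, hd, hd]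
    refine (tform_le A B C zero_le_two (G0 p.1) (G0 p.2) (G0 (-p.1 - p.2)) (g0 _) (g0 _) (g0 _)
      (g0 _) (g0 _) (g0 _) (hk _) (hk _) (hk _)).trans ?_
    have e1 : vJ B C (sh G p.2) (sh g (-p.1 - p.2 - η)) (sh g (-p.1 - p.2 + η)) (sh G p.1) =
        J B C (rotP Z p) := by
      rw [hJ]
      change _ = vJ B C (sh G p.2) (sh g (-p.1 - p.2 - η)) (sh g (-p.1 - p.2 + η))
        (sh G (-p.2 - (-p.1 - p.2)))
      rw [show -p.2 - (-p.1 - p.2) = p.1 by abel]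
    have e2 : vJ C A (sh G (-p.1 - p.2)) (sh g (p.1 - η)) (sh g (p.1 + η)) (sh G p.2) =
        J C A ((rotP Z).symm p) := by
      rw [hJ]
      change _ = vJ C A (sh G (-p.1 - p.2)) (sh g (p.1 - η)) (sh g (p.1 + η))
        (sh G (-(-p.1 - p.2) - p.1))
      rw [show -(-p.1 - p.2) - p.1 = p.2 by abel]
    rw [e1, e2, ← hJ]
    exact mul_le_mul_of_nonneg_right h2 (add_nonneg (add_nonneg (J0 A B p) (J0 _ _ _)) (J0 _ _ _))
  refine (Finset.abs_sum_le_sum_abs _ _).trans ((Finset.sum_le_sum fun p _ => key p).trans_eq ?_)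
  rw [← Finset.mul_sum, Finset.sum_add_distrib, Finset.sum_add_distrib,
    Equiv.sum_comp (rotP Z) (J B C), Equiv.sum_comp (rotP Z).symm (J C A)]
  simp only [hJ, gapSum]

theorem triZ_le_gap {N : ℕ} [NeZero N] (A B C : Matrix (ZMod N) (ZMod N) ℝ) (l : ℕ) :
    |triZ (l + 2) A B C| ≤ 6 *
      (gapSum A B (GG N 0 (l + 1)) (uz N (l + 1)) ((2 : ZMod N) ^ (l + 1)) +
        gapSum B C (GG N 0 (l + 1)) (uz N (l + 1)) ((2 : ZMod N) ^ (l + 1)) +
          gapSum C A (GG N 0 (l + 1)) (uz N (l + 1)) ((2 : ZMod N) ^ (l + 1))) := by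
  refine tform_sum_le A B C _ (GG_nonneg 0 (l + 1)) (uz_nonneg (l + 1)) (fun p x => ?_)
    fun p => funext fun x => (dz_diff (l + 1) p x).symm
  rw [uz_avg]
  exact uz_le_conv (Nat.le_succ (l + 1)) _

theorem holder3 {ι : Type*} [Fintype ι] {f g h : ι → ℝ} (hf : ∀ i, 0 ≤ f i) (hg : ∀ i, 0 ≤ g i)
    (hh : ∀ i, 0 ≤ h i) {a b c : ℝ} (ha : 0 ≤ a) (hb : 0 ≤ b) (hc : 0 ≤ c)
    (sf : ∑ i, f i ^ 3 ≤ a ^ 3) (sg : ∑ i, g i ^ 3 ≤ b ^ 3) (sh' : ∑ i, h i ^ 3 ≤ c ^ 3) :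
    ∑ i, f i * g i * h i ≤ a * b * c := by
  have zero : ∀ {f : ι → ℝ}, (∀ i, 0 ≤ f i) → ∑ i, f i ^ 3 ≤ 0 ^ 3 → ∀ i, f i = 0 := by
    intro f hf h i
    have h1 := Finset.single_le_sum (f := fun i => f i ^ 3) (fun i _ => pow_nonneg (hf i) 3)
      (Finset.mem_univ i)
    have h2 : f i ^ 3 = 0 := le_antisymm (by simpa using h1.trans h) (pow_nonneg (hf i) 3)
    exact pow_eq_zero_iff (by norm_num) |>.1 h2
  rcases ha.eq_or_lt with rfl | ha
  · simp [zero hf sf]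
  rcases hb.eq_or_lt with rfl | hb
  · simp [zero hg sg]
  rcases hc.eq_or_lt with rfl | hc
  · simp [zero hh sh']
  have amgm : ∀ x y z : ℝ, 0 ≤ x → 0 ≤ y → 0 ≤ z → x * y * z ≤ (x ^ 3 + y ^ 3 + z ^ 3) / 3 := by
    intro x y z hx hy hz
    nlinarith [mul_nonneg (add_nonneg (add_nonneg hx hy) hz)
      (add_nonneg (add_nonneg (sq_nonneg (x - y)) (sq_nonneg (y - z))) (sq_nonneg (x - z)))]
  have key : ∀ i, f i * g i * h i ≤
      a * b * c * ((f i ^ 3 / a ^ 3 + g i ^ 3 / b ^ 3 + h i ^ 3 / c ^ 3) / 3) := by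
    intro i
    have h1 := amgm (f i / a) (g i / b) (h i / c) (div_nonneg (hf i) ha.le)
      (div_nonneg (hg i) hb.le) (div_nonneg (hh i) hc.le)
    rw [div_pow, div_pow, div_pow] at h1
    refine le_trans (le_of_eq ?_) (mul_le_mul_of_nonneg_left h1 (by positivity))
    field_simp
  refine (Finset.sum_le_sum fun i _ => key i).trans ?_
  rw [← Finset.mul_sum, ← Finset.sum_div, Finset.sum_add_distrib, Finset.sum_add_distrib,
    ← Finset.sum_div, ← Finset.sum_div, ← Finset.sum_div]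
  have h1 := (div_le_one (pow_pos ha 3)).2 sf
  have h2 := (div_le_one (pow_pos hb 3)).2 sg
  have h3 := (div_le_one (pow_pos hc 3)).2 sh'
  exact mul_le_of_le_one_right (by positivity) (by linarith)

theorem sqrt_cube {x : ℝ} (hx : 0 ≤ x) : Real.sqrt x ^ 3 = x ^ (3 / 2 : ℝ) := by
  rw [Real.sqrt_eq_rpow, ← Real.rpow_natCast, ← Real.rpow_mul hx]
  norm_num

theorem sqrt_sq_cube (x : ℝ) : Real.sqrt (x ^ 2) ^ 3 = |x| ^ 3 := by rw [Real.sqrt_sq_eq_abs]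

/-- the maximal inequality in terms of cubes of square roots -/
theorem maxZ_cube : ∃ C : ℝ, 1 ≤ C ∧ ∀ (N : ℕ) [NeZero N] (φ : ZMod N → ℝ), (∀ x, 0 ≤ φ x) →
    ∑ x, Real.sqrt (maxZ φ x) ^ 3 ≤ C ^ 3 * ∑ x, Real.sqrt (φ x) ^ 3 := by
  obtain ⟨C, hC, h⟩ := maxZ_bound
  refine ⟨C + 1, by linarith, fun N _ φ hφ => ?_⟩
  simp only [sqrt_cube (hφ _), sqrt_cube (maxZ_nonneg hφ _)]
  refine (h N φ hφ).trans (mul_le_mul_of_nonneg_right ?_
    (Finset.sum_nonneg fun x _ => Real.rpow_nonneg (hφ x) _))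
  nlinarith [mul_nonneg hC hC, mul_nonneg hC (mul_nonneg hC hC)]

theorem cube_nonneg {n : Type*} [Fintype n] (A : Matrix n n ℝ) : 0 ≤ cube A := by
  unfold cube
  positivity

theorem cube_third {n : Type*} [Fintype n] (A : Matrix n n ℝ) :
    (cube A ^ (1 / 3 : ℝ)) ^ 3 = cube A := by
  rw [← Real.rpow_natCast, ← Real.rpow_mul (cube_nonneg A)]
  norm_num

theorem cube_two_thirds {n : Type*} [Fintype n] (A : Matrix n n ℝ) :
    cube A ^ (2 / 3 : ℝ) = cube A ^ (1 / 3 : ℝ) * cube A ^ (1 / 3 : ℝ) := by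
  rw [← Real.rpow_add' (cube_nonneg A) (by norm_num)]
  norm_num

theorem cube_transpose {n : Type*} [Fintype n] (A : Matrix n n ℝ) : cube Aᵀ = cube A :=
  Finset.sum_comm

theorem sum_neg_sub {Z : Type*} [AddCommGroup Z] [Fintype Z] (F : Z → ℝ) (x : Z) :
    ∑ y, F (-x - y) = ∑ w, F w := Equiv.sum_comp (Equiv.subLeft (-x)) F

/-- the sum that bounds the jumps -/
theorem holder_jump {N : ℕ} [NeZero N] {C : ℝ} (hC : 1 ≤ C) (hmax : ∀ φ : ZMod N → ℝ,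
      (∀ x, 0 ≤ φ x) → ∑ x, Real.sqrt (maxZ φ x) ^ 3 ≤ C ^ 3 * ∑ x, Real.sqrt (φ x) ^ 3)
    (B H : Matrix (ZMod N) (ZMod N) ℝ) (hH : ∀ x y, 0 ≤ H x y) :
    ∑ x, ∑ y, H x y *
        Real.sqrt (maxZ (fun z => B z x ^ 2) (-x - y) + maxZ (fun z => H x z ^ 2) y) *
          Real.sqrt (maxZ (fun z => H z y ^ 2) x) ≤
      C ^ 2 * (cube H ^ (2 / 3 : ℝ) * (cube B ^ (1 / 3 : ℝ) + cube H ^ (1 / 3 : ℝ))) := by
  have hC0 : 0 ≤ C := by linarith
  have row : ∀ φ : ZMod N → ℝ,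
      ∑ w, Real.sqrt (maxZ (fun z => φ z ^ 2) w) ^ 3 ≤ C ^ 3 * ∑ z, |φ z| ^ 3 := fun φ => by
    simpa only [sqrt_sq_cube] using hmax (fun z => φ z ^ 2) fun z => sq_nonneg _
  have t0 : ∀ X : Matrix (ZMod N) (ZMod N) ℝ, 0 ≤ cube X ^ (1 / 3 : ℝ) :=
    fun X => Real.rpow_nonneg (cube_nonneg X) _
  have s0 : ∑ p : ZMod N × ZMod N, H p.1 p.2 ^ 3 ≤ (cube H ^ (1 / 3 : ℝ)) ^ 3 := by
    rw [cube_third, Fintype.sum_prod_type]
    simp only [cube, abs_of_nonneg (hH _ _)]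
    exact le_rfl
  have s1 : ∑ p : ZMod N × ZMod N, Real.sqrt (maxZ (fun z => B z p.1 ^ 2) (-p.1 - p.2)) ^ 3 ≤
      (C * cube B ^ (1 / 3 : ℝ)) ^ 3 := by
    rw [mul_pow, cube_third, Fintype.sum_prod_type, ← cube_transpose, cube, Finset.mul_sum]
    refine Finset.sum_le_sum fun x _ => ?_
    exact (sum_neg_sub (fun w => Real.sqrt (maxZ (fun z => B z x ^ 2) w) ^ 3) x).trans_le
      (row fun z => B z x)
  have s2 : ∑ p : ZMod N × ZMod N, Real.sqrt (maxZ (fun z => H p.1 z ^ 2) p.2) ^ 3 ≤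
      (C * cube H ^ (1 / 3 : ℝ)) ^ 3 := by
    rw [mul_pow, cube_third, Fintype.sum_prod_type, cube, Finset.mul_sum]
    exact Finset.sum_le_sum fun x _ => row fun z => H x z
  have s3 : ∑ p : ZMod N × ZMod N, Real.sqrt (maxZ (fun z => H z p.2 ^ 2) p.1) ^ 3 ≤
      (C * cube H ^ (1 / 3 : ℝ)) ^ 3 := by
    rw [mul_pow, cube_third, Fintype.sum_prod_type_right, ← cube_transpose, cube, Finset.mul_sum]
    exact Finset.sum_le_sum fun y _ => row fun z => H z y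
  have h1 := holder3 (f := fun p : ZMod N × ZMod N => H p.1 p.2)
    (g := fun p => Real.sqrt (maxZ (fun z => B z p.1 ^ 2) (-p.1 - p.2)))
    (h := fun p => Real.sqrt (maxZ (fun z => H z p.2 ^ 2) p.1))
    (fun p => hH p.1 p.2) (fun _ => Real.sqrt_nonneg _)
    (fun _ => Real.sqrt_nonneg _) (t0 H) (mul_nonneg hC0 (t0 B)) (mul_nonneg hC0 (t0 H)) s0 s1 s3
  have h2 := holder3 (f := fun p : ZMod N × ZMod N => H p.1 p.2)
    (g := fun p => Real.sqrt (maxZ (fun z => H p.1 z ^ 2) p.2))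
    (h := fun p => Real.sqrt (maxZ (fun z => H z p.2 ^ 2) p.1))
    (fun p => hH p.1 p.2) (fun _ => Real.sqrt_nonneg _)
    (fun _ => Real.sqrt_nonneg _) (t0 H) (mul_nonneg hC0 (t0 H)) (mul_nonneg hC0 (t0 H)) s0 s2 s3
  rw [← Fintype.sum_prod_type']
  refine le_trans ?_ ((add_le_add h1 h2).trans_eq (by rw [cube_two_thirds]; ring))
  rw [← Finset.sum_add_distrib]
  refine Finset.sum_le_sum fun p _ => ?_
  rw [← add_mul, ← mul_add]
  refine mul_le_mul_of_nonneg_right (mul_le_mul_of_nonneg_left ?_ (hH _ _)) (Real.sqrt_nonneg _)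
  have m1 := maxZ_nonneg (φ := fun z => B z p.1 ^ 2) (fun _ => sq_nonneg _) (-p.1 - p.2)
  have m2 := maxZ_nonneg (φ := fun z => H p.1 z ^ 2) (fun _ => sq_nonneg _) p.2
  rw [Real.sqrt_le_left (by positivity)]
  nlinarith [Real.sq_sqrt m1, Real.sq_sqrt m2,
    mul_nonneg (Real.sqrt_nonneg (maxZ (fun z => B z p.1 ^ 2) (-p.1 - p.2)))
      (Real.sqrt_nonneg (maxZ (fun z => H p.1 z ^ 2) p.2))]

theorem tele_le {U gap jump : ℕ → ℝ} (hU : ∀ l, 0 ≤ U l)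
    (h : ∀ l, U (l + 1) + gap l ≤ U l + jump l) (L : ℕ) :
    ∑ l ∈ Finset.range L, gap l ≤ U 0 + ∑ l ∈ Finset.range L, jump l := by
  have : ∀ L, U L + ∑ l ∈ Finset.range L, gap l ≤ U 0 + ∑ l ∈ Finset.range L, jump l := by
    intro L
    induction L with
    | zero => simp
    | succ L ih =>
      rw [Finset.sum_range_succ, Finset.sum_range_succ]
      linarith [h L]
  linarith [this L, hU L]

theorem sum_jump_le {Z : Type*} [Fintype Z] {C : ℕ → Matrix Z Z ℝ} {H : Matrix Z Z ℝ} {ν : ℝ}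
    {L : ℕ} (h : ∀ x y, ∑ l ∈ Finset.range L, |C (l + 1) x y - C l x y| ≤ ν * H x y)
    {P Q : Z → Z → ℝ} (hP : ∀ x y, 0 ≤ P x y) (hQ : ∀ x y, 0 ≤ Q x y) :
    ∑ l ∈ Finset.range L, ∑ x, ∑ y, |C l x y - C (l + 1) x y| * P x y * Q x y ≤
      ν * ∑ x, ∑ y, H x y * P x y * Q x y := by
  rw [Finset.sum_comm, Finset.mul_sum]
  refine Finset.sum_le_sum fun x _ => ?_
  rw [Finset.sum_comm, Finset.mul_sum]
  refine Finset.sum_le_sum fun y _ => ?_
  rw [← Finset.sum_mul, ← Finset.sum_mul, ← mul_assoc, ← mul_assoc]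
  refine mul_le_mul_of_nonneg_right (mul_le_mul_of_nonneg_right ?_ (hP x y)) (hQ x y)
  simpa only [abs_sub_comm] using h x y

theorem mainZ1 : ∃ K : ℝ, 0 ≤ K ∧ ∀ (N : ℕ) [NeZero N] (L : ℕ) (ν : ℝ)
    (A B H : Matrix (ZMod N) (ZMod N) ℝ) (C : ℕ → Matrix (ZMod N) (ZMod N) ℝ), 0 ≤ ν →
    (∀ l x y, |C l x y| ≤ H x y) →
    (∀ x y, ∑ l ∈ Finset.range L, |C (l + 1) x y - C l x y| ≤ ν * H x y) →
    ∑ l ∈ Finset.range L, |triZ (l + 2) A B (C l)| ≤
      K * (cube A + cube B + cube H + ν * cube H ^ (2 / 3 : ℝ) *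
        (cube A ^ (1 / 3 : ℝ) + cube B ^ (1 / 3 : ℝ) + cube H ^ (1 / 3 : ℝ))) := by
  obtain ⟨K1, hK1, hr⟩ := potU_jump_right
  obtain ⟨K2, hK2, hl⟩ := potU_jump_left
  obtain ⟨c, hc, hmax⟩ := maxZ_cube
  refine ⟨360 + 6 * (K1 + K2) * c ^ 2, by positivity, fun N _ L ν A B H C hν hC hvar => ?_⟩
  have hH : ∀ x y, 0 ≤ H x y := fun x y => (abs_nonneg _).trans (hC 0 x y)
  have U0 : ∀ (X Y : Matrix (ZMod N) (ZMod N) ℝ) l, 0 ≤ potU X Y (GG N 0 l) (uz N (l + 1)) :=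
    fun X Y l => potU_nonneg X Y _ (GG_nonneg 0 l)
  have Ule : ∀ X Y : Matrix (ZMod N) (ZMod N) ℝ,
      potU X Y (GG N 0 0) (uz N (0 + 1)) ≤ 30 * (cube X + cube Y) :=
    fun X Y => potU_le X Y (GG_nonneg 0 0) (uz_nonneg _) (GG_sum 0 0) (uz_sum _)
  have hC0 : cube (C 0) ≤ cube H := by
    refine Finset.sum_le_sum fun x _ => Finset.sum_le_sum fun y _ => ?_
    exact pow_le_pow_left₀ (abs_nonneg _) ((hC 0 x y).trans (le_abs_self _)) 3
  have g1 := tele_le (U := fun l => potU A B (GG N 0 l) (uz N (l + 1))) (jump := fun _ => 0)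
    (U0 A B) (fun l => (potU_succ A B 0 l).trans_eq (add_zero _).symm) L
  have g2 := tele_le (U := fun l => potU B (C l) (GG N 0 l) (uz N (l + 1)))
    (gap := fun l => gapSum B (C l) (GG N 0 (l + 1)) (uz N (l + 1)) ((2 : ZMod N) ^ (l + 1)))
    (fun l => U0 B (C l) l) (fun l => (add_le_add (hr N (l + 1) B (C (l + 1)) (C l) H (hC _))
      le_rfl).trans ((add_right_comm _ _ _).trans_le (add_le_add (potU_succ B (C l) 0 l) le_rfl))) L
  have g3 := tele_le (U := fun l => potU (C l) A (GG N 0 l) (uz N (l + 1)))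
    (gap := fun l => gapSum (C l) A (GG N 0 (l + 1)) (uz N (l + 1)) ((2 : ZMod N) ^ (l + 1)))
    (fun l => U0 (C l) A l) (fun l => (add_le_add (hl N (l + 1) (C (l + 1)) (C l) A H (hC _))
      le_rfl).trans ((add_right_comm _ _ _).trans_le (add_le_add (potU_succ (C l) A 0 l) le_rfl))) L
  rw [← Finset.mul_sum] at g2 g3
  have j2 := (sum_jump_le hvar
    (P := fun x y => Real.sqrt (maxZ (fun z => B z x ^ 2) (-x - y) + maxZ (fun z => H x z ^ 2) y))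
    (Q := fun x y => Real.sqrt (maxZ (fun z => H z y ^ 2) x))
    (fun _ _ => Real.sqrt_nonneg _) fun _ _ => Real.sqrt_nonneg _).trans
    (mul_le_mul_of_nonneg_left (holder_jump hc (hmax N) B H hH) hν)
  have hT := holder_jump hc (hmax N) Aᵀ Hᵀ fun x y => hH y x
  rw [Finset.sum_comm, cube_transpose, cube_transpose] at hT
  simp only [Matrix.transpose_apply] at hT
  have e : ∀ x y : ZMod N, -y - x = -x - y := fun x y => by ring
  simp only [e] at hT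
  have j3 := (sum_jump_le hvar
    (P := fun x y => Real.sqrt (maxZ (fun z => A y z ^ 2) (-x - y) + maxZ (fun z => H z y ^ 2) x))
    (Q := fun x y => Real.sqrt (maxZ (fun z => H x z ^ 2) y))
    (fun _ _ => Real.sqrt_nonneg _) fun _ _ => Real.sqrt_nonneg _).trans
    (mul_le_mul_of_nonneg_left hT hν)
  have k2 := mul_le_mul_of_nonneg_left j2 hK1
  have k3 := mul_le_mul_of_nonneg_left j3 hK2
  refine (Finset.sum_le_sum fun l _ => triZ_le_gap A B (C l) l).trans ?_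
  rw [← Finset.mul_sum, Finset.sum_add_distrib, Finset.sum_add_distrib]
  simp only [Finset.sum_const_zero, add_zero] at g1
  have u1 := Ule A B
  have u2 := Ule B (C 0)
  have u3 := Ule (C 0) A
  have cA := cube_nonneg A
  have cB := cube_nonneg B
  have cH := cube_nonneg H
  have tA := Real.rpow_nonneg cA (1 / 3 : ℝ)
  have tB := Real.rpow_nonneg cB (1 / 3 : ℝ)
  have tH := Real.rpow_nonneg cH (1 / 3 : ℝ)
  have tH2 := mul_nonneg hν (Real.rpow_nonneg cH (2 / 3 : ℝ))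
  have c2 : 0 ≤ c ^ 2 := sq_nonneg c
  generalize cube A ^ (1 / 3 : ℝ) = α at *
  generalize cube B ^ (1 / 3 : ℝ) = β at *
  generalize cube H ^ (1 / 3 : ℝ) = γ at *
  generalize cube H ^ (2 / 3 : ℝ) = δ at *
  have p1 := mul_nonneg (mul_nonneg hK1 c2) (mul_nonneg tH2 tA)
  have p2 := mul_nonneg (mul_nonneg hK2 c2) (mul_nonneg tH2 tB)
  have p3 := mul_nonneg tH2 (add_nonneg (add_nonneg tA tB) tH)
  have p4 := mul_nonneg (mul_nonneg (add_nonneg hK1 hK2) c2) (add_nonneg (add_nonneg cA cB) cH)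
  linarith

end Crest.Agent.R72
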