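import Crest.Agent.R72.MainZ1
import Crest.Agent.R72.Scale

/-!
PLAN. `cycBound_of_norm` with `θ = 1/√ν`.  For each `x` take `σ x` from `varM_attained` and a sign `s x = ±1` with
`varM = s x * ∑ ext (σ x) l * tri ..`; put `c l x = H x * s x * ext (σ x) l`, `C l = matC (c l)`.  Then `|C l| ≤ matC H`,
the variation is `H * tv ≤ ν H`, `∑ H varM = ∑_l triZ (l+2) (matA G) (matB F) (C l)` (`triZ_eq`), and `mainZ1` gives at most
`K (1 + 1 + θ³ + ν θ² (2 + θ)) ≤ 6 K`.
-/

set_option autoImplicit false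

namespace Crest.Agent.R72

open Matrix Finset MeasureTheory
open scoped ENNReal

theorem mz2_ext_le {L : ℕ} (σ : Fin L → SignType) (l : ℕ) : |ext σ l| ≤ 1 := by
  unfold ext
  split_ifs with h
  · cases σ ⟨l, h⟩ <;> simp
  · simp

theorem mz2_cube {θ : ℝ} (h : 0 ≤ θ) : (θ ^ 3) ^ (1 / 3 : ℝ) = θ ∧ (θ ^ 3) ^ (2 / 3 : ℝ) = θ ^ 2 := by
  constructor
  · rw [← Real.rpow_natCast, ← Real.rpow_mul h]
    norm_num
  · rw [← Real.rpow_natCast, ← Real.rpow_mul h]
    norm_num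

theorem varM_cyc : ∃ C : ℝ, 0 ≤ C ∧ ∀ ν L : ℕ, 1 ≤ ν → CycBound (varM ν L) (C * Real.sqrt ν) := by
  obtain ⟨K, hK, h⟩ := mainZ1
  refine ⟨6 * K, by positivity, fun ν L hν => ?_⟩
  have hν' : (1 : ℝ) ≤ ν := by exact_mod_cast hν
  have hs : 1 ≤ Real.sqrt ν := Real.one_le_sqrt.2 hν'
  rw [← div_inv_eq_mul]
  refine cycBound_of_norm (varM_hom ν L) (by positivity) (by positivity) fun N _ F G H hH hF hG hθ => ?_
  choose σ hσ1 hσ2 using fun x => varM_attained ν L (lineC F G x)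
  have hsg : ∀ a : ℝ, ∃ s : ℝ, |s| ≤ 1 ∧ |a| = s * a := fun a => by
    rcases abs_cases a with h | h
    · exact ⟨1, by simp, by rw [h.1, one_mul]⟩
    · exact ⟨-1, by simp, by rw [h.1, neg_one_mul]⟩
  choose s hs1 hs2 using fun x => hsg (∑ l ∈ Finset.range L, ext (σ x) l * tri (l + 2) (lineC F G x))
  have h1 := h N L ν (matA G) (matB F) (matC H) (fun l => matC fun x => H x * s x * ext (σ x) l)
    (by positivity) (fun l x y => by
      simp only [matC]
      rw [abs_mul, abs_mul, abs_of_nonneg (hH _), mul_assoc]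
      exact mul_le_of_le_one_right (hH _) (mul_le_one₀ (hs1 _) (abs_nonneg _) (mz2_ext_le _ _)))
    (fun x y => by
      simp only [matC, ← mul_sub, abs_mul]
      rw [← mul_sum, abs_of_nonneg (hH _), mul_comm]
      exact mul_le_mul (hσ1 _) (mul_le_of_le_one_right (hH _) (hs1 _))
        (mul_nonneg (hH _) (abs_nonneg _)) (by positivity))
  have e : ∑ x, H x * varM ν L (lineC F G x) =
      ∑ l ∈ Finset.range L, triZ (l + 2) (matA G) (matB F) (matC fun x => H x * s x * ext (σ x) l) := by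
    simp only [triZ_eq]
    rw [sum_comm]
    refine sum_congr rfl fun x _ => ?_
    rw [hσ2, hs2, ← mul_assoc, mul_sum]
    exact sum_congr rfl fun l _ => by ring
  rw [e]
  refine (sum_le_sum fun l _ => le_abs_self _).trans (h1.trans ?_)
  have hθ0 : 0 ≤ (Real.sqrt ν)⁻¹ := by positivity
  have hθ1 : (Real.sqrt ν)⁻¹ ≤ 1 := inv_le_one_of_one_le₀ hs
  have hθ2 : (ν : ℝ) * (Real.sqrt ν)⁻¹ ^ 2 = 1 := by
    rw [inv_pow, Real.sq_sqrt (by positivity), mul_inv_cancel₀ (by positivity)]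
  rw [cube_matA, cube_matB, cube_matC, hF, hG, hθ, (mz2_cube hθ0).1, (mz2_cube hθ0).2, hθ2, one_pow,
    Real.one_rpow, mul_comm 6 K]
  refine mul_le_mul_of_nonneg_left ?_ hK
  linarith [pow_le_one₀ (n := 3) hθ0 hθ1]

end Crest.Agent.R72
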