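import Crest.Agent.R72.Defs

/-!
Basic facts on the positive square root of real matrices.  PLAN (`open scoped MatrixOrder` gives `0 ≤ N ↔ N.PosSemidef`):
* `msqrt_*`: `CFC.sqrt_nonneg`, `CFC.sqrt_mul_sqrt_self`, `CFC.sqrt_unique`; for real matrices `conjTranspose = transpose`.
* `psd_sub_of_sq`: `b - a` is symmetric; if `(b-a) v = λ v`, `v ≠ 0`, `λ < 0`, then
  `vᵀ(b²-a²)v = vᵀ(b(b-a) + (b-a)a)v = λ (vᵀ b v + vᵀ a v) ≥ 0`, so `vᵀ a v = vᵀ b v = 0`, so `λ |v|² = 0`.
  (`IsHermitian.posSemidef_iff_eigenvalues_nonneg`, `IsHermitian.mulVec_eigenvectorBasis`.)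
* `trace_mul_nonneg`: `a = s s`, `tr (s s b) = tr (s b s)`, `s b s` is PSD.  `trace_cs`: discriminant of `t ↦ tr ((S + t T)ᵀ a (S + t T)) ≥ 0`.
* `msqrt_intertwine`: `a = √(X Xᵀ)`, `b = √(Xᵀ X)`, `Y = a X - X b` solves `a Y + Y b = 0`; so
  `tr (Yᵀ a Y) + tr (Y b Yᵀ) = 0`, both are `≥ 0`, so `a Y = 0` and `Y b = 0` (write `a = s s`; `tr (Mᵀ M) = 0 → M = 0`);
  then `tr (Yᵀ Y) = tr ((a Y)ᵀ X) - tr ((Y b)ᵀ X) = 0`.
* `msqrt_le_trace`: `psd_sub_of_sq` and `tr N • 1 - N` PSD: with `s = √N`, `|s x|² ≤ (∑ s_ij²) |x|²` (Cauchy–Schwarz per row), `∑ s_ij² = tr N`.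
-/

set_option autoImplicit false

namespace Crest.Agent.R72

open Matrix Finset MeasureTheory
open scoped ENNReal

variable {n : Type*} [Fintype n] [DecidableEq n]

theorem psd_transpose {m : Type*} {a : Matrix m m ℝ} (ha : a.PosSemidef) : aᵀ = a := by
  have := ha.1.eq
  rwa [Matrix.conjTranspose_eq_transpose_of_trivial] at this

theorem trace_conj_nonneg {m k : Type*} [Fintype m] [Fintype k] {a : Matrix k k ℝ}
    (ha : a.PosSemidef) (T : Matrix k m ℝ) : 0 ≤ (Tᵀ * a * T).trace := by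
  have h := (ha.conjTranspose_mul_mul_same T).trace_nonneg
  rwa [Matrix.conjTranspose_eq_transpose_of_trivial] at h

theorem msqrt_psd (N : Matrix n n ℝ) : (msqrt N).PosSemidef := by
  open scoped MatrixOrder in exact Matrix.nonneg_iff_posSemidef.1 (CFC.sqrt_nonneg N)

theorem msqrt_mul_self {N : Matrix n n ℝ} (hN : N.PosSemidef) : msqrt N * msqrt N = N := by
  open scoped MatrixOrder in exact CFC.sqrt_mul_sqrt_self N (Matrix.nonneg_iff_posSemidef.2 hN)

theorem msqrt_unique {N a : Matrix n n ℝ} (ha : a.PosSemidef) (h : a * a = N) : msqrt N = a := by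
  open scoped MatrixOrder in exact CFC.sqrt_unique h (Matrix.nonneg_iff_posSemidef.2 ha)

theorem msqrt_transpose (N : Matrix n n ℝ) : (msqrt N)ᵀ = msqrt N := by
  exact psd_transpose (msqrt_psd N)

/-- Löwner–Heinz for the exponent `1/2` -/
theorem psd_sub_of_sq {a b : Matrix n n ℝ} (ha : a.PosSemidef) (hb : b.PosSemidef)
    (h : (b * b - a * a).PosSemidef) : (b - a).PosSemidef := by
  have hs : (b - a).IsHermitian := hb.1.sub ha.1
  rw [hs.posSemidef_iff_eigenvalues_nonneg]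
  intro i
  by_contra hneg
  have hneg' : hs.eigenvalues i < 0 := lt_of_not_ge hneg
  have hv := hs.mulVec_eigenvectorBasis i
  have hv0 : (hs.eigenvectorBasis i).ofLp ≠ 0 := by
    intro h0
    have h1 := hs.eigenvectorBasis.orthonormal.ne_zero i
    exact h1 (by ext j; simpa using congrFun h0 j)
  set v : n → ℝ := (hs.eigenvectorBasis i).ofLp
  set μ := hs.eigenvalues i
  have h1 := h.dotProduct_mulVec_nonneg v
  have h2 := ha.dotProduct_mulVec_nonneg v
  have h3 := hb.dotProduct_mulVec_nonneg v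
  simp only [star_trivial] at h1 h2 h3
  have e1 : b * b - a * a = b * (b - a) + (b - a) * a := by noncomm_ring
  have hvm : v ᵥ* (b - a) = μ • v := by
    rw [← Matrix.mulVec_transpose, Matrix.transpose_sub, psd_transpose hb, psd_transpose ha, hv]
  have e2 : v ⬝ᵥ (b * b - a * a) *ᵥ v = μ * (v ⬝ᵥ b *ᵥ v) + μ * (v ⬝ᵥ a *ᵥ v) := by
    rw [e1, Matrix.add_mulVec, dotProduct_add, ← Matrix.mulVec_mulVec, ← Matrix.mulVec_mulVec, hv,
      Matrix.mulVec_smul, dotProduct_smul, Matrix.dotProduct_mulVec v (b - a), hvm,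
      smul_dotProduct]
    rfl
  have e3 : v ⬝ᵥ b *ᵥ v - v ⬝ᵥ a *ᵥ v = μ * (v ⬝ᵥ v) := by
    rw [← dotProduct_sub, ← Matrix.sub_mulVec, hv, dotProduct_smul]
    rfl
  have h4 : 0 < v ⬝ᵥ v := by
    have := dotProduct_self_star_pos_iff.2 hv0
    simpa using this
  nlinarith [mul_neg_of_neg_of_pos hneg' h4]

theorem msqrt_mono {X Y : Matrix n n ℝ} (hX : X.PosSemidef) (hXY : (Y - X).PosSemidef) :
    (msqrt Y - msqrt X).PosSemidef := by
  have hY : Y.PosSemidef := by simpa using hXY.add hX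
  apply psd_sub_of_sq (msqrt_psd X) (msqrt_psd Y)
  rwa [msqrt_mul_self hX, msqrt_mul_self hY]

theorem msqrt_smul {X : Matrix n n ℝ} (hX : X.PosSemidef) {c : ℝ} (hc : 0 ≤ c) :
    msqrt (c • X) = Real.sqrt c • msqrt X := by
  apply msqrt_unique ((msqrt_psd X).smul (Real.sqrt_nonneg c))
  rw [smul_mul_smul_comm, Real.mul_self_sqrt hc, msqrt_mul_self hX]

/-- trace of a product of two positive semidefinite matrices -/
theorem trace_mul_nonneg {a b : Matrix n n ℝ} (ha : a.PosSemidef) (hb : b.PosSemidef) :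
    0 ≤ (a * b).trace := by
  have h := (hb.conjTranspose_mul_mul_same (msqrt a)).trace_nonneg
  rw [Matrix.conjTranspose_eq_transpose_of_trivial, msqrt_transpose, Matrix.trace_mul_cycle,
    msqrt_mul_self ha] at h
  exact h

/-- monotonicity of `a ↦ tr (Tᵀ a T)` -/
theorem trace_conj_mono {m : Type*} [Fintype m] {a b : Matrix n n ℝ} (h : (b - a).PosSemidef)
    (T : Matrix n m ℝ) : (Tᵀ * a * T).trace ≤ (Tᵀ * b * T).trace := by
  have h1 := trace_conj_nonneg h T
  rw [Matrix.mul_sub, Matrix.sub_mul, Matrix.trace_sub] at h1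
  linarith

/-- Cauchy–Schwarz for the form `(S, T) ↦ tr (Sᵀ a T)` -/
theorem trace_cs {m : Type*} [Fintype m] {a : Matrix n n ℝ} (ha : a.PosSemidef)
    (S T : Matrix n m ℝ) :
    (Sᵀ * a * T).trace ^ 2 ≤ (Sᵀ * a * S).trace * (Tᵀ * a * T).trace := by
  have hsym : (Tᵀ * a * S).trace = (Sᵀ * a * T).trace := by
    rw [← Matrix.trace_transpose, Matrix.transpose_mul, Matrix.transpose_mul, psd_transpose ha,
      Matrix.transpose_transpose, Matrix.mul_assoc]
  have h := discrim_le_zero (a := (Tᵀ * a * T).trace) (b := 2 * (Sᵀ * a * T).trace)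
    (c := (Sᵀ * a * S).trace) (fun t => by
      have h1 := trace_conj_nonneg ha (S + t • T)
      simp only [Matrix.transpose_add, Matrix.transpose_smul, Matrix.add_mul, Matrix.mul_add,
        Matrix.smul_mul, Matrix.mul_smul, Matrix.trace_add, Matrix.trace_smul, smul_eq_mul,
        hsym] at h1
      linarith)
  rw [discrim] at h
  linarith

theorem f32_nonneg {N : Matrix n n ℝ} (hN : N.PosSemidef) : 0 ≤ f32 N := by
  exact trace_mul_nonneg (msqrt_psd N) hN

theorem f32_zero : f32 (0 : Matrix n n ℝ) = 0 := by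
  simp [f32]

theorem mul_eq_zero_of_trace_conj {m : Type*} [Fintype m] {a : Matrix n n ℝ} (ha : a.PosSemidef)
    (Y : Matrix n m ℝ) (h : (Yᵀ * a * Y).trace = 0) : a * Y = 0 := by
  have h1 : msqrt a * Y = 0 := by
    rw [← Matrix.trace_conjTranspose_mul_self_eq_zero_iff,
      Matrix.conjTranspose_eq_transpose_of_trivial, Matrix.transpose_mul, msqrt_transpose,
      Matrix.mul_assoc, ← Matrix.mul_assoc (msqrt a), msqrt_mul_self ha, ← Matrix.mul_assoc, h]
  rw [← msqrt_mul_self ha, Matrix.mul_assoc, h1, Matrix.mul_zero]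

theorem msqrt_intertwine {m : Type*} [Fintype m] [DecidableEq m] (X : Matrix n m ℝ) :
    msqrt (X * Xᵀ) * X = X * msqrt (Xᵀ * X) := by
  have hA : (X * Xᵀ).PosSemidef := by
    simpa [Matrix.conjTranspose_eq_transpose_of_trivial] using posSemidef_self_mul_conjTranspose X
  have hB : (Xᵀ * X).PosSemidef := by
    simpa [Matrix.conjTranspose_eq_transpose_of_trivial] using posSemidef_conjTranspose_mul_self X
  have a2 := msqrt_mul_self hA
  have b2 := msqrt_mul_self hB
  have ha := msqrt_psd (X * Xᵀ)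
  have hb := msqrt_psd (Xᵀ * X)
  set a := msqrt (X * Xᵀ)
  set b := msqrt (Xᵀ * X)
  obtain ⟨Y, hY⟩ : ∃ Y, Y = a * X - X * b := ⟨_, rfl⟩
  have h0 : a * Y + Y * b = 0 := by
    rw [hY, Matrix.mul_sub, Matrix.sub_mul, ← Matrix.mul_assoc, a2, Matrix.mul_assoc X b b, b2]
    simp [Matrix.mul_assoc]
  have h1 := trace_conj_nonneg ha Y
  have h2 := trace_conj_nonneg hb Yᵀ
  have h3 : (Yᵀ * a * Y).trace + (Yᵀᵀ * b * Yᵀ).trace = 0 := by
    rw [Matrix.transpose_transpose, Matrix.trace_mul_comm (Y * b), Matrix.mul_assoc,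
      ← Matrix.trace_add, ← Matrix.mul_add, h0]
    simp
  have h4 := mul_eq_zero_of_trace_conj ha Y (by linarith)
  have h5 := mul_eq_zero_of_trace_conj hb Yᵀ (by linarith)
  have h6 : (Yᵀ * Y).trace = 0 := by
    have e1 : Yᵀ * a = 0 := by
      have := congrArg Matrix.transpose h4
      rwa [Matrix.transpose_mul, psd_transpose ha, Matrix.transpose_zero] at this
    conv_lhs => enter [1, 2]; rw [hY]
    rw [Matrix.mul_sub, ← Matrix.mul_assoc, e1, Matrix.trace_sub, ← Matrix.mul_assoc,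
      Matrix.trace_mul_cycle, h5]
    simp
  have h7 : Y = 0 := by
    rw [← Matrix.trace_conjTranspose_mul_self_eq_zero_iff,
      Matrix.conjTranspose_eq_transpose_of_trivial, h6]
  rw [hY] at h7
  exact sub_eq_zero.1 h7

theorem f32_comm {m : Type*} [Fintype m] [DecidableEq m] (X : Matrix n m ℝ) :
    f32 (X * Xᵀ) = f32 (Xᵀ * X) := by
  rw [f32, f32, ← Matrix.mul_assoc, msqrt_intertwine, Matrix.trace_mul_cycle,
    Matrix.trace_mul_comm]

/-- `√N ≤ √(tr N) • 1` -/
theorem msqrt_le_trace {N : Matrix n n ℝ} (hN : N.PosSemidef) :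
    (Real.sqrt N.trace • (1 : Matrix n n ℝ) - msqrt N).PosSemidef := by
  have h0 := hN.trace_nonneg
  apply psd_sub_of_sq (msqrt_psd N) (Matrix.PosSemidef.one.smul (Real.sqrt_nonneg _))
  rw [smul_mul_smul_comm, Real.mul_self_sqrt h0, msqrt_mul_self hN, mul_one]
  refine Matrix.PosSemidef.of_dotProduct_mulVec_nonneg
    ((Matrix.PosSemidef.one.smul h0).1.sub hN.1) fun x => ?_
  have s2 := msqrt_mul_self hN
  have st := msqrt_transpose N
  set s := msqrt N
  have e1 : x ⬝ᵥ N *ᵥ x = ∑ i, (∑ j, s i j * x j) ^ 2 := by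
    rw [← s2, ← Matrix.mulVec_mulVec, Matrix.dotProduct_mulVec, ← Matrix.mulVec_transpose, st]
    simp only [dotProduct, Matrix.mulVec, sq]
  have e2 : N.trace = ∑ i, ∑ j, s i j ^ 2 := by
    rw [← s2]
    simp only [Matrix.trace, Matrix.diag, Matrix.mul_apply, sq]
    refine Finset.sum_congr rfl fun i _ => Finset.sum_congr rfl fun j _ => ?_
    rw [show s j i = s i j from congrFun (congrFun st i) j]
  rw [star_trivial, Matrix.sub_mulVec, dotProduct_sub, e1, Matrix.smul_mulVec, Matrix.one_mulVec,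
    dotProduct_smul, e2, smul_eq_mul, Finset.sum_mul, sub_nonneg]
  refine Finset.sum_le_sum fun i _ => ?_
  simpa only [dotProduct, sq] using Finset.sum_mul_sq_le_sq_mul_sq Finset.univ (s i) x

theorem f32_le {N : Matrix n n ℝ} (hN : N.PosSemidef) :
    f32 N ≤ N.trace * Real.sqrt N.trace := by
  have h := trace_mul_nonneg (msqrt_le_trace hN) hN
  rw [Matrix.sub_mul, Matrix.trace_sub, Matrix.smul_mul, Matrix.one_mul, Matrix.trace_smul,
    smul_eq_mul] at h
  rw [f32]
  linarith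

end Crest.Agent.R72
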