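import Crest.Agent.R72.Spline
import Crest.Agent.R72.Scale

/-!
The smooth long part at a point.  PLAN.
* `int_psi`: substitute `t = δ s`, insert `tri_B3` (a finite triple sum `∑ dsgn t0 dsgn t1 dsgn t2 * B3 (s - (t0+t1+t2))`), translate each integral,
  `B3` vanishes off `[0,3]`.
* `chi_diff`: fundamental theorem of calculus for `lam ↦ chi (t / (a lam))` on `[1,2]` (at `t = 0` both sides vanish: `psi 0 = 0` since `chi` is even, or directly).
* `point_long`: Fubini in `(t, lam)` (the integrand vanishes for `|t| > 6 a` and `psi` is bounded), `int_psi` with `δ = lam / 2^(K+2)`, `j = l + 2`,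
  `2^j δ = 2^(l-K) lam`; so the sum is `∫ lam, 8/lam ∫ ϑ, B3 ϑ * ∑_l ext σ l * tri (l+2) (samp φ δ ϑ)`;
  `enorm_integral_le_lintegral_enorm` twice, `|B3| ≤ 1`, `1/lam ≤ 1`, `le_varM`.
-/

set_option autoImplicit false

namespace Crest.Agent.R72

open Matrix Finset MeasureTheory
open scoped ENNReal

theorem Tame.int_mul {φ : ℝ → ℝ} (hφ : Tame φ) {k : ℝ → ℝ} (hk : Measurable k) {c r : ℝ}
    (hb : ∀ t, |k t| ≤ c) (hs : ∀ t, r < |t| → k t = 0) : Integrable (fun t => k t * φ t) := by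
  have h1 : IntegrableOn (fun t => k t * φ t) (Set.Icc (-r) r) :=
    Integrable.bdd_mul (c := c) (hφ.2.1 r) hk.aestronglyMeasurable (Filter.Eventually.of_forall hb)
  refine h1.integrable_of_forall_notMem_eq_zero fun x hx => ?_
  rw [hs x, zero_mul]
  by_contra h
  exact hx (abs_le.1 (not_lt.1 h))

theorem integrable_haar {μ : Measure ℝ} {f : ℝ → ℤ → ℝ} (hf : ∀ t, Integrable (fun s => f s t) μ)
    (j : ℕ) (τ : ℤ) : Integrable (fun s => haar j (f s) τ) μ :=
  integrable_finsetSum _ fun t _ => (hf _).const_mul _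

theorem integral_haar {μ : Measure ℝ} {f : ℝ → ℤ → ℝ} (hf : ∀ t, Integrable (fun s => f s t) μ)
    (j : ℕ) (τ : ℤ) : ∫ s, haar j (f s) τ ∂μ = haar j (fun t => ∫ s, f s t ∂μ) τ := by
  unfold haar
  rw [integral_finsetSum _ fun t _ => (hf _).const_mul _]
  exact Finset.sum_congr rfl fun t _ => integral_const_mul _ _

theorem integrable_tri {μ : Measure ℝ} {f : ℝ → ℤ → ℝ} (hf : ∀ t, Integrable (fun s => f s t) μ)
    (j : ℕ) : Integrable (fun s => tri j (f s)) μ :=
  integrable_haar (f := fun s => haar j (haar j (f s)))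
    (integrable_haar (f := fun s => haar j (f s)) (integrable_haar hf j) j) j 0

theorem integral_tri {μ : Measure ℝ} {f : ℝ → ℤ → ℝ} (hf : ∀ t, Integrable (fun s => f s t) μ)
    (j : ℕ) : ∫ s, tri j (f s) ∂μ = tri j (fun t => ∫ s, f s t ∂μ) := by
  unfold tri
  rw [integral_haar (f := fun s => haar j (haar j (f s)))
    (integrable_haar (f := fun s => haar j (f s)) (integrable_haar hf j) j)]
  congr 1
  funext τ
  rw [integral_haar (f := fun s => haar j (f s)) (integrable_haar hf j)]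
  congr 1
  funext τ'
  rw [integral_haar hf]

theorem tri_hom (j : ℕ) (c : ℝ) (φ : ℤ → ℝ) : tri j (fun t => c * φ t) = c * tri j φ := by
  unfold tri
  rw [haar_hom, haar_hom, haar_hom]

theorem int_B3 {φ : ℝ → ℝ} (hφ : Tame φ) {δ : ℝ} (hδ : 0 < δ) (t : ℤ) :
    Integrable (fun s => φ (δ * s) * B3 (s - t)) := by
  have h : Integrable (fun u => B3 (u / δ - t) * φ u) := by
    refine hφ.int_mul (c := 1) (r := δ * (|(t : ℝ)| + 3))
      (continuous_B3.measurable.comp (by fun_prop)) (fun u => B3_abs_le _) fun u hu => ?_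
    apply B3_eq_zero
    have h1 : |(t : ℝ)| + 3 < |u / δ| := by
      rw [abs_div, abs_of_pos hδ, lt_div_iff₀ hδ]; linarith
    have := le_abs_self (t : ℝ)
    have := neg_abs_le (t : ℝ)
    rcases le_total 0 (u / δ) with h0 | h0
    · rw [abs_of_nonneg h0] at h1; right; linarith
    · rw [abs_of_nonpos h0] at h1; left; linarith
  refine (h.comp_mul_left' hδ.ne').congr (Filter.Eventually.of_forall fun s => ?_)
  simp only
  rw [mul_div_cancel_left₀ _ hδ.ne', mul_comm]

theorem int_B3' {φ : ℝ → ℝ} (hφ : Tame φ) {δ : ℝ} (hδ : 0 < δ) (t : ℤ) :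
    Integrable (fun ϑ => B3 ϑ * samp φ δ ϑ t) := by
  refine ((int_B3 hφ hδ t).comp_add_left (t : ℝ)).congr (Filter.Eventually.of_forall fun s => ?_)
  simp only [samp]
  rw [add_sub_cancel_left, mul_comm]

theorem int_B3_tri {φ : ℝ → ℝ} (hφ : Tame φ) {δ : ℝ} (hδ : 0 < δ) (j : ℕ) :
    Integrable (fun ϑ => B3 ϑ * tri j (samp φ δ ϑ)) := by
  have := integrable_tri (f := fun ϑ t => B3 ϑ * samp φ δ ϑ t) (int_B3' hφ hδ) j
  simpa only [tri_hom] using this

theorem int_psi {φ : ℝ → ℝ} (hφ : Tame φ) (j : ℕ) {δ : ℝ} (hδ : 0 < δ) :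
    ∫ t, psi (t / (2 ^ j * δ)) / (2 ^ j * δ) * φ t =
      ∫ ϑ in Set.Icc (0 : ℝ) 3, B3 ϑ * tri j (samp φ δ ϑ) := by
  rw [setIntegral_eq_integral_of_forall_compl_eq_zero (fun x hx => by
    rw [B3_eq_zero, zero_mul]
    by_contra h
    push Not at h
    exact hx ⟨h.1.le, h.2.le⟩)]
  have h1 := Measure.integral_comp_mul_left
    (fun t => psi (t / (2 ^ j * δ)) / (2 ^ j * δ) * φ t) δ
  rw [abs_of_pos (inv_pos.2 hδ), smul_eq_mul, eq_inv_mul_iff_mul_eq₀ hδ.ne'] at h1
  rw [← h1, ← integral_const_mul]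
  have h2 : ∀ s : ℝ, δ * (psi (δ * s / (2 ^ j * δ)) / (2 ^ j * δ) * φ (δ * s)) =
      tri j (fun t : ℤ => φ (δ * s) * B3 (s - t)) := by
    intro s
    rw [tri_hom, tri_B3]
    have : δ * s / (2 ^ j * δ) = s / 2 ^ j := by field_simp
    rw [this]
    field_simp
  simp only [h2]
  rw [integral_tri (f := fun s t => φ (δ * s) * B3 (s - t)) (int_B3 hφ hδ)]
  have h3 := integral_tri (f := fun ϑ t => B3 ϑ * samp φ δ ϑ t) (int_B3' hφ hδ) j
  simp only [tri_hom] at h3
  rw [h3]
  congr 1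
  funext t
  rw [← integral_add_left_eq_self _ (t : ℝ)]
  congr 1
  funext s
  simp only [samp]
  rw [add_sub_cancel_left, mul_comm]

theorem psi_zero : psi 0 = 0 := by
  norm_num [psi, D6, Tq]

theorem psi_bdd : ∃ c : ℝ, 0 ≤ c ∧ ∀ s, |psi s| ≤ c := by
  obtain ⟨c, hc⟩ := (isCompact_Icc (a := (-3 : ℝ)) (b := 3)).exists_bound_of_continuousOn
    continuous_psi.continuousOn
  have h0 : 0 ≤ c := (norm_nonneg _).trans (hc 0 (by norm_num))
  refine ⟨c, h0, fun s => ?_⟩
  rcases le_total |s| 3 with h | h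
  · exact hc s (abs_le.1 h)
  · rw [psi_eq_zero h, abs_zero]; exact h0

theorem chi_diff {a : ℝ} (ha : 0 < a) (t : ℝ) :
    (chi (t / a) - chi (t / (2 * a))) / t =
      ∫ lam in Set.Icc (1 : ℝ) 2, 8 / lam * (psi (t / (a * lam)) / (a * lam)) := by
  rcases eq_or_ne t 0 with rfl | ht
  · simp [psi_zero]
  have hd : ∀ lam ∈ Set.uIcc (1 : ℝ) 2, HasDerivAt (fun lam : ℝ => -chi (t / (a * lam)) / t)
      (8 / lam * (psi (t / (a * lam)) / (a * lam))) lam := by
    intro lam hl
    rw [Set.uIcc_of_le (by norm_num)] at hl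
    have hl0 : 0 < lam := by linarith [hl.1]
    have h1 : HasDerivAt (fun lam : ℝ => t / (a * lam)) (-(t * a) / (a * lam) ^ 2) lam := by
      have := (hasDerivAt_const lam t).div ((hasDerivAt_id lam).const_mul a)
        (by simp [ha.ne', hl0.ne'])
      refine HasDerivAt.congr_deriv this ?_
      simp
    have h2 := (((hasDerivAt_chi (t / (a * lam))).comp lam h1).neg).div_const t
    refine HasDerivAt.congr_deriv h2 ?_
    field_simp
  have hc : ContinuousOn (fun lam : ℝ => 8 / lam * (psi (t / (a * lam)) / (a * lam)))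
      (Set.uIcc (1 : ℝ) 2) := by
    rw [Set.uIcc_of_le (by norm_num)]
    have hne : ∀ lam ∈ Set.Icc (1 : ℝ) 2, lam ≠ 0 := fun lam hl => by linarith [hl.1]
    have hne' : ∀ lam ∈ Set.Icc (1 : ℝ) 2, a * lam ≠ 0 := fun lam hl =>
      mul_ne_zero ha.ne' (hne lam hl)
    refine (continuousOn_const.div continuousOn_id hne).mul (ContinuousOn.div ?_ (by fun_prop) hne')
    exact continuous_psi.comp_continuousOn (continuousOn_const.div (by fun_prop) hne')
  have h := intervalIntegral.integral_eq_sub_of_hasDerivAt hd hc.intervalIntegrable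
  rw [integral_Icc_eq_integral_Ioc, ← intervalIntegral.integral_of_le (by norm_num), h,
    mul_one, mul_comm a 2]
  ring

theorem int_prod {φ : ℝ → ℝ} (hφ : Tame φ) {a : ℝ} (ha : 0 < a) :
    Integrable (Function.uncurry fun (t lam : ℝ) =>
      8 / lam * (psi (t / (a * lam)) / (a * lam)) * φ t)
      ((volume : Measure ℝ).prod ((volume : Measure ℝ).restrict (Set.Icc 1 2))) := by
  obtain ⟨c, hc0, hc⟩ := psi_bdd
  have h1 : Integrable (fun t => (Set.Icc (-(6 * a)) (6 * a)).indicator (fun _ => 8 * (c / a)) t * φ t) := by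
    refine hφ.int_mul (c := 8 * (c / a)) (r := 6 * a)
      (measurable_const.indicator measurableSet_Icc) (fun t => ?_) fun t ht => ?_
    · by_cases h : t ∈ Set.Icc (-(6 * a)) (6 * a)
      · rw [Set.indicator_of_mem h, abs_of_nonneg (by positivity)]
      · rw [Set.indicator_of_notMem h, abs_zero]; positivity
    · have h : t ∉ Set.Icc (-(6 * a)) (6 * a) := fun h => absurd (abs_le.2 h) (not_le.2 ht)
      rw [Set.indicator_of_notMem h]
  have hm : Measurable (Function.uncurry fun (t lam : ℝ) =>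
      8 / lam * (psi (t / (a * lam)) / (a * lam)) * φ t) := by
    have hp := continuous_psi.measurable
    have := hφ.1
    unfold Function.uncurry
    fun_prop
  refine (h1.comp_fst ((volume : Measure ℝ).restrict (Set.Icc 1 2))).mono hm.aestronglyMeasurable ?_
  have hae : ∀ᵐ p : ℝ × ℝ ∂((volume : Measure ℝ).prod ((volume : Measure ℝ).restrict (Set.Icc 1 2))),
      p.2 ∈ Set.Icc (1 : ℝ) 2 :=
    Measure.quasiMeasurePreserving_snd.ae (ae_restrict_mem measurableSet_Icc)
  filter_upwards [hae] with p hp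
  obtain ⟨t, lam⟩ := p
  simp only [Function.uncurry, Real.norm_eq_abs, abs_mul] at hp ⊢
  refine mul_le_mul_of_nonneg_right ?_ (abs_nonneg _)
  have hl0 : 0 < lam := by linarith [hp.1]
  have hal : 0 < a * lam := mul_pos ha hl0
  by_cases h : t ∈ Set.Icc (-(6 * a)) (6 * a)
  · rw [Set.indicator_of_mem h, abs_of_nonneg (a := 8 * (c / a)) (by positivity),
      abs_of_pos (a := 8 / lam) (by positivity), abs_div, abs_of_pos hal]
    refine mul_le_mul (div_le_self (by norm_num) hp.1) ?_ (by positivity) (by norm_num)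
    refine div_le_div₀ hc0 (hc _) ha ?_
    nlinarith [hp.1]
  · have : 6 * a < |t| := by
      by_contra h'
      exact h (abs_le.1 (not_lt.1 h'))
    rw [psi_eq_zero]
    · simp
    · rw [abs_div, abs_of_pos hal, le_div_iff₀ hal]
      nlinarith [hp.2]

theorem point_long {φ : ℝ → ℝ} (hφ : Tame φ) (ν K : ℕ) (σ : Fin (2 * K) → SignType)
    (hσ : tv (2 * K) (ext σ) ≤ ν) :
    ENNReal.ofReal |∑ l ∈ Finset.range (2 * K), ext σ l *
      ∫ t, (chi (t / (2 : ℝ) ^ ((l : ℤ) - K)) - chi (t / (2 : ℝ) ^ ((l : ℤ) - K + 1))) / t * φ t| ≤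
      8 * longW ν K φ := by
  set a : ℕ → ℝ := fun l => (2 : ℝ) ^ ((l : ℤ) - K) with ha
  have ha0 : ∀ l, 0 < a l := fun l => zpow_pos (by norm_num) _
  set P : ℕ → ℝ → ℝ := fun l lam =>
    ∫ t, 8 / lam * (psi (t / (a l * lam)) / (a l * lam)) * φ t with hP
  have hPi : ∀ l, Integrable (P l) ((volume : Measure ℝ).restrict (Set.Icc 1 2)) := fun l =>
    (int_prod hφ (ha0 l)).integral_prod_right
  have h1 : ∀ l : ℕ, ∫ t, (chi (t / (2 : ℝ) ^ ((l : ℤ) - K)) -
      chi (t / (2 : ℝ) ^ ((l : ℤ) - K + 1))) / t * φ t = ∫ lam in Set.Icc (1 : ℝ) 2, P l lam := by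
    intro l
    rw [hP, ← integral_integral_swap (int_prod hφ (ha0 l))]
    congr 1
    funext t
    rw [zpow_add_one₀ (by norm_num), mul_comm _ (2 : ℝ), chi_diff (ha0 l), integral_mul_const]
  simp only [h1]
  have h2 : ∑ l ∈ Finset.range (2 * K), ext σ l * ∫ lam in Set.Icc (1 : ℝ) 2, P l lam =
      ∫ lam in Set.Icc (1 : ℝ) 2, ∑ l ∈ Finset.range (2 * K), ext σ l * P l lam := by
    rw [integral_finsetSum _ fun l _ => (hPi l).const_mul _]
    exact Finset.sum_congr rfl fun l _ => (integral_const_mul _ _).symm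
  rw [h2, ← Real.enorm_eq_ofReal_abs]
  refine (enorm_integral_le_lintegral_enorm _).trans ?_
  unfold longW
  rw [← lintegral_const_mul' _ _ (by norm_num)]
  refine setLIntegral_mono' measurableSet_Icc fun lam hl => ?_
  have hl0 : 0 < lam := by linarith [hl.1]
  have hδ : 0 < lam / 2 ^ (K + 2) := by positivity
  have h3 : ∀ l : ℕ, P l lam = 8 / lam * ∫ ϑ in Set.Icc (0 : ℝ) 3,
      B3 ϑ * tri (l + 2) (samp φ (lam / 2 ^ (K + 2)) ϑ) := by
    intro l
    have e : a l * lam = 2 ^ (l + 2) * (lam / 2 ^ (K + 2)) := by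
      rw [ha]
      simp only
      rw [zpow_sub₀ (by norm_num), zpow_natCast, zpow_natCast]
      field_simp
      ring
    rw [← int_psi hφ (l + 2) hδ, ← integral_const_mul, hP]
    simp only [e, mul_assoc]
  have h4 : ∑ l ∈ Finset.range (2 * K), ext σ l * P l lam = 8 / lam * ∫ ϑ in Set.Icc (0 : ℝ) 3,
      B3 ϑ * ∑ l ∈ Finset.range (2 * K), ext σ l * tri (l + 2) (samp φ (lam / 2 ^ (K + 2)) ϑ) := by
    have : ∀ ϑ, B3 ϑ * ∑ l ∈ Finset.range (2 * K),
        ext σ l * tri (l + 2) (samp φ (lam / 2 ^ (K + 2)) ϑ) = ∑ l ∈ Finset.range (2 * K),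
        ext σ l * (B3 ϑ * tri (l + 2) (samp φ (lam / 2 ^ (K + 2)) ϑ)) := by
      intro ϑ
      rw [Finset.mul_sum]
      exact Finset.sum_congr rfl fun l _ => by ring
    simp only [this]
    rw [integral_finsetSum _ fun l _ => ((int_B3_tri hφ hδ (l + 2)).const_mul _).integrableOn,
      Finset.mul_sum]
    refine Finset.sum_congr rfl fun l _ => ?_
    rw [h3, integral_const_mul]
    ring
  rw [h4, enorm_mul]
  refine mul_le_mul' ?_ ((enorm_integral_le_lintegral_enorm _).trans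
    (lintegral_mono fun ϑ => ?_))
  · rw [Real.enorm_eq_ofReal (by positivity)]
    refine (ENNReal.ofReal_le_ofReal (div_le_self (by norm_num) hl.1)).trans ?_
    simp
  · rw [Real.enorm_eq_ofReal_abs, abs_mul]
    refine ENNReal.ofReal_le_ofReal ?_
    exact (mul_le_of_le_one_left (abs_nonneg _) (B3_abs_le _)).trans (le_varM _ σ hσ)

end Crest.Agent.R72
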