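import Crest.Agent.R72.RoughB
import Crest.Agent.R72.Scale

/-!
Rough kernels against the square functions.  PLAN.  `q l M = unif (l+M+1) (fun τ => haar (l+2) φ τ ^ 2) 0 ≥ 0`, `sqM M L φ = √(∑_{l<L} q l M)`.
`smooth_pair` for each `i` (with a window `W' ⊇` everything; `smooth (κ i) t = 0` outside `W`), `unif_tail` for the remainder.
Cauchy–Schwarz on a window `Ico (-2^m) (2^m)` containing the support: `|∑ haar κ * haar φ| ≤ √(2^(m+1) ∑ haar κ²) √(unif m (haar φ²) 0)`.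
* fine levels `l + 2 ≤ k i`: `m = k + 2 = l + M + 1`, `M = k - l + 1 ≤ L + 1`; the term is `≤ C c √(|J i| + 1) 2^(-M/2) √(q l M)`.
  For fixed `M` the levels `l = k i + 1 - M` are distinct, so Cauchy–Schwarz in `i` gives `√ν sqM M L φ`; sum over `M < L + 2`: `sqT`.
* coarse levels `k i ≤ l + 1`: `m = l + 4`, `M = 3`; the term is `≤ C c 2^((k - l)/2) √(q l 3)`; for fixed `d = l + 1 - k i` Cauchy–Schwarz in `i`
  gives `√(card s) sqM 3 L φ ≤ √ν sqM 3 L φ`; geometric sum in `d`; `2^(-3/2) sqM 3 L φ ≤ sqT L φ` as `3 < L + 2`.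
-/

set_option autoImplicit false

namespace Crest.Agent.R72

open Matrix Finset MeasureTheory
open scoped ENNReal

theorem ro_sum_eq {f : ℤ → ℝ} {A B : Finset ℤ} (hA : ∀ t, f t ≠ 0 → t ∈ A)
    (hB : ∀ t, f t ≠ 0 → t ∈ B) : ∑ t ∈ A, f t = ∑ t ∈ B, f t := by
  refine (Finset.sum_subset (Finset.subset_union_left (s₂ := B)) fun t _ ht => ?_).trans
    (Finset.sum_subset (Finset.subset_union_right (s₁ := A)) fun t _ ht => ?_).symm
  · by_contra h
    exact ht (hA t h)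
  · by_contra h
    exact ht (hB t h)

theorem ro_q_nonneg (m : ℕ) (g : ℤ → ℝ) : 0 ≤ unif m (fun τ => g τ ^ 2) 0 :=
  Finset.sum_nonneg fun t _ => by positivity

theorem ro_pair_cs (m : ℕ) (f g : ℤ → ℝ) {b : ℝ} (hb : 0 ≤ b)
    (h : 2 ^ (m + 1) * ∑ τ ∈ Finset.Ico (-(2 : ℤ) ^ m) (2 ^ m), f τ ^ 2 ≤ b ^ 2) :
    |∑ τ ∈ Finset.Ico (-(2 : ℤ) ^ m) (2 ^ m), f τ * g τ| ≤
      b * Real.sqrt (unif m (fun τ => g τ ^ 2) 0) := by
  have h1 := Finset.sum_mul_sq_le_sq_mul_sq (Finset.Ico (-(2 : ℤ) ^ m) (2 ^ m)) f g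
  have h2 : ∑ τ ∈ Finset.Ico (-(2 : ℤ) ^ m) (2 ^ m), g τ ^ 2 =
      2 ^ (m + 1) * unif m (fun τ => g τ ^ 2) 0 := by
    rw [rb_unif_eq, zero_sub, zero_add]
    field_simp
  rw [h2, mul_left_comm, ← mul_assoc] at h1
  have h3 := h1.trans (mul_le_mul_of_nonneg_right h (ro_q_nonneg m g))
  refine (Real.abs_le_sqrt h3).trans_eq ?_
  rw [Real.sqrt_mul (sq_nonneg _), Real.sqrt_sq hb]

theorem ro_inj_cs {ι : Type} (s : Finset ι) {k : ι → ℕ} (hk : Set.InjOn k s) {a : ι → ℝ} {ν : ℝ}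
    (ha : ∑ i ∈ s, a i ^ 2 ≤ ν) {x : ℕ → ℝ} (hx : ∀ l, 0 ≤ x l) (L M d : ℕ) :
    ∑ i ∈ s, ∑ l ∈ Finset.range L, (if l + M = k i + d then a i * Real.sqrt (x l) else 0) ≤
      Real.sqrt ν * Real.sqrt (∑ l ∈ Finset.range L, x l) := by
  classical
  have h1 := Real.sum_mul_le_sqrt_mul_sqrt (s ×ˢ Finset.range L)
    (fun p => if p.2 + M = k p.1 + d then a p.1 else 0)
    (fun p => if p.2 + M = k p.1 + d then Real.sqrt (x p.2) else 0)
  rw [Finset.sum_product, Finset.sum_product, Finset.sum_product_right] at h1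
  refine le_trans (le_of_eq ?_) (h1.trans (mul_le_mul (Real.sqrt_le_sqrt (le_trans ?_ ha))
    (Real.sqrt_le_sqrt ?_) (Real.sqrt_nonneg _) (Real.sqrt_nonneg _)))
  · refine Finset.sum_congr rfl fun i _ => Finset.sum_congr rfl fun l _ => ?_
    split_ifs <;> simp
  · refine Finset.sum_le_sum fun i _ => ?_
    simp only [ite_pow, ne_eq, OfNat.ofNat_ne_zero, not_false_eq_true, zero_pow]
    rw [← Finset.sum_filter, Finset.sum_const, nsmul_eq_mul]
    refine mul_le_of_le_one_left (sq_nonneg _) (Nat.cast_le_one.2 (Finset.card_le_one.2 ?_))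
    intro l hl l' hl'
    have := (Finset.mem_filter.1 hl).2
    have := (Finset.mem_filter.1 hl').2
    omega
  · refine Finset.sum_le_sum fun l _ => ?_
    simp only [ite_pow, ne_eq, OfNat.ofNat_ne_zero, not_false_eq_true, zero_pow,
      Real.sq_sqrt (hx l)]
    rw [← Finset.sum_filter, Finset.sum_const, nsmul_eq_mul]
    refine mul_le_of_le_one_left (hx l) (Nat.cast_le_one.2 (Finset.card_le_one.2 ?_))
    intro i hi i' hi'
    obtain ⟨h2, h3⟩ := Finset.mem_filter.1 hi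
    obtain ⟨h4, h5⟩ := Finset.mem_filter.1 hi'
    exact hk h2 h4 (by omega)

theorem ro_w_sq (M : ℕ) : ((2 : ℝ) ^ (-(M : ℝ) / 2)) ^ 2 = 1 / 2 ^ M := by
  rw [← Real.rpow_natCast, ← Real.rpow_mul zero_le_two, one_div, ← Real.rpow_natCast,
    ← Real.rpow_neg zero_le_two]
  congr 1
  push_cast
  ring

/-- one level of one kernel -/
theorem ro_level {c : ℝ} {k : ℕ} {κ : ℤ → ℝ} {J : Finset ℤ} (h : RK c k κ J) {L l : ℕ} (hk : k ≤ L)
    (hl : l < L) (φ : ℤ → ℝ) {W : Finset ℤ} (hW : ∀ t : ℤ, |t| ≤ 3 * 2 ^ k + 2 ^ (L + 2) → t ∈ W) :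
    |∑ τ ∈ W, haar (l + 2) κ τ * haar (l + 2) φ τ| ≤
      ∑ M ∈ Finset.range (L + 2), 12 * c * (2 : ℝ) ^ (-(M : ℝ) / 2) *
        (if l + M = k + 1 then Real.sqrt (J.card + 1) *
          Real.sqrt (unif (l + M + 1) (fun τ => haar (l + 2) φ τ ^ 2) 0) else 0) +
      ∑ d ∈ Finset.range (L + 2), 32 * c * (3 / 4 : ℝ) ^ d *
        (if l + 1 = k + d then Real.sqrt (J.card + 1) *
          Real.sqrt (unif (l + 3 + 1) (fun τ => haar (l + 2) φ τ ^ 2) 0) else 0) := by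
  have hc := h.c_nonneg
  have hJ : (0 : ℝ) ≤ J.card + 1 := by positivity
  have hW' : ∀ τ, haar (l + 2) κ τ * haar (l + 2) φ τ ≠ 0 → τ ∈ W := by
    intro τ hτ
    obtain ⟨t, h1, h2, h3⟩ := rb_haar_supp (left_ne_zero_of_mul hτ)
    have h4 := h.supp _ h3
    have h5 : (2 : ℤ) ^ (l + 2) ≤ 2 ^ (L + 2) := pow_le_pow_right₀ (by norm_num) (by omega)
    exact hW τ (abs_le.2 (by omega))
  have n1 : ∀ M : ℕ, 0 ≤ 12 * c * (2 : ℝ) ^ (-(M : ℝ) / 2) *
      (if l + M = k + 1 then Real.sqrt (J.card + 1) *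
        Real.sqrt (unif (l + M + 1) (fun τ => haar (l + 2) φ τ ^ 2) 0) else 0) := fun M => by
    split_ifs <;> positivity
  have n2 : ∀ d : ℕ, 0 ≤ 32 * c * (3 / 4 : ℝ) ^ d *
      (if l + 1 = k + d then Real.sqrt (J.card + 1) *
        Real.sqrt (unif (l + 3 + 1) (fun τ => haar (l + 2) φ τ ^ 2) 0) else 0) := fun d => by
    split_ifs <;> positivity
  by_cases hf : l + 2 ≤ k
  · obtain ⟨M, hM⟩ : ∃ M, l + M = k + 1 := ⟨k + 1 - l, by omega⟩
    refine le_add_of_le_of_nonneg (le_trans ?_ (Finset.single_le_sum (fun M _ => n1 M)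
      (Finset.mem_range.2 (show M < L + 2 by omega)))) (Finset.sum_nonneg fun d _ => n2 d)
    rw [if_pos hM, ro_sum_eq hW' fun τ hτ => haar_fine_supp h hf (left_ne_zero_of_mul hτ),
      ← mul_assoc, show l + M + 1 = k + 2 by omega]
    refine ro_pair_cs _ _ _ (by positivity) ?_
    refine (mul_le_mul_of_nonneg_left (haar_fine h hf) (by positivity)).trans ?_
    have h4 : (4 : ℝ) ^ k = 2 ^ k * 2 ^ k := by rw [← mul_pow]; norm_num
    have h5 : (2 : ℝ) ^ l * 2 ^ M = 2 ^ k * 2 := by rw [← pow_add, hM, pow_succ]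
    rw [mul_pow, mul_pow, ro_w_sq, Real.sq_sqrt hJ]
    calc (2 : ℝ) ^ (k + 2 + 1) * (8 * c ^ 2 * (J.card + 1) * 2 ^ l / 4 ^ k)
        = 64 * c ^ 2 * (J.card + 1) * (2 ^ l * 2 ^ M) / (2 ^ k * 2 ^ M) := by
          rw [h4]
          field_simp
          ring
      _ = 128 * c ^ 2 * (1 / 2 ^ M) * (J.card + 1) := by
          rw [h5]
          field_simp
          ring
      _ ≤ _ := by
          rw [mul_pow]
          gcongr
          norm_num
  · obtain ⟨d, hd⟩ : ∃ d, l + 1 = k + d := ⟨l + 1 - k, by omega⟩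
    refine le_add_of_nonneg_of_le (Finset.sum_nonneg fun M _ => n1 M)
      (le_trans ?_ (Finset.single_le_sum (fun d _ => n2 d)
      (Finset.mem_range.2 (show d < L + 2 by omega))))
    rw [if_pos hd, ro_sum_eq hW' fun τ hτ =>
      haar_coarse_supp h (by omega) (left_ne_zero_of_mul hτ), ← mul_assoc]
    refine ro_pair_cs _ _ _ (by positivity) ?_
    refine (mul_le_mul_of_nonneg_left (haar_coarse h (by omega)) (by positivity)).trans ?_
    have h4 : (4 : ℝ) ^ l = 2 ^ l * 2 ^ l := by rw [← mul_pow]; norm_num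
    have h5 : (2 : ℝ) ^ k * 2 ^ d = 2 ^ l * 2 := by rw [← pow_add, ← hd, pow_succ]
    have h6 : (1 / 2 : ℝ) ^ d ≤ ((3 / 4) ^ d) ^ 2 := by
      rw [← pow_mul, mul_comm, pow_mul]
      exact pow_le_pow_left₀ (by norm_num) (by norm_num) d
    have h7 : (1 : ℝ) ≤ J.card + 1 := by linarith [Nat.cast_nonneg (α := ℝ) J.card]
    rw [mul_pow, mul_pow, Real.sq_sqrt hJ]
    calc (2 : ℝ) ^ (l + 4 + 1) * (16 * c ^ 2 * 2 ^ k / 4 ^ l)
        = 512 * c ^ 2 * (2 ^ k * 2 ^ d) / (2 ^ l * 2 ^ d) := by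
          rw [h4]
          field_simp
          ring
      _ = (32 * c) ^ 2 * (1 / 2) ^ d * 1 := by
          rw [h5, one_div, inv_pow]
          field_simp
          ring
      _ ≤ _ := by gcongr

theorem rough_disc : ∃ C : ℝ, 0 ≤ C ∧ ∀ {ι : Type} (s : Finset ι) (k : ι → ℕ) (κ : ι → ℤ → ℝ)
    (J : ι → Finset ℤ) (L : ℕ) (c ν : ℝ) (φ : ℤ → ℝ) (W : Finset ℤ), 2 ≤ L → 0 ≤ c →
    Set.InjOn k s → (∀ i ∈ s, k i ≤ L) → (∀ i ∈ s, RK c (k i) (κ i) (J i)) →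
    (∑ i ∈ s, (((J i).card : ℝ) + 1) ≤ ν) →
    (∀ i ∈ s, ∀ t : ℤ, |t| ≤ 3 * 2 ^ k i + 3 → t ∈ W) →
    |∑ i ∈ s, ∑ t ∈ W, smooth (κ i) t * φ t| ≤ C * c * Real.sqrt ν * sqT L φ +
      C * c * (∑ i ∈ s, (2 : ℝ) ^ k i / 2 ^ L) * unif (L + 3) (fun t => |φ t|) 0 := by
  refine ⟨400, by norm_num, fun {ι} s k κ J L c ν φ W hL hc hk hkL hR hν hW => ?_⟩
  have hU0 : 0 ≤ unif (L + 3) (fun t => |φ t|) 0 := Finset.sum_nonneg fun t _ => by positivity
  have ha : ∑ i ∈ s, Real.sqrt ((J i).card + 1) ^ 2 ≤ ν := by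
    refine le_trans (le_of_eq (Finset.sum_congr rfl fun i _ => Real.sq_sqrt ?_)) hν
    positivity
  have one : ∀ i ∈ s, |∑ t ∈ W, smooth (κ i) t * φ t| ≤
      100 * c * (2 ^ k i / 2 ^ L) * unif (L + 3) (fun t => |φ t|) 0 + ∑ l ∈ Finset.range L,
      (∑ M ∈ Finset.range (L + 2), 12 * c * (2 : ℝ) ^ (-(M : ℝ) / 2) *
        (if l + M = k i + 1 then Real.sqrt ((J i).card + 1) *
          Real.sqrt (unif (l + M + 1) (fun τ => haar (l + 2) φ τ ^ 2) 0) else 0) +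
      ∑ d ∈ Finset.range (L + 2), 32 * c * (3 / 4 : ℝ) ^ d *
        (if l + 1 = k i + d then Real.sqrt ((J i).card + 1) *
          Real.sqrt (unif (l + 3 + 1) (fun τ => haar (l + 2) φ τ ^ 2) 0) else 0)) := by
    intro i hi
    have h := hR i hi
    have hs : ∀ t, κ i t ≠ 0 → |t| ≤ 3 * 2 ^ k i := fun t ht => by
      have := h.supp t ht
      exact abs_le.2 (by omega)
    have hW' : ∀ t : ℤ, |t| ≤ 3 * 2 ^ k i + 2 ^ (L + 2) →
        t ∈ Finset.Icc (-(3 * 2 ^ k i + 2 ^ (L + 2) : ℤ)) (3 * 2 ^ k i + 2 ^ (L + 2)) :=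
      fun t ht => Finset.mem_Icc.2 (abs_le.1 ht)
    have hsm : ∀ t, smooth (κ i) t * φ t ≠ 0 → |t| ≤ 3 * 2 ^ k i + 3 := by
      intro t ht
      obtain ⟨u, hu, h1⟩ := Finset.exists_ne_zero_of_sum_ne_zero (left_ne_zero_of_mul ht)
      have h2 := h.supp _ (right_ne_zero_of_mul h1)
      rw [Finset.mem_Icc] at hu
      exact abs_le.2 (by omega)
    have h4 : (3 : ℤ) ≤ 2 ^ (L + 2) := by
      have : (0 : ℤ) < 2 ^ L := by positivity
      rw [pow_add]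
      omega
    rw [ro_sum_eq (fun t ht => hW i hi t (hsm t ht)) fun t ht => hW' t ((hsm t ht).trans (by omega)),
      smooth_pair (κ i) φ _ hs L _ hW']
    exact (abs_add_le _ _).trans (add_le_add (unif_tail h (hkL i hi) φ _)
      ((Finset.abs_sum_le_sum_abs _ _).trans (Finset.sum_le_sum fun l hl =>
        ro_level h (hkL i hi) (Finset.mem_range.1 hl) φ hW')))
  refine (Finset.abs_sum_le_sum_abs _ _).trans ((Finset.sum_le_sum one).trans ?_)
  simp only [Finset.sum_add_distrib]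
  have swap : ∀ (w : ℕ → ℝ) (F : ι → ℕ → ℕ → ℝ),
      ∑ i ∈ s, ∑ l ∈ Finset.range L, ∑ M ∈ Finset.range (L + 2), w M * F i l M =
        ∑ M ∈ Finset.range (L + 2), w M * ∑ i ∈ s, ∑ l ∈ Finset.range L, F i l M := by
    intro w F
    simp only [Finset.mul_sum]
    rw [Finset.sum_congr rfl fun i _ => Finset.sum_comm, Finset.sum_comm]
  rw [swap, swap, ← Finset.sum_mul, ← Finset.mul_sum]
  have hν0 := Real.sqrt_nonneg ν
  have hT := sqT_nonneg L φ
  have f1 : ∑ M ∈ Finset.range (L + 2), 12 * c * (2 : ℝ) ^ (-(M : ℝ) / 2) *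
      ∑ i ∈ s, ∑ l ∈ Finset.range L, (if l + M = k i + 1 then Real.sqrt ((J i).card + 1) *
        Real.sqrt (unif (l + M + 1) (fun τ => haar (l + 2) φ τ ^ 2) 0) else 0) ≤
      12 * c * Real.sqrt ν * sqT L φ := by
    rw [sqT, Finset.mul_sum]
    refine Finset.sum_le_sum fun M _ => ?_
    refine (mul_le_mul_of_nonneg_left (ro_inj_cs s hk ha
      (x := fun l => unif (l + M + 1) (fun τ => haar (l + 2) φ τ ^ 2) 0)
      (fun l => ro_q_nonneg _ _) L M 1) (by positivity)).trans_eq ?_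
    rw [sqM]
    ring
  have f2 : ∑ d ∈ Finset.range (L + 2), 32 * c * (3 / 4 : ℝ) ^ d *
      ∑ i ∈ s, ∑ l ∈ Finset.range L, (if l + 1 = k i + d then Real.sqrt ((J i).card + 1) *
        Real.sqrt (unif (l + 3 + 1) (fun τ => haar (l + 2) φ τ ^ 2) 0) else 0) ≤
      384 * c * Real.sqrt ν * sqT L φ := by
    have g1 : (2 : ℝ) ^ (-((3 : ℕ) : ℝ) / 2) * sqM 3 L φ ≤ sqT L φ :=
      Finset.single_le_sum (f := fun M : ℕ => (2 : ℝ) ^ (-(M : ℝ) / 2) * sqM M L φ)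
        (fun M _ => mul_nonneg (by positivity) (sqM_nonneg _ _ _))
        (Finset.mem_range.2 (show 3 < L + 2 by omega))
    have g2 : 1 / 3 ≤ (2 : ℝ) ^ (-((3 : ℕ) : ℝ) / 2) := by
      refine (le_abs_self _).trans (abs_le_of_sq_le_sq ?_ (by positivity))
      rw [ro_w_sq]
      norm_num
    have g3 : sqM 3 L φ ≤ 3 * sqT L φ := by
      have := mul_le_mul_of_nonneg_right g2 (sqM_nonneg 3 L φ)
      linarith
    have g4 : ∑ d ∈ Finset.range (L + 2), (3 / 4 : ℝ) ^ d ≤ 4 := by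
      rw [geom_sum_eq (by norm_num)]
      have : (0 : ℝ) ≤ (3 / 4) ^ (L + 2) := by positivity
      rw [div_le_iff_of_neg (by norm_num)]
      linarith
    calc _ ≤ ∑ d ∈ Finset.range (L + 2), 32 * c * (3 / 4 : ℝ) ^ d * (Real.sqrt ν * sqM 3 L φ) :=
          Finset.sum_le_sum fun d _ => mul_le_mul_of_nonneg_left (ro_inj_cs s hk ha
            (x := fun l => unif (l + 3 + 1) (fun τ => haar (l + 2) φ τ ^ 2) 0)
            (fun l => ro_q_nonneg _ _) L 1 d) (by positivity)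
      _ = 32 * c * (∑ d ∈ Finset.range (L + 2), (3 / 4 : ℝ) ^ d) * (Real.sqrt ν * sqM 3 L φ) := by
          rw [Finset.mul_sum, Finset.sum_mul]
      _ ≤ 32 * c * 4 * (Real.sqrt ν * (3 * sqT L φ)) := by
          have := sqM_nonneg 3 L φ
          gcongr
      _ = _ := by ring
  have p1 : 0 ≤ c * Real.sqrt ν * sqT L φ := by positivity
  have p2 : 0 ≤ c * (∑ i ∈ s, (2 : ℝ) ^ k i / 2 ^ L) * unif (L + 3) (fun t => |φ t|) 0 := by
    positivity
  linarith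

end Crest.Agent.R72
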