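import Crest.Agent.R72.Defs2

/-!
The parallelogram expansion of a pairing.  PLAN.
`unif (j+1) φ τ = (unif j φ (τ - 2^j) + unif j φ (τ + 2^j)) / 2`, `haar (j+1) φ τ = (unif j φ (τ - 2^j) - unif j φ (τ + 2^j)) / 2`.
So with `P j = ∑' τ, unif j κ τ * unif j φ τ` (finite support, translation invariance `Equiv.tsum_eq`/`Equiv.addRight`),
`P j = P (j+1) + ∑' τ, haar (j+1) κ τ * haar (j+1) φ τ`, and `P 1 = ∑' t, smooth κ t * φ t`
(`∑_{s,s' ∈ Ico (-2) 2} κ (t - s' + s) / 16 = ∑_{|d| ≤ 3} (4 - |d|)/16 κ (t + d)`).  Finally replace each `∑'` by the finite sum (`tsum_eq_sum`).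
-/

set_option autoImplicit false

namespace Crest.Agent.R72

open Matrix Finset MeasureTheory
open scoped ENNReal

theorem sum_Ico_halves (j : ℕ) (f : ℤ → ℝ) :
    ∑ t ∈ Finset.Ico (-(2 : ℤ) ^ (j + 1)) (2 ^ (j + 1)), f t =
      ∑ t ∈ Finset.Ico (-(2 : ℤ) ^ j) (2 ^ j), (f (t - 2 ^ j) + f (t + 2 ^ j)) := by
  have h : (0 : ℤ) ≤ 2 ^ (j + 1) := by positivity
  rw [← Finset.Ico_union_Ico_eq_Ico (neg_nonpos.2 h) h,
    Finset.sum_union (Finset.Ico_disjoint_Ico_consecutive _ _ _), Finset.sum_add_distrib]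
  simp only [sub_eq_add_neg, Finset.sum_Ico_add']
  congr 3 <;> ring

theorem unif_succ (j : ℕ) (φ : ℤ → ℝ) (τ : ℤ) :
    unif (j + 1) φ τ = (unif j φ (τ - 2 ^ j) + unif j φ (τ + 2 ^ j)) / 2 := by
  rw [unif, sum_Ico_halves, unif, unif, ← Finset.sum_add_distrib, Finset.sum_div]
  refine Finset.sum_congr rfl fun t _ => ?_
  rw [show τ + (t - 2 ^ j) = τ - 2 ^ j + t by ring, show τ + (t + 2 ^ j) = τ + 2 ^ j + t by ring]
  ring

theorem haar_succ (j : ℕ) (φ : ℤ → ℝ) (τ : ℤ) :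
    haar (j + 1) φ τ = (unif j φ (τ - 2 ^ j) - unif j φ (τ + 2 ^ j)) / 2 := by
  rw [haar, sum_Ico_halves, unif, unif, ← Finset.sum_sub_distrib, Finset.sum_div]
  refine Finset.sum_congr rfl fun t ht => ?_
  rw [Finset.mem_Ico] at ht
  rw [show τ + (t - 2 ^ j) = τ - 2 ^ j + t by ring, show τ + (t + 2 ^ j) = τ + 2 ^ j + t by ring,
    dsgn, dsgn, if_pos (by linarith [ht.2]), if_neg (by linarith [ht.1])]
  ring

theorem win_eq_zero {κ : ℤ → ℝ} {R : ℤ} (hs : ∀ t, κ t ≠ 0 → |t| ≤ R) (w : ℤ → ℝ) {j : ℕ} {τ : ℤ}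
    (h : R + 2 ^ j < |τ|) : ∑ t ∈ Finset.Ico (-(2 : ℤ) ^ j) (2 ^ j), w t * κ (τ + t) = 0 :=
  Finset.sum_eq_zero fun t ht => by
    rw [Finset.mem_Ico] at ht
    refine mul_eq_zero_of_right _ (by_contra fun h0 => ?_)
    have h1 := abs_le.1 (hs _ h0)
    rcases lt_abs.1 h with h | h <;> linarith [ht.1, ht.2, h1.1, h1.2]

theorem unif_one (φ : ℤ → ℝ) (τ : ℤ) :
    unif 1 φ τ = (φ (τ + -2) + φ (τ + -1) + φ (τ + 0) + φ (τ + 1)) / 4 := by
  rw [unif, show Finset.Ico (-(2 : ℤ) ^ 1) (2 ^ 1) = {-2, -1, 0, 1} by decide]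
  simp
  ring

/-- expansion of the smoothed pairing; `W` is any window containing all the supports -/
theorem smooth_pair (κ φ : ℤ → ℝ) (R : ℤ) (hs : ∀ t, κ t ≠ 0 → |t| ≤ R) (L : ℕ) (W : Finset ℤ)
    (hW : ∀ t : ℤ, |t| ≤ R + 2 ^ (L + 2) → t ∈ W) :
    ∑ t ∈ W, smooth κ t * φ t = ∑ τ ∈ W, unif (L + 1) κ τ * unif (L + 1) φ τ +
      ∑ l ∈ Finset.range L, ∑ τ ∈ W, haar (l + 2) κ τ * haar (l + 2) φ τ := by
  have hw : ∀ j ≤ L + 2, ∀ τ ∉ W, R + 2 ^ j < |τ| := fun j hj τ hτ =>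
    lt_of_le_of_lt (by gcongr; norm_num) (not_le.1 (mt (hW τ) hτ))
  have hu : ∀ j ≤ L + 2, ∀ ψ : ℤ → ℝ, HasSum (fun τ => unif j κ τ * ψ τ) (∑ τ ∈ W, unif j κ τ * ψ τ) :=
    fun j hj ψ => hasSum_sum_of_ne_finset_zero fun τ hτ =>
      mul_eq_zero_of_left (win_eq_zero hs _ (hw j hj τ hτ)) _
  have hh : ∀ j ≤ L + 2, ∀ ψ : ℤ → ℝ, HasSum (fun τ => haar j κ τ * ψ τ) (∑ τ ∈ W, haar j κ τ * ψ τ) :=
    fun j hj ψ => hasSum_sum_of_ne_finset_zero fun τ hτ =>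
      mul_eq_zero_of_left (win_eq_zero hs _ (hw j hj τ hτ)) _
  have h0 : ∑ t ∈ W, smooth κ t * φ t = ∑ τ ∈ W, unif 1 κ τ * unif 1 φ τ := by
    have h1 : ∀ s : ℤ, HasSum (fun t => unif 1 κ (t - s) * φ t) (∑ τ ∈ W, unif 1 κ τ * φ (τ + s)) :=
      fun s => by
        simpa [Function.comp_def] using
          (Equiv.subRight s).hasSum_iff.2 (hu 1 (by omega) fun τ => φ (τ + s))
    have h2 := ((((h1 (-2)).add (h1 (-1))).add (h1 0)).add (h1 1)).div_const 4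
    have h3 : ∀ t, smooth κ t * φ t = (unif 1 κ (t - -2) * φ t + unif 1 κ (t - -1) * φ t +
        unif 1 κ (t - 0) * φ t + unif 1 κ (t - 1) * φ t) / 4 := fun t => by
      rw [smooth, show Finset.Icc (-3 : ℤ) 3 = {-3, -2, -1, 0, 1, 2, 3} by decide]
      simp [unif_one, sub_eq_add_neg, add_assoc]
      ring
    simp only [← h3] at h2
    have h4 : HasSum (fun t => smooth κ t * φ t) (∑ t ∈ W, smooth κ t * φ t) :=
      hasSum_sum_of_ne_finset_zero fun τ hτ => mul_eq_zero_of_left (Finset.sum_eq_zero fun t ht => by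
        rw [Finset.mem_Icc] at ht
        refine mul_eq_zero_of_right _ (by_contra fun h0 => ?_)
        have h1 := abs_le.1 (hs _ h0)
        rcases lt_abs.1 (hw 2 (by omega) τ hτ) with h | h <;> linarith [ht.1, ht.2, h1.1, h1.2]) _
    rw [h4.unique h2]
    simp only [unif_one φ, ← Finset.sum_add_distrib, Finset.sum_div]
    exact Finset.sum_congr rfl fun t _ => by ring
  have key : ∀ l ≤ L, ∑ τ ∈ W, unif 1 κ τ * unif 1 φ τ = ∑ τ ∈ W, unif (l + 1) κ τ * unif (l + 1) φ τ +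
      ∑ l ∈ Finset.range l, ∑ τ ∈ W, haar (l + 2) κ τ * haar (l + 2) φ τ := fun l hl => by
    induction l with
    | zero => simp
    | succ l ih =>
      have h1 := hu (l + 1) (by omega) (unif (l + 1) φ)
      have h2 := (((Equiv.subRight (2 ^ (l + 1))).hasSum_iff.2 h1).add
        ((Equiv.addRight (2 ^ (l + 1))).hasSum_iff.2 h1)).div_const 2
      have h3 := (hu (l + 2) (by omega) (unif (l + 2) φ)).add (hh (l + 2) (by omega) (haar (l + 2) φ))
      have h4 := h3.unique (by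
        refine cast (congrArg (HasSum · _) (funext fun τ => ?_)) h2
        simp only [unif_succ (l + 1), haar_succ (l + 1), Function.comp, Equiv.subRight_apply,
          Equiv.coe_addRight]
        ring)
      rw [ih (by omega), Finset.sum_range_succ]
      linarith
  rw [h0, key L le_rfl]

end Crest.Agent.R72
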