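import Crest.Agent.R72.RoughA

/-!
Size of the Haar coefficients of a rough kernel.  PLAN (`j = l + 2`, window of `τ` = `τ + Ico (-2^j) (2^j)`).
* support: the window must meet `Ico (-3 * 2^k) (3 * 2^k)`.
* `haar_fine`: always `|haar j κ τ| ≤ c / 2^k`; at most `|J| 2^(j+1)` windows contain a point of `J`.  For the others,
  `haar j κ τ = ∑_{t ∈ Ico (-2^j) 0} (κ (τ+t) - κ (τ+t+2^j)) / 2^(j+1)` and each difference is at most `2^j c / 4^k`
  (telescoping), so `|haar| ≤ 2^(j-1) c / 4^k`; there are `2^(k+3)` values of `τ`; `2^(l+2) ≤ 2^k`.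
* `haar_coarse`: `|haar j κ τ| ≤ ‖κ‖₁ / 2^(j+1) ≤ 6 c / 2^(l+3)`, and it vanishes unless one of the three cut points
  `τ - 2^j, τ, τ + 2^j` lies in `Ioo (-3 * 2^k) (3 * 2^k)` (otherwise each half window contains the whole support or misses it; `sum0`):
  at most `18 * 2^k` values.
* `unif_tail`: `|unif (L+1) κ τ| ≤ 6 c / 2^(L+2)`, zero unless `τ ± 2^(L+1) ∈ Ioo (-3 * 2^k) (3 * 2^k)` (at most `12 * 2^k` values, all with
  `|τ| ≤ 5 * 2^L`), and there `|unif (L+1) φ τ| ≤ 4 unif (L+3) |φ| 0`.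
-/

set_option autoImplicit false

namespace Crest.Agent.R72

open Matrix Finset MeasureTheory
open scoped ENNReal

variable {c : ℝ} {k : ℕ} {κ : ℤ → ℝ} {J : Finset ℤ}

theorem rb_unif_eq (j : ℕ) (φ : ℤ → ℝ) (τ : ℤ) :
    unif j φ τ = (∑ t ∈ Finset.Ico (τ - 2 ^ j) (τ + 2 ^ j), φ t) / 2 ^ (j + 1) := by
  unfold unif
  rw [← Finset.mul_sum, one_div, ← div_eq_inv_mul]
  congr 1
  have := Finset.sum_Ico_add' φ (-(2 : ℤ) ^ j) (2 ^ j) τ
  rw [show -(2 : ℤ) ^ j + τ = τ - 2 ^ j by ring, add_comm ((2 : ℤ) ^ j) τ] at this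
  rw [← this]
  simp only [add_comm]

theorem rb_haar_eq (j : ℕ) (φ : ℤ → ℝ) (τ : ℤ) :
    haar j φ τ = (∑ t ∈ Finset.Ico (τ - 2 ^ j) τ, φ t - ∑ t ∈ Finset.Ico τ (τ + 2 ^ j), φ t) /
      2 ^ (j + 1) := by
  have hp : (0 : ℤ) < 2 ^ j := by positivity
  unfold haar
  rw [← Finset.Ico_union_Ico_eq_Ico (show -(2 : ℤ) ^ j ≤ 0 by omega) hp.le,
    Finset.sum_union (Finset.Ico_disjoint_Ico_consecutive _ _ _)]
  have h1 := Finset.sum_Ico_add' φ (-(2 : ℤ) ^ j) 0 τ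
  have h2 := Finset.sum_Ico_add' φ 0 (2 ^ j) τ
  rw [show -(2 : ℤ) ^ j + τ = τ - 2 ^ j by ring, zero_add] at h1
  rw [zero_add, add_comm ((2 : ℤ) ^ j) τ] at h2
  rw [← h1, ← h2, sub_div, Finset.sum_div, Finset.sum_div, sub_eq_add_neg, ← Finset.sum_neg_distrib]
  congr 1
  · refine Finset.sum_congr rfl fun t ht => ?_
    rw [dsgn, if_pos (Finset.mem_Ico.1 ht).2, add_comm τ t]
    ring
  · refine Finset.sum_congr rfl fun t ht => ?_
    rw [dsgn, if_neg (not_lt.2 (Finset.mem_Ico.1 ht).1), add_comm τ t]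
    ring

theorem RK.c_nonneg (h : RK c k κ J) : 0 ≤ c := by
  have h1 := (abs_nonneg _).trans (h.bd 0)
  rwa [le_div_iff₀ (by positivity), zero_mul] at h1

theorem rb_sum_le {f : ℤ → ℝ} {b : ℝ} (hb : 0 ≤ b) (S T : Finset ℤ) (h1 : ∀ τ ∈ T, f τ ≤ b)
    (h2 : ∀ τ, τ ∉ T → f τ ≤ 0) : ∑ τ ∈ S, f τ ≤ T.card * b := by
  calc ∑ τ ∈ S, f τ ≤ ∑ τ ∈ S, if τ ∈ T then b else 0 := by
        refine Finset.sum_le_sum fun τ _ => ?_
        split_ifs with h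
        · exact h1 τ h
        · exact h2 τ h
    _ = (S ∩ T).card * b := by
        rw [← Finset.sum_filter, Finset.filter_mem_eq_inter, Finset.sum_const, nsmul_eq_mul]
    _ ≤ T.card * b := by
        gcongr
        exact Finset.inter_subset_right

theorem rb_card_Ico (a b : ℤ) (h : a ≤ b) : ((Finset.Ico a b).card : ℝ) = b - a := by
  have := Int.card_Ico_of_le a b h
  exact_mod_cast this

theorem rb_card_Ioo (a b : ℤ) (h : a ≤ b) : ((Finset.Ioo a b).card : ℝ) ≤ b - a := by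
  rw [← rb_card_Ico a b h]
  exact_mod_cast Finset.card_le_card Finset.Ioo_subset_Ico_self

theorem RK.l1 (h : RK c k κ J) (S : Finset ℤ) : ∑ t ∈ S, |κ t| ≤ 6 * c := by
  have hp : (0 : ℤ) < 2 ^ k := by positivity
  have h1 := rb_sum_le (f := fun t => |κ t|) (b := c / 2 ^ k)
    (div_nonneg h.c_nonneg (by positivity)) S (Finset.Ico (-3 * 2 ^ k) (3 * 2 ^ k))
    (fun t _ => h.bd t) fun t ht => by
      by_contra h2
      exact ht (Finset.mem_Ico.2 (h.supp t fun h3 => h2 (by simp [h3])))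
  rw [rb_card_Ico _ _ (by omega)] at h1
  refine h1.trans_eq ?_
  push_cast
  field_simp
  ring

theorem RK.sum_eq_zero (h : RK c k κ J) {a b : ℤ} (ha : a ∉ Finset.Ioo (-3 * 2 ^ k : ℤ) (3 * 2 ^ k))
    (hb : b ∉ Finset.Ioo (-3 * 2 ^ k : ℤ) (3 * 2 ^ k)) : ∑ t ∈ Finset.Ico a b, κ t = 0 := by
  rw [Finset.mem_Ioo] at ha hb
  by_cases h1 : a ≤ -3 * 2 ^ k ∧ 3 * 2 ^ k ≤ b
  · rw [← h.sum0]
    symm
    refine Finset.sum_subset (Finset.Ico_subset_Ico h1.1 h1.2) fun t _ ht => ?_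
    by_contra h2
    exact ht (Finset.mem_Ico.2 (h.supp t h2))
  · refine Finset.sum_eq_zero fun t ht => ?_
    by_contra h2
    have h3 := h.supp t h2
    rw [Finset.mem_Ico] at ht
    omega

theorem RK.tele (h : RK c k κ J) (a : ℤ) (n : ℕ) (hJ : ∀ s, a ≤ s → s < a + n → s ∉ J) :
    |κ a - κ (a + n)| ≤ n * (c / 4 ^ k) := by
  induction n with
  | zero => simp
  | succ n ih =>
    have h1 := ih fun s h1 h2 => hJ s h1 (by push_cast; omega)
    have h2 := h.lip (a + n) (hJ _ (by omega) (by push_cast; omega))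
    have h3 := abs_sub_le (κ a) (κ (a + n)) (κ (a + n + 1))
    rw [abs_sub_comm] at h2
    push_cast
    rw [← add_assoc]
    linarith

theorem rb_haar_supp {j : ℕ} {τ : ℤ} (hτ : haar j κ τ ≠ 0) :
    ∃ t, -(2 : ℤ) ^ j ≤ t ∧ t < 2 ^ j ∧ κ (τ + t) ≠ 0 := by
  obtain ⟨t, ht, h⟩ := Finset.exists_ne_zero_of_sum_ne_zero hτ
  exact ⟨t, (Finset.mem_Ico.1 ht).1, (Finset.mem_Ico.1 ht).2, right_ne_zero_of_mul h⟩

theorem haar_fine_supp (h : RK c k κ J) {l : ℕ} (hl : l + 2 ≤ k) {τ : ℤ} (hτ : haar (l + 2) κ τ ≠ 0) :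
    τ ∈ Finset.Ico (-(2 : ℤ) ^ (k + 2)) (2 ^ (k + 2)) := by
  obtain ⟨t, h1, h2, h3⟩ := rb_haar_supp hτ
  have h4 := h.supp _ h3
  have h5 : (2 : ℤ) ^ (l + 2) ≤ 2 ^ k := pow_le_pow_right₀ (by norm_num) hl
  rw [Finset.mem_Ico, pow_add]
  omega

theorem RK.haar_le (h : RK c k κ J) (j : ℕ) (τ : ℤ) : |haar j κ τ| ≤ c / 2 ^ k := by
  have hp : (0 : ℤ) < 2 ^ j := by positivity
  unfold haar
  refine (Finset.abs_sum_le_sum_abs _ _).trans
    ((Finset.sum_le_card_nsmul _ _ (1 / 2 ^ (j + 1) * (c / 2 ^ k)) fun t _ => ?_).trans_eq ?_)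
  · rw [abs_mul]
    refine mul_le_mul (le_of_eq ?_) (h.bd _) (abs_nonneg _) (by positivity)
    unfold dsgn
    split_ifs
    · exact abs_of_pos (by positivity)
    · rw [abs_neg]
      exact abs_of_pos (by positivity)
  · rw [nsmul_eq_mul, rb_card_Ico _ _ (by omega)]
    push_cast
    field_simp
    ring

theorem RK.haar_good (h : RK c k κ J) (j : ℕ) (τ : ℤ)
    (hJ : ∀ s ∈ J, ¬ (τ - 2 ^ j ≤ s ∧ s < τ + 2 ^ j)) :
    |haar j κ τ| ≤ 2 ^ j * (c / 4 ^ k) / 2 := by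
  have hp : (0 : ℤ) < 2 ^ j := by positivity
  have h1 := Finset.sum_Ico_add' κ (τ - 2 ^ j) τ (2 ^ j)
  rw [sub_add_cancel] at h1
  rw [rb_haar_eq, ← h1, ← Finset.sum_sub_distrib, abs_div, abs_of_pos (a := (2 : ℝ) ^ (j + 1))
    (by positivity), div_le_iff₀ (by positivity)]
  refine (Finset.abs_sum_le_sum_abs _ _).trans
    ((Finset.sum_le_card_nsmul _ _ (2 ^ j * (c / 4 ^ k)) fun t ht => ?_).trans_eq ?_)
  · rw [Finset.mem_Ico] at ht
    have := h.tele t (2 ^ j) fun s h1 h2 h3 => hJ s h3 (by push_cast at h2; omega)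
    push_cast at this
    exact this
  · rw [nsmul_eq_mul, rb_card_Ico _ _ (by omega)]
    push_cast
    ring

theorem haar_fine (h : RK c k κ J) {l : ℕ} (hl : l + 2 ≤ k) :
    ∑ τ ∈ Finset.Ico (-(2 : ℤ) ^ (k + 2)) (2 ^ (k + 2)), haar (l + 2) κ τ ^ 2 ≤
      8 * c ^ 2 * (J.card + 1) * 2 ^ l / 4 ^ k := by
  have hc := h.c_nonneg
  have hp : (0 : ℤ) < 2 ^ (l + 2) := by positivity
  have hq : (0 : ℤ) < 2 ^ (k + 2) := by positivity
  set T : Finset ℤ := J.biUnion fun s => Finset.Ioc (s - 2 ^ (l + 2)) (s + 2 ^ (l + 2)) with hT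
  set g : ℝ := (2 ^ (l + 2) * (c / 4 ^ k) / 2) ^ 2 with hg
  have hg0 : 0 ≤ g := sq_nonneg _
  have h1 := rb_sum_le (f := fun τ => haar (l + 2) κ τ ^ 2 - g) (b := (c / 2 ^ k) ^ 2) (sq_nonneg _)
    (Finset.Ico (-(2 : ℤ) ^ (k + 2)) (2 ^ (k + 2))) T
    (fun τ _ => by
      have := pow_le_pow_left₀ (abs_nonneg _) (h.haar_le (l + 2) τ) 2
      rw [sq_abs] at this
      linarith)
    (fun τ hτ => by
      have h2 := h.haar_good (l + 2) τ fun s hs h3 => hτ (Finset.mem_biUnion.2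
        ⟨s, hs, Finset.mem_Ioc.2 (by omega)⟩)
      have := pow_le_pow_left₀ (abs_nonneg _) h2 2
      rw [sq_abs] at this
      linarith)
  have h2 : (T.card : ℝ) ≤ J.card * (2 * 2 ^ (l + 2)) := by
    have h3 := Finset.card_biUnion_le_card_mul J
      (fun s => Finset.Ioc (s - 2 ^ (l + 2)) (s + 2 ^ (l + 2))) (2 * 2 ^ (l + 2)) fun s _ => by
        have := Int.card_Ioc_of_le (s - 2 ^ (l + 2)) (s + 2 ^ (l + 2)) (by omega)
        zify
        omega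
    exact_mod_cast h3
  rw [Finset.sum_sub_distrib, Finset.sum_const, nsmul_eq_mul, rb_card_Ico _ _ (by omega)] at h1
  push_cast at h1
  have h3 := mul_le_mul_of_nonneg_right h2 (sq_nonneg (c / 2 ^ k))
  have h4 : (4 : ℝ) ^ k = 2 ^ k * 2 ^ k := by rw [← mul_pow]; norm_num
  have h5 : (2 : ℝ) ^ (l + 2) ≤ 2 ^ k := pow_le_pow_right₀ (by norm_num) hl
  have h6 : ((2 : ℝ) ^ (k + 2) - -2 ^ (k + 2)) * g ≤ 8 * c ^ 2 * 2 ^ l / 4 ^ k := by
    calc ((2 : ℝ) ^ (k + 2) - -2 ^ (k + 2)) * g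
        = 8 * c ^ 2 * 2 ^ l / 4 ^ k * (2 ^ (l + 2) / 2 ^ k) := by
          rw [hg, h4]
          field_simp
          ring
      _ ≤ _ := mul_le_of_le_one_right (by positivity) ((div_le_one (by positivity)).2 h5)
  have h7 : J.card * (2 * 2 ^ (l + 2)) * (c / 2 ^ k) ^ 2 + 8 * c ^ 2 * 2 ^ l / 4 ^ k =
      8 * c ^ 2 * (J.card + 1) * 2 ^ l / 4 ^ k := by
    rw [h4]
    field_simp
    ring
  linarith

theorem haar_coarse_supp (h : RK c k κ J) {l : ℕ} (hl : k ≤ l + 1) {τ : ℤ}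
    (hτ : haar (l + 2) κ τ ≠ 0) : τ ∈ Finset.Ico (-(2 : ℤ) ^ (l + 4)) (2 ^ (l + 4)) := by
  obtain ⟨t, h1, h2, h3⟩ := rb_haar_supp hτ
  have h4 := h.supp _ h3
  have h5 : (2 : ℤ) ^ k ≤ 2 ^ (l + 1) := pow_le_pow_right₀ (by norm_num) hl
  rw [pow_add] at h1 h2 h5
  rw [Finset.mem_Ico, pow_add]
  omega

theorem haar_coarse (h : RK c k κ J) {l : ℕ} (hl : k ≤ l + 1) :
    ∑ τ ∈ Finset.Ico (-(2 : ℤ) ^ (l + 4)) (2 ^ (l + 4)), haar (l + 2) κ τ ^ 2 ≤
      16 * c ^ 2 * 2 ^ k / 4 ^ l := by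
  have hc := h.c_nonneg
  have hp : (0 : ℤ) < 2 ^ (l + 2) := by positivity
  have hq : (0 : ℤ) < 2 ^ k := by positivity
  set P : ℤ := 2 ^ (l + 2) with hP
  set T : Finset ℤ := Finset.Ioo (-3 * 2 ^ k + P) (3 * 2 ^ k + P) ∪
    Finset.Ioo (-3 * 2 ^ k) (3 * 2 ^ k) ∪ Finset.Ioo (-3 * 2 ^ k - P) (3 * 2 ^ k - P) with hT
  have h1 := rb_sum_le (f := fun τ => haar (l + 2) κ τ ^ 2) (b := (6 * c / 2 ^ (l + 2 + 1)) ^ 2)
    (sq_nonneg _) (Finset.Ico (-(2 : ℤ) ^ (l + 4)) (2 ^ (l + 4))) T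
    (fun τ _ => by
      rw [← sq_abs]
      refine pow_le_pow_left₀ (abs_nonneg _) ?_ 2
      rw [rb_haar_eq, abs_div, abs_of_pos (a := (2 : ℝ) ^ (l + 2 + 1)) (by positivity)]
      refine div_le_div_of_nonneg_right ?_ (by positivity)
      refine (abs_sub _ _).trans ((add_le_add (Finset.abs_sum_le_sum_abs _ _)
        (Finset.abs_sum_le_sum_abs _ _)).trans ?_)
      rw [← Finset.sum_union (Finset.Ico_disjoint_Ico_consecutive _ _ _)]
      exact h.l1 _)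
    (fun τ hτ => by
      simp only [hT, Finset.mem_union, Finset.mem_Ioo, not_or] at hτ
      rw [rb_haar_eq, h.sum_eq_zero, h.sum_eq_zero]
      · simp
      all_goals rw [Finset.mem_Ioo]; omega)
  have h2 : (T.card : ℝ) ≤ 18 * 2 ^ k := by
    have a1 := rb_card_Ioo (-3 * 2 ^ k + P) (3 * 2 ^ k + P) (by omega)
    have a2 := rb_card_Ioo (-3 * 2 ^ k) (3 * 2 ^ k) (by omega)
    have a3 := rb_card_Ioo (-3 * 2 ^ k - P) (3 * 2 ^ k - P) (by omega)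
    have a4 : T.card ≤ _ := (Finset.card_union_le _ _).trans
      (add_le_add (Finset.card_union_le _ _) le_rfl)
    have a5 : (T.card : ℝ) ≤ _ := Nat.cast_le.2 a4
    push_cast at a1 a2 a3 a5
    linarith
  refine h1.trans ((mul_le_mul_of_nonneg_right h2 (sq_nonneg _)).trans ?_)
  have h4 : (4 : ℝ) ^ l = 2 ^ l * 2 ^ l := by rw [← mul_pow]; norm_num
  calc 18 * 2 ^ k * (6 * c / 2 ^ (l + 2 + 1)) ^ 2 = 81 / 8 * c ^ 2 * 2 ^ k / 4 ^ l := by
        rw [h4]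
        field_simp
        ring
    _ ≤ _ := by gcongr; norm_num

theorem unif_tail (h : RK c k κ J) {L : ℕ} (hL : k ≤ L) (φ : ℤ → ℝ) (W : Finset ℤ) :
    |∑ τ ∈ W, unif (L + 1) κ τ * unif (L + 1) φ τ| ≤
      100 * c * (2 ^ k / 2 ^ L) * unif (L + 3) (fun t => |φ t|) 0 := by
  have hc := h.c_nonneg
  have hq : (0 : ℤ) < 2 ^ k := by positivity
  have hkL : (2 : ℤ) ^ k ≤ 2 ^ L := pow_le_pow_right₀ (by norm_num) hL
  have e1 : (2 : ℤ) ^ (L + 1) = 2 * 2 ^ L := by ring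
  have e3 : (2 : ℤ) ^ (L + 3) = 8 * 2 ^ L := by ring
  set U := unif (L + 3) (fun t => |φ t|) 0 with hU
  have hU0 : 0 ≤ U := Finset.sum_nonneg fun t _ => by positivity
  set T : Finset ℤ := Finset.Ioo (-3 * 2 ^ k + 2 * 2 ^ L) (3 * 2 ^ k + 2 * 2 ^ L) ∪
    Finset.Ioo (-3 * 2 ^ k - 2 * 2 ^ L) (3 * 2 ^ k - 2 * 2 ^ L) with hT
  have h1 := rb_sum_le (f := fun τ => |unif (L + 1) κ τ * unif (L + 1) φ τ|)
    (b := 6 * c / 2 ^ (L + 1 + 1) * (4 * U)) (by positivity) W T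
    (fun τ hτ => by
      simp only [hT, Finset.mem_union, Finset.mem_Ioo] at hτ
      rw [abs_mul]
      refine mul_le_mul ?_ ?_ (abs_nonneg _) (by positivity)
      · rw [rb_unif_eq, abs_div, abs_of_pos (a := (2 : ℝ) ^ (L + 1 + 1)) (by positivity)]
        exact div_le_div_of_nonneg_right ((Finset.abs_sum_le_sum_abs _ _).trans (h.l1 _))
          (by positivity)
      · rw [hU, rb_unif_eq, rb_unif_eq, abs_div,
          abs_of_pos (a := (2 : ℝ) ^ (L + 1 + 1)) (by positivity)]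
        have a1 : ∑ t ∈ Finset.Ico (τ - 2 ^ (L + 1)) (τ + 2 ^ (L + 1)), |φ t| ≤
            ∑ t ∈ Finset.Ico (0 - 2 ^ (L + 3)) (0 + 2 ^ (L + 3)), |φ t| :=
          Finset.sum_le_sum_of_subset_of_nonneg (Finset.Ico_subset_Ico (by omega) (by omega))
            fun _ _ _ => abs_nonneg _
        refine (div_le_div_of_nonneg_right ((Finset.abs_sum_le_sum_abs _ _).trans a1)
          (by positivity)).trans_eq ?_
        field_simp
        ring)
    (fun τ hτ => by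
      simp only [hT, Finset.mem_union, Finset.mem_Ioo, not_or] at hτ
      rw [rb_unif_eq (L + 1) κ, h.sum_eq_zero]
      · simp
      all_goals rw [Finset.mem_Ioo]; omega)
  have h2 : (T.card : ℝ) ≤ 12 * 2 ^ k := by
    have a1 := rb_card_Ioo (-3 * 2 ^ k + 2 * 2 ^ L) (3 * 2 ^ k + 2 * 2 ^ L) (by omega)
    have a3 := rb_card_Ioo (-3 * 2 ^ k - 2 * 2 ^ L) (3 * 2 ^ k - 2 * 2 ^ L) (by omega)
    have a5 : (T.card : ℝ) ≤ _ := Nat.cast_le.2 (Finset.card_union_le _ _)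
    push_cast at a1 a3 a5
    linarith
  refine (Finset.abs_sum_le_sum_abs _ _).trans
    (h1.trans ((mul_le_mul_of_nonneg_right h2 (by positivity)).trans ?_))
  calc 12 * 2 ^ k * (6 * c / 2 ^ (L + 1 + 1) * (4 * U)) = 72 * c * (2 ^ k / 2 ^ L) * U := by
        field_simp
        ring
    _ ≤ _ := by gcongr; norm_num

end Crest.Agent.R72
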