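import Crest.Agent.R72.MainZ1

/-!
Shifted square functions, matrix form.  PLAN.  Fix `l`; `u = uz N (l+M+1)`, `a0 = uz N (l+M+2)`, `a2 = u`, `G = GG N M (l+1)`,
`ω = conv u a0 ≥ u / 2` (`uz_le_conv le_rfl`).  For `p = (p0, p1)`, `p2 = -p0 - p1`, put
`c̃ p x2 x0 = c l τ x2 x0 * u τ / ω τ` with `τ = x0 + x2 + p1`.  Since `∑_{p0} a0 (x0 - p0) * a2 (x2 - p2) = ω (x0 + x2 + p1)`, the `l`-th term is
`∑_p ∑_{x0,x2} a0 (x0 - p0) a2 (x2 - p2) c̃ p x2 x0 ∑_{x1} dz (l+2) (x1 - p1) A B`.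
`vJ_gap_hs` with `κ = 4` (`a0 ≤ 2 G` by `uz_le_conv`, `a2 ≤ 2 a0 ≤ 4 G`; `gp, gm = sh (uz (l+1)) (p1 ∓ 2^(l+1))`, `dz_succ`, `uz_succ`) gives
`|S_{l,p}| ≤ 4 √(vJ) √R ≤ 2 vJ + 2 R`, `R = (‖A'‖ + ‖B'‖) ∑ a0 a2 c̃²`.  `∑_l ∑_p vJ ≤ potU .. (GG M 0) (uz 1) ≤ 30 (cube A + cube B)` (`potU_succ`, `potU_le`).
In `R`, on the support of `a0 (x0 - p0) a2 (x2 - p2) u τ`: `a0 (x - p0) ≤ 2 uz (l+M+3) (x - x0)`,
`uz (l+2) (y - p1) ≤ 2^M uz (l+M+2) (y - p1) ≤ 2^(M+1) uz (l+M+3) (y + x0 + x2)`, `a2 (y - p2) ≤ 2 uz (l+M+2) (y - x2)` (`uz_supp`, `uz_shift`, `uz_le_pow`), so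
`‖A'‖² ≤ 2^(M+2) maxZ (fun x => maxZ (fun y => A x y ^ 2) (-x0 - x2)) x0`,
`‖B'‖² ≤ 2^(M+2) maxZ (fun y => maxZ (fun x => B x y ^ 2) (-x0 - x2)) x2`, independent of `l, p`;
`∑_l ∑_τ ω τ (c u / ω)² ≤ 2 ∑_l ∑_τ u τ c² ≤ 2 H²`; Hölder (3, 3/2) and `maxZ_bound` twice.
-/

set_option autoImplicit false

namespace Crest.Agent.R72

open Matrix Finset MeasureTheory
open scoped ENNReal

section
variable {Z : Type*} [AddCommGroup Z] [Fintype Z] [DecidableEq Z]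

omit [DecidableEq Z] in
theorem plane_sum (u a : Z → ℝ) (F : Z → Z → Z → ℝ) :
    ∑ p : Z × Z, ∑ x0, ∑ x2, a (x0 - p.1) * u (x2 - (-p.1 - p.2)) * F x0 x2 (x0 + x2 + p.2) =
      ∑ x0, ∑ x2, ∑ τ, conv u a τ * F x0 x2 τ := by
  rw [Finset.sum_comm]
  refine Finset.sum_congr rfl fun x0 _ => ?_
  rw [Finset.sum_comm]
  refine Finset.sum_congr rfl fun x2 _ => ?_
  rw [Fintype.sum_prod_type_right,
    ← Equiv.sum_comp (Equiv.addLeft (x0 + x2)) fun τ => conv u a τ * F x0 x2 τ]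
  refine Finset.sum_congr rfl fun p1 _ => ?_
  simp only [Equiv.coe_addLeft, conv]
  rw [← Finset.sum_mul,
    ← Equiv.sum_comp (Equiv.addLeft (x2 + p1)) fun y => u y * a (x0 + x2 + p1 - y)]
  congr 1
  refine Finset.sum_congr rfl fun p0 _ => ?_
  simp only [Equiv.coe_addLeft]
  rw [mul_comm]
  congr 2 <;> abel

theorem sq_level (A B : Matrix Z Z ℝ) {G g u a gb d : Z → ℝ} (η : Z) (c : Z → Matrix Z Z ℝ)
    {W : Z → Z → ℝ} (hG : ∀ x, 0 ≤ G x) (hg : ∀ x, 0 ≤ g x) (hu : ∀ x, 0 ≤ u x)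
    (ha : ∀ x, 0 ≤ a x) (haG : ∀ x, a x ≤ 4 * G x) (huG : ∀ x, u x ≤ 4 * G x)
    (huω : ∀ x, u x ≤ 2 * conv u a x)
    (hd : ∀ p x, (sh g (p - η) x - sh g (p + η) x) / 2 = d (x - p))
    (hgb : ∀ p x, (sh g (p - η) x + sh g (p + η) x) / 2 = gb (x - p)) (hW0 : ∀ x y, 0 ≤ W x y)
    (hW : ∀ x0 x2 p0 p1, a (x0 - p0) ≠ 0 → u (x2 - (-p0 - p1)) ≠ 0 → u (x0 + x2 + p1) ≠ 0 →
      Real.sqrt (∑ x, ∑ y, a (x - p0) * gb (y - p1) * A x y ^ 2) +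
        Real.sqrt (∑ x, ∑ y, gb (x - p1) * u (y - (-p0 - p1)) * B x y ^ 2) ≤ W x0 x2) :
    ∑ x0, ∑ x2, ∑ τ, u τ * c τ x2 x0 * ∑ x1, d (x1 - (τ - x0 - x2)) * (A x0 x1 * B x1 x2) ≤
      2 * gapSum A B G g η + 4 * ∑ x0, ∑ x2, W x0 x2 * ∑ τ, u τ * c τ x2 x0 ^ 2 := by
  obtain ⟨r, hr, hr0, hr2, hru⟩ : ∃ r : Z → ℝ, (∀ τ, conv u a τ * r τ = u τ) ∧ (∀ τ, 0 ≤ r τ) ∧
      (∀ τ, r τ ≤ 2) ∧ ∀ τ, u τ = 0 → r τ = 0 := by
    have h0 : ∀ τ, 0 ≤ conv u a τ := fun τ => by linarith [hu τ, huω τ]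
    refine ⟨fun τ => u τ / conv u a τ, fun τ => ?_, fun τ => div_nonneg (hu τ) (h0 τ), fun τ => ?_,
      fun τ h => by simp [h]⟩
    · rcases (h0 τ).eq_or_lt with h | h
      · have := huω τ
        rw [← h] at this ⊢
        linarith [hu τ]
      · exact mul_div_cancel₀ _ h.ne'
    · exact div_le_of_le_mul₀ (h0 τ) zero_le_two (huω τ)
  have G0 : ∀ p x, 0 ≤ sh G p x := fun p x => hG _
  have g0 : ∀ p x, 0 ≤ sh g p x := fun p x => hg _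
  have key : ∀ p : Z × Z, ∑ x0, ∑ x2, a (x0 - p.1) * u (x2 - (-p.1 - p.2)) *
      (r (x0 + x2 + p.2) * c (x0 + x2 + p.2) x2 x0 *
        ∑ x1, d (x1 - (x0 + x2 + p.2 - x0 - x2)) * (A x0 x1 * B x1 x2)) ≤
      2 * vJ A B (sh G p.1) (sh g (p.2 - η)) (sh g (p.2 + η)) (sh G (-p.1 - p.2)) +
        2 * ∑ x0, ∑ x2, a (x0 - p.1) * u (x2 - (-p.1 - p.2)) *
          (W x0 x2 * (r (x0 + x2 + p.2) * c (x0 + x2 + p.2) x2 x0) ^ 2) := by
    rintro ⟨p0, p1⟩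
    have h1 := vJ_gap_hs A B (κ := 4) (by norm_num) (G0 p0) (g0 (p1 - η)) (g0 (p1 + η))
      (G0 (-p0 - p1)) (a0 := sh a p0) (a2 := sh u (-p0 - p1)) (fun x => ⟨ha _, haG _⟩)
      (fun x => ⟨hu _, huG _⟩) (Matrix.of fun x2 x0 => r (x0 + x2 + p1) * c (x0 + x2 + p1) x2 x0)
    have hJ := vJ_nonneg A B (G0 p0) (g0 (p1 - η)) (g0 (p1 + η)) (G0 (-p0 - p1))
    have h4 : Real.sqrt 4 = 2 := by
      rw [show (4 : ℝ) = 2 ^ 2 by norm_num, Real.sqrt_sq zero_le_two]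
    simp only [hd, hgb, h4, Matrix.of_apply] at h1
    simp only [sh] at h1 hJ ⊢
    have e : ∀ x0 x2 : Z, x0 + x2 + p1 - x0 - x2 = p1 := fun x0 x2 => by abel
    simp only [e, ← mul_assoc]
    have h2 : (Real.sqrt (∑ x, ∑ y, a (x - p0) * gb (y - p1) * A x y ^ 2) +
        Real.sqrt (∑ x, ∑ y, gb (x - p1) * u (y - (-p0 - p1)) * B x y ^ 2)) *
        ∑ x0, ∑ x2, a (x0 - p0) * u (x2 - (-p0 - p1)) *
          (r (x0 + x2 + p1) * c (x0 + x2 + p1) x2 x0) ^ 2 ≤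
        ∑ x0, ∑ x2, a (x0 - p0) * u (x2 - (-p0 - p1)) * W x0 x2 *
          (r (x0 + x2 + p1) * c (x0 + x2 + p1) x2 x0) ^ 2 := by
      rw [Finset.mul_sum]
      refine Finset.sum_le_sum fun x0 _ => ?_
      rw [Finset.mul_sum]
      refine Finset.sum_le_sum fun x2 _ => ?_
      by_cases k1 : a (x0 - p0) = 0
      · simp [k1]
      by_cases k2 : u (x2 - (-p0 - p1)) = 0
      · simp [k2]
      by_cases k3 : u (x0 + x2 + p1) = 0
      · simp [hru _ k3]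
      have := mul_le_mul_of_nonneg_right (hW x0 x2 p0 p1 k1 k2 k3)
        (mul_nonneg (mul_nonneg (ha (x0 - p0)) (hu (x2 - (-p0 - p1))))
          (sq_nonneg (r (x0 + x2 + p1) * c (x0 + x2 + p1) x2 x0)))
      exact this.trans_eq (by ring)
    have h3 := h1.trans (mul_le_mul_of_nonneg_left h2 (mul_nonneg (by norm_num) hJ))
    have h5 : 0 ≤ ∑ x0, ∑ x2, a (x0 - p0) * u (x2 - (-p0 - p1)) * W x0 x2 *
        (r (x0 + x2 + p1) * c (x0 + x2 + p1) x2 x0) ^ 2 :=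
      Finset.sum_nonneg fun x0 _ => Finset.sum_nonneg fun x2 _ =>
        mul_nonneg (mul_nonneg (mul_nonneg (ha _) (hu _)) (hW0 _ _)) (sq_nonneg _)
    simp only [← mul_assoc] at h3
    refine (le_abs_self _).trans (abs_le_of_sq_le_sq (h3.trans ?_) (by linarith))
    nlinarith [sq_nonneg (vJ A B (sh G p0) (sh g (p1 - η)) (sh g (p1 + η)) (sh G (-p0 - p1)) -
      ∑ x0, ∑ x2, a (x0 - p0) * u (x2 - (-p0 - p1)) * W x0 x2 *
        (r (x0 + x2 + p1) * c (x0 + x2 + p1) x2 x0) ^ 2)]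
  have h1 := Finset.sum_le_sum (s := Finset.univ) fun p _ => key p
  rw [Finset.sum_add_distrib, ← Finset.mul_sum, ← Finset.mul_sum,
    plane_sum u a fun x0 x2 τ => r τ * c τ x2 x0 *
      ∑ x1, d (x1 - (τ - x0 - x2)) * (A x0 x1 * B x1 x2),
    plane_sum u a fun x0 x2 τ => W x0 x2 * (r τ * c τ x2 x0) ^ 2] at h1
  simp only [← mul_assoc, hr] at h1
  have h2 : ∑ x0, ∑ x2, ∑ τ, conv u a τ * W x0 x2 * (r τ * c τ x2 x0) ^ 2 ≤
      2 * ∑ x0, ∑ x2, W x0 x2 * ∑ τ, u τ * c τ x2 x0 ^ 2 := by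
    simp only [Finset.mul_sum]
    refine Finset.sum_le_sum fun x0 _ => Finset.sum_le_sum fun x2 _ =>
      Finset.sum_le_sum fun τ _ => ?_
    have := mul_le_mul_of_nonneg_right (hr2 τ)
      (mul_nonneg (hW0 x0 x2) (mul_nonneg (hu τ) (sq_nonneg (c τ x2 x0))))
    refine le_trans (le_of_eq ?_) this
    rw [← hr τ]
    ring
  unfold gapSum
  simp only [← mul_assoc]
  linarith

end

theorem double_max {N : ℕ} [NeZero N] (X : ZMod N → ZMod N → ℝ) (hX : ∀ x y, 0 ≤ X x y)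
    {v w : ZMod N → ℝ} (hw0 : ∀ y, 0 ≤ w y) {i j : ℕ} {c : ℝ} (hc : 0 ≤ c) {x0 y0 : ZMod N}
    (hv : ∀ x, v x ≤ 2 * uz N i (x - x0)) (hw : ∀ y, w y ≤ c * uz N j (y - y0)) :
    ∑ x, ∑ y, v x * w y * X x y ≤ 2 * c * maxZ (fun x => maxZ (X x) y0) x0 := by
  refine le_trans ?_ (mul_le_mul_of_nonneg_left (le_maxZ _ x0 i) (by positivity))
  rw [Finset.mul_sum]
  refine Finset.sum_le_sum fun x _ => ?_
  have h1 : ∑ y, w y * X x y ≤ c * maxZ (X x) y0 := by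
    refine le_trans ?_ (mul_le_mul_of_nonneg_left (le_maxZ _ y0 j) hc)
    rw [Finset.mul_sum]
    refine Finset.sum_le_sum fun y _ => ?_
    rw [← mul_assoc]
    exact mul_le_mul_of_nonneg_right (hw y) (hX x y)
  have h2 := mul_le_mul (hv x) h1 (Finset.sum_nonneg fun y _ => mul_nonneg (hw0 y) (hX x y))
    (mul_nonneg zero_le_two (uz_nonneg _ _))
  simp only [mul_assoc]
  rw [← Finset.mul_sum]
  exact h2.trans_eq (by ring)

theorem uz_recenter {N : ℕ} [NeZero N] {j : ℕ} {x0 p : ZMod N} (h : uz N j (x0 - p) ≠ 0)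
    (x : ZMod N) : uz N j (x - p) ≤ 2 * uz N (j + 1) (x - x0) := by
  obtain ⟨s, hs, e⟩ := uz_supp h
  have := uz_shift j (s := -s) (by rwa [abs_neg]) (x - p)
  rwa [Int.cast_neg, ← e, show x - p + -(x0 - p) = x - x0 by ring] at this

theorem uz_widen {N : ℕ} [NeZero N] {l M : ℕ} {w p : ZMod N} (h : uz N (l + M + 1) (p - w) ≠ 0)
    (y : ZMod N) : uz N (l + 2) (y - p) ≤ 2 ^ (M + 1) * uz N (l + 2 + M + 1) (y - w) := by
  obtain ⟨s, hs, e⟩ := uz_supp h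
  have h1 := uz_shift (l + 2 + M) (s := s)
    (hs.trans (pow_le_pow_right₀ (by norm_num) (by omega))) (y - p)
  rw [← e, show y - p + (p - w) = y - w by ring] at h1
  refine (uz_le_pow (l + 2) M (y - p)).trans ?_
  rw [pow_succ, mul_assoc]
  exact mul_le_mul_of_nonneg_left h1 (by positivity)

theorem double_cube {N : ℕ} [NeZero N] {C : ℝ} (hC : 1 ≤ C) (hmax : ∀ φ : ZMod N → ℝ,
      (∀ x, 0 ≤ φ x) → ∑ x, Real.sqrt (maxZ φ x) ^ 3 ≤ C ^ 3 * ∑ x, Real.sqrt (φ x) ^ 3)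
    (A : Matrix (ZMod N) (ZMod N) ℝ) :
    ∑ x0, ∑ x2, Real.sqrt (maxZ (fun x => maxZ (fun y => A x y ^ 2) (-x0 - x2)) x0) ^ 3 ≤
      (C ^ 2 * cube A ^ (1 / 3 : ℝ)) ^ 3 := by
  have hC3 : 0 ≤ C ^ 3 := by positivity
  rw [Finset.sum_congr rfl fun x0 _ => sum_neg_sub
    (fun w => Real.sqrt (maxZ (fun x => maxZ (fun y => A x y ^ 2) w) x0) ^ 3) x0, Finset.sum_comm]
  refine (Finset.sum_le_sum fun w _ => hmax (fun x => maxZ (fun y => A x y ^ 2) w)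
    fun x => maxZ_nonneg (fun _ => sq_nonneg _) w).trans ?_
  rw [← Finset.mul_sum, Finset.sum_comm]
  refine (mul_le_mul_of_nonneg_left (Finset.sum_le_sum fun x _ =>
    hmax (fun y => A x y ^ 2) fun _ => sq_nonneg _) hC3).trans_eq ?_
  simp only [sqrt_sq_cube]
  rw [← Finset.mul_sum, mul_pow, cube_third, cube]
  ring

theorem sqZ1 : ∃ K : ℝ, 0 ≤ K ∧ ∀ (N : ℕ) [NeZero N] (M L : ℕ)
    (A B H : Matrix (ZMod N) (ZMod N) ℝ) (c : ℕ → ZMod N → Matrix (ZMod N) (ZMod N) ℝ),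
    (∀ x2 x0, ∑ l ∈ Finset.range L, ∑ τ, uz N (l + M + 1) τ * c l τ x2 x0 ^ 2 ≤ H x2 x0 ^ 2) →
    ∑ l ∈ Finset.range L, ∑ x0, ∑ x2, ∑ τ, uz N (l + M + 1) τ * c l τ x2 x0 *
        ∑ x1, dz N (l + 2) (x1 - (τ - x0 - x2)) * (A x0 x1 * B x1 x2) ≤
      K * (cube A + cube B + (2 : ℝ) ^ ((M : ℝ) / 2) *
        (cube A ^ (1 / 3 : ℝ) + cube B ^ (1 / 3 : ℝ)) * cube H ^ (2 / 3 : ℝ)) := by
  obtain ⟨C, hC, hmax⟩ := maxZ_cube
  refine ⟨60 + 8 * C ^ 2, by positivity, fun N _ M L A B H c hc => ?_⟩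
  obtain ⟨MA, hMA⟩ : ∃ MA : ZMod N → ZMod N → ℝ, ∀ x0 x2, MA x0 x2 =
    maxZ (fun x => maxZ (fun y => A x y ^ 2) (-x0 - x2)) x0 := ⟨_, fun _ _ => rfl⟩
  obtain ⟨MB, hMB⟩ : ∃ MB : ZMod N → ZMod N → ℝ, ∀ x0 x2, MB x0 x2 =
    maxZ (fun y => maxZ (fun x => B x y ^ 2) (-x0 - x2)) x2 := ⟨_, fun _ _ => rfl⟩
  set κ : ℝ := (2 : ℝ) ^ ((M : ℝ) / 2) with hκ
  have hκ0 : 0 ≤ κ := by positivity
  have hsq : ∀ {s m : ℝ}, s ≤ 2 * 2 ^ (M + 1) * m → Real.sqrt s ≤ 2 * κ * Real.sqrt m := by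
    intro s m h
    have e : (2 : ℝ) * 2 ^ (M + 1) = (2 * κ) ^ 2 := by
      rw [mul_pow, hκ, ← Real.rpow_natCast ((2 : ℝ) ^ ((M : ℝ) / 2)),
        ← Real.rpow_mul zero_le_two]
      simp only [Nat.cast_ofNat, ne_eq, OfNat.ofNat_ne_zero, not_false_eq_true, div_mul_cancel₀,
        Real.rpow_natCast]
      ring
    refine (Real.sqrt_le_sqrt h).trans_eq ?_
    rw [e, Real.sqrt_mul (sq_nonneg _), Real.sqrt_sq (by positivity)]
  have lev : ∀ l, ∑ x0, ∑ x2, ∑ τ, uz N (l + M + 1) τ * c l τ x2 x0 *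
      ∑ x1, dz N (l + 2) (x1 - (τ - x0 - x2)) * (A x0 x1 * B x1 x2) ≤
      2 * gapSum A B (GG N M (l + 1)) (uz N (l + 1)) ((2 : ZMod N) ^ (l + 1)) +
        4 * ∑ x0, ∑ x2, (2 * κ * Real.sqrt (MA x0 x2) + 2 * κ * Real.sqrt (MB x0 x2)) *
          ∑ τ, uz N (l + M + 1) τ * c l τ x2 x0 ^ 2 := by
    intro l
    have hG : ∀ x, uz N (l + M + 2) x ≤ 2 * GG N M (l + 1) x := fun x => by
      have := uz_le_conv (N := N) (i := l + 1) (j := l + M + 2) (by omega) x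
      rwa [show l + M + 2 + 1 = l + 1 + M + 2 by omega] at this
    refine sq_level A B (a := uz N (l + M + 2)) (gb := uz N (l + 2)) _ (c l)
      (W := fun x0 x2 => 2 * κ * Real.sqrt (MA x0 x2) + 2 * κ * Real.sqrt (MB x0 x2))
      (GG_nonneg M (l + 1)) (uz_nonneg _) (uz_nonneg _) (uz_nonneg _)
      (fun x => by linarith [hG x, GG_nonneg (N := N) M (l + 1) x])
      (fun x => by linarith [hG x, uz_le_pow (N := N) (l + M + 1) 1 x])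
      (uz_le_conv le_rfl) (dz_diff (l + 1)) (uz_avg (l + 1)) (fun _ _ => by positivity)
      fun x0 x2 p0 p1 k1 k2 k3 => ?_
    have k4 : uz N (l + M + 1) (p1 - (-x0 - x2)) ≠ 0 := by
      rwa [show p1 - (-x0 - x2) = x0 + x2 + p1 by ring]
    refine add_le_add (hsq ?_) (hsq ?_)
    · rw [hMA]
      exact double_max (fun x y => A x y ^ 2) (fun _ _ => sq_nonneg _)
        (v := fun x => uz N (l + M + 2) (x - p0)) (w := fun y => uz N (l + 2) (y - p1))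
        (fun _ => uz_nonneg _ _) (by positivity) (uz_recenter k1) (uz_widen k4)
    · rw [hMB, Finset.sum_comm]
      refine le_trans (le_of_eq ?_) (double_max (fun y x => B x y ^ 2) (fun _ _ => sq_nonneg _)
        (v := fun y => uz N (l + M + 1) (y - (-p0 - p1))) (w := fun x => uz N (l + 2) (x - p1))
        (fun _ => uz_nonneg _ _) (by positivity) (uz_recenter k2) (uz_widen k4))
      exact Finset.sum_congr rfl fun y _ => Finset.sum_congr rfl fun x _ => by ring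
  have g1 := tele_le (U := fun l => potU A B (GG N M l) (uz N (l + 1))) (jump := fun _ => 0)
    (fun l => potU_nonneg A B _ (GG_nonneg M l))
    (fun l => (potU_succ A B M l).trans_eq (add_zero _).symm) L
  simp only [Finset.sum_const_zero, add_zero] at g1
  have g2 := potU_le A B (GG_nonneg (N := N) M 0) (uz_nonneg (0 + 1)) (GG_sum M 0) (uz_sum _)
  have g3 : ∑ l ∈ Finset.range L, ∑ x0, ∑ x2,
      (2 * κ * Real.sqrt (MA x0 x2) + 2 * κ * Real.sqrt (MB x0 x2)) *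
        ∑ τ, uz N (l + M + 1) τ * c l τ x2 x0 ^ 2 ≤
      2 * κ * (∑ p : ZMod N × ZMod N, Real.sqrt (MA p.1 p.2) * |H p.2 p.1| * |H p.2 p.1| +
        ∑ p : ZMod N × ZMod N, Real.sqrt (MB p.1 p.2) * |H p.2 p.1| * |H p.2 p.1|) := by
    rw [← Finset.sum_add_distrib, Finset.mul_sum, Fintype.sum_prod_type, Finset.sum_comm]
    refine Finset.sum_le_sum fun x0 _ => ?_
    rw [Finset.sum_comm]
    refine Finset.sum_le_sum fun x2 _ => ?_
    rw [← Finset.mul_sum]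
    refine (mul_le_mul_of_nonneg_left (hc x2 x0) (by positivity)).trans_eq ?_
    rw [← sq_abs]
    ring
  have t0 : ∀ X : Matrix (ZMod N) (ZMod N) ℝ, 0 ≤ cube X ^ (1 / 3 : ℝ) :=
    fun X => Real.rpow_nonneg (cube_nonneg X) _
  have s0 : ∑ p : ZMod N × ZMod N, |H p.2 p.1| ^ 3 ≤ (cube H ^ (1 / 3 : ℝ)) ^ 3 := by
    rw [cube_third, Fintype.sum_prod_type_right]
    exact le_rfl
  have s1 : ∑ p : ZMod N × ZMod N, Real.sqrt (MA p.1 p.2) ^ 3 ≤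
      (C ^ 2 * cube A ^ (1 / 3 : ℝ)) ^ 3 := by
    simp only [hMA]
    rw [Fintype.sum_prod_type]
    exact double_cube hC (hmax N) A
  have s2 : ∑ p : ZMod N × ZMod N, Real.sqrt (MB p.1 p.2) ^ 3 ≤
      (C ^ 2 * cube B ^ (1 / 3 : ℝ)) ^ 3 := by
    have e : ∀ x y : ZMod N, -y - x = -x - y := fun x y => by ring
    have := double_cube hC (hmax N) Bᵀ
    rw [cube_transpose] at this
    simp only [hMB]
    rw [Fintype.sum_prod_type_right]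
    refine le_trans (le_of_eq ?_) this
    refine Finset.sum_congr rfl fun x _ => Finset.sum_congr rfl fun y _ => ?_
    rw [e x y]
    rfl
  have h1 := holder3 (f := fun p : ZMod N × ZMod N => Real.sqrt (MA p.1 p.2))
    (g := fun p => |H p.2 p.1|) (h := fun p => |H p.2 p.1|) (fun _ => Real.sqrt_nonneg _)
    (fun _ => abs_nonneg _) (fun _ => abs_nonneg _) (mul_nonneg (sq_nonneg C) (t0 A)) (t0 H) (t0 H)
    s1 s0 s0
  have h2 := holder3 (f := fun p : ZMod N × ZMod N => Real.sqrt (MB p.1 p.2))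
    (g := fun p => |H p.2 p.1|) (h := fun p => |H p.2 p.1|) (fun _ => Real.sqrt_nonneg _)
    (fun _ => abs_nonneg _) (fun _ => abs_nonneg _) (mul_nonneg (sq_nonneg C) (t0 B)) (t0 H) (t0 H)
    s2 s0 s0
  have g4 := g3.trans (mul_le_mul_of_nonneg_left (add_le_add h1 h2) (by positivity))
  refine (Finset.sum_le_sum fun l _ => lev l).trans ?_
  rw [Finset.sum_add_distrib, ← Finset.mul_sum, ← Finset.mul_sum, cube_two_thirds]
  have cA := cube_nonneg A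
  have cB := cube_nonneg B
  have p1 := mul_nonneg (mul_nonneg hκ0 (add_nonneg (t0 A) (t0 B))) (mul_nonneg (t0 H) (t0 H))
  have p2 := mul_nonneg (sq_nonneg C) (add_nonneg cA cB)
  generalize cube A ^ (1 / 3 : ℝ) = α at *
  generalize cube B ^ (1 / 3 : ℝ) = β at *
  generalize cube H ^ (1 / 3 : ℝ) = γ at *
  linarith

end Crest.Agent.R72
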