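import Crest.Agent.R72.CoreC

/-!
From the count to the `r`-variation.  PLAN.
* `lr_le_of_count`: sort the values decreasingly (`Tuple.sort`), `y 0 ≥ y 1 ≥ …`; the positions `p` with `2^i ≤ p + 1 < 2^(i+1)` are at most `2^i` many and there
  `2^i y p ≤` the sum of the first `2^i` values `≤ N i`.  So `∑ y^r ≤ ∑_i (2^(i (1/r - 1)) N i)^r ≤ (∑_i …)^r`.
* `variation_le`: any `≤ 2^i` increments of a chain form an admissible family of annuli (`Finset.orderEmbOfFin` or `equivFin`).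
* `variation_bound`: `W_i` from `count_majorant` at `n = 2^i`; countable Minkowski (`ENNReal.lintegral_Lp_add_le` by induction and monotone convergence, or Hölder with weights);
  `∑ 2^(i (1/r - 1)) √(2^i)` is a geometric series of ratio `2^(1/r - 1/2) < 1`.
-/

set_option autoImplicit false

namespace Crest.Agent.R72

open Matrix Finset MeasureTheory
open scoped ENNReal

theorem sum_rpow_le {r : ℝ} (hr : 1 ≤ r) (s : Finset ℕ) (a : ℕ → ℝ≥0∞) :
    ∑ i ∈ s, a i ^ r ≤ (∑ i ∈ s, a i) ^ r := by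
  induction s using Finset.induction_on with
  | empty => simp
  | insert i s hi ih =>
    rw [Finset.sum_insert hi, Finset.sum_insert hi]
    exact (add_le_add le_rfl ih).trans (ENNReal.add_rpow_le_rpow_add _ _ hr)

theorem lr_le_of_count {r : ℝ} (hr : 1 ≤ r) {m : ℕ} (x : Fin m → ℝ≥0∞) (N : ℕ → ℝ≥0∞)
    (h : ∀ (i : ℕ) (S : Finset (Fin m)), S.card ≤ 2 ^ i → ∑ j ∈ S, x j ≤ N i) :
    (∑ j, x j ^ r) ^ (1 / r) ≤ ∑' i : ℕ, (2 : ℝ≥0∞) ^ ((i : ℝ) * (1 / r - 1)) * N i := by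
  have r0 : 0 < r := by linarith
  set σ := Tuple.sort (OrderDual.toDual ∘ x)
  have hσ : ∀ p q, p ≤ q → x (σ q) ≤ x (σ p) := fun p q h => Tuple.monotone_sort (OrderDual.toDual ∘ x) h
  have h1 : ∀ p : Fin m, x (σ p) ≤ (2 ^ Nat.log 2 (p + 1))⁻¹ * N (Nat.log 2 (p + 1)) := fun p => by
    have h2 : 2 ^ Nat.log 2 (p + 1) ≤ (p : ℕ) + 1 := Nat.pow_log_le_self 2 (by omega)
    generalize Nat.log 2 (p + 1) = i at h2
    have h3 := h i (Finset.univ.map ((Fin.castLEEmb (h2.trans p.2)).trans σ.toEmbedding)) (by simp)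
    rw [Finset.sum_map] at h3
    rw [← ENNReal.div_eq_inv_mul, ENNReal.le_div_iff_mul_le (.inl (by simp)) (.inl (by simp)), mul_comm]
    refine le_trans ?_ h3
    simpa using Finset.card_nsmul_le_sum Finset.univ
      (fun q : Fin (2 ^ i) => x (σ (Fin.castLE (h2.trans p.2) q))) _
      fun q _ => hσ _ p (Nat.le_of_lt_succ (q.2.trans_le h2))
  rw [one_div, ENNReal.rpow_inv_le_iff r0, ← Equiv.sum_comp σ,
    ← Finset.sum_fiberwise_of_maps_to (t := Finset.range (m + 1)) (g := fun p : Fin m => Nat.log 2 (p + 1))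
      fun p _ => Finset.mem_range.2 ((Nat.log_le_self _ _).trans_lt (by omega))]
  refine le_trans (Finset.sum_le_sum fun i _ => ?_) ((sum_rpow_le hr _ _).trans
    (ENNReal.rpow_le_rpow (ENNReal.sum_le_tsum _) r0.le))
  refine (Finset.sum_le_card_nsmul _ _ (((2 ^ i)⁻¹ * N i) ^ r) fun p hp => ?_).trans ?_
  · rw [← (Finset.mem_filter.1 hp).2]
    exact ENNReal.rpow_le_rpow (h1 p) r0.le
  have h4 : (Finset.univ.filter fun p : Fin m => Nat.log 2 (p + 1) = i).card ≤ 2 ^ i := by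
    refine (Finset.card_le_card_of_injOn (t := Finset.Ico (2 ^ i) (2 ^ (i + 1))) (fun p : Fin m => (p : ℕ) + 1)
      (fun p hp => ?_) fun p _ q _ h => Fin.ext (Nat.succ_injective h)).trans (by simp; omega)
    rw [← (Finset.mem_filter.1 hp).2]
    exact Finset.mem_Ico.2 ⟨Nat.pow_log_le_self 2 (by omega), Nat.lt_pow_succ_log_self one_lt_two _⟩
  refine (nsmul_le_nsmul_left (zero_le) h4).trans_eq ?_
  rw [nsmul_eq_mul, ENNReal.mul_rpow_of_nonneg _ _ r0.le, ENNReal.mul_rpow_of_nonneg _ _ r0.le,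
    ← mul_assoc, Nat.cast_pow, Nat.cast_ofNat, ← ENNReal.rpow_natCast, ← ENNReal.rpow_neg,
    ← ENNReal.rpow_mul, ← ENNReal.rpow_mul, ← ENNReal.rpow_add _ _ (by simp) (by simp)]
  congr 2
  field_simp
  ring

theorem variation_le {r : ℝ} (hr : 1 ≤ r) (F G : ℝ × ℝ → ℂ) (z : ℝ × ℝ) :
    Crest.AnalysisR.annularVariation r F G z ≤
      ∑' i : ℕ, (2 : ℝ≥0∞) ^ ((i : ℝ) * (1 / r - 1)) * Crest.AnalysisR.annulusCount (2 ^ i) F G z := by
  refine iSup_le fun J => iSup_le fun t => iSup_le fun ht => iSup_le fun h0 =>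
    lr_le_of_count hr _ _ fun i S hS => ?_
  rw [← Finset.sum_coe_sort, ← S.equivFin.symm.sum_comp]
  refine le_iSup₂_of_le S.card hS (le_iSup₂_of_le (fun j => t (S.equivFin.symm j).1.castSucc)
    (fun j => t (S.equivFin.symm j).1.succ) (le_iSup₂_of_le (fun j => ⟨h0.trans_le
      (ht.monotone (Fin.zero_le _)), ht Fin.castSucc_lt_succ⟩) (fun a b hab => ?_) le_rfl))
  exact (lt_or_gt_of_ne fun h => hab (S.equivFin.symm.injective (Subtype.ext h))).imp
    (fun h => ht.monotone (Fin.succ_le_castSucc_iff.2 h)) fun h =>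
      ht.monotone (Fin.succ_le_castSucc_iff.2 h)

theorem lintegral_Lp_tsum_le {α : Type*} [MeasurableSpace α] {μ : Measure α} {p : ℝ} (hp : 1 ≤ p)
    {f : ℕ → α → ℝ≥0∞} (hf : ∀ i, Measurable (f i)) :
    (∫⁻ a, (∑' i, f i a) ^ p ∂μ) ^ (1 / p) ≤ ∑' i, (∫⁻ a, f i a ^ p ∂μ) ^ (1 / p) := by
  have p0 : 0 < p := by linarith
  have hm : ∀ n, Measurable fun a => ∑ i ∈ Finset.range n, f i a := fun n => by fun_prop
  have h1 : ∀ n, (∫⁻ a, (∑ i ∈ Finset.range n, f i a) ^ p ∂μ) ^ (1 / p) ≤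
      ∑ i ∈ Finset.range n, (∫⁻ a, f i a ^ p ∂μ) ^ (1 / p) := fun n => by
    induction n with
    | zero => simp [p0]
    | succ n ih =>
      simp only [Finset.sum_range_succ]
      exact (ENNReal.lintegral_Lp_add_le (hm n).aemeasurable (hf n).aemeasurable hp).trans
        (add_le_add ih le_rfl)
  have h2 : ∀ a, (∑' i, f i a) ^ p = ⨆ n, (∑ i ∈ Finset.range n, f i a) ^ p := fun a => by
    rw [ENNReal.tsum_eq_iSup_nat]
    exact (ENNReal.orderIsoRpow p p0).map_iSup _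
  simp only [h2]
  rw [lintegral_iSup (fun n => (hm n).pow_const p) fun n m h a => by
    exact ENNReal.rpow_le_rpow (Finset.sum_le_sum_of_subset (Finset.range_mono h)) p0.le]
  refine ((ENNReal.orderIsoRpow (1 / p) (by positivity)).map_iSup _).trans_le (iSup_le fun n => ?_)
  exact (h1 n).trans (ENNReal.sum_le_tsum _)

theorem variation_bound (r : ℝ) (hr : 2 < r) :
    ∃ C : ℝ, ∀ F G : ℝ × ℝ → ℂ, MemLp F 3 volume → MemLp G 3 volume →
      (∫⁻ z, Crest.AnalysisR.annularVariation r F G z ^ (3 / 2 : ℝ)) ^ (2 / 3 : ℝ) ≤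
        ENNReal.ofReal C * eLpNorm F 3 volume * eLpNorm G 3 volume := by
  obtain ⟨C, hC, h⟩ := count_majorant
  set q : ℝ := 2 ^ (1 / r - 1 / 2) with hq
  have q0 : 0 ≤ q := by positivity
  have q1 : q < 1 := Real.rpow_lt_one_of_one_lt_of_neg one_lt_two
    (sub_neg.2 (one_div_lt_one_div_of_lt two_pos hr))
  refine ⟨C * (1 - q)⁻¹, fun F G hF hG => ?_⟩
  choose W hW hle hb using fun i : ℕ => h (2 ^ i) Nat.one_le_two_pow F G hF hG
  calc _ ≤ (∫⁻ z, (∑' i : ℕ, (2 : ℝ≥0∞) ^ ((i : ℝ) * (1 / r - 1)) * W i z) ^ (3 / 2 : ℝ)) ^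
        (1 / (3 / 2) : ℝ) := by
        rw [show (1 / (3 / 2) : ℝ) = 2 / 3 by norm_num]
        refine ENNReal.rpow_le_rpow (lintegral_mono_ae ?_) (by norm_num)
        filter_upwards [ae_all_iff.2 hle] with z hz
        exact ENNReal.rpow_le_rpow ((variation_le (by linarith) F G z).trans
          (ENNReal.tsum_le_tsum fun i => by gcongr; exact hz i)) (by norm_num)
    _ ≤ _ := lintegral_Lp_tsum_le (by norm_num) fun i => (hW i).const_mul _
    _ ≤ ∑' i : ℕ, ENNReal.ofReal (C * q ^ i) * (eLpNorm F 3 volume * eLpNorm G 3 volume) := by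
        refine ENNReal.tsum_le_tsum fun i => ?_
        simp only [ENNReal.mul_rpow_of_nonneg _ _ (show (0 : ℝ) ≤ 3 / 2 by norm_num)]
        rw [lintegral_const_mul _ ((hW i).pow_const _), ENNReal.mul_rpow_of_nonneg _ _ (by norm_num),
          ← ENNReal.rpow_mul, mul_one_div_cancel (by norm_num), ENNReal.rpow_one,
          show (1 / (3 / 2) : ℝ) = 2 / 3 by norm_num]
        refine (mul_le_mul_right (hb i) _).trans_eq ?_
        rw [mul_assoc, ← mul_assoc, ← ENNReal.ofReal_ofNat 2, ENNReal.ofReal_rpow_of_pos two_pos,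
          ← ENNReal.ofReal_mul (by positivity), hq, ← Real.rpow_natCast, ← Real.rpow_mul two_pos.le,
          Real.sqrt_eq_rpow, Nat.cast_pow, Nat.cast_ofNat, ← Real.rpow_natCast,
          ← Real.rpow_mul two_pos.le, mul_left_comm _ C, ← Real.rpow_add two_pos]
        congr 4
        ring
    _ = _ := by
        rw [ENNReal.tsum_mul_right, ← mul_assoc, ← ENNReal.ofReal_tsum_of_nonneg (fun i => by positivity)
          ((summable_geometric_of_lt_one q0 q1).mul_left C), tsum_mul_left,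
          tsum_geometric_of_lt_one q0 q1]

end Crest.Agent.R72
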