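import Crest.Agent.R72.Breg

/-!
PLAN. `vN = P + Q`, `P = √g Aᵀ G0 A √g`, `Q = √g B G2 Bᵀ √g`, each linear in its side weight and PSD.
* `vF_jensen_side`: `f32_jensen`; `vF_mixed`: `f32_mixed`.
* `vF_le`: `f32_le`; `tr vN = α + β`, `α = ∑ G0 x g y A x y²`, `β = ∑ g x G2 y B x y²`;
  `(α+β)^{3/2} ≤ √2 (α^{3/2} + β^{3/2})`, and `α^{3/2} ≤ ∑ G0 g |A|³` (Jensen / power mean with total weight one).
* `vF_jump`: `breg_nonneg N' N` gives `f N ≤ f N' + 3/2 tr (√N (N - N'))`.  With `D = B' - B`,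
  `N - N' = -√g (D G2 Bᵀ + B G2 Dᵀ) √g - √g D G2 Dᵀ √g`; the last term has `tr (√N ·) ≥ 0`; the two cross terms have equal trace
  `∑_{x,y} √(g x) D x y G2 y (Bᵀ √g √N) y x`, and by Cauchy–Schwarz
  `|(Bᵀ √g √N) y x| ≤ √(∑_z g z B z y²) √(∑_z (√N) z x²)`, `∑_z (√N) z x² = N x x = g x (∑ G0 z A z x² + ∑ G2 z B x z²)`.
-/

set_option autoImplicit false

namespace Crest.Agent.R72

open Matrix Finset MeasureTheory
open scoped ENNReal

variable {n : Type*} [Fintype n] [DecidableEq n]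

/-- left half of the vertex matrix -/
noncomputable def vP (A : Matrix n n ℝ) (G0 g : n → ℝ) : Matrix n n ℝ :=
  dsq g * (Aᵀ * Matrix.diagonal G0 * A) * dsq g

omit [Fintype n] in
theorem dsq_transpose (g : n → ℝ) : (dsq g)ᵀ = dsq g := by
  simp [dsq]

theorem vP_psd (A : Matrix n n ℝ) {G0 : n → ℝ} (g : n → ℝ) (h0 : ∀ x, 0 ≤ G0 x) :
    (vP A G0 g).PosSemidef := by
  have hd : (Matrix.diagonal G0).PosSemidef := Matrix.PosSemidef.diagonal h0
  have h := hd.conjTranspose_mul_mul_same (A * dsq g)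
  rw [Matrix.conjTranspose_eq_transpose_of_trivial, Matrix.transpose_mul, dsq_transpose] at h
  have e : vP A G0 g = dsq g * Aᵀ * Matrix.diagonal G0 * (A * dsq g) := by
    simp only [vP, Matrix.mul_assoc]
  rw [e]; exact h

theorem vN_eq (A B : Matrix n n ℝ) (G0 g G2 : n → ℝ) :
    vN A B G0 g G2 = vP A G0 g + vP Bᵀ G2 g := by
  simp only [vN, vP, Matrix.transpose_transpose, Matrix.mul_add, Matrix.add_mul]

theorem vP_zero (G0 g : n → ℝ) : vP (0 : Matrix n n ℝ) G0 g = 0 := by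
  simp [vP]

theorem vP_avg (A : Matrix n n ℝ) (G0 G0' g : n → ℝ) :
    vP A (fun x => (G0 x + G0' x) / 2) g = (1 / 2 : ℝ) • (vP A G0 g + vP A G0' g) := by
  have : (Matrix.diagonal fun x => (G0 x + G0' x) / 2 : Matrix n n ℝ) =
      (1 / 2 : ℝ) • (Matrix.diagonal G0 + Matrix.diagonal G0') := by
    ext i j
    by_cases h : i = j
    · subst h; simp; ring
    · simp [h]
  simp only [vP, this, Matrix.mul_smul, Matrix.smul_mul, Matrix.mul_add, Matrix.add_mul, smul_add]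

theorem vP_apply (A : Matrix n n ℝ) (G0 g : n → ℝ) (x y : n) :
    vP A G0 g x y = Real.sqrt (g x) * (∑ z, A z x * G0 z * A z y) * Real.sqrt (g y) := by
  simp only [vP, dsq, Matrix.mul_diagonal, Matrix.diagonal_mul]
  congr 2
  simp only [Matrix.mul_apply, Matrix.diagonal_apply, Matrix.transpose_apply, mul_ite, mul_zero,
    Finset.sum_ite_eq', Finset.mem_univ, if_true]

theorem vP_diag (A : Matrix n n ℝ) (G0 : n → ℝ) {g : n → ℝ} (h1 : ∀ x, 0 ≤ g x) (x : n) :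
    vP A G0 g x x = g x * ∑ z, G0 z * A z x ^ 2 := by
  rw [vP_apply]
  have := Real.mul_self_sqrt (h1 x)
  have e : ∑ z, A z x * G0 z * A z x = ∑ z, G0 z * A z x ^ 2 :=
    Finset.sum_congr rfl fun z _ => by ring
  rw [e]
  linear_combination (∑ z, G0 z * A z x ^ 2) * this

theorem vN_psd (A B : Matrix n n ℝ) {G0 G2 : n → ℝ} (g : n → ℝ) (h0 : ∀ x, 0 ≤ G0 x)
    (h2 : ∀ x, 0 ≤ G2 x) : (vN A B G0 g G2).PosSemidef := by
  rw [vN_eq]
  exact (vP_psd A g h0).add (vP_psd Bᵀ g h2)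

theorem vF_nonneg (A B : Matrix n n ℝ) {G0 G2 : n → ℝ} (g : n → ℝ) (h0 : ∀ x, 0 ≤ G0 x)
    (h2 : ∀ x, 0 ≤ G2 x) : 0 ≤ vF A B G0 g G2 :=
  f32_nonneg (vN_psd A B g h0 h2)

theorem vF_swap (A B : Matrix n n ℝ) (G0 g G2 : n → ℝ) :
    vF A B G0 g G2 = vF Bᵀ Aᵀ G2 g G0 := by
  simp only [vF, vN_eq, Matrix.transpose_transpose, add_comm]

theorem vF_zero_right (A : Matrix n n ℝ) (G0 g G2 G2' : n → ℝ) :
    vF A 0 G0 g G2 = vF A 0 G0 g G2' := by
  simp only [vF, vN_eq, Matrix.transpose_zero, vP_zero]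

theorem vF_zero_left (B : Matrix n n ℝ) (G0 G0' g G2 : n → ℝ) :
    vF 0 B G0 g G2 = vF 0 B G0' g G2 := by
  simp only [vF, vN_eq, vP_zero]

/-- joint midpoint convexity in the two side weights -/
theorem vF_jensen_side (A B : Matrix n n ℝ) {G0 G0' G2 G2' : n → ℝ} (g : n → ℝ)
    (h0 : ∀ x, 0 ≤ G0 x) (h0' : ∀ x, 0 ≤ G0' x) (h2 : ∀ x, 0 ≤ G2 x) (h2' : ∀ x, 0 ≤ G2' x) :
    vF A B (fun x => (G0 x + G0' x) / 2) g (fun x => (G2 x + G2' x) / 2) ≤
      (vF A B G0 g G2 + vF A B G0' g G2') / 2 := by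
  have h := f32_jensen (vN_psd A B g h0 h2) (vN_psd A B g h0' h2')
  have e : vN A B (fun x => (G0 x + G0' x) / 2) g (fun x => (G2 x + G2' x) / 2) =
      (1 / 2 : ℝ) • (vN A B G0 g G2 + vN A B G0' g G2') := by
    simp only [vN_eq, vP_avg, smul_add]
    abel
  simp only [vF]
  rw [e]; exact h

/-- mixed second difference in the side weights -/
theorem vF_mixed (A B : Matrix n n ℝ) {G0 G0' G2 G2' : n → ℝ} (g : n → ℝ)
    (h0 : ∀ x, 0 ≤ G0 x) (h0' : ∀ x, 0 ≤ G0' x) (h2 : ∀ x, 0 ≤ G2 x) (h2' : ∀ x, 0 ≤ G2' x) :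
    vF A B G0' g G2 + vF A B G0 g G2' - vF A B G0 g G2 - vF A B G0' g G2' ≤
      28 * (((vF A 0 G0 g G2 + vF A 0 G0' g G2) / 2 - vF A 0 (fun x => (G0 x + G0' x) / 2) g G2) +
        ((vF 0 B G0 g G2 + vF 0 B G0 g G2') / 2 - vF 0 B G0 g (fun x => (G2 x + G2' x) / 2))) := by
  have h := f32_mixed (vP_psd A g h0) (vP_psd A g h0') (vP_psd Bᵀ g h2) (vP_psd Bᵀ g h2')
  simp only [vF, vN_eq, Matrix.transpose_zero, vP_zero, add_zero, zero_add, vP_avg]
  exact h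

/-- power mean inequality between the exponents two and three -/
theorem pm23 {ι : Type*} [Fintype ι] (w a : ι → ℝ) (hw : ∀ i, 0 ≤ w i) (hs : ∑ i, w i = 1) :
    (∑ i, w i * a i ^ 2) * Real.sqrt (∑ i, w i * a i ^ 2) ≤ ∑ i, w i * |a i| ^ 3 := by
  set α := ∑ i, w i * a i ^ 2 with hα
  have hα0 : 0 ≤ α := Finset.sum_nonneg fun i _ => mul_nonneg (hw i) (sq_nonneg _)
  set m := Real.sqrt α with hm
  have hm0 : 0 ≤ m := Real.sqrt_nonneg _
  have hmm : m * m = α := Real.mul_self_sqrt hα0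
  have key : ∀ i, w i * (3 * m * a i ^ 2 - m ^ 3) ≤ 2 * (w i * |a i| ^ 3) := by
    intro i
    have h1 : 0 ≤ (|a i| - m) ^ 2 * (2 * |a i| + m) :=
      mul_nonneg (sq_nonneg _) (by positivity)
    have h2 : a i ^ 2 = |a i| ^ 2 := (sq_abs _).symm
    have h3 : 3 * m * a i ^ 2 - m ^ 3 ≤ 2 * |a i| ^ 3 := by
      rw [h2]; nlinarith [h1]
    have := mul_le_mul_of_nonneg_left h3 (hw i)
    linarith
  have hsum := Finset.sum_le_sum fun i (_ : i ∈ Finset.univ) => key i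
  have e1 : ∑ i, w i * (3 * m * a i ^ 2 - m ^ 3) = 3 * m * α - m ^ 3 := by
    have : ∀ i, w i * (3 * m * a i ^ 2 - m ^ 3) = 3 * m * (w i * a i ^ 2) - m ^ 3 * w i :=
      fun i => by ring
    simp only [this, Finset.sum_sub_distrib, ← Finset.mul_sum, hs, hα, mul_one]
  rw [e1, ← Finset.mul_sum] at hsum
  have e2 : m ^ 3 = m * α := by rw [← hmm]; ring
  rw [e2] at hsum
  linarith

theorem add32 {α β : ℝ} (hα : 0 ≤ α) (hβ : 0 ≤ β) :
    (α + β) * Real.sqrt (α + β) ≤ Real.sqrt 2 * (α * Real.sqrt α + β * Real.sqrt β) := by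
  obtain ⟨a, ha, rfl⟩ : ∃ a, 0 ≤ a ∧ α = a ^ 2 := ⟨_, Real.sqrt_nonneg α, (Real.sq_sqrt hα).symm⟩
  obtain ⟨b, hb, rfl⟩ : ∃ b, 0 ≤ b ∧ β = b ^ 2 := ⟨_, Real.sqrt_nonneg β, (Real.sq_sqrt hβ).symm⟩
  rw [Real.sqrt_sq ha, Real.sqrt_sq hb]
  have h0 : 0 ≤ a ^ 2 + b ^ 2 := by positivity
  rw [← sq_le_sq₀ (by positivity) (by positivity), mul_pow, mul_pow, Real.sq_sqrt h0,
    Real.sq_sqrt (by norm_num : (0 : ℝ) ≤ 2)]
  have h1 : 0 ≤ (a - b) ^ 2 * (a ^ 4 + 2 * a ^ 3 * b + 2 * a * b ^ 3 + b ^ 4) := by positivity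
  nlinarith [h1]

theorem trace_vP (A : Matrix n n ℝ) (G0 : n → ℝ) {g : n → ℝ} (h1 : ∀ x, 0 ≤ g x) :
    (vP A G0 g).trace = ∑ p : n × n, G0 p.1 * g p.2 * A p.1 p.2 ^ 2 := by
  simp only [Matrix.trace, Matrix.diag, vP_diag A G0 h1, Finset.mul_sum]
  rw [Fintype.sum_prod_type, Finset.sum_comm]
  exact Finset.sum_congr rfl fun x _ => Finset.sum_congr rfl fun y _ => by ring

theorem trace_vP_le (A : Matrix n n ℝ) {G0 g : n → ℝ} (h0 : ∀ x, 0 ≤ G0 x) (h1 : ∀ x, 0 ≤ g x)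
    (s0 : ∑ x, G0 x = 1) (s1 : ∑ x, g x = 1) :
    (vP A G0 g).trace * Real.sqrt (vP A G0 g).trace ≤ ∑ x, ∑ y, G0 x * g y * |A x y| ^ 3 := by
  rw [trace_vP A G0 h1]
  have h := pm23 (fun p : n × n => G0 p.1 * g p.2) (fun p => A p.1 p.2)
    (fun p => mul_nonneg (h0 _) (h1 _))
    (by rw [Fintype.sum_prod_type]; simp only [← Finset.mul_sum, s1, mul_one, s0])
  rw [Fintype.sum_prod_type (f := fun p : n × n => G0 p.1 * g p.2 * |A p.1 p.2| ^ 3)] at h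
  exact h

/-- size of the vertex potential for probability weights -/
theorem vF_le (A B : Matrix n n ℝ) {G0 g G2 : n → ℝ} (h0 : ∀ x, 0 ≤ G0 x) (h1 : ∀ x, 0 ≤ g x)
    (h2 : ∀ x, 0 ≤ G2 x) (s0 : ∑ x, G0 x = 1) (s1 : ∑ x, g x = 1) (s2 : ∑ x, G2 x = 1) :
    vF A B G0 g G2 ≤ Real.sqrt 2 *
      (∑ x, ∑ y, G0 x * g y * |A x y| ^ 3 + ∑ x, ∑ y, g x * G2 y * |B x y| ^ 3) := by
  have h := f32_le (vN_psd A B g h0 h2)
  have hA := trace_vP_le A h0 h1 s0 s1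
  have hB := trace_vP_le Bᵀ h2 h1 s2 s1
  have e : ∑ x, ∑ y, G2 x * g y * |Bᵀ x y| ^ 3 = ∑ x, ∑ y, g x * G2 y * |B x y| ^ 3 := by
    rw [Finset.sum_comm]
    exact Finset.sum_congr rfl fun x _ => Finset.sum_congr rfl fun y _ => by
      rw [Matrix.transpose_apply]; ring
  rw [e] at hB
  have h3 := add32 (vP_psd A g h0).trace_nonneg (vP_psd Bᵀ g h2).trace_nonneg
  have e2 : (vN A B G0 g G2).trace = (vP A G0 g).trace + (vP Bᵀ G2 g).trace := by
    rw [vN_eq, Matrix.trace_add]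
  rw [e2] at h
  calc vF A B G0 g G2 ≤ _ := h
    _ ≤ _ := h3
    _ ≤ _ := mul_le_mul_of_nonneg_left (add_le_add hA hB) (Real.sqrt_nonneg _)

/-- change of the right matrix -/
theorem vF_jump (A B B' : Matrix n n ℝ) {G0 g G2 : n → ℝ} (h0 : ∀ x, 0 ≤ G0 x)
    (h1 : ∀ x, 0 ≤ g x) (h2 : ∀ x, 0 ≤ G2 x) :
    vF A B G0 g G2 ≤ vF A B' G0 g G2 + 3 * ∑ x, ∑ y, g x * G2 y * |B' x y - B x y| *
      Real.sqrt (∑ z, G0 z * A z x ^ 2 + ∑ z, G2 z * B x z ^ 2) *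
        Real.sqrt (∑ z, g z * B z y ^ 2) := by
  have hN := vN_psd A B g h0 h2
  have hN' := vN_psd A B' g h0 h2
  have hb := breg_nonneg hN' hN
  set N := vN A B G0 g G2 with hNd
  set S := msqrt N with hS
  have hSp : S.PosSemidef := msqrt_psd N
  have hSt : Sᵀ = S := msqrt_transpose N
  have hSS : S * S = N := msqrt_mul_self hN
  set D := B' - B with hD
  set X : Matrix n n ℝ := dsq g * (D * Matrix.diagonal G2 * Bᵀ) * dsq g with hX
  have e1 : vN A B' G0 g G2 - N = vP Dᵀ G2 g + X + Xᵀ := by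
    have hB' : B' = B + D := by rw [hD]; abel
    rw [hNd, vN_eq, vN_eq, hB', hX]
    simp only [vP, Matrix.transpose_add, Matrix.transpose_mul, Matrix.transpose_transpose,
      dsq_transpose, Matrix.diagonal_transpose, Matrix.mul_add, Matrix.add_mul, Matrix.mul_assoc]
    abel
  have e2 : (S * Xᵀ).trace = (S * X).trace := by
    rw [← Matrix.trace_transpose, Matrix.transpose_mul, Matrix.transpose_transpose, hSt,
      Matrix.trace_mul_comm]
  have e3 : 0 ≤ (S * vP Dᵀ G2 g).trace := trace_mul_nonneg hSp (vP_psd Dᵀ g h2)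
  have hXa : ∀ x z, X x z = Real.sqrt (g x) * (∑ y, D x y * G2 y * B z y) * Real.sqrt (g z) := by
    intro x z
    simp only [hX, dsq, Matrix.mul_diagonal, Matrix.diagonal_mul]
    congr 2
    simp only [Matrix.mul_apply, Matrix.diagonal_apply, Matrix.transpose_apply, mul_ite, mul_zero,
      Finset.sum_ite_eq', Finset.mem_univ, if_true]
  have e4 : (S * X).trace = ∑ x, ∑ y, Real.sqrt (g x) * D x y * G2 y *
      ∑ z, (Real.sqrt (g z) * B z y) * S z x := by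
    simp only [Matrix.trace, Matrix.diag, Matrix.mul_apply, hXa, Finset.mul_sum, Finset.sum_mul]
    rw [Finset.sum_comm]
    refine Finset.sum_congr rfl fun x _ => ?_
    rw [Finset.sum_comm]
    exact Finset.sum_congr rfl fun y _ => Finset.sum_congr rfl fun z _ => by ring
  have hcol : ∀ x, ∑ z, S z x ^ 2 =
      g x * (∑ z, G0 z * A z x ^ 2 + ∑ z, G2 z * B x z ^ 2) := by
    intro x
    have : ∑ z, S z x ^ 2 = (Sᵀ * S) x x := by
      simp only [Matrix.mul_apply, Matrix.transpose_apply, sq]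
    rw [this, hSt, hSS, hNd, vN_eq, Matrix.add_apply, vP_diag A G0 h1, vP_diag Bᵀ G2 h1, mul_add]
    rfl
  have hcs : ∀ x y, |∑ z, (Real.sqrt (g z) * B z y) * S z x| ≤
      Real.sqrt (∑ z, g z * B z y ^ 2) * (Real.sqrt (g x) *
        Real.sqrt (∑ z, G0 z * A z x ^ 2 + ∑ z, G2 z * B x z ^ 2)) := by
    intro x y
    rw [← Real.sqrt_mul (h1 x), ← hcol x,
      ← Real.sqrt_mul (Finset.sum_nonneg fun z _ => mul_nonneg (h1 z) (sq_nonneg _))]
    apply Real.abs_le_sqrt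
    have := Finset.sum_mul_sq_le_sq_mul_sq Finset.univ (fun z => Real.sqrt (g z) * B z y)
      (fun z => S z x)
    have e : ∑ z, (Real.sqrt (g z) * B z y) ^ 2 = ∑ z, g z * B z y ^ 2 :=
      Finset.sum_congr rfl fun z _ => by rw [mul_pow, Real.sq_sqrt (h1 z)]
    rw [e] at this
    exact this
  have e5 : -(S * X).trace ≤ ∑ x, ∑ y, g x * G2 y * |B' x y - B x y| *
      Real.sqrt (∑ z, G0 z * A z x ^ 2 + ∑ z, G2 z * B x z ^ 2) *
        Real.sqrt (∑ z, g z * B z y ^ 2) := by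
    rw [e4, ← Finset.sum_neg_distrib]
    refine Finset.sum_le_sum fun x _ => ?_
    rw [← Finset.sum_neg_distrib]
    refine Finset.sum_le_sum fun y _ => ?_
    refine (neg_le_abs _).trans ?_
    rw [abs_mul, abs_mul, abs_mul, abs_of_nonneg (Real.sqrt_nonneg _), abs_of_nonneg (h2 y)]
    have hDxy : D x y = B' x y - B x y := by rw [hD, Matrix.sub_apply]
    rw [hDxy]
    refine (mul_le_mul_of_nonneg_left (hcs x y) (mul_nonneg (mul_nonneg (Real.sqrt_nonneg _)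
      (abs_nonneg _)) (h2 y))).trans (le_of_eq ?_)
    have := Real.mul_self_sqrt (h1 x)
    linear_combination (G2 y * |B' x y - B x y| *
      Real.sqrt (∑ z, G0 z * A z x ^ 2 + ∑ z, G2 z * B x z ^ 2) *
        Real.sqrt (∑ z, g z * B z y ^ 2)) * this
  simp only [breg] at hb
  rw [← hS, e1, Matrix.mul_add, Matrix.mul_add, Matrix.trace_add, Matrix.trace_add, e2] at hb
  simp only [vF, ← hNd]
  linarith

end Crest.Agent.R72
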