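import Crest.Agent.R72.Defs

/-!
Weights on `ZMod N`.  PLAN: everything is unfolding of `uz`, `dz` and sums over `Finset.Ico` in `ℤ`.
* `sum_uz`/`sum_dz`: swap sums; `y - p = t ↔ y = p + t`.
* `uz_succ`/`dz_succ`: `Ico (-2^(j+1)) (2^(j+1)) = Ico (-2^(j+1)) 0 ∪ Ico 0 (2^(j+1))`, each half is a translate of `Ico (-2^j) (2^j)`.
* `uz_shift`: `t ↦ t + s` maps `Ico (-2^j) (2^j)` injectively into `Ico (-2^(j+1)) (2^(j+1))`.
* `uz_le_conv`, `conv_le`: `uz_shift` + `uz_supp` + `uz_sum`.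
-/

set_option autoImplicit false
set_option linter.unusedSectionVars false

namespace Crest.Agent.R72

open Matrix Finset MeasureTheory
open scoped ENNReal

variable {N : ℕ} [NeZero N]

theorem wt_push (s : Finset ℤ) (w : ℤ → ℝ) (φ : ZMod N → ℝ) (p : ZMod N) :
    ∑ y, (∑ t ∈ s, if y - p = (t : ZMod N) then w t else 0) * φ y =
      ∑ t ∈ s, w t * φ (p + (t : ZMod N)) := by
  simp only [Finset.sum_mul]
  rw [Finset.sum_comm]
  refine Finset.sum_congr rfl fun t _ => ?_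
  rw [Finset.sum_eq_single (p + (t : ZMod N))]
  · simp
  · intro y _ hy
    rw [if_neg, zero_mul]
    intro h
    apply hy
    rw [← h]; abel
  · simp

theorem wt_split (j : ℕ) (f : ℤ → ℝ) :
    ∑ t ∈ Finset.Ico (-(2 : ℤ) ^ (j + 1)) (2 ^ (j + 1)), f t =
      ∑ t ∈ Finset.Ico (-(2 : ℤ) ^ j) (2 ^ j), f (t + -2 ^ j) +
        ∑ t ∈ Finset.Ico (-(2 : ℤ) ^ j) (2 ^ j), f (t + 2 ^ j) := by
  rw [Finset.sum_Ico_add', Finset.sum_Ico_add']
  have hp : (0 : ℤ) < 2 ^ (j + 1) := by positivity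
  have e1 : -(2 : ℤ) ^ j + -2 ^ j = -2 ^ (j + 1) := by ring
  have e2 : (2 : ℤ) ^ j + -2 ^ j = 0 := by ring
  have e3 : -(2 : ℤ) ^ j + 2 ^ j = 0 := by ring
  have e4 : (2 : ℤ) ^ j + 2 ^ j = 2 ^ (j + 1) := by ring
  rw [e1, e2, e3, e4, ← Finset.sum_union (Finset.Ico_disjoint_Ico_consecutive _ _ _),
    Finset.Ico_union_Ico_eq_Ico (by linarith) hp.le]

omit [NeZero N] in
theorem uz_nonneg' (j : ℕ) (x : ZMod N) : 0 ≤ uz N j x :=
  Finset.sum_nonneg fun t _ => by split_ifs <;> positivity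

theorem uz_nonneg (j : ℕ) (x : ZMod N) : 0 ≤ uz N j x := uz_nonneg' j x

theorem sum_uz (j : ℕ) (φ : ZMod N → ℝ) (p : ZMod N) :
    ∑ y, uz N j (y - p) * φ y = unif j (fun t : ℤ => φ (p + (t : ZMod N))) 0 := by
  simp only [uz, unif, zero_add]
  exact wt_push _ (fun _ => 1 / 2 ^ (j + 1)) φ p

theorem uz_sum (j : ℕ) : ∑ x, uz N j x = 1 := by
  have h := sum_uz (N := N) j (fun _ => 1) 0
  simp only [sub_zero, mul_one, unif, Finset.sum_const, Int.card_Ico, nsmul_eq_mul] at h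
  rw [h]
  have e : ((2 : ℤ) ^ j - -2 ^ j).toNat = 2 ^ (j + 1) := by
    have : (2 : ℤ) ^ j - -2 ^ j = ((2 ^ (j + 1) : ℕ) : ℤ) := by push_cast; ring
    rw [this, Int.toNat_natCast]
  rw [e]
  push_cast
  field_simp

theorem sum_dz (j : ℕ) (φ : ZMod N → ℝ) (p : ZMod N) :
    ∑ y, dz N j (y - p) * φ y = haar j (fun t : ℤ => φ (p + (t : ZMod N))) 0 := by
  simp only [dz, haar, zero_add]
  exact wt_push _ (dsgn j) φ p

omit [NeZero N] in
theorem wt_iff1 (j : ℕ) (x : ZMod N) (t : ℤ) :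
    x = ((t + -2 ^ j : ℤ) : ZMod N) ↔ x + 2 ^ j = (t : ZMod N) := by
  push_cast
  constructor
  · intro h; rw [h]; ring
  · intro h; rw [← h]; ring

omit [NeZero N] in
theorem wt_iff2 (j : ℕ) (x : ZMod N) (t : ℤ) :
    x = ((t + 2 ^ j : ℤ) : ZMod N) ↔ x - 2 ^ j = (t : ZMod N) := by
  push_cast
  constructor
  · intro h; rw [h]; ring
  · intro h; rw [← h]; ring

theorem uz_succ (j : ℕ) : uz N (j + 1) = tau ((2 : ZMod N) ^ j) (uz N j) := by
  funext x
  simp only [uz, tau]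
  rw [wt_split, add_div, Finset.sum_div, Finset.sum_div]
  simp only [wt_iff1, wt_iff2]
  congr 1 <;> refine Finset.sum_congr rfl fun t _ => ?_ <;> split_ifs <;> ring

theorem dz_succ (j : ℕ) (x : ZMod N) :
    dz N (j + 1) x = (uz N j (x + 2 ^ j) - uz N j (x - 2 ^ j)) / 2 := by
  simp only [uz, dz]
  rw [wt_split, sub_div, Finset.sum_div, Finset.sum_div, sub_eq_add_neg, ← Finset.sum_neg_distrib]
  simp only [wt_iff1, wt_iff2]
  congr 1 <;> refine Finset.sum_congr rfl fun t ht => ?_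
  · have h := (Finset.mem_Ico.1 ht).2
    have : dsgn (j + 1) (t + -2 ^ j) = 1 / 2 ^ (j + 1 + 1) := by
      unfold dsgn
      rw [if_pos (by linarith)]
    rw [this]
    split_ifs <;> ring
  · have h := (Finset.mem_Ico.1 ht).1
    have : dsgn (j + 1) (t + 2 ^ j) = -(1 / 2 ^ (j + 1 + 1)) := by
      unfold dsgn
      rw [if_neg (by linarith)]
    rw [this]
    split_ifs <;> ring

theorem uz_supp {j : ℕ} {x : ZMod N} (h : uz N j x ≠ 0) :
    ∃ s : ℤ, |s| ≤ 2 ^ j ∧ x = (s : ZMod N) := by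
  obtain ⟨t, ht, h'⟩ := Finset.exists_ne_zero_of_sum_ne_zero h
  obtain ⟨h1, h2⟩ := Finset.mem_Ico.1 ht
  refine ⟨t, abs_le.2 ⟨h1, h2.le⟩, ?_⟩
  by_contra hx
  exact h' (if_neg hx)

theorem uz_shift (j : ℕ) {s : ℤ} (hs : |s| ≤ 2 ^ j) (x : ZMod N) :
    uz N j x ≤ 2 * uz N (j + 1) (x + (s : ZMod N)) := by
  obtain ⟨h1, h2⟩ := abs_le.1 hs
  have e : uz N j x = ∑ t ∈ Finset.Ico (-(2 : ℤ) ^ j + s) (2 ^ j + s),
      2 * (if x + (s : ZMod N) = (t : ZMod N) then (1 : ℝ) / 2 ^ (j + 1 + 1) else 0) := by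
    rw [← Finset.sum_Ico_add']
    refine Finset.sum_congr rfl fun t _ => ?_
    push_cast
    simp only [add_left_inj]
    split_ifs <;> ring
  rw [e, uz, Finset.mul_sum]
  refine Finset.sum_le_sum_of_subset_of_nonneg (Finset.Ico_subset_Ico ?_ ?_) fun t _ _ => ?_
  · rw [pow_succ]; linarith
  · rw [pow_succ]; linarith
  · split_ifs <;> positivity

theorem uz_le_pow (j M : ℕ) (x : ZMod N) : uz N j x ≤ 2 ^ M * uz N (j + M) x := by
  induction M with
  | zero => simp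
  | succ M ih =>
    have h := uz_shift (j + M) (s := 0) (by simp) x
    rw [Int.cast_zero, add_zero] at h
    have h2 := mul_le_mul_of_nonneg_left h (show (0 : ℝ) ≤ 2 ^ M by positivity)
    calc uz N j x ≤ 2 ^ M * (2 * uz N (j + M + 1) x) := ih.trans h2
      _ = 2 ^ (M + 1) * uz N (j + (M + 1)) x := by rw [← add_assoc]; ring

theorem uz_le_conv {i j : ℕ} (h : i ≤ j) (x : ZMod N) :
    uz N j x ≤ 2 * conv (uz N i) (uz N (j + 1)) x := by
  have e : uz N j x = ∑ y, uz N i y * uz N j x := by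
    rw [← Finset.sum_mul, uz_sum, one_mul]
  rw [e, conv, Finset.mul_sum]
  refine Finset.sum_le_sum fun y _ => ?_
  by_cases hy : uz N i y = 0
  · simp [hy]
  · obtain ⟨s, hs, rfl⟩ := uz_supp hy
    have hs' : |-s| ≤ 2 ^ j := by
      rw [abs_neg]; exact hs.trans (pow_le_pow_right₀ (by norm_num) h)
    have h1 := uz_shift j hs' x
    rw [Int.cast_neg, ← sub_eq_add_neg] at h1
    have h2 := mul_le_mul_of_nonneg_left h1 (uz_nonneg i (s : ZMod N))
    linarith

theorem conv_le {i j : ℕ} (h : i ≤ j) (x : ZMod N) :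
    conv (uz N i) (uz N j) x ≤ 2 * uz N (j + 1) x := by
  have e : 2 * uz N (j + 1) x = ∑ y, uz N i y * (2 * uz N (j + 1) x) := by
    rw [← Finset.sum_mul, uz_sum, one_mul]
  rw [e, conv]
  refine Finset.sum_le_sum fun y _ => ?_
  by_cases hy : uz N i y = 0
  · simp [hy]
  · obtain ⟨s, hs, rfl⟩ := uz_supp hy
    have hs' : |s| ≤ 2 ^ j := hs.trans (pow_le_pow_right₀ (by norm_num) h)
    have h1 := uz_shift j hs' (x - (s : ZMod N))
    rw [sub_add_cancel] at h1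
    exact mul_le_mul_of_nonneg_left h1 (uz_nonneg i (s : ZMod N))

theorem GG_nonneg (M l : ℕ) (x : ZMod N) : 0 ≤ GG N M l x :=
  Finset.sum_nonneg fun _ _ => mul_nonneg (uz_nonneg _ _) (uz_nonneg _ _)

theorem GG_sum (M l : ℕ) : ∑ x, GG N M l x = 1 := by
  simp only [GG, conv]
  rw [Finset.sum_comm]
  have : ∀ y : ZMod N, ∑ x, uz N (l + M + 2) (x - y) = 1 := fun y => by
    rw [← uz_sum (N := N) (l + M + 2)]
    exact Equiv.sum_comp (Equiv.subRight y) _
  simp only [← Finset.mul_sum, this, mul_one, uz_sum]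

theorem wt_conv_tau_right (c : ZMod N) (w v : ZMod N → ℝ) :
    conv w (tau c v) = tau c (conv w v) := by
  funext x
  simp only [conv, tau]
  rw [← Finset.sum_add_distrib, Finset.sum_div]
  refine Finset.sum_congr rfl fun y _ => ?_
  have e1 : x - y + c = x + c - y := by ring
  have e2 : x - y - c = x - c - y := by ring
  rw [e1, e2]; ring

theorem wt_conv_tau_left (c : ZMod N) (w v : ZMod N → ℝ) :
    conv (tau c w) v = tau c (conv w v) := by
  funext x
  simp only [conv, tau]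
  rw [← Equiv.sum_comp (Equiv.addRight c) (fun y => w y * v (x + c - y)),
    ← Equiv.sum_comp (Equiv.subRight c) (fun y => w y * v (x - c - y)),
    ← Finset.sum_add_distrib, Finset.sum_div]
  refine Finset.sum_congr rfl fun y _ => ?_
  simp only [Equiv.coe_addRight, Equiv.subRight_apply]
  have e1 : x + c - (y + c) = x - y := by ring
  have e2 : x - c - (y - c) = x - y := by ring
  rw [e1, e2]; ring

theorem GG_succ (M l : ℕ) :
    GG N M (l + 1) = tau ((2 : ZMod N) ^ (l + M + 2)) (tau ((2 : ZMod N) ^ l) (GG N M l)) := by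
  have e : l + 1 + M + 2 = l + M + 2 + 1 := by ring
  simp only [GG]
  rw [e, uz_succ, uz_succ (l + M + 2), wt_conv_tau_right, wt_conv_tau_left]

theorem GG_supp {M l : ℕ} {x : ZMod N} (h : GG N M l x ≠ 0) :
    ∃ s : ℤ, |s| ≤ 2 ^ l + 2 ^ (l + M + 2) ∧ x = (s : ZMod N) := by
  obtain ⟨y, _, hy⟩ := Finset.exists_ne_zero_of_sum_ne_zero h
  obtain ⟨s1, h1, rfl⟩ := uz_supp (left_ne_zero_of_mul hy)
  obtain ⟨s2, h2, e⟩ := uz_supp (right_ne_zero_of_mul hy)
  refine ⟨s1 + s2, (abs_add_le _ _).trans (add_le_add h1 h2), ?_⟩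
  push_cast
  rw [← e]; ring

end Crest.Agent.R72
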